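import Vale.Agent.P154.Merge3

/-! The merging bound for general potentials. -/

namespace Vale.Agent.P154

theorem Wf_rr (q0 q1 q2 b0 b1 b2 : ℝ) (hq : q0 + q1 + q2 = 3) (hb : b0 + b1 + b2 = 3) :
    Wf q0 q1 q2 b0 b1 b2 - 1 = rr (q0 - 1) (q1 - 1) (b0 - 1) (b1 - 1) := by
  have h1 : q2 = 3 - q0 - q1 := by linarith
  have h2 : b2 = 3 - b0 - b1 := by linarith
  subst h1; subst h2
  unfold Wf rr; ring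

theorem Nn_rr (q0 q1 q2 b0 b1 b2 : ℝ) (hq : q0 + q1 + q2 = 3) (hb : b0 + b1 + b2 = 3) :
    (Wf q0 q1 q2 b0 b1 b2) ^ 2 - Ef q0 q1 q2 b0 b1 b2
      = (Pc (q0 - 1) (q1 - 1) + Pc (b0 - 1) (b1 - 1) + Pc (q0 - 1) (q1 - 1) * Pc (b0 - 1) (b1 - 1))
        + rr (q0 - 1) (q1 - 1) (b0 - 1) (b1 - 1) + aa (q0 - 1) (q1 - 1) (b0 - 1) (b1 - 1)
        + bb (q0 - 1) (q1 - 1) (b0 - 1) (b1 - 1) := by
  have h1 : q2 = 3 - q0 - q1 := by linarith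
  have h2 : b2 = 3 - b0 - b1 := by linarith
  subst h1; subst h2
  unfold Wf Ef rr aa bb Pc; ring

theorem Pf_Pc (q0 q1 q2 : ℝ) (hq : q0 + q1 + q2 = 3) :
    Pf q0 q1 q2 = Pc (q0 - 1) (q1 - 1) := by
  have h1 : q2 = 3 - q0 - q1 := by linarith
  subst h1
  unfold Pf Pc; ring

theorem Cf_Cc (q0 q1 q2 : ℝ) (hq : q0 + q1 + q2 = 3) :
    Cf q0 q1 q2 = Cc (q0 - 1) (q1 - 1) := by
  have h1 : q2 = 3 - q0 - q1 := by linarith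
  subst h1
  unfold Cf Pf Cc; ring

theorem six_avR (D : Pot) (x0 x1 y0 y1 π : ℝ) :
    s6 (fun u v => termU D (rr x0 x1 u v) ((Pc x0 x1 + Pc y0 y1 + Pc x0 x1 * Pc y0 y1)
        + rr x0 x1 u v + aa x0 x1 u v + bb x0 x1 u v) π) y0 y1
      = 6 * avR D (momR (Pc x0 x1) (Cc x0 x1) (Pc y0 y1) (Cc y0 y1)) π := by
  have h1 := s_r1 x0 x1 y0 y1
  have h2 := s_r2 x0 x1 y0 y1
  have h3 := s_r3 x0 x1 y0 y1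
  have h4 := s_r4 x0 x1 y0 y1
  have h5 := s_r5 x0 x1 y0 y1
  have h6 := s_r6 x0 x1 y0 y1
  have ha0 := s_a0 x0 x1 y0 y1
  have ha1 := s_a1 x0 x1 y0 y1
  have ha2 := s_a2 x0 x1 y0 y1
  have ha3 := s_a3 x0 x1 y0 y1
  have ha4 := s_a4 x0 x1 y0 y1
  have ha5 := s_a5 x0 x1 y0 y1
  have hb0 := s_b0 x0 x1 y0 y1
  have hb1 := s_b1 x0 x1 y0 y1
  have hb2 := s_b2 x0 x1 y0 y1
  have hb3 := s_b3 x0 x1 y0 y1
  have hb4 := s_b4 x0 x1 y0 y1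
  have hb5 := s_b5 x0 x1 y0 y1
  have haa0 := s_aa0 x0 x1 y0 y1
  have haa1 := s_aa1 x0 x1 y0 y1
  have haa2 := s_aa2 x0 x1 y0 y1
  have haa3 := s_aa3 x0 x1 y0 y1
  have haa4 := s_aa4 x0 x1 y0 y1
  have hbb0 := s_bb0 x0 x1 y0 y1
  have hbb1 := s_bb1 x0 x1 y0 y1
  have hbb2 := s_bb2 x0 x1 y0 y1
  have hbb3 := s_bb3 x0 x1 y0 y1
  have hbb4 := s_bb4 x0 x1 y0 y1
  have hab0 := s_ab0 x0 x1 y0 y1
  have hab1 := s_ab1 x0 x1 y0 y1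
  have hab2 := s_ab2 x0 x1 y0 y1
  have hab3 := s_ab3 x0 x1 y0 y1
  have hab4 := s_ab4 x0 x1 y0 y1
  simp only [s6] at h1 h2 h3 h4 h5 h6 ha0 ha1 ha2 ha3 ha4 ha5 hb0 hb1 hb2 hb3 hb4 hb5
  simp only [s6] at haa0 haa1 haa2 haa3 haa4 hbb0 hbb1 hbb2 hbb3 hbb4 hab0 hab1 hab2 hab3 hab4
  simp only [s6]
  refine six_termU D (Pc x0 x1 + Pc y0 y1 + Pc x0 x1 * Pc y0 y1) _ _ _ _ _ _ _ _ _ _ _ _ _ _ _ _
    _ _ π (momR (Pc x0 x1) (Cc x0 x1) (Pc y0 y1) (Cc y0 y1))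
    _ _ _ _ _ _ _ _ _ _ _ _ _ _ _ _ _ _
    (6 * (2*Pc x0 x1*Pc x0 x1*Pc y0 y1) + 2 * (6 * (2*(Cc x0 x1 * Cc y0 y1)))
      + 6 * (2*Pc y0 y1*Pc y0 y1*Pc x0 x1))
    (6 * (2*Pc x0 x1*(Cc x0 x1 * Cc y0 y1)) + 2 * (6 * (2*(Pc x0 x1 * Pc y0 y1)*(Pc x0 x1 * Pc y0 y1)))
      + 6 * (2*Pc y0 y1*(Cc x0 x1 * Cc y0 y1)))
    (6 * (4*Pc y0 y1*Pc y0 y1*Cc x0 x1*Cc x0 x1+2*Pc x0 x1^3*Pc y0 y1*Pc y0 y1) + 2 * (6 * (6*(Pc x0 x1 * Pc y0 y1)*(Cc x0 x1 * Cc y0 y1)))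
      + 6 * (4*Pc x0 x1*Pc x0 x1*Cc y0 y1*Cc y0 y1+2*Pc y0 y1^3*Pc x0 x1*Pc x0 x1))
    (6 * (10*Pc x0 x1*Pc x0 x1*Pc y0 y1*(Cc x0 x1 * Cc y0 y1)) + 2 * (6 * (6*(Pc x0 x1 * Pc y0 y1)^3+4*((Cc x0 x1 * Cc y0 y1)^2-((Pc x0 x1 ^ 3 - Cc x0 x1 ^ 2) * (Pc y0 y1 ^ 3 - Cc y0 y1 ^ 2)))))
      + 6 * (10*Pc y0 y1*Pc y0 y1*Pc x0 x1*(Cc x0 x1 * Cc y0 y1)))
    (6 * (16*(Pc x0 x1 * Pc y0 y1)*Pc y0 y1*Pc y0 y1*Cc x0 x1*Cc x0 x1+4*Pc x0 x1^4*Cc y0 y1*Cc y0 y1+2*Pc x0 x1^4*Pc y0 y1^3) + 2 * (6 * (22*(Pc x0 x1 * Pc y0 y1)*(Pc x0 x1 * Pc y0 y1)*(Cc x0 x1 * Cc y0 y1)))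
      + 6 * (16*(Pc x0 x1 * Pc y0 y1)*Pc x0 x1*Pc x0 x1*Cc y0 y1*Cc y0 y1+4*Pc y0 y1^4*Cc x0 x1*Cc x0 x1+2*Pc y0 y1^4*Pc x0 x1^3))
    h1 h2 h3 h4 h5 h6 ha0 ha1 ha2 ha3 ha4 ha5
    hb0 hb1 hb2 hb3 hb4 hb5
    (by linear_combination haa0 + 2 * hab0 + hbb0) (by linear_combination haa1 + 2 * hab1 + hbb1)
    (by linear_combination haa2 + 2 * hab2 + hbb2) (by linear_combination haa3 + 2 * hab3 + hbb3)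
    (by linear_combination haa4 + 2 * hab4 + hbb4)
    (by norm_num) (by norm_num) (by norm_num) ?_ ?_ ?_ ?_ ?_ ?_ ?_ ?_ ?_ ?_ ?_ ?_ ?_
  all_goals
    simp only [momR] <;> ring

/-- **Merging bound for general potentials.** -/
theorem merge_bound3 (D : Pot) (q0 q1 q2 r0 r1 r2 lo hi A : ℝ) (hD : PtB D lo hi)
    (hq0 : 0 ≤ q0) (hq1 : 0 ≤ q1) (hq2 : 0 ≤ q2) (hq : q0 + q1 + q2 = 3)
    (hr0 : 0 < r0) (hr1 : 0 < r1) (hr2 : 0 < r2) (hr' : r0 + r1 + r2 = 3)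
    (hw : ∀ b0 b1 b2 : ℝ, (b0 = r0 ∧ b1 = r1 ∧ b2 = r2) ∨ (b0 = r1 ∧ b1 = r2 ∧ b2 = r0) ∨
      (b0 = r2 ∧ b1 = r0 ∧ b2 = r1) ∨ (b0 = r0 ∧ b1 = r2 ∧ b2 = r1) ∨
      (b0 = r2 ∧ b1 = r1 ∧ b2 = r0) ∨ (b0 = r1 ∧ b1 = r0 ∧ b2 = r2) →
      lo ≤ Wf q0 q1 q2 b0 b1 b2 ∧ Wf q0 q1 q2 b0 b1 b2 ≤ hi)
    (hH : 0 ≤ HR4 D (Pf q0 q1 q2) (Cf q0 q1 q2) (Pf r0 r1 r2) (Cf r0 r1 r2) A) :
    Vt D (q0 * r0) (q1 * r1) (q2 * r2) + Vt D (q0 * r1) (q1 * r2) (q2 * r0)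
      + Vt D (q0 * r2) (q1 * r0) (q2 * r1) + Vt D (q0 * r0) (q1 * r2) (q2 * r1)
      + Vt D (q0 * r2) (q1 * r1) (q2 * r0) + Vt D (q0 * r1) (q1 * r0) (q2 * r2)
      ≤ 6 * (2 * Pf q0 q1 q2 + 2 * Pf r0 r1 r2 + A) := by
  have hq2' : q2 = 3 - q0 - q1 := by linarith
  have hr2' : r2 = 3 - r0 - r1 := by linarith
  set π := (q0 * q1 * q2) * (r0 * r1 * r2) with hπ
  obtain ⟨l1, u1⟩ := hw r0 r1 r2 (by simp)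
  obtain ⟨l2, u2⟩ := hw r1 r2 r0 (by simp)
  obtain ⟨l3, u3⟩ := hw r2 r0 r1 (by simp)
  obtain ⟨l4, u4⟩ := hw r0 r2 r1 (by simp)
  obtain ⟨l5, u5⟩ := hw r2 r1 r0 (by simp)
  obtain ⟨l6, u6⟩ := hw r1 r0 r2 (by simp)
  have wpos : ∀ b0 b1 b2 : ℝ, 0 < b0 → 0 < b1 → 0 < b2 → 0 < Wf q0 q1 q2 b0 b1 b2 := by
    intro b0 b1 b2 h0 h1 h2
    unfold Wf
    rcases hq0.lt_or_eq with h | h
    · have : 0 < q0 * b0 := mul_pos h h0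
      positivity
    · rcases hq1.lt_or_eq with h' | h'
      · have : 0 < q1 * b1 := mul_pos h' h1
        positivity
      · have : 0 < q2 := by linarith
        have : 0 < q2 * b2 := mul_pos this h2
        positivity
  have p1 := wpos r0 r1 r2 hr0 hr1 hr2
  have p2 := wpos r1 r2 r0 hr1 hr2 hr0
  have p3 := wpos r2 r0 r1 hr2 hr0 hr1
  have p4 := wpos r0 r2 r1 hr0 hr2 hr1
  have p5 := wpos r2 r1 r0 hr2 hr1 hr0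
  have p6 := wpos r1 r0 r2 hr1 hr0 hr2
  have t1 := term_bound3 D lo hi hD q0 q1 q2 r0 r1 r2 hq0 hq1 hq2 hq hr0 hr1 hr2
    (by linarith) l1 u1 π (by rw [hπ]) p1
  have t2 := term_bound3 D lo hi hD q0 q1 q2 r1 r2 r0 hq0 hq1 hq2 hq hr1 hr2 hr0
    (by linarith) l2 u2 π (by rw [hπ]; ring) p2
  have t3 := term_bound3 D lo hi hD q0 q1 q2 r2 r0 r1 hq0 hq1 hq2 hq hr2 hr0 hr1
    (by linarith) l3 u3 π (by rw [hπ]; ring) p3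
  have t4 := term_bound3 D lo hi hD q0 q1 q2 r0 r2 r1 hq0 hq1 hq2 hq hr0 hr2 hr1
    (by linarith) l4 u4 π (by rw [hπ]; ring) p4
  have t5 := term_bound3 D lo hi hD q0 q1 q2 r2 r1 r0 hq0 hq1 hq2 hq hr2 hr1 hr0
    (by linarith) l5 u5 π (by rw [hπ]; ring) p5
  have t6 := term_bound3 D lo hi hD q0 q1 q2 r1 r0 r2 hq0 hq1 hq2 hq hr1 hr0 hr2
    (by linarith) l6 u6 π (by rw [hπ]; ring) p6
  have ev1 := even_id q0 q1 q2 r0 r1 r2 hq2' hr2'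
  have ev2 := even_id q0 q1 q2 r0 r2 r1 hq2' (by linarith)
  have hP : Pf r0 r2 r1 = Pf r0 r1 r2 := by unfold Pf; ring
  have hC : Cf r0 r2 r1 = Cf r0 r1 r2 := by unfold Cf Pf; ring
  rw [hP, hC] at ev2
  have hDd := D_id q0 q1 q2 r0 r1 r2 hq2' hr2'
  have S1 := s1_id q0 q1 q2 r0 r1 r2 hq2' hr2'
  -- the polynomial part
  have six := six_avR D (q0 - 1) (q1 - 1) (r0 - 1) (r1 - 1) π
  simp only [s6] at six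
  have y2 : -(r0 - 1) - (r1 - 1) = r2 - 1 := by rw [hr2']; ring
  rw [y2, ← Pf_Pc q0 q1 q2 hq, ← Pf_Pc r0 r1 r2 hr', ← Cf_Cc q0 q1 q2 hq,
    ← Cf_Cc r0 r1 r2 hr'] at six
  have k1 := Nn_rr q0 q1 q2 r0 r1 r2 hq hr'
  have k2 := Nn_rr q0 q1 q2 r1 r2 r0 hq (by linarith)
  have k3 := Nn_rr q0 q1 q2 r2 r0 r1 hq (by linarith)
  have k4 := Nn_rr q0 q1 q2 r0 r2 r1 hq (by linarith)
  have k5 := Nn_rr q0 q1 q2 r2 r1 r0 hq (by linarith)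
  have k6 := Nn_rr q0 q1 q2 r1 r0 r2 hq (by linarith)
  rw [← Pf_Pc q0 q1 q2 hq, ← Pf_Pc r0 r1 r2 (by linarith)] at k1
  rw [← Pf_Pc q0 q1 q2 hq, ← Pf_Pc r1 r2 r0 (by linarith),
    show Pf r1 r2 r0 = Pf r0 r1 r2 by unfold Pf; ring] at k2
  rw [← Pf_Pc q0 q1 q2 hq, ← Pf_Pc r2 r0 r1 (by linarith),
    show Pf r2 r0 r1 = Pf r0 r1 r2 by unfold Pf; ring] at k3
  rw [← Pf_Pc q0 q1 q2 hq, ← Pf_Pc r0 r2 r1 (by linarith),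
    show Pf r0 r2 r1 = Pf r0 r1 r2 by unfold Pf; ring] at k4
  rw [← Pf_Pc q0 q1 q2 hq, ← Pf_Pc r2 r1 r0 (by linarith),
    show Pf r2 r1 r0 = Pf r0 r1 r2 by unfold Pf; ring] at k5
  rw [← Pf_Pc q0 q1 q2 hq, ← Pf_Pc r1 r0 r2 (by linarith),
    show Pf r1 r0 r2 = Pf r0 r1 r2 by unfold Pf; ring] at k6
  rw [← k1, ← k2, ← k3, ← k4, ← k5, ← k6, ← Wf_rr q0 q1 q2 r0 r1 r2 hq hr',
    ← Wf_rr q0 q1 q2 r1 r2 r0 hq (by linarith), ← Wf_rr q0 q1 q2 r2 r0 r1 hq (by linarith),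
    ← Wf_rr q0 q1 q2 r0 r2 r1 hq (by linarith), ← Wf_rr q0 q1 q2 r2 r1 r0 hq (by linarith),
    ← Wf_rr q0 q1 q2 r1 r0 r2 hq (by linarith)] at six
  have ep : 0 ≤ Ef q0 q1 q2 r0 r1 r2 ∧ 0 ≤ Ef q0 q1 q2 r1 r2 r0 ∧ 0 ≤ Ef q0 q1 q2 r2 r0 r1 := by
    refine ⟨?_, ?_, ?_⟩ <;> unfold Ef <;> positivity
  set P := Pf q0 q1 q2 with hPdef
  set C := Cf q0 q1 q2 with hCdef
  set Q := Pf r0 r1 r2 with hQdef
  set K := Cf r0 r1 r2 with hKdef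
  set w1 := Wf q0 q1 q2 r0 r1 r2 with hw1
  set w2 := Wf q0 q1 q2 r1 r2 r0 with hw2
  set w3 := Wf q0 q1 q2 r2 r0 r1 with hw3
  set w4 := Wf q0 q1 q2 r0 r2 r1 with hw4
  set w5 := Wf q0 q1 q2 r2 r1 r0 with hw5
  set w6 := Wf q0 q1 q2 r1 r0 r2 with hw6
  set f1 := Ef q0 q1 q2 r0 r1 r2 with hf1
  set f2 := Ef q0 q1 q2 r1 r2 r0 with hf2
  set f3 := Ef q0 q1 q2 r2 r0 r1 with hf3
  set f4 := Ef q0 q1 q2 r0 r2 r1 with hf4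
  set f5 := Ef q0 q1 q2 r2 r1 r0 with hf5
  set f6 := Ef q0 q1 q2 r1 r0 r2 with hf6
  obtain ⟨ep1, ep2, ep3⟩ := ep
  have hNum : 0 ≤ Numf P C Q K := by
    have : 0 ≤ 3 * Numf P C Q K := by rw [← ev1]; positivity
    linarith
  have d1 : 0 < w1 * w2 * w3 := by positivity
  have d2 : 0 < w4 * w5 * w6 := by positivity
  have hDb : 0 < Dbf P C Q K := by linarith
  have E1 : f1 / w1 + f2 / w2 + f3 / w3 = 3 * Numf P C Q K * (1 / (w1 * w2 * w3)) := by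
    rw [← ev1]; field_simp
  have E2 : f4 / w4 + f5 / w5 + f6 / w6 = 3 * Numf P C Q K * (1 / (w4 * w5 * w6)) := by
    rw [← ev2]; field_simp
  have E3 := inv_sum _ _ _ d1 d2 hDd
  have E4 : 3 * Numf P C Q K * (2 / Dbf P C Q K)
      ≤ (f1 / w1 + f2 / w2 + f3 / w3) + (f4 / w4 + f5 / w5 + f6 / w6) := by
    rw [E1, E2, ← mul_add]
    exact mul_le_mul_of_nonneg_left E3 (by positivity)
  have hπ' : (1 - 3 * P + 2 * C) * (1 - 3 * Q + 2 * K) = π := by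
    rw [hPdef, hCdef, hQdef, hKdef, pC, pC]
  unfold HR4 at hH
  rw [hπ'] at hH
  set V := avR D (momR P C Q K) π with hV
  have E5 : 0 ≤ Dbf P C Q K * (A - V - 2 * (1 - P - Q)) + 2 * Numf P C Q K := by
    have : Dbf P C Q K * (A - V - 2 * (1 - P - Q)) + 2 * Numf P C Q K
        = (1 - 3 * (P * Q) + 2 * (C * K)) * (A - V)
        - 2 * (2 * ((P + Q) * (P * Q - C * K)) - P * Q - P * Q * (P * Q) + 2 * (C * K)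
          - 2 * (C * (Q * (1 - Q)) + K * (P * (1 - P)))) := by
      unfold Dbf Numf; ring
    rw [this]; exact hH
  have E6 : 0 ≤ (A - V - 2 * (1 - P - Q)) + 2 * (Numf P C Q K / Dbf P C Q K) := by
    have : (A - V - 2 * (1 - P - Q)) + 2 * (Numf P C Q K / Dbf P C Q K)
        = (Dbf P C Q K * (A - V - 2 * (1 - P - Q)) + 2 * Numf P C Q K) / Dbf P C Q K := by
      field_simp
    rw [this]
    exact div_nonneg E5 hDb.le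
  have E7 : 3 * Numf P C Q K * (2 / Dbf P C Q K) = 6 * (Numf P C Q K / Dbf P C Q K) := by
    field_simp; ring
  rw [E7] at E4
  linarith

end Vale.Agent.P154
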