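import Vale.Agent.P154.Chain

/-! Certificates for the base step and the other steps. -/

open scoped BigOperators

namespace Vale.Agent.P154

theorem base_cert (m sm s1 s2 : ℕ) (hm : 1 ≤ m) (φ2 φd e2 e3 : CL) (cm : ℤ × ℕ)
    (t1 t2 t3 : Tree) (hs1 : s1 * s1 ≤ sm * sm * (m + 1)) (hs2 : sm * sm * (m + 1) ≤ s2 * s2)
    (hL : 2 ≤ φ2.length) (hL2 : e2.length ≤ φ2.length) (hL3 : e3.length ≤ φ2.length)
    (h1 : t1.ok 0 1 0 0 (A1 (1, m) φ2 e2 e3) unitBx = true)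
    (h2 : t2.ok 0 1 0 0 (A2 (2, m) φ2 e2 e3) unitBx = true)
    (h3 : t3.ok (m + 1) sm s1 s2 (baseE1 φ2 φd e2 e3 (1, m) cm (L2c m) (L3c m)) unitBx = true)
    (a0 a1 a2 b0 b1 b2 : ℝ) (ha0 : 0 ≤ a0) (ha1 : 0 ≤ a1) (ha2 : 0 ≤ a2)
    (hb0 : 0 ≤ b0) (hb1 : 0 ≤ b1) (hb2 : 0 ≤ b2) :
    six (fun x y z => Ut φ2 (ns (lamd (m + 1)) (ms a0 a1 a2) a0 * ns (lamd (m + 1)) (ms b0 b1 b2) x)
        (ns (lamd (m + 1)) (ms a0 a1 a2) a1 * ns (lamd (m + 1)) (ms b0 b1 b2) y)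
        (ns (lamd (m + 1)) (ms a0 a1 a2) a2 * ns (lamd (m + 1)) (ms b0 b1 b2) z)) b0 b1 b2
      ≤ 6 * (1 / ((m : ℝ) + 1) * (ms b0 b1 b2 * Ut φd a0 a1 a2 + ms a0 a1 a2 * Ut φd b0 b1 b2)
        - cv cm * (chi a0 a1 a2 * chi b0 b1 b2)) := by
  have hwd : cv (1, m) = 1 / ((m : ℝ) + 1) := by unfold cv; norm_num
  have hwd2 : cv (2, m) = 2 / ((m : ℝ) + 1) := by unfold cv; norm_num
  have hm' : (1 : ℝ) ≤ m := by exact_mod_cast hm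
  have hp : 0 < lamd (m + 1) := lamd_pos m
  have hl1 := lamd_lt_one m hm
  have hsq := lamd_sq m
  have hpt := pt_of_box φ2 e2 e3 (1, m) (2, m) (by rw [hwd]; positivity) (by rw [hwd2]; positivity)
    (by rw [hwd, div_lt_one (by positivity)]; linarith) hL hL2 hL3 (box_zero _ t1 h1)
    (box_zero _ t2 h2)
  have hb := box_rt m sm s1 s2 _ t3 h3 hs1 hs2
  refine hom_base (lamd (m + 1)) φ2 φd e2 e3 (1 / ((m : ℝ) + 1)) (cv cm) (1 - cv (1, m))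
    (1 + cv (2, m)) (by linarith) hl1 hsq ?_ ?_ hpt ?_ a0 a1 a2 b0 b1 b2 ha0 ha1 ha2 hb0 hb1 hb2
  · rw [hsq, hwd]
  · rw [hsq, hwd2]; ring_nf; exact le_refl _
  · intro q0 q1 q2 r0 r1 r2 g0 g1 g2 g3 g4 g5 g6 g7
    have := HR_base _ (lamd (m + 1)) φ2 φd e2 e3 (1, m) cm (L2c m) (L3c m) (L2c_real m)
      (L3c_real m) hb q0 q1 q2 r0 r1 r2 g0 g1 g2 g3 g4 g5 g6 g7
    rw [hwd] at this
    exact this

theorem step_cert (m sm s1 s2 : ℕ) (hm : 1 ≤ m) (φk φ1 φd e2 e3 : CL) (c c' : ℤ × ℕ)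
    (t1 t2 t3 t4 : Tree) (hs1 : s1 * s1 ≤ sm * sm * (m + 1))
    (hs2 : sm * sm * (m + 1) ≤ s2 * s2)
    (hL : 2 ≤ φk.length) (hL2 : e2.length ≤ φk.length) (hL3 : e3.length ≤ φk.length)
    (hc0 : 0 < cv c) (hc1 : cv c < 1) (hc : 1 / ((m : ℝ) + 1) ≤ cv c ^ 2)
    (hc0' : 0 < cv c') (hc' : 4 / ((m : ℝ) + 1) ≤ cv c' ^ 2)
    (h1 : t1.ok 0 1 0 0 (A1 c φk e2 e3) unitBx = true)
    (h2 : t2.ok 0 1 0 0 (A2 c' φk e2 e3) unitBx = true)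
    (h3 : t3.ok (m + 1) sm s1 s2 (stepE1 φk φ1 φd e2 e3 (1, m) (L2c m) (L3c m)) unitBx = true)
    (h4 : t4.ok (m + 1) sm s1 s2 (stepE2 φk φ1 φd e2 e3 (1, m) (L2c m) (L3c m)) unitBx = true)
    (a0 a1 a2 b0 b1 b2 : ℝ) (ha0 : 0 ≤ a0) (ha1 : 0 ≤ a1) (ha2 : 0 ≤ a2)
    (hb0 : 0 ≤ b0) (hb1 : 0 ≤ b1) (hb2 : 0 ≤ b2) :
    six (fun x y z => Ut φk (a0 * ns (lamd (m + 1)) (ms b0 b1 b2) x)
        (a1 * ns (lamd (m + 1)) (ms b0 b1 b2) y) (a2 * ns (lamd (m + 1)) (ms b0 b1 b2) z)) b0 b1 b2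
      ≤ 6 * (ms b0 b1 b2 * Ut φ1 a0 a1 a2
        + 1 / ((m : ℝ) + 1) * (ms a0 a1 a2 * Ut φd b0 b1 b2)) := by
  have hwd : cv (1, m) = 1 / ((m : ℝ) + 1) := by unfold cv; norm_num
  have hp : 0 < lamd (m + 1) := lamd_pos m
  have hl1 := lamd_lt_one m hm
  have hsq := lamd_sq m
  have hpt := pt_of_box φk e2 e3 c c' hc0 hc0' hc1 hL hL2 hL3 (box_zero _ t1 h1)
    (box_zero _ t2 h2)
  have hb1' := box_rt m sm s1 s2 _ t3 h3 hs1 hs2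
  have hb2' := box_rt m sm s1 s2 _ t4 h4 hs1 hs2
  have hlc : lamd (m + 1) ≤ cv c := by
    refine le_of_sq_le_sq ?_ hc0.le
    rw [hsq]; exact hc
  have hlc' : 2 * lamd (m + 1) ≤ cv c' := by
    refine le_of_sq_le_sq ?_ hc0'.le
    rw [mul_pow, hsq]
    have : (2 : ℝ) ^ 2 * (1 / ((m : ℝ) + 1)) = 4 / ((m : ℝ) + 1) := by ring
    rw [this]; exact hc'
  refine hom_step (lamd (m + 1)) φk φ1 φd e2 e3 (1 / ((m : ℝ) + 1)) (1 - cv c)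
    (1 + cv c') hp.le hl1 hsq (by linarith) (by linarith) hpt ?_ a0 a1 a2 b0 b1 b2 ha0 ha1 ha2
    hb0 hb1 hb2
  intro q0 q1 q2 r0 r1 r2 g0 g1 g2 g3 g4 g5 g6 g7
  have := HR_step _ (lamd (m + 1)) φk φ1 φd e2 e3 (1, m) (L2c m) (L3c m) (L2c_real m)
    (L3c_real m) hb1' hb2' q0 q1 q2 r0 r1 r2 g0 g1 g2 g3 g4 g5 g6 g7
  rw [hwd] at this
  exact this

/-- the method from certified steps -/
theorem method_of (m : ℕ) (hm : 1 ≤ m) (φ : ℕ → CL) (cm : ℤ × ℕ) (hcm : 0 < cv cm)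
    (hmono : Mono (φ (m + 1)))
    (hbase : ∀ a0 a1 a2 b0 b1 b2 : ℝ, 0 ≤ a0 → 0 ≤ a1 → 0 ≤ a2 → 0 ≤ b0 → 0 ≤ b1 → 0 ≤ b2 →
      six (fun x y z => Ut (φ 2) (ns (lamd (m + 1)) (ms a0 a1 a2) a0
          * ns (lamd (m + 1)) (ms b0 b1 b2) x)
        (ns (lamd (m + 1)) (ms a0 a1 a2) a1 * ns (lamd (m + 1)) (ms b0 b1 b2) y)
        (ns (lamd (m + 1)) (ms a0 a1 a2) a2 * ns (lamd (m + 1)) (ms b0 b1 b2) z)) b0 b1 b2
      ≤ 6 * (1 / ((m : ℝ) + 1) * (ms b0 b1 b2 * Ut (φ (m + 1)) a0 a1 a2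
          + ms a0 a1 a2 * Ut (φ (m + 1)) b0 b1 b2)
        - cv cm * (chi a0 a1 a2 * chi b0 b1 b2)))
    (hstep : ∀ k, 2 ≤ k → k + 1 ≤ m + 1 → ∀ a0 a1 a2 b0 b1 b2 : ℝ, 0 ≤ a0 → 0 ≤ a1 → 0 ≤ a2 →
      0 ≤ b0 → 0 ≤ b1 → 0 ≤ b2 →
      six (fun x y z => Ut (φ (k + 1)) (a0 * ns (lamd (m + 1)) (ms b0 b1 b2) x)
        (a1 * ns (lamd (m + 1)) (ms b0 b1 b2) y) (a2 * ns (lamd (m + 1)) (ms b0 b1 b2) z)) b0 b1 b2
      ≤ 6 * (ms b0 b1 b2 * Ut (φ k) a0 a1 a2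
        + 1 / ((m : ℝ) + 1) * (ms a0 a1 a2 * Ut (φ (m + 1)) b0 b1 b2)))
    (θ : ℝ) (t0 : 0 < θ) (t1 : θ ≤ 1) :
    Method (m + 1) (lamd (m + 1) * θ) (1 / ((m : ℝ) + 1)) (cv cm * θ ^ 4) (nrm (φ (m + 1)))
      (fun k => Ut (φ k)) where
  cmpos := by positivity
  Bnn := nrm_nonneg _
  hd := by omega
  hwd := by push_cast; field_simp
  lam1 := by
    have h1 := lamd_lt_one m hm
    have h2 := lamd_pos m
    nlinarith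
  lam0 := by
    have h2 := lamd_pos m
    have : 0 < lamd (m + 1) * θ := by positivity
    linarith
  base := base_thin (lamd (m + 1)) θ (φ 2) (φ (m + 1)) _ (cv cm) (by positivity) t0.le t1 hmono
    hbase
  step := fun k hk hk' => step_thin (lamd (m + 1)) θ (φ (k + 1)) (φ k) (φ (m + 1)) _
    (by positivity) t0.le t1 hmono (hstep k hk hk')
  low := fun a0 a1 a2 h0 h1 h2 => Ut_lower (φ (m + 1)) a0 a1 a2 h0 h1 h2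

/-- nonreconstruction for all eigenvalues up to the critical one -/
theorem nonrec_of (m : ℕ)
    (M : ∀ θ : ℝ, 0 < θ → θ ≤ 1 → ∃ (wd cm B : ℝ) (Ψ : ℕ → ℝ → ℝ → ℝ → ℝ),
      Method (m + 1) (lamd (m + 1) * θ) wd cm B Ψ)
    (lam : ℝ) (h0 : 0 ≤ lam) (h1 : ((m + 1 : ℕ) : ℝ) * lam ^ 2 ≤ 1) :
    Filter.Tendsto (fun n => aSeq 3 (m + 1) lam n) Filter.atTop (nhds 0) := by
  rcases h0.eq_or_lt with h | h
  · rw [← h]; exact zero_tendsto (m + 1)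
  · have hp := lamd_pos m
    have hsq := lamd_sq m
    have hle : lam ≤ lamd (m + 1) := by
      refine le_of_sq_le_sq ?_ hp.le
      rw [hsq, le_div_iff₀ (by positivity)]
      push_cast at h1
      linarith
    obtain ⟨wd, cm, B, Ψ, hM⟩ := M (lam / lamd (m + 1)) (by positivity)
      ((div_le_one hp).2 hle)
    have e : lamd (m + 1) * (lam / lamd (m + 1)) = lam := by field_simp
    rw [e] at hM
    exact hM.result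

end Vale.Agent.P154
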