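import Vale.Agent.P154.Frame

/-! From certificates to the method on the `d`-ary tree, ferromagnetic case. -/

open scoped BigOperators

namespace Vale.Agent.P154

/-- critical eigenvalue -/
noncomputable def lamd (d : ℕ) : ℝ := Real.sqrt d / d

theorem lamd_sq (m : ℕ) : lamd (m + 1) ^ 2 = 1 / ((m : ℝ) + 1) := by
  unfold lamd
  rw [div_pow, Real.sq_sqrt (by positivity)]
  push_cast
  field_simp

theorem lamd_cu (m : ℕ) :
    lamd (m + 1) ^ 3 = 1 / (((m * m + 2 * m : ℕ) : ℝ) + 1) * Real.sqrt ((m + 1 : ℕ) : ℝ) := by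
  have h : lamd (m + 1) ^ 3 = lamd (m + 1) ^ 2 * lamd (m + 1) := by ring
  rw [h, lamd_sq]
  unfold lamd
  push_cast
  have : ((m : ℝ) * m + 2 * m + 1) = (m + 1) * (m + 1) := by ring
  rw [this]
  field_simp

theorem lamd_pos (m : ℕ) : 0 < lamd (m + 1) := by
  unfold lamd; positivity

theorem lamd_lt_one (m : ℕ) (hm : 1 ≤ m) : lamd (m + 1) < 1 := by
  have h := lamd_sq m
  have h2 : 1 / ((m : ℝ) + 1) < 1 := by
    rw [div_lt_one (by positivity)]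
    have : (1 : ℝ) ≤ m := by exact_mod_cast hm
    linarith
  have h3 := lamd_pos m
  nlinarith

/-- expression for the square of the critical eigenvalue -/
def L2c (m : ℕ) : PE := .q 1 m
/-- expression for its cube -/
def L3c (m : ℕ) : PE := .mul (.q 1 (m * m + 2 * m)) .rt

theorem L2c_real (m : ℕ) (v : ℕ → ℝ) :
    (L2c m).real (Real.sqrt ((m + 1 : ℕ) : ℝ)) v = lamd (m + 1) ^ 2 := by
  rw [lamd_sq, L2c, PE.real_q]; norm_num

theorem L3c_real (m : ℕ) (v : ℕ → ℝ) :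
    (L3c m).real (Real.sqrt ((m + 1 : ℕ) : ℝ)) v = lamd (m + 1) ^ 3 := by
  rw [lamd_cu, L3c, PE.real_mul, PE.real_q, PE.real_rt]; norm_num

theorem box_rt (m sm s1 s2 : ℕ) (e : PE) (t : Tree)
    (h : t.ok (m + 1) sm s1 s2 e unitBx = true)
    (hs1 : s1 * s1 ≤ sm * sm * (m + 1)) (hs2 : sm * sm * (m + 1) ≤ s2 * s2) :
    Box0 (Real.sqrt ((m + 1 : ℕ) : ℝ)) e := by
  intro a0 a1 a2 a3 c0 d0 c1 d1 c2 d2 c3 d3
  refine unit_sound (m + 1) sm s1 s2 e t h _ (Real.sq_sqrt (by positivity)) ?_ ?_ a0 a1 a2 a3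
    c0 d0 c1 d1 c2 d2 c3 d3
  · have : (s1 : ℝ) * s1 ≤ sm * sm * (m + 1) := by exact_mod_cast hs1
    have h2 : (sm * Real.sqrt ((m + 1 : ℕ) : ℝ)) ^ 2 = sm * sm * (m + 1) := by
      rw [mul_pow, Real.sq_sqrt (by positivity)]; push_cast; ring
    refine le_of_sq_le_sq ?_ (by positivity)
    rw [h2]; nlinarith
  · have : (sm : ℝ) * sm * (m + 1) ≤ s2 * s2 := by exact_mod_cast hs2
    have h2 : (sm * Real.sqrt ((m + 1 : ℕ) : ℝ)) ^ 2 = sm * sm * (m + 1) := by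
      rw [mul_pow, Real.sq_sqrt (by positivity)]; push_cast; ring
    refine le_of_sq_le_sq ?_ (by positivity)
    rw [h2]; nlinarith

theorem box_zero (e : PE) (t : Tree) (h : t.ok 0 1 0 0 e unitBx = true) : Box0 0 e := by
  intro a0 a1 a2 a3 c0 d0 c1 d1 c2 d2 c3 d3
  exact unit_sound 0 1 0 0 e t h 0 (by norm_num) (by norm_num) (by norm_num) a0 a1 a2 a3
    c0 d0 c1 d1 c2 d2 c3 d3

/-- pointwise bound from boxes -/
theorem pt_of_box (φ e2 e3 : CL) (c c' : ℤ × ℕ) (hc : 0 < cv c) (hc' : 0 < cv c')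
    (hc1 : cv c < 1) (hL : 2 ≤ φ.length) (hL2 : e2.length ≤ φ.length) (hL3 : e3.length ≤ φ.length)
    (h1 : Box0 0 (A1 c φ e2 e3)) (h2 : Box0 0 (A2 c' φ e2 e3)) (w π : ℝ) (hπ : 0 ≤ π)
    (hw : 1 - cv c ≤ w) (hw' : w ≤ 1 + cv c') (hπw : π ≤ w ^ 3)
    (hπw' : 1 ≤ w → π * w ^ 2 ≤ 1) : 0 ≤ ptR φ e2 e3 w π (π / w ^ 3) :=
  pointwise φ e2 e3 c c' hc hc' hc1 hL hL2 hL3
    (fun θ v a b c d => h1 θ v 0 0 a b c d le_rfl zero_le_one le_rfl zero_le_one)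
    (fun θ v a b c d => h2 θ v 0 0 a b c d le_rfl zero_le_one le_rfl zero_le_one)
    w π hπ hw hw' hπw hπw'

/-- monotonicity of the potential under noise, as an expression in `ρ = x 0`, `θ = x 1`,
`s = x 2` -/
def monoE (φ : CL) : PE :=
  psub (.add (.mul (.mul (.q 2 0) (Pq (.x 0) (.x 2))) (psub one' (.mul (.x 1) (.x 1))))
      (hp φ (pofP (Pq (.x 0) (.x 2)) (Cq (.x 0) (.x 2)))))
    (hp φ (pofP (.mul (.mul (.x 1) (.x 1)) (Pq (.x 0) (.x 2)))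
      (.mul (.mul (.x 1) (.mul (.x 1) (.x 1))) (Cq (.x 0) (.x 2)))))

/-- monotone potential -/
def Mono (φ : CL) : Prop :=
  ∀ q0 q1 q2 θ : ℝ, 0 ≤ q0 → 0 ≤ q1 → 0 ≤ q2 → q0 + q1 + q2 = 3 → 0 ≤ θ → θ ≤ 1 →
    2 * (θ ^ 2 * Pf q0 q1 q2)
      + hr φ (1 - 3 * (θ ^ 2 * Pf q0 q1 q2) + 2 * (θ ^ 3 * Cf q0 q1 q2))
    ≤ 2 * Pf q0 q1 q2 + hr φ (q0 * q1 * q2)

theorem mono_of_box (φ : CL) (h : Box0 0 (monoE φ)) : Mono φ := by
  intro q0 q1 q2 θ h0 h1 h2 hq t0 t1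
  obtain ⟨ρ, s, a1, a2, a3, a4, e1, e2⟩ := param q0 q1 q2 h0 h1 h2 hq
  have := h ρ θ s 0 a1 a2 t0 t1 a3 a4 le_rfl zero_le_one
  simp only [monoE, psub, one', PE.real_add, PE.real_mul, PE.real_neg, PE.real_q, hp_real,
    pofP_real, Pq_real, Cq_real, PE.real_x, env] at this
  rw [← e1, ← e2, pC] at this
  have e3 : θ * θ = θ ^ 2 := by ring
  have e4 : θ * (θ * θ) = θ ^ 3 := by ring
  rw [e4, e3] at this
  norm_num at this
  linarith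

theorem mono_hom {φ : CL} (h : Mono φ) (θ a0 a1 a2 : ℝ) (h0 : 0 ≤ a0) (h1 : 0 ≤ a1)
    (h2 : 0 ≤ a2) (t0 : 0 ≤ θ) (t1 : θ ≤ 1) :
    Ut φ (ns θ (ms a0 a1 a2) a0) (ns θ (ms a0 a1 a2) a1) (ns θ (ms a0 a1 a2) a2)
      ≤ Ut φ a0 a1 a2 := by
  rcases (ms_nonneg h0 h1 h2).eq_or_lt with hma | hma
  · obtain ⟨z0, z1, z2⟩ := ms_zero h0 h1 h2 hma.symm
    subst z0; subst z1; subst z2
    have : ms 0 0 0 = 0 := by unfold ms; norm_num
    rw [this, ns_zero]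
  · set m := ms a0 a1 a2 with hm
    have nq := normalize (a0 := a0) (a1 := a1) (a2 := a2) hma
    rw [← hm] at nq
    set q0 := a0 / m with hq0
    set q1 := a1 / m with hq1
    set q2 := a2 / m with hq2
    have q0n : 0 ≤ q0 := div_nonneg h0 hma.le
    have q1n : 0 ≤ q1 := div_nonneg h1 hma.le
    have q2n : 0 ≤ q2 := div_nonneg h2 hma.le
    rw [ns_norm θ m a0 hma.ne', ns_norm θ m a1 hma.ne', ns_norm θ m a2 hma.ne',
      Ut_smul _ _ _ _ _ hma.ne', ← hq0, ← hq1, ← hq2]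
    have e0 : a0 = m * q0 := by rw [hq0]; field_simp
    have e1 : a1 = m * q1 := by rw [hq1]; field_simp
    have e2 : a2 = m * q2 := by rw [hq2]; field_simp
    have es : (1 + θ * (q0 - 1)) + (1 + θ * (q1 - 1)) + (1 + θ * (q2 - 1)) = 3 := by
      have : q2 = 3 - q0 - q1 := by linarith
      rw [this]; ring
    rw [e0, e1, e2, Ut_smul _ _ _ _ _ hma.ne', Ut_unit _ _ _ _ nq, Ut_unit _ _ _ _ es,
      ← pC, noise_P _ _ _ _ nq, noise_C _ _ _ _ nq]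
    exact mul_le_mul_of_nonneg_left (h q0 q1 q2 θ q0n q1n q2n nq t0 t1) hma.le

theorem chi_ns (θ a0 a1 a2 : ℝ) (h0 : 0 ≤ a0) (h1 : 0 ≤ a1) (h2 : 0 ≤ a2) :
    chi (ns θ (ms a0 a1 a2) a0) (ns θ (ms a0 a1 a2) a1) (ns θ (ms a0 a1 a2) a2)
      = θ ^ 2 * chi a0 a1 a2 := by
  rcases (ms_nonneg h0 h1 h2).eq_or_lt with hma | hma
  · obtain ⟨z0, z1, z2⟩ := ms_zero h0 h1 h2 hma.symm
    subst z0; subst z1; subst z2
    have e0 : ms 0 0 0 = 0 := by unfold ms; norm_num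
    have e1 : chi 0 0 0 = 0 := by unfold chi; rw [e0]; norm_num
    rw [e0, ns_zero, e1, mul_zero]
  · set m := ms a0 a1 a2 with hm
    have nq := normalize (a0 := a0) (a1 := a1) (a2 := a2) hma
    rw [← hm] at nq
    set q0 := a0 / m with hq0
    set q1 := a1 / m with hq1
    set q2 := a2 / m with hq2
    rw [ns_norm θ m a0 hma.ne', ns_norm θ m a1 hma.ne', ns_norm θ m a2 hma.ne',
      chi_smul _ _ _ _ hma.ne', ← hq0, ← hq1, ← hq2]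
    have e0 : a0 = m * q0 := by rw [hq0]; field_simp
    have e1 : a1 = m * q1 := by rw [hq1]; field_simp
    have e2 : a2 = m * q2 := by rw [hq2]; field_simp
    have es : (1 + θ * (q0 - 1)) + (1 + θ * (q1 - 1)) + (1 + θ * (q2 - 1)) = 3 := by
      have : q2 = 3 - q0 - q1 := by linarith
      rw [this]; ring
    have : chi a0 a1 a2 = m * Pf q0 q1 q2 := by
      conv_lhs => rw [e0, e1, e2]
      rw [chi_smul _ _ _ _ hma.ne', chi_unit _ _ _ nq]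
    rw [this, chi_unit _ _ _ es, noise_P _ _ _ _ nq]
    ring

/-! ### lower bound -/

/-- sum of absolute values of coefficients -/
noncomputable def nrm : CL → ℝ
  | [] => 0
  | c :: l => |cv c| + nrm l

theorem nrm_nonneg (l : CL) : 0 ≤ nrm l := by
  induction l with
  | nil => exact le_rfl
  | cons c l ih => simp only [nrm]; positivity

theorem hr_abs (l : CL) (x : ℝ) (h0 : 0 ≤ x) (h1 : x ≤ 1) : |hr l x| ≤ nrm l := by
  induction l with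
  | nil => simp [hr, nrm]
  | cons c l ih =>
    simp only [hr, nrm]
    calc |cv c + x * hr l x| ≤ |cv c| + |x * hr l x| := abs_add_le _ _
      _ ≤ |cv c| + nrm l := by
        rw [abs_mul, abs_of_nonneg h0]
        have := nrm_nonneg l
        nlinarith [abs_nonneg (hr l x)]

theorem Pf_nonneg (q0 q1 q2 : ℝ) (h : q0 + q1 + q2 = 3) : 0 ≤ Pf q0 q1 q2 := by
  have : q2 = 3 - q0 - q1 := by linarith
  subst this
  unfold Pf
  nlinarith [sq_nonneg (q0 - q1), sq_nonneg (q0 - 1), sq_nonneg (q1 - 1), sq_nonneg (q0 + q1 - 2)]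

theorem Ut_lower (φ : CL) (a0 a1 a2 : ℝ) (h0 : 0 ≤ a0) (h1 : 0 ≤ a1) (h2 : 0 ≤ a2) :
    0 ≤ Ut φ a0 a1 a2 + nrm φ * ms a0 a1 a2 := by
  rcases (ms_nonneg h0 h1 h2).eq_or_lt with hma | hma
  · obtain ⟨z0, z1, z2⟩ := ms_zero h0 h1 h2 hma.symm
    subst z0; subst z1; subst z2
    rw [Ut_zero, ← hma]; simp
  · set m := ms a0 a1 a2 with hm
    have nq := normalize (a0 := a0) (a1 := a1) (a2 := a2) hma
    rw [← hm] at nq
    set q0 := a0 / m with hq0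
    set q1 := a1 / m with hq1
    set q2 := a2 / m with hq2
    have q0n : 0 ≤ q0 := div_nonneg h0 hma.le
    have q1n : 0 ≤ q1 := div_nonneg h1 hma.le
    have q2n : 0 ≤ q2 := div_nonneg h2 hma.le
    have e0 : a0 = m * q0 := by rw [hq0]; field_simp
    have e1 : a1 = m * q1 := by rw [hq1]; field_simp
    have e2 : a2 = m * q2 := by rw [hq2]; field_simp
    rw [e0, e1, e2, Ut_smul _ _ _ _ _ hma.ne', Ut_unit _ _ _ _ nq]
    have hp1 : q0 * q1 * q2 ≤ 1 := by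
      have := amgm3 q0 q1 q2 q0n q1n q2n
      rw [nq] at this
      norm_num at this
      exact this
    have := abs_le.1 (hr_abs φ (q0 * q1 * q2) (by positivity) hp1)
    have hP := Pf_nonneg q0 q1 q2 nq
    have : 0 ≤ m * (2 * Pf q0 q1 q2 + hr φ (q0 * q1 * q2) + nrm φ) := by
      apply mul_nonneg hma.le
      linarith [this.1]
    linarith

/-! ### base and step with extra noise -/

theorem six_ns (lam θ m : ℝ) (G : ℝ → ℝ → ℝ → ℝ) (b0 b1 b2 : ℝ) :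
    six (fun x y z => G (ns (lam * θ) m x) (ns (lam * θ) m y) (ns (lam * θ) m z)) b0 b1 b2
      = six (fun x y z => G (ns lam m x) (ns lam m y) (ns lam m z)) (ns θ m b0) (ns θ m b1)
        (ns θ m b2) := by
  unfold six
  simp only [ns_ns]

theorem ns_nonneg3 (θ a0 a1 a2 : ℝ) (h0 : 0 ≤ a0) (h1 : 0 ≤ a1) (h2 : 0 ≤ a2)
    (t0 : 0 ≤ θ) (t1 : θ ≤ 1) : 0 ≤ ns θ (ms a0 a1 a2) a0 ∧ 0 ≤ ns θ (ms a0 a1 a2) a1 ∧
      0 ≤ ns θ (ms a0 a1 a2) a2 := by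
  have hm := ms_nonneg h0 h1 h2
  have : ∀ x, 0 ≤ x → 0 ≤ ns θ (ms a0 a1 a2) x := by
    intro x hx
    have e : ns θ (ms a0 a1 a2) x = (1 - θ) * ms a0 a1 a2 + θ * x := by unfold ns; ring
    rw [e]
    have := mul_nonneg (sub_nonneg.2 t1) hm
    have := mul_nonneg t0 hx
    linarith
  exact ⟨this _ h0, this _ h1, this _ h2⟩

theorem base_thin (lam θ : ℝ) (φ2 φd : CL) (wd cm : ℝ) (hwd : 0 ≤ wd)
    (t0 : 0 ≤ θ) (t1 : θ ≤ 1) (hm : Mono φd)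
    (H : ∀ a0 a1 a2 b0 b1 b2 : ℝ, 0 ≤ a0 → 0 ≤ a1 → 0 ≤ a2 → 0 ≤ b0 → 0 ≤ b1 → 0 ≤ b2 →
      six (fun x y z => Ut φ2 (ns lam (ms a0 a1 a2) a0 * ns lam (ms b0 b1 b2) x)
        (ns lam (ms a0 a1 a2) a1 * ns lam (ms b0 b1 b2) y)
        (ns lam (ms a0 a1 a2) a2 * ns lam (ms b0 b1 b2) z)) b0 b1 b2
      ≤ 6 * (wd * (ms b0 b1 b2 * Ut φd a0 a1 a2 + ms a0 a1 a2 * Ut φd b0 b1 b2)
        - cm * (chi a0 a1 a2 * chi b0 b1 b2)))
    (a0 a1 a2 b0 b1 b2 : ℝ) (ha0 : 0 ≤ a0) (ha1 : 0 ≤ a1) (ha2 : 0 ≤ a2)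
    (hb0 : 0 ≤ b0) (hb1 : 0 ≤ b1) (hb2 : 0 ≤ b2) :
    six (fun x y z => Ut φ2 (ns (lam * θ) (ms a0 a1 a2) a0 * ns (lam * θ) (ms b0 b1 b2) x)
        (ns (lam * θ) (ms a0 a1 a2) a1 * ns (lam * θ) (ms b0 b1 b2) y)
        (ns (lam * θ) (ms a0 a1 a2) a2 * ns (lam * θ) (ms b0 b1 b2) z)) b0 b1 b2
      ≤ 6 * (wd * (ms b0 b1 b2 * Ut φd a0 a1 a2 + ms a0 a1 a2 * Ut φd b0 b1 b2)
        - cm * θ ^ 4 * (chi a0 a1 a2 * chi b0 b1 b2)) := by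
  obtain ⟨a0', a1', a2'⟩ := ns_nonneg3 θ a0 a1 a2 ha0 ha1 ha2 t0 t1
  obtain ⟨b0', b1', b2'⟩ := ns_nonneg3 θ b0 b1 b2 hb0 hb1 hb2 t0 t1
  have h := H _ _ _ _ _ _ a0' a1' a2' b0' b1' b2'
  rw [ms_ns, ms_ns] at h
  have e := six_ns lam θ (ms b0 b1 b2) (fun x y z => Ut φ2 (ns (lam * θ) (ms a0 a1 a2) a0 * x)
        (ns (lam * θ) (ms a0 a1 a2) a1 * y) (ns (lam * θ) (ms a0 a1 a2) a2 * z)) b0 b1 b2
  rw [e]
  simp only [ns_ns] at h ⊢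
  refine le_trans h ?_
  have m1 := mono_hom hm θ a0 a1 a2 ha0 ha1 ha2 t0 t1
  have m2 := mono_hom hm θ b0 b1 b2 hb0 hb1 hb2 t0 t1
  have c1 := chi_ns θ a0 a1 a2 ha0 ha1 ha2
  have c2 := chi_ns θ b0 b1 b2 hb0 hb1 hb2
  rw [c1, c2]
  have na := ms_nonneg ha0 ha1 ha2
  have nb := ms_nonneg hb0 hb1 hb2
  have k1 := mul_le_mul_of_nonneg_left m1 nb
  have k2 := mul_le_mul_of_nonneg_left m2 na
  have k3 := mul_le_mul_of_nonneg_left (add_le_add k1 k2) hwd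
  nlinarith [k3]

theorem step_thin (lam θ : ℝ) (φk φ1 φd : CL) (wd : ℝ) (hwd : 0 ≤ wd)
    (t0 : 0 ≤ θ) (t1 : θ ≤ 1) (hm : Mono φd)
    (H : ∀ a0 a1 a2 b0 b1 b2 : ℝ, 0 ≤ a0 → 0 ≤ a1 → 0 ≤ a2 → 0 ≤ b0 → 0 ≤ b1 → 0 ≤ b2 →
      six (fun x y z => Ut φk (a0 * ns lam (ms b0 b1 b2) x) (a1 * ns lam (ms b0 b1 b2) y)
        (a2 * ns lam (ms b0 b1 b2) z)) b0 b1 b2
      ≤ 6 * (ms b0 b1 b2 * Ut φ1 a0 a1 a2 + wd * (ms a0 a1 a2 * Ut φd b0 b1 b2)))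
    (a0 a1 a2 b0 b1 b2 : ℝ) (ha0 : 0 ≤ a0) (ha1 : 0 ≤ a1) (ha2 : 0 ≤ a2)
    (hb0 : 0 ≤ b0) (hb1 : 0 ≤ b1) (hb2 : 0 ≤ b2) :
    six (fun x y z => Ut φk (a0 * ns (lam * θ) (ms b0 b1 b2) x)
        (a1 * ns (lam * θ) (ms b0 b1 b2) y) (a2 * ns (lam * θ) (ms b0 b1 b2) z)) b0 b1 b2
      ≤ 6 * (ms b0 b1 b2 * Ut φ1 a0 a1 a2 + wd * (ms a0 a1 a2 * Ut φd b0 b1 b2)) := by
  obtain ⟨b0', b1', b2'⟩ := ns_nonneg3 θ b0 b1 b2 hb0 hb1 hb2 t0 t1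
  have h := H _ _ _ _ _ _ ha0 ha1 ha2 b0' b1' b2'
  rw [ms_ns] at h
  have e := six_ns lam θ (ms b0 b1 b2) (fun x y z => Ut φk (a0 * x) (a1 * y) (a2 * z)) b0 b1 b2
  rw [e]
  refine le_trans h ?_
  have m2 := mono_hom hm θ b0 b1 b2 hb0 hb1 hb2 t0 t1
  have na := ms_nonneg ha0 ha1 ha2
  have k2 := mul_le_mul_of_nonneg_left m2 na
  have k3 := mul_le_mul_of_nonneg_left k2 hwd
  nlinarith [k3]

/-! ### the case of eigenvalue zero -/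

theorem aSeq_zero (d n : ℕ) : aSeq 3 d 0 (n + 1) = 0 := by
  unfold aSeq
  refine Finset.sum_eq_zero fun c _ => ?_
  have hl : ∀ i j, lik 3 d 0 (n + 1) i c = lik 3 d 0 (n + 1) j c := by
    intro i j
    change ∏ l : Fin d, ∑ k : Fin 3, potts 3 0 i k * lik 3 d 0 n k (c l)
      = ∏ l : Fin d, ∑ k : Fin 3, potts 3 0 j k * lik 3 d 0 n k (c l)
    simp [potts]
  have hj : ∀ i, joint 3 d 0 (n + 1) i c = joint 3 d 0 (n + 1) 0 c := by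
    intro i; unfold joint; rw [hl i 0]
  have hm : marg 3 d 0 (n + 1) c = 3 * joint 3 d 0 (n + 1) 0 c := by
    unfold marg
    rw [Fin.sum_univ_three, hj 1, hj 2]; ring
  rcases eq_or_ne (joint 3 d 0 (n + 1) 0 c) 0 with h | h
  · rw [hm, h]; simp
  · have : ∀ i, post 3 d 0 (n + 1) i c = 1 / 3 := by
      intro i; unfold post; rw [hm, hj i]; field_simp
    simp [this]

theorem zero_tendsto (d : ℕ) :
    Filter.Tendsto (fun n => aSeq 3 d 0 n) Filter.atTop (nhds 0) := by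
  rw [← Filter.tendsto_add_atTop_iff_nat 1]
  simp [aSeq_zero]

end Vale.Agent.P154
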