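import Vale.Agent.P154.Forms2

/-! From certificates to a system of potentials: chains for a fixed number of children. -/

open scoped BigOperators

namespace Vale.Agent.P154

theorem ex_ms {a0 a1 a2 b0 b1 b2 : ℝ} {g ψ h0 h1 : ℝ → ℝ → ℝ} {κ μ : ℝ} (j : ℕ)
    (hb0 : 0 ≤ b0) (hb1 : 0 ≤ b1) (hb2 : 0 ≤ b2) :
    ms b0 b1 b2 * hom g a0 a1 a2 + ms a0 a1 a2 * hom ψ b0 b1 b2
        + bal κ μ j (chi b0 b1 b2) (ms b0 b1 b2) (hom h0 a0 a1 a2) (hom h1 a0 a1 a2)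
      = ms a0 a1 a2 * ms b0 b1 b2 * (g (Pn a0 a1 a2) (Cn a0 a1 a2)
        + (ψ (Pn b0 b1 b2) (Cn b0 b1 b2)
        + balR j (κ * Pn b0 b1 b2) μ (h0 (Pn a0 a1 a2) (Cn a0 a1 a2))
          (h1 (Pn a0 a1 a2) (Cn a0 a1 a2)))) := by
  have hc : chi b0 b1 b2 = ms b0 b1 b2 * Pn b0 b1 b2 := by
    rw [← hom_chi b0 b1 b2 hb0 hb1 hb2]; rfl
  rw [hc, hom_eq, hom_eq, hom_eq, hom_eq, bal_balR]
  ring

theorem lam_ge (lam0 s : ℝ) (hl : -(1 / 2) ≤ lam0) (s0 : 0 ≤ s) (s1 : s ≤ 1) :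
    -(1 / 2) ≤ lam0 * s := by nlinarith

theorem lam_le (lam0 s : ℝ) (hl : lam0 ≤ 1) (s0 : 0 ≤ s) (s1 : s ≤ 1) : lam0 * s ≤ 1 := by
  nlinarith

/-- ranges under scaling -/
theorem range_scale (lam0 s lo hi : ℝ) (s0 : 0 ≤ s) (s1 : s ≤ 1)
    (h1 : lo ≤ 1 - lam0) (h2 : lo ≤ 1 + 2 * lam0) (h3 : 1 - lam0 ≤ hi) (h4 : 1 + 2 * lam0 ≤ hi)
    (_hlo : lo ≤ 1) (_hhi : 1 ≤ hi) : lo ≤ 1 - lam0 * s ∧ lo ≤ 1 + 2 * (lam0 * s) ∧
      1 - lam0 * s ≤ hi ∧ 1 + 2 * (lam0 * s) ≤ hi := by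
  refine ⟨?_, ?_, ?_, ?_⟩
  · nlinarith
  · nlinarith
  · nlinarith
  · nlinarith

theorem HE_real (v : ℕ → ℝ) (j : ℕ) (D' D : NP) (L2 L3 : ℤ × ℕ) (psi h0 h1 : List CL) :
    (HE j D' D L2 L3 psi h0 h1).real 0 v
      = (gR D' (v 0 * v 0 * (1 + -3 / 4 * v 2)) (v 0 * (v 0 * v 0) * (1 + -9 / 8 * v 2))
        + (cv L2 * h2R psi (v 1 * v 1 * (1 + -3 / 4 * v 3)) (v 1 * (v 1 * v 1) * (1 + -9 / 8 * v 3))
        + balR j (cv L2 * (v 1 * v 1 * (1 + -3 / 4 * v 3))) (cv L2)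
          (h2R h0 (v 0 * v 0 * (1 + -3 / 4 * v 2)) (v 0 * (v 0 * v 0) * (1 + -9 / 8 * v 2)))
          (h2R h1 (v 0 * v 0 * (1 + -3 / 4 * v 2)) (v 0 * (v 0 * v 0) * (1 + -9 / 8 * v 2)))))
      - avg D (v 0 * v 0 * (1 + -3 / 4 * v 2)) (v 0 * (v 0 * v 0) * (1 + -9 / 8 * v 2))
          (cv L2 * (v 1 * v 1 * (1 + -3 / 4 * v 3)))
          (cv L3 * (v 1 * (v 1 * v 1) * (1 + -9 / 8 * v 3))) := by
  simp only [HE, Px, Cx, Pz, Cz, gR, psub, PE.real_add, PE.real_mul, PE.real_neg, PE.real_q,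
    wP_real, pofP_real, Pq_real, Cq_real, PE.real_x, h2P_real, balP_real, avgP_real, cv]
  ring

theorem BE_real (v : ℕ → ℝ) (j : ℕ) (D : NP) (L2 L3 w0 : ℤ × ℕ) (psi h0 h1 : List CL) :
    (BE j D L2 L3 w0 psi h0 h1).real 0 v
      = (cv w0 + (cv L2 * h2R psi (v 0 * v 0 * (1 + -3 / 4 * v 2))
          (v 0 * (v 0 * v 0) * (1 + -9 / 8 * v 2))
        + balR j (cv L2 * (v 0 * v 0 * (1 + -3 / 4 * v 2))) (cv L2) (h2R h0 0 0) (h2R h1 0 0)))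
      - gR D (cv L2 * (v 0 * v 0 * (1 + -3 / 4 * v 2)))
          (cv L3 * (v 0 * (v 0 * v 0) * (1 + -9 / 8 * v 2))) := by
  have z : ((0 : ℤ) : ℝ) / (((0 : ℕ) : ℝ) + 1) = 0 := by norm_num
  simp only [BE, Px, Cx, gR, psub, PE.real_add, PE.real_mul, PE.real_neg, PE.real_q,
    wP_real, pofP_real, Pq_real, Cq_real, PE.real_x, h2P_real, balP_real, cv, z]
  ring

theorem SE_real (v : ℕ → ℝ) (D : NP) (w f : ℤ × ℕ) (psis : List (List CL)) :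
    (SE D w f psis).real 0 v
      = v 0 * v 0 * (gR D (v 1 * v 1 * (1 + -3 / 4 * v 2)) (v 1 * (v 1 * v 1) * (1 + -9 / 8 * v 2))
          - cv w)
        - cv f * h2sR psis (v 0 * v 0 * (v 1 * v 1 * (1 + -3 / 4 * v 2)))
          (v 0 * (v 0 * v 0) * (v 1 * (v 1 * v 1) * (1 + -9 / 8 * v 2))) := by
  simp only [SE, gR, psub, PE.real_add, PE.real_mul, PE.real_neg, PE.real_q,
    wP_real, pofP_real, Pq_real, Cq_real, PE.real_x, h2sP_real, cv]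
  ring

theorem RE_real (v : ℕ → ℝ) (D : NP) (w : ℤ × ℕ) :
    (RE D w).real 0 v
      = gR D (v 0 * v 0 * (1 + -3 / 4 * v 2)) (v 0 * (v 0 * v 0) * (1 + -9 / 8 * v 2)) - cv w := by
  simp only [RE, Px, Cx, gR, psub, PE.real_add, PE.real_neg, PE.real_q,
    wP_real, pofP_real, Pq_real, Cq_real, PE.real_x, cv]
  ring

/-- closing inequality -/
theorem close_ineq (D : NP) (w f : ℤ × ℕ) (psis : List (List CL)) (hS : Box0 0 (SE D w f psis))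
    (hR : Box0 0 (RE D w)) (lam0 s c : ℝ) (hf : 0 < cv f) (s0 : 0 ≤ s) (s1 : s ≤ 1)
    (hc : 0 ≤ c) (hcs : c * s ^ 2 ≤ cv f)
    (b0 b1 b2 : ℝ) (hb0 : 0 ≤ b0) (hb1 : 0 ≤ b1) (hb2 : 0 ≤ b2) :
    hom (fun P C => c * h2sR psis (s ^ 2 * P) (s ^ 3 * C)) b0 b1 b2 + cv w * ms b0 b1 b2
      ≤ hom (gR D) b0 b1 b2 := by
  have _ := lam0
  rcases (ms_nonneg hb0 hb1 hb2).eq_or_lt with h | h
  · obtain ⟨z0, z1, z2⟩ := ms_zero hb0 hb1 hb2 h.symm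
    subst z0; subst z1; subst z2
    rw [hom_zero, hom_zero, ← h]; simp
  · obtain ⟨ρ, t, a1, a2, a3, a4, e1, e2⟩ := Pn_range hb0 hb1 hb2 h
    have k1 := hS s ρ t 0 s0 s1 a1 a2 a3 a4 le_rfl zero_le_one
    have k2 := hR ρ 0 t 0 a1 a2 le_rfl zero_le_one a3 a4 le_rfl zero_le_one
    rw [SE_real] at k1
    rw [RE_real] at k2
    simp only [env] at k1 k2
    rw [← e1, ← e2] at k1 k2
    rw [hom_eq, hom_eq]
    rw [show s * s = s ^ 2 by ring, show s * (s ^ 2) = s ^ 3 by ring] at k1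
    set R := gR D (Pn b0 b1 b2) (Cn b0 b1 b2) - cv w with hRdef
    set Ψ := h2sR psis (s ^ 2 * Pn b0 b1 b2) (s ^ 3 * Cn b0 b1 b2) with hΨ
    have k3 : c * Ψ ≤ R := by
      have h1 : cv f * Ψ ≤ s ^ 2 * R := by linarith
      have h2 : cv f * (c * Ψ) ≤ cv f * R := by
        calc cv f * (c * Ψ) = c * (cv f * Ψ) := by ring
          _ ≤ c * (s ^ 2 * R) := mul_le_mul_of_nonneg_left h1 hc
          _ = c * s ^ 2 * R := by ring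
          _ ≤ cv f * R := mul_le_mul_of_nonneg_right hcs k2
      exact le_of_mul_le_mul_left h2 hf
    have k4 : c * Ψ + cv w ≤ gR D (Pn b0 b1 b2) (Cn b0 b1 b2) := by rw [hRdef] at k3; linarith
    have := mul_le_mul_of_nonneg_left k4 h.le
    linarith

/-- one step of the chain -/
theorem step_ineq (j : ℕ) (D' D : NP) (L2 L3 : ℤ × ℕ) (psi h0 h1 : List CL) (lam0 s lo hi : ℝ)
    (e2 : cv L2 = lam0 ^ 2) (e3 : cv L3 = lam0 ^ 3) (hU : UB D lo hi)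
    (hH : Box0 0 (HE j D' D L2 L3 psi h0 h1)) (hl0 : -(1 / 2) ≤ lam0) (hl1 : lam0 ≤ 1)
    (s0 : 0 ≤ s) (s1 : s ≤ 1)
    (r1 : lo ≤ 1 - lam0 * s) (r2 : lo ≤ 1 + 2 * (lam0 * s)) (r3 : 1 - lam0 * s ≤ hi)
    (r4 : 1 + 2 * (lam0 * s) ≤ hi)
    (a0 a1 a2 b0 b1 b2 : ℝ) (ha0 : 0 ≤ a0) (ha1 : 0 ≤ a1) (ha2 : 0 ≤ a2)
    (hb0 : 0 ≤ b0) (hb1 : 0 ≤ b1) (hb2 : 0 ≤ b2) :
    six (fun x y z => hom (gR D) (a0 * ns (lam0 * s) (ms b0 b1 b2) x)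
        (a1 * ns (lam0 * s) (ms b0 b1 b2) y) (a2 * ns (lam0 * s) (ms b0 b1 b2) z)) b0 b1 b2
      ≤ 6 * (ms b0 b1 b2 * hom (gR D') a0 a1 a2
        + ms a0 a1 a2 * hom (fun P C => lam0 ^ 2 * h2R psi (s ^ 2 * P) (s ^ 3 * C)) b0 b1 b2
        + bal ((lam0 * s) ^ 2) (lam0 ^ 2) j (chi b0 b1 b2) (ms b0 b1 b2)
          (hom (h2R h0) a0 a1 a2) (hom (h2R h1) a0 a1 a2)) := by
  refine le_trans (hom_merge D (lam0 * s) lo hi hU (lam_le _ _ hl1 s0 s1)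
    (lam_ge _ _ hl0 s0 s1) r1 r2 r3 r4 a0 a1 a2 b0 b1 b2 ha0 ha1 ha2 hb0 hb1 hb2) ?_
  rw [ex_ms j hb0 hb1 hb2]
  refine mul_le_mul_of_nonneg_left ?_ (by norm_num)
  rcases (ms_nonneg ha0 ha1 ha2).eq_or_lt with hma | hma
  · rw [← hma]; simp
  rcases (ms_nonneg hb0 hb1 hb2).eq_or_lt with hmb | hmb
  · rw [← hmb]; simp
  refine mul_le_mul_of_nonneg_left ?_ (by positivity)
  obtain ⟨ρx, sx, p1, p2, p3, p4, e4, e5⟩ := Pn_range ha0 ha1 ha2 hma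
  obtain ⟨ρz, sz, q1, q2, q3, q4, e6, e7⟩ := Pn_range hb0 hb1 hb2 hmb
  have k := hH ρx (s * ρz) sx sz p1 p2 (by positivity) (by nlinarith) p3 p4 q3 q4
  rw [HE_real] at k
  simp only [env] at k
  have f1 : s * ρz * (s * ρz) * (1 + -3 / 4 * sz) = s ^ 2 * Pn b0 b1 b2 := by rw [e6]; ring
  have f2 : s * ρz * (s * ρz * (s * ρz)) * (1 + -9 / 8 * sz) = s ^ 3 * Cn b0 b1 b2 := by
    rw [e7]; ring
  rw [f1, f2, ← e4, ← e5, e2, e3] at k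
  have g1 : lam0 ^ 2 * (s ^ 2 * Pn b0 b1 b2) = (lam0 * s) ^ 2 * Pn b0 b1 b2 := by ring
  have g2 : lam0 ^ 3 * (s ^ 3 * Cn b0 b1 b2) = (lam0 * s) ^ 3 * Cn b0 b1 b2 := by ring
  rw [g1, g2] at k
  linarith

/-- first step of the chain -/
theorem base_ineq (j : ℕ) (D : NP) (L2 L3 w0 : ℤ × ℕ) (psi h0 h1 : List CL) (lam0 s : ℝ)
    (e2 : cv L2 = lam0 ^ 2) (e3 : cv L3 = lam0 ^ 3)
    (hB : Box0 0 (BE j D L2 L3 w0 psi h0 h1)) (hl0 : -(1 / 2) ≤ lam0) (hl1 : lam0 ≤ 1)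
    (s0 : 0 ≤ s) (s1 : s ≤ 1)
    (b0 b1 b2 : ℝ) (hb0 : 0 ≤ b0) (hb1 : 0 ≤ b1) (hb2 : 0 ≤ b2) :
    six (fun x y z => hom (gR D) (1 * ns (lam0 * s) (ms b0 b1 b2) x)
        (1 * ns (lam0 * s) (ms b0 b1 b2) y) (1 * ns (lam0 * s) (ms b0 b1 b2) z)) b0 b1 b2
      ≤ 6 * (ms b0 b1 b2 * hom (fun _ _ => cv w0) 1 1 1
        + ms 1 1 1 * hom (fun P C => lam0 ^ 2 * h2R psi (s ^ 2 * P) (s ^ 3 * C)) b0 b1 b2
        + bal ((lam0 * s) ^ 2) (lam0 ^ 2) j (chi b0 b1 b2) (ms b0 b1 b2)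
          (hom (h2R h0) 1 1 1) (hom (h2R h1) 1 1 1)) := by
  have _ := hl0
  have _ := hl1
  rw [six_hom, ex_ms j hb0 hb1 hb2]
  refine mul_le_mul_of_nonneg_left ?_ (by norm_num)
  have em : ms 1 1 1 = 1 := by unfold ms; norm_num
  have eP : Pn 1 1 1 = 0 := by unfold Pn; rw [em]; simp [Pf_zero3]
  have eC : Cn 1 1 1 = 0 := by unfold Cn; rw [em]; simp [Cf_zero3]
  rw [em, eP, eC, one_mul]
  rcases (ms_nonneg hb0 hb1 hb2).eq_or_lt with hmb | hmb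
  · obtain ⟨z0, z1, z2⟩ := ms_zero hb0 hb1 hb2 hmb.symm
    subst z0; subst z1; subst z2
    rw [← hmb, ns_zero, hom_zero]; simp
  obtain ⟨ρz, sz, q1, q2, q3, q4, e6, e7⟩ := Pn_range hb0 hb1 hb2 hmb
  have k := hB (s * ρz) 0 sz 0 (by positivity) (by nlinarith) le_rfl zero_le_one q3 q4
    le_rfl zero_le_one
  rw [BE_real] at k
  simp only [env] at k
  have f1 : s * ρz * (s * ρz) * (1 + -3 / 4 * sz) = s ^ 2 * Pn b0 b1 b2 := by rw [e6]; ring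
  have f2 : s * ρz * (s * ρz * (s * ρz)) * (1 + -9 / 8 * sz) = s ^ 3 * Cn b0 b1 b2 := by
    rw [e7]; ring
  rw [f1, f2, e2, e3] at k
  have g1 : lam0 ^ 2 * (s ^ 2 * Pn b0 b1 b2) = (lam0 * s) ^ 2 * Pn b0 b1 b2 := by ring
  have g2 : lam0 ^ 3 * (s ^ 3 * Cn b0 b1 b2) = (lam0 * s) ^ 3 * Cn b0 b1 b2 := by ring
  rw [g1, g2] at k
  have nr := normalize (a0 := b0) (a1 := b1) (a2 := b2) hmb
  have hn : hom (gR D) (ns (lam0 * s) (ms b0 b1 b2) b0) (ns (lam0 * s) (ms b0 b1 b2) b1)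
      (ns (lam0 * s) (ms b0 b1 b2) b2)
      = ms b0 b1 b2 * gR D ((lam0 * s) ^ 2 * Pn b0 b1 b2) ((lam0 * s) ^ 3 * Cn b0 b1 b2) := by
    rw [ns_norm _ _ b0 hmb.ne', ns_norm _ _ b1 hmb.ne', ns_norm _ _ b2 hmb.ne', hom_smul]
    rw [hom_unit, noise_P _ _ _ _ nr, noise_C _ _ _ _ nr]
    · rfl
    · have : b2 / ms b0 b1 b2 = 3 - b0 / ms b0 b1 b2 - b1 / ms b0 b1 b2 := by linarith
      rw [this]; ring
  rw [hn]
  refine mul_le_mul_of_nonneg_left ?_ hmb.le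
  linarith

/-- the data of a chain and its certificates -/
structure ChainCert (d : ℕ) (lam0 : ℝ) (D : ℕ → ℕ → NP) (psi hh : ℕ → ℕ → List CL)
    (L2 L3 c c' f w0 w2 : ℤ × ℕ) (psil : ℕ → List (List CL)) : Prop where
  hd : 1 ≤ d
  hl0 : -(1 / 2) ≤ lam0
  hl1 : lam0 ≤ 1
  hne : lam0 ≠ 0
  e2 : cv L2 = lam0 ^ 2
  e3 : cv L3 = lam0 ^ 3
  hf : 0 < cv f
  hw : cv w0 < cv w2
  r1 : 1 - cv c ≤ 1 - lam0
  r2 : 1 - cv c ≤ 1 + 2 * lam0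
  r3 : 1 - lam0 ≤ 1 + cv c'
  r4 : 1 + 2 * lam0 ≤ 1 + cv c'
  hc : 0 < cv c
  hc' : 0 < cv c'
  hU0 : ∀ j k, j < 3 → 2 ≤ k → k ≤ d → Box0 0 (UE0 c (D j k))
  hU1 : ∀ j k, j < 3 → 2 ≤ k → k ≤ d → Box0 0 (UE1 c' (D j k))
  hB : ∀ j, j < 3 → Box0 0 (BE j (D j 1) L2 L3 (if j = 2 then w0 else (0, 0)) (psi j 1) (hh 0 1)
    (hh 1 1))
  hH : ∀ j k, j < 3 → 2 ≤ k → k ≤ d →
    Box0 0 (HE j (D j (k - 1)) (D j k) L2 L3 (psi j k) (hh 0 k) (hh 1 k))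
  hS : ∀ j, j < 3 → Box0 0 (SE (D j d) (if j = 2 then w2 else (0, 0)) f (psil j))
  hR : ∀ j, j < 3 → Box0 0 (RE (D j d) (if j = 2 then w2 else (0, 0)))
  hpsi : ∀ j, j < 3 → ∀ P C, ∑ k ∈ Finset.range d, h2R (psi j (k + 1)) P C = h2sR (psil j) P C

theorem cv_zero : cv (0, 0) = 0 := by norm_num [cv]

theorem ChainCert.sys {d : ℕ} {lam0 : ℝ} {D : ℕ → ℕ → NP} {psi hh : ℕ → ℕ → List CL}
    {L2 L3 c c' f w0 w2 : ℤ × ℕ} {psil : ℕ → List (List CL)}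
    (T : ChainCert d lam0 D psi hh L2 L3 c c' f w0 w2 psil)
    (s : ℝ) (s0 : 0 < s) (s1 : s ≤ 1) (hdl : (lam0 * s) ^ 2 ≤ cv f) :
    ∃ B, Sys d (lam0 * s) ((lam0 * s) ^ 2) (lam0 ^ 2) (cv w2 - cv w0) B
      (fun j k => if k = 0 then (fun _ _ => cv (if j = 2 then w0 else (0, 0))) else gR (D j k))
      (fun j k P C => lam0 ^ 2 * h2R (psi j (k + 1)) (s ^ 2 * P) (s ^ 3 * C))
      (fun i k => h2R (hh i (k + 1))) := by
  have hl2 : 0 < lam0 ^ 2 := by have := T.hne; positivity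
  obtain ⟨r1, r2, r3, r4⟩ := range_scale lam0 s (1 - cv c) (1 + cv c') s0.le s1 T.r1 T.r2 T.r3 T.r4
    (by linarith [T.hc]) (by linarith [T.hc'])
  refine ⟨∑ j ∈ Finset.range 3, nW (D j d)
    + ∑ i ∈ Finset.range 2, ∑ k ∈ Finset.range d, n2 (hh i (k + 1)), ?_⟩
  have hn1 : ∀ j, 0 ≤ nW (D j d) := fun j => by
    unfold nW
    have := nrm_nonneg (D j d).A
    have := nrm_nonneg (D j d).B
    have := nrm_nonneg (D j d).E
    linarith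
  have hs1 : 0 ≤ ∑ j ∈ Finset.range 3, nW (D j d) := Finset.sum_nonneg fun j _ => hn1 j
  have hs2 : 0 ≤ ∑ i ∈ Finset.range 2, ∑ k ∈ Finset.range d, n2 (hh i (k + 1)) :=
    Finset.sum_nonneg fun i _ => Finset.sum_nonneg fun k _ => n2_nonneg _
  refine ⟨T.hd, lam_le _ _ T.hl1 s0.le s1, lam_ge _ _ T.hl0 s0.le s1, ?_, ?_, ?_, ?_, ?_, ?_, ?_, ?_⟩
  · have := T.hne; positivity
  · rw [mul_pow]
    have : s ^ 2 ≤ 1 := by nlinarith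
    nlinarith
  · linarith [T.hw]
  · linarith
  · intro j k hj hk a0 a1 a2 b0 b1 b2 hz ha0 ha1 ha2 hb0 hb1 hb2
    have hk1 : k + 1 ≠ 0 := by omega
    simp only [hk1, if_false]
    rcases Nat.eq_zero_or_pos k with h | h
    · obtain ⟨z0, z1, z2⟩ := hz h
      subst z0; subst z1; subst z2; subst h
      simp only [if_true]
      exact base_ineq j (D j 1) L2 L3 _ (psi j 1) (hh 0 1) (hh 1 1) lam0 s T.e2 T.e3 (T.hB j hj)
        T.hl0 T.hl1 s0.le s1 b0 b1 b2 hb0 hb1 hb2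
    · have hk0 : k ≠ 0 := by omega
      simp only [hk0, if_false]
      have hH := T.hH j (k + 1) hj (by omega) (by omega)
      simp only [Nat.add_sub_cancel] at hH
      exact step_ineq j (D j k) (D j (k + 1)) L2 L3 (psi j (k + 1)) (hh 0 (k + 1)) (hh 1 (k + 1))
        lam0 s (1 - cv c) (1 + cv c') T.e2 T.e3
        (UB_of_box c c' _ T.hc T.hc' (T.hU0 j (k + 1) hj (by omega) (by omega))
          (T.hU1 j (k + 1) hj (by omega) (by omega))) hH T.hl0 T.hl1 s0.le s1 r1 r2 r3 r4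
        a0 a1 a2 b0 b1 b2 ha0 ha1 ha2 hb0 hb1 hb2
  · intro j hj b0 b1 b2 hb0 hb1 hb2
    have hd0 : d ≠ 0 := by have := T.hd; omega
    simp only [hd0, if_false, if_true]
    have k := close_ineq (D j d) (if j = 2 then w2 else (0, 0)) f (psil j) (T.hS j hj) (T.hR j hj)
      lam0 s (lam0 ^ 2) T.hf s0.le s1 hl2.le (by rw [← mul_pow]; exact hdl) b0 b1 b2 hb0 hb1 hb2
    have e : ∑ k ∈ Finset.range d,
        hom (fun P C => lam0 ^ 2 * h2R (psi j (k + 1)) (s ^ 2 * P) (s ^ 3 * C)) b0 b1 b2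
        = hom (fun P C => lam0 ^ 2 * h2sR (psil j) (s ^ 2 * P) (s ^ 3 * C)) b0 b1 b2 := by
      simp only [hom_eq]
      rw [← Finset.mul_sum, ← Finset.mul_sum, T.hpsi j hj]
    rw [e]
    rcases eq_or_ne j 2 with h | h
    · simp only [h, if_true] at k ⊢
      linarith
    · simp only [h, if_false] at k ⊢
      rw [cv_zero] at k ⊢
      linarith
  · intro j hj a0 a1 a2 h0 h1 h2
    have hd0 : d ≠ 0 := by have := T.hd; omega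
    simp only [hd0, if_false]
    refine le_trans (hom_gR_abs _ _ _ _ h0 h1 h2)
      (mul_le_mul_of_nonneg_right ?_ (ms_nonneg h0 h1 h2))
    have := Finset.single_le_sum (f := fun j => nW (D j d)) (fun j _ => hn1 j)
      (Finset.mem_range.2 hj)
    linarith
  · intro i k hi hk a0 a1 a2 h0 h1 h2
    refine le_trans (hom_h2R_abs _ _ _ _ h0 h1 h2)
      (mul_le_mul_of_nonneg_right ?_ (ms_nonneg h0 h1 h2))
    have e1 := Finset.single_le_sum (f := fun k => n2 (hh i (k + 1)))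
      (fun k _ => n2_nonneg (hh i (k + 1))) (Finset.mem_range.2 hk)
    have e2 := Finset.single_le_sum (f := fun i => ∑ k ∈ Finset.range d, n2 (hh i (k + 1)))
      (fun i _ => Finset.sum_nonneg fun k _ => n2_nonneg (hh i (k + 1))) (Finset.mem_range.2 hi)
    linarith

/-- nonreconstruction from a certified chain -/
theorem ChainCert.result {d : ℕ} {lam0 : ℝ} {D : ℕ → ℕ → NP} {psi hh : ℕ → ℕ → List CL}
    {L2 L3 c c' f w0 w2 : ℤ × ℕ} {psil : ℕ → List (List CL)}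
    (T : ChainCert d lam0 D psi hh L2 L3 c c' f w0 w2 psil) (hneg : lam0 < 0)
    (lam : ℝ) (h0 : lam0 ≤ lam) (h1 : lam ≤ 0) (hdl : lam ^ 2 ≤ cv f) :
    Filter.Tendsto (fun n => aSeq 3 d lam n) Filter.atTop (nhds 0) := by
  rcases h1.lt_or_eq with h | h
  · have s0 : 0 < lam / lam0 := div_pos_of_neg_of_neg h hneg
    have s1 : lam / lam0 ≤ 1 := by
      rw [div_le_one_of_neg hneg]; exact h0
    have e : lam0 * (lam / lam0) = lam := mul_div_cancel₀ lam hneg.ne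
    obtain ⟨B, S⟩ := T.sys (lam / lam0) s0 s1 (by rw [e]; exact hdl)
    rw [e] at S
    exact S.result
  · rw [h]; exact zero_tendsto d

end Vale.Agent.P154
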