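import Mathlib

/-! Digit extraction lemma: an integer whose packed digits have clear top bits comes from
nonnegative coefficients. -/

namespace Vale.Agent.P154

theorem digits_nonneg (b : ℕ) (hb : 0 < b) : ∀ (M : ℕ) (c : ℕ → ℤ) (N : ℕ),
    (∀ i, 2 * |c i| < 2 ^ b) → ((N : ℤ) = ∑ i ∈ Finset.range M, c i * (2 ^ b) ^ i) →
    (∀ i < M, N.testBit (b * i + (b - 1)) = false) → ∀ i < M, 0 ≤ c i := by
  intro M
  induction M with
  | zero => intro c N _ _ _ i hi; omega
  | succ M ih =>
    intro c N hc hN hbit
    have hb2 : (2 : ℕ) ^ b = 2 * 2 ^ (b - 1) := by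
      conv_lhs => rw [show b = (b - 1) + 1 by omega]
      rw [pow_succ]; ring
    set N' : ℤ := ∑ i ∈ Finset.range M, c (i + 1) * (2 ^ b) ^ i with hN'
    have hsplit : (N : ℤ) = c 0 + 2 ^ b * N' := by
      rw [hN, Finset.sum_range_succ', hN', Finset.mul_sum]
      simp only [pow_zero, mul_one, pow_succ]
      rw [add_comm]
      congr 1
      apply Finset.sum_congr rfl
      intro i _
      ring
    have h0 : 0 ≤ c 0 := by
      by_contra hneg
      push Not at hneg
      have hc0 := hc 0
      rw [abs_of_neg hneg] at hc0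
      -- N = 2^b (N' - 1) + (2^b + c 0)
      have hN'pos : 1 ≤ N' := by
        by_contra hlt
        push Not at hlt
        have h1 : N' ≤ 0 := by omega
        have h2 : (2 : ℤ) ^ b * N' ≤ 0 := mul_nonpos_of_nonneg_of_nonpos (by positivity) h1
        have h3 : (0 : ℤ) ≤ N := Int.natCast_nonneg N
        omega
      obtain ⟨u, hu⟩ := Int.eq_ofNat_of_zero_le (show 0 ≤ N' - 1 by omega)
      obtain ⟨v, hv⟩ := Int.eq_ofNat_of_zero_le (show 0 ≤ (2 : ℤ) ^ b + c 0 by omega)
      have hNuv : N = 2 ^ b * u + v := by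
        have : (N : ℤ) = ((2 ^ b * u + v : ℕ) : ℤ) := by
          push_cast
          rw [← hu, ← hv, hsplit]; ring
        exact_mod_cast this
      have hv1 : v < 2 ^ b := by
        have : (v : ℤ) < 2 ^ b := by rw [← hv]; omega
        exact_mod_cast this
      have hv2 : 2 ^ (b - 1) ≤ v := by
        have : (2 ^ (b - 1) : ℤ) ≤ v := by
          rw [← hv]
          have hb3 : (2 : ℤ) ^ b = 2 * 2 ^ (b - 1) := by exact_mod_cast hb2
          omega
        exact_mod_cast this
      have hbit0 := hbit 0 (by omega)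
      rw [mul_zero, zero_add, hNuv] at hbit0
      have h4 : (2 ^ b * u + v).testBit (b - 1) = v.testBit (b - 1) := by
        rw [Nat.testBit_two_pow_mul_add _ hv1]
        simp [show b - 1 < b by omega]
      rw [h4] at hbit0
      have h5 : v.testBit (b - 1) = true := by
        have : v = 2 ^ (b - 1) + (v - 2 ^ (b - 1)) := by omega
        rw [this, Nat.testBit_two_pow_add_eq]
        have : (v - 2 ^ (b - 1)) < 2 ^ (b - 1) := by omega
        rw [Nat.testBit_lt_two_pow this]; rfl
      rw [h5] at hbit0
      exact Bool.noConfusion hbit0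
    have hc0 := hc 0
    rw [abs_of_nonneg h0] at hc0
    obtain ⟨v, hv⟩ := Int.eq_ofNat_of_zero_le h0
    have hN'nn : 0 ≤ N' := by
      by_contra hlt
      push Not at hlt
      have h1 : N' ≤ -1 := by omega
      have h2 : (2 : ℤ) ^ b * N' ≤ 2 ^ b * (-1) := by
        apply mul_le_mul_of_nonneg_left h1 (by positivity)
      have h3 : (0 : ℤ) ≤ N := Int.natCast_nonneg N
      omega
    obtain ⟨u, hu⟩ := Int.eq_ofNat_of_zero_le hN'nn
    have hNuv : N = 2 ^ b * u + v := by
      have : (N : ℤ) = ((2 ^ b * u + v : ℕ) : ℤ) := by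
        push_cast
        rw [hsplit, hu, hv]; push_cast; ring
      exact_mod_cast this
    have hv1 : v < 2 ^ b := by
      have : (v : ℤ) < 2 ^ b := by
        have h6 : (v : ℤ) = c 0 := hv.symm
        rw [h6]; omega
      exact_mod_cast this
    have ih' := ih (fun i => c (i + 1)) u (fun i => hc (i + 1)) (by rw [← hN', hu]) (by
      intro i hi
      have hbi := hbit (i + 1) (by omega)
      rw [hNuv, Nat.testBit_two_pow_mul_add _ hv1] at hbi
      have h7 : ¬ (b * (i + 1) + (b - 1) < b) := by
        have : b ≤ b * (i + 1) := Nat.le_mul_of_pos_right b (by omega)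
        omega
      rw [if_neg h7] at hbi
      have h8 : b * (i + 1) + (b - 1) - b = b * i + (b - 1) := by
        rw [Nat.mul_succ]; omega
      rw [h8] at hbi
      exact hbi)
    intro i hi
    cases i with
    | zero => exact h0
    | succ i => exact ih' i (by omega)

/-- mask selecting the top bit of each of the `M` blocks of `b` bits -/
def mask (b M : ℕ) : ℕ := (2 ^ (b * M) - 1) / (2 ^ b - 1) * 2 ^ (b - 1)

theorem mask_testBit (b : ℕ) (hb : 0 < b) (M i : ℕ) (hi : i < M) :
    (mask b M).testBit (b * i + (b - 1)) = true := by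
  have hgeom : ∀ M, (2 ^ (b * M) - 1) / (2 ^ b - 1) = ∑ k ∈ Finset.range M, (2 ^ b) ^ k := by
    intro M
    rw [pow_mul, Nat.geomSum_eq]
    exact Nat.one_lt_two_pow (by omega)
  have hlt : ∀ M, (∑ k ∈ Finset.range M, (2 ^ b) ^ k) * 2 ^ (b - 1) < 2 ^ (b * M + (b - 1)) := by
    intro M
    rw [pow_add]
    apply Nat.mul_lt_mul_of_pos_right _ (by positivity)
    rw [← hgeom]
    calc (2 ^ (b * M) - 1) / (2 ^ b - 1) ≤ 2 ^ (b * M) - 1 := Nat.div_le_self _ _
      _ < 2 ^ (b * M) := by
        have : 0 < 2 ^ (b * M) := by positivity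
        omega
  unfold mask
  rw [hgeom]
  induction M with
  | zero => omega
  | succ M ih =>
    rw [Finset.sum_range_succ, add_mul, ← pow_mul, ← pow_add, add_comm]
    rcases Nat.lt_or_ge i M with h | h
    · rw [Nat.testBit_two_pow_add_gt]
      · exact ih h
      · have : b * (i + 1) ≤ b * M := Nat.mul_le_mul_left b h
        rw [Nat.mul_succ] at this
        omega
    · have hiM : i = M := by omega
      rw [hiM, Nat.testBit_two_pow_add_eq, Nat.testBit_lt_two_pow (hlt M)]
      rfl

theorem testBit_of_land (b : ℕ) (hb : 0 < b) (M N : ℕ) (h : Nat.land N (mask b M) = 0) :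
    ∀ i < M, N.testBit (b * i + (b - 1)) = false := by
  intro i hi
  have h1 : (N &&& mask b M).testBit (b * i + (b - 1)) = false := by
    have : N &&& mask b M = 0 := h
    rw [this]; simp
  rw [Nat.testBit_and, mask_testBit b hb M i hi, Bool.and_true] at h1
  exact h1

end Vale.Agent.P154
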