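import Vale.Agent.P154.Lists

/-! Certified nonnegativity of polynomial expressions on boxes, checked by the kernel
with packed integer arithmetic. -/

namespace Vale.Agent.P154

/-- Polynomial expressions in four variables and one extra scalar `rt`. -/
inductive PE : Type
  | q : ℤ → ℕ → PE
  | rt : PE
  | x : ℕ → PE
  | neg : PE → PE
  | add : PE → PE → PE
  | mul : PE → PE → PE

/-- Result of packed evaluation. -/
structure HP where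
  a : ℤ
  b : ℤ
  ma : ℕ
  mb : ℕ
  den : ℕ
  n0 : ℕ
  n1 : ℕ
  n2 : ℕ
  n3 : ℕ

/-- Configuration: `dd` is the square of the scalar, `k0..k3` the packing points, and the box
`[l/m, h/m]` for each of the four variables. -/
structure Cfg where
  dd : ℕ
  k0 : ℕ
  k1 : ℕ
  k2 : ℕ
  k3 : ℕ
  l0 : ℕ
  h0 : ℕ
  m0 : ℕ
  l1 : ℕ
  h1 : ℕ
  m1 : ℕ
  l2 : ℕ
  h2 : ℕ
  m2 : ℕ
  l3 : ℕ
  h3 : ℕ
  m3 : ℕ

namespace HP

def const (n : ℤ) (m : ℕ) : HP := ⟨n, 0, n.natAbs, 0, m + 1, 0, 0, 0, 0⟩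

def root : HP := ⟨0, 1, 0, 1, 1, 0, 0, 0, 0⟩

def v0 (c : Cfg) : HP := ⟨(c.l0 + c.h0 * c.k0 : ℕ), 0, c.l0 + c.h0, 0, c.m0, 1, 0, 0, 0⟩
def v1 (c : Cfg) : HP := ⟨(c.l1 + c.h1 * c.k1 : ℕ), 0, c.l1 + c.h1, 0, c.m1, 0, 1, 0, 0⟩
def v2 (c : Cfg) : HP := ⟨(c.l2 + c.h2 * c.k2 : ℕ), 0, c.l2 + c.h2, 0, c.m2, 0, 0, 1, 0⟩
def v3 (c : Cfg) : HP := ⟨(c.l3 + c.h3 * c.k3 : ℕ), 0, c.l3 + c.h3, 0, c.m3, 0, 0, 0, 1⟩

def var (c : Cfg) (i : ℕ) : HP :=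
  Nat.rec (motive := fun _ => HP) (v0 c)
    (fun i _ => Nat.rec (motive := fun _ => HP) (v1 c)
      (fun i _ => Nat.rec (motive := fun _ => HP) (v2 c) (fun _ _ => v3 c) i) i) i

def neg (u : HP) : HP := ⟨-u.a, -u.b, u.ma, u.mb, u.den, u.n0, u.n1, u.n2, u.n3⟩

/-- the multiplier which aligns denominators and degrees -/
def fac (c : Cfg) (e d0 d1 d2 d3 : ℕ) : ℕ :=
  e * ((1 + c.k0) ^ d0 * ((1 + c.k1) ^ d1 * ((1 + c.k2) ^ d2 * (1 + c.k3) ^ d3)))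

def addAux (c : Cfg) (u v : HP) (den n0 n1 n2 n3 : ℕ) : HP :=
  ⟨u.a * (fac c (den / u.den) (n0 - u.n0) (n1 - u.n1) (n2 - u.n2) (n3 - u.n3) : ℕ)
      + v.a * (fac c (den / v.den) (n0 - v.n0) (n1 - v.n1) (n2 - v.n2) (n3 - v.n3) : ℕ),
    u.b * (fac c (den / u.den) (n0 - u.n0) (n1 - u.n1) (n2 - u.n2) (n3 - u.n3) : ℕ)
      + v.b * (fac c (den / v.den) (n0 - v.n0) (n1 - v.n1) (n2 - v.n2) (n3 - v.n3) : ℕ),
    u.ma * (den / u.den) * 2 ^ ((n0 - u.n0) + (n1 - u.n1) + (n2 - u.n2) + (n3 - u.n3))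
      + v.ma * (den / v.den) * 2 ^ ((n0 - v.n0) + (n1 - v.n1) + (n2 - v.n2) + (n3 - v.n3)),
    u.mb * (den / u.den) * 2 ^ ((n0 - u.n0) + (n1 - u.n1) + (n2 - u.n2) + (n3 - u.n3))
      + v.mb * (den / v.den) * 2 ^ ((n0 - v.n0) + (n1 - v.n1) + (n2 - v.n2) + (n3 - v.n3)),
    den, n0, n1, n2, n3⟩

def add (c : Cfg) (u v : HP) : HP :=
  addAux c u v (Nat.lcm u.den v.den) (max u.n0 v.n0) (max u.n1 v.n1) (max u.n2 v.n2)
    (max u.n3 v.n3)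

def mul (c : Cfg) (u v : HP) : HP :=
  ⟨u.a * v.a + c.dd * (u.b * v.b), u.a * v.b + u.b * v.a,
    u.ma * v.ma + c.dd * (u.mb * v.mb), u.ma * v.mb + u.mb * v.ma,
    u.den * v.den, u.n0 + v.n0, u.n1 + v.n1, u.n2 + v.n2, u.n3 + v.n3⟩

end HP

/-- packed evaluation -/
noncomputable def PE.pack (c : Cfg) (e : PE) : HP :=
  PE.rec (motive := fun _ => HP)
    (fun n m => HP.const n m) HP.root (fun i => HP.var c i) (fun _ u => HP.neg u)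
    (fun _ _ u v => HP.add c u v) (fun _ _ u v => HP.mul c u v) e

/-- the final test: all coefficients nonnegative -/
def topOK (v : ℤ) (mk : ℕ) : Bool :=
  match v with
  | Int.ofNat n => Nat.beq (Nat.land n mk) 0
  | Int.negSucc _ => false

def mkCfg (dd b N0 N1 N2 : ℕ) (l0 h0 m0 l1 h1 m1 l2 h2 m2 l3 h3 m3 : ℕ) : Cfg :=
  ⟨dd, 2 ^ b, 2 ^ (b * N0), 2 ^ (b * (N0 * N1)), 2 ^ (b * (N0 * (N1 * N2))),
    l0, h0, m0, l1, h1, m1, l2, h2, m2, l3, h3, m3⟩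

def finalOK (b N0 N1 N2 N3 sm s1 s2 : ℕ) (u : HP) : Bool :=
  Nat.blt u.n0 N0 && (Nat.blt u.n1 N1 && (Nat.blt u.n2 N2 && (Nat.blt u.n3 N3 &&
  (Nat.blt (2 * (sm * u.ma + s1 * u.mb)) (2 ^ b) &&
  (Nat.blt (2 * (sm * u.ma + s2 * u.mb)) (2 ^ b) &&
  (topOK (sm * u.a + s1 * u.b) (mask b (N0 * (N1 * (N2 * N3)))) &&
  topOK (sm * u.a + s2 * u.b) (mask b (N0 * (N1 * (N2 * N3))))))))))

end Vale.Agent.P154
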