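import Vale.Agent.P154.Frame2

/-! Countable families of likelihood vectors. -/

open scoped BigOperators

namespace Vale.Agent.P154

/-- a nonnegative family of vectors whose coordinates sum to one -/
structure Fam {ι : Type} (v : ι → Fin 3 → ℝ) : Prop where
  nn : ∀ c i, 0 ≤ v c i
  hs : ∀ i, HasSum (fun c => v c i) 1

/-- functionals bounded by the mass -/
def Bd (F : ℝ → ℝ → ℝ → ℝ) (B : ℝ) : Prop :=
  ∀ a0 a1 a2 : ℝ, 0 ≤ a0 → 0 ≤ a1 → 0 ≤ a2 → |F a0 a1 a2| ≤ B * ms a0 a1 a2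

/-- sum of a functional over a family -/
noncomputable def FS {ι : Type} (v : ι → Fin 3 → ℝ) (F : ℝ → ℝ → ℝ → ℝ) : ℝ := ∑' c, at3 F (v c)

section
variable {ι κ : Type} {v : ι → Fin 3 → ℝ} {F G : ℝ → ℝ → ℝ → ℝ} {B B' : ℝ}

theorem Bd.mono (h : Bd F B) (hB : B ≤ B') : Bd F B' := fun a0 a1 a2 h0 h1 h2 =>
  le_trans (h a0 a1 a2 h0 h1 h2) (mul_le_mul_of_nonneg_right hB (ms_nonneg h0 h1 h2))

theorem Bd_ms : Bd ms 1 := fun a0 a1 a2 h0 h1 h2 => by
  rw [abs_of_nonneg (ms_nonneg h0 h1 h2), one_mul]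

theorem Bd_chi : Bd chi 1 := fun a0 a1 a2 h0 h1 h2 => by
  rw [abs_of_nonneg (chi_nn a0 a1 a2 h0 h1 h2), one_mul]
  exact chi_le_ms a0 a1 a2 h0 h1 h2

theorem Bd.add (h : Bd F B) (h' : Bd G B') : Bd (fun a b c => F a b c + G a b c) (B + B') := by
  intro a0 a1 a2 h0 h1 h2
  have := abs_add_le (F a0 a1 a2) (G a0 a1 a2)
  have k1 := h a0 a1 a2 h0 h1 h2
  have k2 := h' a0 a1 a2 h0 h1 h2
  rw [add_mul]
  linarith

theorem Bd.smul (h : Bd F B) (t : ℝ) : Bd (fun a b c => t * F a b c) (|t| * B) := by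
  intro a0 a1 a2 h0 h1 h2
  rw [abs_mul, mul_assoc]
  exact mul_le_mul_of_nonneg_left (h a0 a1 a2 h0 h1 h2) (abs_nonneg t)

theorem Fam.ms (h : Fam v) : HasSum (fun c => at3 ms (v c)) 1 := by
  have := ((h.hs 0).add ((h.hs 1).add (h.hs 2))).div_const 3
  have e : (fun c => at3 P154.ms (v c)) = fun c => (v c 0 + (v c 1 + v c 2)) / 3 := by
    funext c; unfold at3 P154.ms; ring
  rw [e]
  have e1 : (1 + (1 + 1)) / 3 = (1 : ℝ) := by norm_num
  rwa [e1] at this

theorem Fam.at3_abs (h : Fam v) (hF : Bd F B) (c : ι) : |at3 F (v c)| ≤ B * at3 P154.ms (v c) :=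
  hF _ _ _ (h.nn c 0) (h.nn c 1) (h.nn c 2)

theorem Fam.summ (h : Fam v) (hF : Bd F B) : Summable fun c => at3 F (v c) := by
  refine Summable.of_norm_bounded (g := fun c => B * at3 P154.ms (v c)) (h.ms.summable.mul_left B) ?_
  intro c
  rw [Real.norm_eq_abs]
  exact h.at3_abs hF c

theorem Fam.hasSum (h : Fam v) (hF : Bd F B) : HasSum (fun c => at3 F (v c)) (FS v F) :=
  (h.summ hF).hasSum

theorem Fam.fs_ms (h : Fam v) : FS v P154.ms = 1 := h.ms.tsum_eq

theorem Fam.le (h : Fam v) (hF : Bd F B) (hG : Bd G B')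
    (hle : ∀ a0 a1 a2 : ℝ, 0 ≤ a0 → 0 ≤ a1 → 0 ≤ a2 → F a0 a1 a2 ≤ G a0 a1 a2) :
    FS v F ≤ FS v G :=
  (h.summ hF).tsum_le_tsum (fun c => hle _ _ _ (h.nn c 0) (h.nn c 1) (h.nn c 2)) (h.summ hG)

theorem Fam.abs (h : Fam v) (hF : Bd F B) : |FS v F| ≤ B := by
  have k1 : FS v F ≤ B := by
    have := (h.summ hF).tsum_le_tsum (fun c => (abs_le.1 (h.at3_abs hF c)).2)
      (h.ms.summable.mul_left B)
    rw [tsum_mul_left, h.ms.tsum_eq, mul_one] at this
    exact this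
  have k2 : -B ≤ FS v F := by
    have := Summable.tsum_le_tsum (fun c => (abs_le.1 (h.at3_abs hF c)).1)
      (h.ms.summable.mul_left B).neg (h.summ hF)
    rw [tsum_neg, tsum_mul_left, h.ms.tsum_eq, mul_one] at this
    exact this
  exact abs_le.2 ⟨k2, k1⟩

theorem Fam.add (h : Fam v) (hF : Bd F B) (hG : Bd G B') :
    FS v (fun a b c => F a b c + G a b c) = FS v F + FS v G :=
  (h.summ hF).tsum_add (h.summ hG)

theorem FS_smul (t : ℝ) : FS v (fun a b c => t * F a b c) = t * FS v F := by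
  unfold FS at3
  exact tsum_mul_left

/-- noisy family -/
theorem Fam.nz (h : Fam v) {lam : ℝ} (h1 : lam ≤ 1) (h0 : -(1 / 2) ≤ lam) :
    Fam fun c => nz lam (v c) := by
  refine ⟨fun c i => nz_nonneg lam h1 h0 _ (h.nn c) i, fun i => ?_⟩
  have := (h.ms.mul_left (1 - lam)).add ((h.hs i).mul_left lam)
  have e : (fun c => P154.nz lam (v c) i)
      = fun c => (1 - lam) * at3 P154.ms (v c) + lam * v c i := by
    funext c; unfold P154.nz ns at3; ring
  rw [e]
  have e1 : (1 - lam) * 1 + lam * 1 = (1 : ℝ) := by ring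
  rwa [e1] at this

/-- product family -/
theorem Fam.prod {u : κ → Fin 3 → ℝ} (hu : Fam u) (h : Fam v) :
    Fam fun (p : κ × ι) i => u p.1 i * v p.2 i := by
  refine ⟨fun p i => mul_nonneg (hu.nn _ _) (h.nn _ _), fun i => ?_⟩
  have hs := (hu.hs i).summable.mul_of_nonneg (h.hs i).summable (fun c => hu.nn c i)
    (fun c => h.nn c i)
  have := (hu.hs i).mul (h.hs i) hs
  rwa [mul_one] at this

/-- products of `k` members of a family -/
noncomputable def pw (v : ι → Fin 3 → ℝ) (k : ℕ) (c : Fin k → ι) (i : Fin 3) : ℝ := ∏ j, v (c j) i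

theorem pw_cons (k : ℕ) (b : ι) (c : Fin k → ι) (i : Fin 3) :
    pw v (k + 1) (Fin.consEquiv (fun _ : Fin (k + 1) => ι) (b, c)) i = pw v k c i * v b i := by
  unfold pw
  rw [Fin.prod_univ_succ]
  simp [Fin.consEquiv, mul_comm]

theorem Fam.pw (h : Fam v) : ∀ k, Fam (pw v k)
  | 0 => by
      refine ⟨fun c i => ?_, fun i => ?_⟩
      · unfold P154.pw; simp
      · have := hasSum_unique (f := fun c : Fin 0 → ι => P154.pw v 0 c i)
        simp only [P154.pw, Finset.univ_eq_empty, Finset.prod_empty] at this ⊢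
        exact this
  | k + 1 => by
      have ih := (h.prod (h.pw k))
      refine ⟨fun c i => Finset.prod_nonneg fun j _ => h.nn _ _, fun i => ?_⟩
      rw [← (Fin.consEquiv fun _ : Fin (k + 1) => ι).hasSum_iff]
      convert ih.hs i using 1
      funext p
      obtain ⟨b, c⟩ := p
      simp only [Function.comp]
      rw [pw_cons, mul_comm]

/-- functional on products of `k` noisy members -/
noncomputable def SG (lam : ℝ) (v : ι → Fin 3 → ℝ) (k : ℕ) (F : ℝ → ℝ → ℝ → ℝ) : ℝ :=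
  FS (pw (fun c => nz lam (v c)) k) F

theorem SG_zero (lam : ℝ) : SG lam v 0 F = F 1 1 1 := by
  unfold SG FS
  rw [tsum_eq_single (fun i => i.elim0)]
  · simp [at3, pw]
  · intro b hb
    exact absurd (Subsingleton.elim _ _) hb

theorem Fam.SG_succ (h : Fam v) {lam : ℝ} (h1 : lam ≤ 1) (h0 : -(1 / 2) ≤ lam) (hF : Bd F B)
    (k : ℕ) : SG lam v (k + 1) F = ∑' c : Fin k → ι, ∑' b, at3 F (fun i =>
      P154.pw (fun c => P154.nz lam (v c)) k c i * P154.nz lam (v b) i) := by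
  have hn := h.nz h1 h0
  have hp := (hn.pw k).prod hn
  have := (hp.summ hF).tsum_prod
  rw [← this]
  unfold SG FS
  rw [← ((Equiv.prodComm (Fin k → ι) ι).trans (Fin.consEquiv fun _ : Fin (k + 1) => ι)).tsum_eq]
  refine tsum_congr fun p => ?_
  obtain ⟨c, b⟩ := p
  congr 1
  funext i
  simp only [Equiv.trans_apply, Equiv.prodComm_apply, Prod.swap]
  rw [pw_cons]

/-- symmetric family -/
def SymG (v : ι → Fin 3 → ℝ) : Prop :=
  ∀ τ : Equiv.Perm (Fin 3), ∃ e : ι ≃ ι, ∀ b i, v (e b) (τ i) = v b i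

theorem SymG.sum_eq (h : SymG v) (G : ℝ → ℝ → ℝ → ℝ) (τ : Equiv.Perm (Fin 3)) (s : ℝ)
    (hs : HasSum (fun b => G (v b 0) (v b 1) (v b 2)) s) :
    HasSum (fun b => G (v b (τ 0)) (v b (τ 1)) (v b (τ 2))) s := by
  obtain ⟨e, he⟩ := h τ
  rw [← e.hasSum_iff]
  convert hs using 1
  funext b
  simp only [Function.comp, he]

theorem SymG.six (h : SymG v) (G : ℝ → ℝ → ℝ → ℝ) (s : ℝ)
    (hs : HasSum (fun b => G (v b 0) (v b 1) (v b 2)) s) :
    HasSum (fun b => six G (v b 0) (v b 1) (v b 2)) (6 * s) := by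
  have h1 := h.sum_eq G (finRotate 3) s hs
  have h2 := h.sum_eq G (finRotate 3 * finRotate 3) s hs
  have h3 := h.sum_eq G (Equiv.swap 1 2) s hs
  have h4 := h.sum_eq G (Equiv.swap 0 2) s hs
  have h5 := h.sum_eq G (Equiv.swap 0 1) s hs
  have r0 : finRotate 3 0 = 1 := by decide
  have r1 : finRotate 3 1 = 2 := by decide
  have r2 : finRotate 3 2 = 0 := by decide
  have a0 : (Equiv.swap (1 : Fin 3) 2) 0 = 0 := by decide
  have a1 : (Equiv.swap (1 : Fin 3) 2) 1 = 2 := by decide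
  have a2 : (Equiv.swap (1 : Fin 3) 2) 2 = 1 := by decide
  have b0 : (Equiv.swap (0 : Fin 3) 2) 0 = 2 := by decide
  have b1 : (Equiv.swap (0 : Fin 3) 2) 1 = 1 := by decide
  have b2 : (Equiv.swap (0 : Fin 3) 2) 2 = 0 := by decide
  have c0 : (Equiv.swap (0 : Fin 3) 1) 0 = 1 := by decide
  have c1 : (Equiv.swap (0 : Fin 3) 1) 1 = 0 := by decide
  have c2 : (Equiv.swap (0 : Fin 3) 1) 2 = 2 := by decide
  simp only [Equiv.Perm.mul_apply, r0, r1, r2] at h1 h2
  rw [a0, a1, a2] at h3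
  rw [b0, b1, b2] at h4
  rw [c0, c1, c2] at h5
  have := (hs.add (h1.add (h2.add (h3.add (h4.add h5)))))
  have e1 : s + (s + (s + (s + (s + s)))) = 6 * s := by ring
  rw [e1] at this
  have e2 : (fun b => P154.six G (v b 0) (v b 1) (v b 2)) = fun b => G (v b 0) (v b 1) (v b 2)
      + (G (v b 1) (v b 2) (v b 0) + (G (v b 2) (v b 0) (v b 1) + (G (v b 0) (v b 2) (v b 1)
      + (G (v b 2) (v b 1) (v b 0) + G (v b 1) (v b 0) (v b 2))))) := by
    funext b; unfold P154.six; ring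
  rw [e2]
  exact this

end

end Vale.Agent.P154
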