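import Vale.Agent.P154.Tree

/-! The polynomial forms used by the certificates, over the reals and as expressions. -/

namespace Vale.Agent.P154

abbrev CL := List (ℤ × ℕ)

/-- value of a coefficient -/
noncomputable def cv (c : ℤ × ℕ) : ℝ := (c.1 : ℝ) / ((c.2 : ℝ) + 1)

/-- polynomial with coefficient list `l` -/
noncomputable def hr : CL → ℝ → ℝ
  | [], _ => 0
  | c :: l, x => cv c + x * hr l x

def hp : CL → PE → PE
  | [], _ => .q 0 0
  | [c], _ => .q c.1 c.2
  | c :: l, x => .add (.q c.1 c.2) (.mul x (hp l x))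

theorem hp_real (s : ℝ) (v : ℕ → ℝ) (l : CL) (x : PE) :
    (hp l x).real s v = hr l (x.real s v) := by
  induction l with
  | nil => simp [hp, hr]
  | cons c l ih =>
    cases l with
    | nil => simp [hp, hr, cv]
    | cons c' l' =>
      simp only [hp] at ih ⊢
      rw [hr, PE.real_add, PE.real_mul, ih]
      simp [cv]

/-- homogeneous version: `∑ l_j x^j u^(len-1-j)` -/
noncomputable def hhr : CL → ℝ → ℝ → ℝ
  | [], _, _ => 0
  | c :: l, x, u => cv c * u ^ l.length + x * hhr l x u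

def ppow (u : PE) : ℕ → PE
  | 0 => .q 1 0
  | 1 => u
  | n + 1 => .mul u (ppow u n)

theorem ppow_real (s : ℝ) (v : ℕ → ℝ) (u : PE) (n : ℕ) :
    (ppow u n).real s v = (u.real s v) ^ n := by
  induction n with
  | zero => simp [ppow]
  | succ n ih =>
    cases n with
    | zero => simp [ppow]
    | succ n =>
      rw [pow_succ']
      simp only [ppow] at ih ⊢
      rw [PE.real_mul, ih]

def hhp : CL → PE → PE → PE
  | [], _, _ => .q 0 0
  | [c], _, _ => .q c.1 c.2
  | c :: l, x, u => .add (.mul (.q c.1 c.2) (ppow u l.length)) (.mul x (hhp l x u))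

theorem hhp_real (s : ℝ) (v : ℕ → ℝ) (l : CL) (x u : PE) :
    (hhp l x u).real s v = hhr l (x.real s v) (u.real s v) := by
  induction l with
  | nil => simp [hhp, hhr]
  | cons c l ih =>
    cases l with
    | nil => simp [hhp, hhr, cv]
    | cons c' l' =>
      simp only [hhp] at ih ⊢
      rw [hhr, PE.real_add, PE.real_mul, PE.real_mul, ih, ppow_real]
      simp [cv]

theorem hhr_eq (l : CL) (x u : ℝ) (hu : u ≠ 0) :
    hhr l x u = u ^ (l.length - 1) * hr l (x / u) := by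
  induction l with
  | nil => simp [hhr, hr]
  | cons c l ih =>
    cases l with
    | nil => simp [hhr, hr]
    | cons c' l' =>
      have e : hr (c :: c' :: l') (x / u) = cv c + x / u * hr (c' :: l') (x / u) := rfl
      rw [hhr, ih, e]
      simp only [List.length_cons, Nat.add_sub_cancel]
      rw [pow_succ]
      field_simp

/-- coefficients of `g(x) - 3 x g'(x)` shifted: multiplies the `j`-th coefficient by
`a - 3 j` -/
def dl (a : ℤ) : CL → CL
  | [] => []
  | c :: l => (a * c.1, c.2) :: dl (a - 3) l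

@[simp] theorem dl_length (a : ℤ) (l : CL) : (dl a l).length = l.length := by
  induction l generalizing a with
  | nil => rfl
  | cons c l ih => simp [dl, ih]

/-! ### the first pointwise form (`w ≤ 1`) -/

/-- `w f(π/w³) ≤ f(π) + (w-1) (f-3πf')(π) + (w-1)² e2(π) + (w-1)³ e3(π)`: right minus left -/
noncomputable def ptR (φ e2 e3 : CL) (w π θ : ℝ) : ℝ :=
  hr φ π + ((w - 1) * hr (dl 1 φ) π + ((w - 1) * (w - 1)) * (hr e2 π + (w - 1) * hr e3 π))
    - w * hr φ θ

def one' : PE := .q 1 0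
def psub (u v : PE) : PE := .add u (.neg v)

def ptP (φ e2 e3 : CL) (w π θ : PE) : PE :=
  psub (.add (hp φ π) (.add (.mul (psub w one') (hp (dl 1 φ) π))
    (.mul (.mul (psub w one') (psub w one')) (.add (hp e2 π) (.mul (psub w one') (hp e3 π))))))
    (.mul w (hp φ θ))

theorem ptP_real (s : ℝ) (v : ℕ → ℝ) (φ e2 e3 : CL) (w π θ : PE) :
    (ptP φ e2 e3 w π θ).real s v = ptR φ e2 e3 (w.real s v) (π.real s v) (θ.real s v) := by
  simp only [ptP, ptR, psub, one', PE.real_add, PE.real_mul, PE.real_neg, PE.real_q, hp_real]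
  norm_num
  ring

/-- expression for `w ≤ 1`, `w = 1 - c v`, `π = θ w³` -/
def A1 (c : ℤ × ℕ) (φ e2 e3 : CL) : PE :=
  ptP φ e2 e3 (psub one' (.mul (.q c.1 c.2) (.x 1)))
    (.mul (.x 0) (ppow (psub one' (.mul (.q c.1 c.2) (.x 1))) 3)) (.x 0)

/-- expression for `w ≥ 1`, `w = 1 + c v`, `π = θ / w²`, multiplied by `w^(5 (len-1) - 1)` -/
def A2 (c : ℤ × ℕ) (φ e2 e3 : CL) : PE :=
  let w : PE := .add one' (.mul (.q c.1 c.2) (.x 1))
  let r : PE := .mul (.q c.1 c.2) (.x 1)
  let M := 5 * (φ.length - 1) - 1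
  psub (.add (.mul (ppow w (M - 2 * (φ.length - 1))) (.add (hhp φ (.x 0) (ppow w 2))
      (.mul r (hhp (dl 1 φ) (.x 0) (ppow w 2)))))
    (.mul (.mul r r) (.add (.mul (ppow w (M - 2 * (e2.length - 1))) (hhp e2 (.x 0) (ppow w 2)))
      (.mul r (.mul (ppow w (M - 2 * (e3.length - 1))) (hhp e3 (.x 0) (ppow w 2)))))))
    (hhp φ (.x 0) (ppow w 5))

/-- pointwise bound from the two checks -/
theorem pointwise (φ e2 e3 : CL) (c c' : ℤ × ℕ) (hc : 0 < cv c) (hc' : 0 < cv c')
    (hc1 : cv c < 1)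
    (hL : 2 ≤ φ.length) (hL2 : e2.length ≤ φ.length) (hL3 : e3.length ≤ φ.length)
    (h1 : ∀ θ v : ℝ, 0 ≤ θ → θ ≤ 1 → 0 ≤ v → v ≤ 1 → 0 ≤ (A1 c φ e2 e3).real 0 (env θ v 0 0))
    (h2 : ∀ θ v : ℝ, 0 ≤ θ → θ ≤ 1 → 0 ≤ v → v ≤ 1 → 0 ≤ (A2 c' φ e2 e3).real 0 (env θ v 0 0))
    (w π : ℝ) (hπ : 0 ≤ π) (hw : 1 - cv c ≤ w) (hw' : w ≤ 1 + cv c') (hπw : π ≤ w ^ 3)
    (hπw' : 1 ≤ w → π * w ^ 2 ≤ 1) : 0 ≤ ptR φ e2 e3 w π (π / w ^ 3) := by
  have hw0 : 0 < w := by linarith
  rcases le_total w 1 with hw1 | hw1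
  · have := h1 (π / w ^ 3) ((1 - w) / cv c) (by positivity)
      ((div_le_one (by positivity)).2 hπw) (div_nonneg (by linarith) hc.le)
      ((div_le_one hc).2 (by linarith))
    rw [A1, ptP_real] at this
    simp only [psub, one', PE.real_add, PE.real_mul, PE.real_neg, PE.real_q, ppow_real,
      PE.real_x, env] at this
    have e1 : ((1 : ℤ) : ℝ) / (((0 : ℕ) : ℝ) + 1)
        + -((c.1 : ℝ) / ((c.2 : ℝ) + 1) * ((1 - w) / cv c)) = w := by
      have : (c.1 : ℝ) / ((c.2 : ℝ) + 1) = cv c := rfl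
      rw [this]; field_simp; norm_num
    rw [e1] at this
    have e2' : π / w ^ 3 * w ^ 3 = π := by field_simp
    rw [e2'] at this
    exact this
  · have h := h2 (π * w ^ 2) ((w - 1) / cv c') (by positivity) (hπw' hw1)
      (div_nonneg (by linarith) hc'.le) ((div_le_one hc').2 (by linarith))
    simp only [A2, psub, one', PE.real_add, PE.real_mul, PE.real_neg, PE.real_q, ppow_real,
      PE.real_x, env, hhp_real] at h
    have e1 : (c'.1 : ℝ) / ((c'.2 : ℝ) + 1) * ((w - 1) / cv c') = w - 1 := by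
      have : (c'.1 : ℝ) / ((c'.2 : ℝ) + 1) = cv c' := rfl
      rw [this]; field_simp
    rw [e1] at h
    have e2' : ((1 : ℤ) : ℝ) / (((0 : ℕ) : ℝ) + 1) + (w - 1) = w := by norm_num
    rw [e2'] at h
    have w2 : w ^ 2 ≠ 0 := by positivity
    have w5 : w ^ 5 ≠ 0 := by positivity
    rw [hhr_eq _ _ _ w2, hhr_eq _ _ _ w2, hhr_eq _ _ _ w2, hhr_eq _ _ _ w2,
      hhr_eq _ _ _ w5, dl_length] at h
    have q1 : π * w ^ 2 / w ^ 2 = π := by field_simp
    have q2 : π * w ^ 2 / w ^ 5 = π / w ^ 3 := by field_simp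
    rw [q1, q2] at h
    set M := 5 * (φ.length - 1) - 1 with hM
    have p1 : w ^ (M - 2 * (φ.length - 1)) * (w ^ 2) ^ (φ.length - 1) = w ^ M := by
      rw [← pow_mul, ← pow_add]; congr 1; omega
    have p2 : w ^ (M - 2 * (e2.length - 1)) * (w ^ 2) ^ (e2.length - 1) = w ^ M := by
      rw [← pow_mul, ← pow_add]; congr 1; omega
    have p3 : w ^ (M - 2 * (e3.length - 1)) * (w ^ 2) ^ (e3.length - 1) = w ^ M := by
      rw [← pow_mul, ← pow_add]; congr 1; omega
    have p5 : (w ^ 5) ^ (φ.length - 1) = w ^ M * w := by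
      rw [← pow_mul, ← pow_succ]; congr 1; omega
    have key : 0 ≤ w ^ M * ptR φ e2 e3 w π (π / w ^ 3) := by
      have : w ^ M * ptR φ e2 e3 w π (π / w ^ 3)
          = w ^ (M - 2 * (φ.length - 1)) * ((w ^ 2) ^ (φ.length - 1) * hr φ π
              + (w - 1) * ((w ^ 2) ^ (φ.length - 1) * hr (dl 1 φ) π))
            + (w - 1) * (w - 1) * (w ^ (M - 2 * (e2.length - 1)) *
              ((w ^ 2) ^ (e2.length - 1) * hr e2 π)
              + (w - 1) * (w ^ (M - 2 * (e3.length - 1)) * ((w ^ 2) ^ (e3.length - 1) * hr e3 π)))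
            + -((w ^ 5) ^ (φ.length - 1) * hr φ (π / w ^ 3)) := by
        rw [ptR, p5]
        have r1 : w ^ (M - 2 * (φ.length - 1)) * ((w ^ 2) ^ (φ.length - 1) * hr φ π
              + (w - 1) * ((w ^ 2) ^ (φ.length - 1) * hr (dl 1 φ) π))
            = w ^ M * (hr φ π + (w - 1) * hr (dl 1 φ) π) := by rw [← p1]; ring
        have r2 : w ^ (M - 2 * (e2.length - 1)) * ((w ^ 2) ^ (e2.length - 1) * hr e2 π)
            = w ^ M * hr e2 π := by rw [← p2]; ring
        have r3 : w ^ (M - 2 * (e3.length - 1)) * ((w ^ 2) ^ (e3.length - 1) * hr e3 π)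
            = w ^ M * hr e3 π := by rw [← p3]; ring
        rw [r1, r2, r3]; ring
      rw [this]; exact h
    exact nonneg_of_mul_nonneg_right key (by positivity)

/-! ### the main form -/

/-- `-vm` part and bracket -/
noncomputable def HR (φ e2 e3 : CL) (P C Q K A : ℝ) : ℝ :=
  (1 - 3 * (P * Q) + 2 * (C * K)) *
      (A - (hr φ ((1 - 3 * P + 2 * C) * (1 - 3 * Q + 2 * K))
        + 2 * ((P * Q) * hr e2 ((1 - 3 * P + 2 * C) * (1 - 3 * Q + 2 * K))
          + (C * K) * hr e3 ((1 - 3 * P + 2 * C) * (1 - 3 * Q + 2 * K)))))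
    - 2 * (2 * ((P + Q) * (P * Q - C * K)) - (P * Q) - (P * Q) * (P * Q) + 2 * (C * K)
        - 2 * (C * (Q * (1 - Q)) + K * (P * (1 - P))))

def pofP (P C : PE) : PE := .add one' (.add (.mul (.q (-3) 0) P) (.mul (.q 2 0) C))

def HPx (φ e2 e3 : CL) (P C Q K A kap mu pi : PE) : PE :=
  psub (.mul (pofP kap mu)
      (psub A (.add (hp φ pi) (.mul (.q 2 0) (.add (.mul kap (hp e2 pi)) (.mul mu (hp e3 pi)))))))
    (.mul (.q 2 0)
      (.add (.mul (.q 2 0) (.add (.mul (.add P Q) (psub kap mu)) mu))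
        (.neg (.add kap (.add (.mul kap kap)
          (.mul (.q 2 0) (.add (.mul C (.mul Q (psub one' Q))) (.mul K (.mul P (psub one' P))))))))))

def HP' (φ e2 e3 : CL) (P C Q K A : PE) : PE :=
  HPx φ e2 e3 P C Q K A (.mul P Q) (.mul C K) (.mul (pofP P C) (pofP Q K))

theorem pofP_real (s : ℝ) (v : ℕ → ℝ) (P C : PE) :
    (pofP P C).real s v = 1 - 3 * P.real s v + 2 * C.real s v := by
  simp only [pofP, one', PE.real_add, PE.real_mul, PE.real_q]
  norm_num
  ring

theorem HP'_real (s : ℝ) (v : ℕ → ℝ) (φ e2 e3 : CL) (P C Q K A : PE) :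
    (HP' φ e2 e3 P C Q K A).real s v
      = HR φ e2 e3 (P.real s v) (C.real s v) (Q.real s v) (K.real s v) (A.real s v) := by
  simp only [HP', HPx, psub, one', PE.real_add, PE.real_mul, PE.real_neg, PE.real_q, hp_real,
    pofP_real, HR]
  generalize hr φ _ = a
  generalize hr e2 _ = b
  generalize hr e3 _ = c
  norm_num
  ring

end Vale.Agent.P154
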