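import Vale.Agent.P154.Merge2

/-! Expressions for the certificates and bounds on functionals. -/

open scoped BigOperators

namespace Vale.Agent.P154

/-- polynomial in `P` and `C`: `∑ C^j l_j(P)` -/
noncomputable def h2R : List CL → ℝ → ℝ → ℝ
  | [], _, _ => 0
  | c :: l, P, C => hr c P + C * h2R l P C

def h2P : List CL → PE → PE → PE
  | [], _, _ => .q 0 0
  | [c], P, _ => hp c P
  | c :: l, P, C => .add (hp c P) (.mul C (h2P l P C))

theorem h2P_real (s : ℝ) (v : ℕ → ℝ) (l : List CL) (P C : PE) :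
    (h2P l P C).real s v = h2R l (P.real s v) (C.real s v) := by
  induction l with
  | nil => simp [h2P, h2R]
  | cons c l ih =>
    cases l with
    | nil => simp [h2P, h2R, hp_real]
    | cons c' l' =>
      simp only [h2P] at ih ⊢
      rw [h2R, PE.real_add, PE.real_mul, ih, hp_real]

/-- sum of a list of polynomials -/
noncomputable def h2sR : List (List CL) → ℝ → ℝ → ℝ
  | [], _, _ => 0
  | p :: l, P, C => h2R p P C + h2sR l P C

def h2sP : List (List CL) → PE → PE → PE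
  | [], _, _ => .q 0 0
  | p :: l, P, C => .add (h2P p P C) (h2sP l P C)

theorem h2sP_real (s : ℝ) (v : ℕ → ℝ) (l : List (List CL)) (P C : PE) :
    (h2sP l P C).real s v = h2sR l (P.real s v) (C.real s v) := by
  induction l with
  | nil => simp [h2sP, h2sR]
  | cons c l ih => rw [h2sP, h2sR, PE.real_add, h2P_real, ih]

/-- balancing term -/
noncomputable def balR (j : ℕ) (st mu h0 h1 : ℝ) : ℝ :=
  match j with
  | 0 => st * h0
  | 1 => (st * h1 + (st - mu) * h0) / 2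
  | _ => (st - mu) * h1

def balP (j : ℕ) (st mu h0 h1 : PE) : PE :=
  match j with
  | 0 => .mul st h0
  | 1 => .mul (.q 1 1) (.add (.mul st h1) (.mul (psub st mu) h0))
  | _ => .mul (psub st mu) h1

theorem balP_real (s : ℝ) (v : ℕ → ℝ) (j : ℕ) (st mu h0 h1 : PE) :
    (balP j st mu h0 h1).real s v
      = balR j (st.real s v) (mu.real s v) (h0.real s v) (h1.real s v) := by
  unfold balP balR
  split
  · simp
  · simp only [psub, PE.real_mul, PE.real_add, PE.real_neg, PE.real_q]; norm_num; ring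
  · simp only [psub, PE.real_mul, PE.real_add, PE.real_neg]; ring

theorem bal_balR (κ μ : ℝ) (j : ℕ) (a b x h0 h1 : ℝ) :
    bal κ μ j (b * x) b (a * h0) (a * h1) = a * b * balR j (κ * x) μ h0 h1 := by
  rcases j with _ | _ | j
  · simp only [bal, balR]; ring
  · simp only [bal, balR]; ring
  · simp only [bal, balR]; ring

/-! ### symmetry of functionals -/

theorem hom_rot (g : ℝ → ℝ → ℝ) (x y z : ℝ) : hom g y z x = hom g x y z := by
  unfold hom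
  rw [ms_rot]
  have e1 : Pf (y / ms x y z) (z / ms x y z) (x / ms x y z)
      = Pf (x / ms x y z) (y / ms x y z) (z / ms x y z) := by unfold Pf; ring
  have e2 : Cf (y / ms x y z) (z / ms x y z) (x / ms x y z)
      = Cf (x / ms x y z) (y / ms x y z) (z / ms x y z) := by unfold Cf Pf; ring
  rw [e1, e2]

theorem hom_sw (g : ℝ → ℝ → ℝ) (x y z : ℝ) : hom g x z y = hom g x y z := by
  unfold hom
  rw [ms_sw]
  have e1 : Pf (x / ms x y z) (z / ms x y z) (y / ms x y z)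
      = Pf (x / ms x y z) (y / ms x y z) (z / ms x y z) := by unfold Pf; ring
  have e2 : Cf (x / ms x y z) (z / ms x y z) (y / ms x y z)
      = Cf (x / ms x y z) (y / ms x y z) (z / ms x y z) := by unfold Cf Pf; ring
  rw [e1, e2]

theorem six_hom (g : ℝ → ℝ → ℝ) (lam m b0 b1 b2 : ℝ) :
    six (fun x y z => hom g (1 * ns lam m x) (1 * ns lam m y) (1 * ns lam m z)) b0 b1 b2
      = 6 * hom g (ns lam m b0) (ns lam m b1) (ns lam m b2) := by
  unfold six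
  simp only [one_mul]
  set x := ns lam m b0
  set y := ns lam m b1
  set z := ns lam m b2
  have r1 : hom g y z x = hom g x y z := hom_rot g x y z
  have r2 : hom g z x y = hom g x y z := by rw [hom_rot g y z x, hom_rot g x y z]
  have r3 : hom g x z y = hom g x y z := hom_sw g x y z
  have r4 : hom g z y x = hom g x y z := by rw [hom_rot g x z y, hom_sw g x y z]
  have r5 : hom g y x z = hom g x y z := by rw [hom_sw g y z x, hom_rot g x y z]
  rw [r1, r2, r3, r4, r5]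
  ring

/-! ### unit vectors -/

theorem Pn_range {a0 a1 a2 : ℝ} (h0 : 0 ≤ a0) (h1 : 0 ≤ a1) (h2 : 0 ≤ a2)
    (h : 0 < ms a0 a1 a2) : ∃ ρ s : ℝ, 0 ≤ ρ ∧ ρ ≤ 1 ∧ 0 ≤ s ∧ s ≤ 1 ∧
      Pn a0 a1 a2 = ρ * ρ * (1 + -3 / 4 * s) ∧ Cn a0 a1 a2 = ρ * (ρ * ρ) * (1 + -9 / 8 * s) :=
  param _ _ _ (div_nonneg h0 h.le) (div_nonneg h1 h.le) (div_nonneg h2 h.le) (normalize h)

theorem pn_range {a0 a1 a2 : ℝ} (h0 : 0 ≤ a0) (h1 : 0 ≤ a1) (h2 : 0 ≤ a2)
    (h : 0 < ms a0 a1 a2) : 0 ≤ 1 - 3 * Pn a0 a1 a2 + 2 * Cn a0 a1 a2 ∧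
      1 - 3 * Pn a0 a1 a2 + 2 * Cn a0 a1 a2 ≤ 1 := by
  unfold Pn Cn
  rw [pC]
  have p0 := div_nonneg h0 h.le
  have p1 := div_nonneg h1 h.le
  have p2 := div_nonneg h2 h.le
  refine ⟨by positivity, ?_⟩
  have := amgm3 _ _ _ p0 p1 p2
  rw [normalize h] at this
  norm_num at this
  exact this

theorem PC_bd (ρ s : ℝ) (a1 : 0 ≤ ρ) (a2 : ρ ≤ 1) (a3 : 0 ≤ s) (a4 : s ≤ 1) :
    0 ≤ ρ * ρ * (1 + -3 / 4 * s) ∧ ρ * ρ * (1 + -3 / 4 * s) ≤ 1 ∧
      |ρ * (ρ * ρ) * (1 + -9 / 8 * s)| ≤ 1 := by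
  have q1 : ρ * ρ ≤ 1 := by nlinarith
  have q0 : 0 ≤ ρ * ρ := by positivity
  have q2 : ρ * (ρ * ρ) ≤ 1 := by nlinarith
  have q3 : 0 ≤ ρ * (ρ * ρ) := by positivity
  refine ⟨mul_nonneg q0 (by linarith), by nlinarith, ?_⟩
  rw [abs_mul, abs_of_nonneg q3]
  have : |1 + -9 / 8 * s| ≤ 1 := by rw [abs_le]; constructor <;> linarith
  nlinarith [abs_nonneg (1 + -9 / 8 * s)]

/-- bound for a potential -/
noncomputable def nW (D : NP) : ℝ := nrm D.A + nrm D.B + nrm D.E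

theorem gR_abs (D : NP) (P C : ℝ) (h0 : 0 ≤ P) (h1 : P ≤ 1) (p0 : 0 ≤ 1 - 3 * P + 2 * C)
    (p1 : 1 - 3 * P + 2 * C ≤ 1) : |gR D P C| ≤ nW D := by
  unfold gR wR nW
  have a := hr_abs D.A _ p0 p1
  have b := hr_abs D.B _ p0 p1
  have e := hr_abs D.E _ p0 p1
  set x := hr D.A (1 - 3 * P + 2 * C)
  set y := hr D.B (1 - 3 * P + 2 * C)
  set z := hr D.E (1 - 3 * P + 2 * C)
  have i1 : |P * z| ≤ nrm D.E := by
    rw [abs_mul, abs_of_nonneg h0]
    nlinarith [abs_nonneg z, nrm_nonneg D.E]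
  have i2 : |P * (y + P * z)| ≤ nrm D.B + nrm D.E := by
    rw [abs_mul, abs_of_nonneg h0]
    have := abs_add_le y (P * z)
    nlinarith [abs_nonneg (y + P * z), nrm_nonneg D.E, nrm_nonneg D.B]
  have := abs_add_le x (P * (y + P * z))
  linarith

theorem hom_gR_abs (D : NP) (a0 a1 a2 : ℝ) (h0 : 0 ≤ a0) (h1 : 0 ≤ a1) (h2 : 0 ≤ a2) :
    |hom (gR D) a0 a1 a2| ≤ nW D * ms a0 a1 a2 := by
  rcases (ms_nonneg h0 h1 h2).eq_or_lt with h | h
  · obtain ⟨z0, z1, z2⟩ := ms_zero h0 h1 h2 h.symm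
    subst z0; subst z1; subst z2
    rw [hom_zero, ← h]; simp
  · rw [hom_eq, abs_mul, abs_of_pos h, mul_comm]
    obtain ⟨ρ, s, a1, a2, a3, a4, e1, e2⟩ := Pn_range h0 h1 h2 h
    obtain ⟨p0, p1⟩ := pn_range h0 h1 h2 h
    obtain ⟨b1, b2, _⟩ := PC_bd ρ s a1 a2 a3 a4
    rw [← e1] at b1 b2
    exact mul_le_mul_of_nonneg_right (gR_abs D _ _ b1 b2 p0 p1) h.le

/-- bound for a polynomial -/
noncomputable def n2 : List CL → ℝ
  | [] => 0
  | c :: l => nrm c + n2 l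

theorem n2_nonneg (l : List CL) : 0 ≤ n2 l := by
  induction l with
  | nil => exact le_rfl
  | cons c l ih => rw [n2]; have := nrm_nonneg c; linarith

theorem h2R_abs (l : List CL) (P C : ℝ) (h0 : 0 ≤ P) (h1 : P ≤ 1) (hC : |C| ≤ 1) :
    |h2R l P C| ≤ n2 l := by
  induction l with
  | nil => simp [h2R, n2]
  | cons c l ih =>
    rw [h2R, n2]
    have a := hr_abs c P h0 h1
    have b := abs_add_le (hr c P) (C * h2R l P C)
    rw [abs_mul] at b
    have := n2_nonneg l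
    nlinarith [abs_nonneg C, abs_nonneg (h2R l P C)]

theorem hom_h2R_abs (l : List CL) (a0 a1 a2 : ℝ) (h0 : 0 ≤ a0) (h1 : 0 ≤ a1) (h2 : 0 ≤ a2) :
    |hom (h2R l) a0 a1 a2| ≤ n2 l * ms a0 a1 a2 := by
  rcases (ms_nonneg h0 h1 h2).eq_or_lt with h | h
  · obtain ⟨z0, z1, z2⟩ := ms_zero h0 h1 h2 h.symm
    subst z0; subst z1; subst z2
    rw [hom_zero, ← h]; simp
  · rw [hom_eq, abs_mul, abs_of_pos h, mul_comm]
    obtain ⟨ρ, s, a1, a2, a3, a4, e1, e2⟩ := Pn_range h0 h1 h2 h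
    obtain ⟨b1, b2, b3⟩ := PC_bd ρ s a1 a2 a3 a4
    rw [← e1] at b1 b2
    rw [← e2] at b3
    exact mul_le_mul_of_nonneg_right (h2R_abs l _ _ b1 b2 b3) h.le

/-! ### certificate expressions -/

section
def Px : PE := Pq (.x 0) (.x 2)
def Cx : PE := Cq (.x 0) (.x 2)
def Pz : PE := Pq (.x 1) (.x 3)
def Cz : PE := Cq (.x 1) (.x 3)

/-- step of the chain -/
def HE (j : ℕ) (D' D : NP) (L2 L3 : ℤ × ℕ) (psi h0 h1 : List CL) : PE :=
  psub (.add (wP D' Px (pofP Px Cx)) (.add (.mul (.q L2.1 L2.2) (h2P psi Pz Cz))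
    (balP j (.mul (.q L2.1 L2.2) Pz) (.q L2.1 L2.2) (h2P h0 Px Cx) (h2P h1 Px Cx))))
    (avgP D Px Cx (.mul (.q L2.1 L2.2) Pz) (.mul (.q L3.1 L3.2) Cz))

/-- first step of the chain -/
def BE (j : ℕ) (D : NP) (L2 L3 w0 : ℤ × ℕ) (psi h0 h1 : List CL) : PE :=
  psub (.add (.q w0.1 w0.2) (.add (.mul (.q L2.1 L2.2) (h2P psi Px Cx))
    (balP j (.mul (.q L2.1 L2.2) Px) (.q L2.1 L2.2) (h2P h0 (.q 0 0) (.q 0 0))
      (h2P h1 (.q 0 0) (.q 0 0)))))
    (wP D (.mul (.q L2.1 L2.2) Px) (pofP (.mul (.q L2.1 L2.2) Px) (.mul (.q L3.1 L3.2) Cx)))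

/-- closing the chain -/
def SE (D : NP) (w f : ℤ × ℕ) (psis : List (List CL)) : PE :=
  psub (.mul (.mul (.x 0) (.x 0)) (psub (wP D (Pq (.x 1) (.x 2)) (pofP (Pq (.x 1) (.x 2))
    (Cq (.x 1) (.x 2)))) (.q w.1 w.2)))
    (.mul (.q f.1 f.2) (h2sP psis (.mul (.mul (.x 0) (.x 0)) (Pq (.x 1) (.x 2)))
      (.mul (.mul (.x 0) (.mul (.x 0) (.x 0))) (Cq (.x 1) (.x 2)))))

def RE (D : NP) (w : ℤ × ℕ) : PE := psub (wP D Px (pofP Px Cx)) (.q w.1 w.2)
end

end Vale.Agent.P154
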