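import Vale.Agent.P154.Forms

/-! Polynomial forms for potentials `2P + f(p) + P g(p) + P² h(p)`. -/

namespace Vale.Agent.P154

/-- right minus left of
`w^k2 φ(π/w³) ≤ w^k1 (φ(π) + r (a φ - 3 π φ')(π) + r² e2(π) + r³ e3(π) + r⁴ e4(π))`,
`a = k2 - k1`, `r = w - 1` -/
noncomputable def pt4R (k1 k2 : ℕ) (φ e2 e3 e4 : CL) (w π θ : ℝ) : ℝ :=
  w ^ k1 * (hr φ π + (w - 1) * (hr (dl ((k2 : ℤ) - k1) φ) π
    + (w - 1) * (hr e2 π + (w - 1) * (hr e3 π + (w - 1) * hr e4 π)))) - w ^ k2 * hr φ θ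

def pt4P (k1 k2 : ℕ) (φ e2 e3 e4 : CL) (w π θ : PE) : PE :=
  psub (.mul (ppow w k1) (.add (hp φ π) (.mul (psub w one')
    (.add (hp (dl ((k2 : ℤ) - k1) φ) π) (.mul (psub w one')
      (.add (hp e2 π) (.mul (psub w one') (.add (hp e3 π) (.mul (psub w one') (hp e4 π))))))))))
    (.mul (ppow w k2) (hp φ θ))

theorem pt4P_real (s : ℝ) (v : ℕ → ℝ) (k1 k2 : ℕ) (φ e2 e3 e4 : CL) (w π θ : PE) :
    (pt4P k1 k2 φ e2 e3 e4 w π θ).real s v
      = pt4R k1 k2 φ e2 e3 e4 (w.real s v) (π.real s v) (θ.real s v) := by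
  simp only [pt4P, pt4R, psub, one', PE.real_add, PE.real_mul, PE.real_neg, PE.real_q, hp_real,
    ppow_real]
  norm_num
  ring

/-- expression for `w ≤ 1`, `w = 1 - c v`, `π = θ w³` -/
def B1 (k1 k2 : ℕ) (c : ℤ × ℕ) (φ e2 e3 e4 : CL) : PE :=
  pt4P k1 k2 φ e2 e3 e4 (psub one' (.mul (.q c.1 c.2) (.x 1)))
    (.mul (.x 0) (ppow (psub one' (.mul (.q c.1 c.2) (.x 1))) 3)) (.x 0)

/-- one term `w^(M + k1 - 2 (len - 1)) hhp l` -/
def bterm (M : ℕ) (l : CL) (w : PE) : PE :=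
  .mul (ppow w (M - 2 * (l.length - 1))) (hhp l (.x 0) (ppow w 2))

/-- expression for `w ≥ 1`, `w = 1 + c v`, `π = θ / w²`, multiplied by `w^(5 (len-1) - k2)` -/
def B2 (k1 k2 : ℕ) (c : ℤ × ℕ) (φ e2 e3 e4 : CL) : PE :=
  let w : PE := .add one' (.mul (.q c.1 c.2) (.x 1))
  let r : PE := .mul (.q c.1 c.2) (.x 1)
  let M := 5 * (φ.length - 1) - k2 + k1
  psub (.add (bterm M φ w) (.mul r (.add (bterm M (dl ((k2 : ℤ) - k1) φ) w)
    (.mul r (.add (bterm M e2 w) (.mul r (.add (bterm M e3 w) (.mul r (bterm M e4 w)))))))))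
    (hhp φ (.x 0) (ppow w 5))

/-- pointwise bound from the two checks -/
theorem pointwise4 (k1 k2 : ℕ) (φ e2 e3 e4 : CL) (c c' : ℤ × ℕ) (hc : 0 < cv c)
    (hc' : 0 < cv c') (hc1 : cv c < 1) (hk : k2 ≤ 5 * (φ.length - 1))
    (hL2 : 2 * (e2.length - 1) ≤ 5 * (φ.length - 1) - k2 + k1)
    (hL3 : 2 * (e3.length - 1) ≤ 5 * (φ.length - 1) - k2 + k1)
    (hL4 : 2 * (e4.length - 1) ≤ 5 * (φ.length - 1) - k2 + k1)
    (hL : 2 * (φ.length - 1) ≤ 5 * (φ.length - 1) - k2 + k1)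
    (h1 : ∀ θ v : ℝ, 0 ≤ θ → θ ≤ 1 → 0 ≤ v → v ≤ 1 →
      0 ≤ (B1 k1 k2 c φ e2 e3 e4).real 0 (env θ v 0 0))
    (h2 : ∀ θ v : ℝ, 0 ≤ θ → θ ≤ 1 → 0 ≤ v → v ≤ 1 →
      0 ≤ (B2 k1 k2 c' φ e2 e3 e4).real 0 (env θ v 0 0))
    (w π : ℝ) (hπ : 0 ≤ π) (hw : 1 - cv c ≤ w) (hw' : w ≤ 1 + cv c') (hπw : π ≤ w ^ 3)
    (hπw' : 1 ≤ w → π * w ^ 2 ≤ 1) : 0 ≤ pt4R k1 k2 φ e2 e3 e4 w π (π / w ^ 3) := by
  have hw0 : 0 < w := by linarith
  rcases le_total w 1 with hw1 | hw1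
  · have := h1 (π / w ^ 3) ((1 - w) / cv c) (by positivity)
      ((div_le_one (by positivity)).2 hπw) (div_nonneg (by linarith) hc.le)
      ((div_le_one hc).2 (by linarith))
    rw [B1, pt4P_real] at this
    simp only [psub, one', PE.real_add, PE.real_mul, PE.real_neg, PE.real_q, ppow_real,
      PE.real_x, env] at this
    have e1 : ((1 : ℤ) : ℝ) / (((0 : ℕ) : ℝ) + 1)
        + -((c.1 : ℝ) / ((c.2 : ℝ) + 1) * ((1 - w) / cv c)) = w := by
      have : (c.1 : ℝ) / ((c.2 : ℝ) + 1) = cv c := rfl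
      rw [this]; field_simp; norm_num
    rw [e1] at this
    have e2' : π / w ^ 3 * w ^ 3 = π := by field_simp
    rw [e2'] at this
    exact this
  · have h := h2 (π * w ^ 2) ((w - 1) / cv c') (by positivity) (hπw' hw1)
      (div_nonneg (by linarith) hc'.le) ((div_le_one hc').2 (by linarith))
    simp only [B2, bterm, psub, one', PE.real_add, PE.real_mul, PE.real_neg, PE.real_q, ppow_real,
      PE.real_x, env, hhp_real] at h
    have e1 : (c'.1 : ℝ) / ((c'.2 : ℝ) + 1) * ((w - 1) / cv c') = w - 1 := by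
      have : (c'.1 : ℝ) / ((c'.2 : ℝ) + 1) = cv c' := rfl
      rw [this]; field_simp
    rw [e1] at h
    have e2' : ((1 : ℤ) : ℝ) / (((0 : ℕ) : ℝ) + 1) + (w - 1) = w := by norm_num
    rw [e2'] at h
    have w2 : w ^ 2 ≠ 0 := by positivity
    have w5 : w ^ 5 ≠ 0 := by positivity
    rw [hhr_eq _ _ _ w2, hhr_eq _ _ _ w2, hhr_eq _ _ _ w2, hhr_eq _ _ _ w2, hhr_eq _ _ _ w2,
      hhr_eq _ _ _ w5, dl_length] at h
    have q1 : π * w ^ 2 / w ^ 2 = π := by field_simp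
    have q2 : π * w ^ 2 / w ^ 5 = π / w ^ 3 := by field_simp
    rw [q1, q2] at h
    set M := 5 * (φ.length - 1) - k2 with hM
    have p : ∀ n : ℕ, 2 * n ≤ M + k1 → w ^ (M + k1 - 2 * n) * (w ^ 2) ^ n = w ^ M * w ^ k1 := by
      intro n hn
      rw [← pow_mul, ← pow_add, ← pow_add]; congr 1; omega
    have p1 := p _ hL
    have p2 := p _ hL2
    have p3 := p _ hL3
    have p4 := p _ hL4
    have p5 : (w ^ 5) ^ (φ.length - 1) = w ^ M * w ^ k2 := by
      rw [← pow_mul, ← pow_add]; congr 1; omega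
    have key : 0 ≤ w ^ M * pt4R k1 k2 φ e2 e3 e4 w π (π / w ^ 3) := by
      refine le_of_le_of_eq h ?_
      rw [pt4R, p5]
      have r1 : ∀ x : ℝ, w ^ (M + k1 - 2 * (φ.length - 1)) * ((w ^ 2) ^ (φ.length - 1) * x)
          = w ^ M * w ^ k1 * x := by intro x; rw [← p1]; ring
      have r2 : ∀ x : ℝ, w ^ (M + k1 - 2 * (e2.length - 1)) * ((w ^ 2) ^ (e2.length - 1) * x)
          = w ^ M * w ^ k1 * x := by intro x; rw [← p2]; ring
      have r3 : ∀ x : ℝ, w ^ (M + k1 - 2 * (e3.length - 1)) * ((w ^ 2) ^ (e3.length - 1) * x)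
          = w ^ M * w ^ k1 * x := by intro x; rw [← p3]; ring
      have r4 : ∀ x : ℝ, w ^ (M + k1 - 2 * (e4.length - 1)) * ((w ^ 2) ^ (e4.length - 1) * x)
          = w ^ M * w ^ k1 * x := by intro x; rw [← p4]; ring
      rw [r1, r1, r2, r3, r4]
      ring
    exact nonneg_of_mul_nonneg_right key (by positivity)

/-- averages of powers of `r`, of `N r^j` and of `N² r^j` -/
structure Mom (α : Type) where
  r2 : α
  r3 : α
  r4 : α
  n0 : α
  n1 : α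
  n2 : α
  n3 : α
  n4 : α
  m0 : α
  m1 : α
  m2 : α
  m3 : α
  m4 : α

/-- the moments as real polynomials -/
def momR (P C Q K : ℝ) : Mom ℝ :=
  let k := P * Q
  let μ := C * K
  let S := (P * P * P - C * C) * (Q * Q * Q - K * K)
  let T1 := Q * C + P * K
  let T2 := P * (P * K) + Q * (Q * C)
  let T3 := Q * Q * (C * C) + P * P * (K * K)
  let T4 := P * P * (P * P) * (K * K) + Q * Q * (Q * Q) * (C * C)
  let r2 := 2 * k
  let r3 := 2 * μ
  let r4 := 6 * (k * k)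
  let r5 := 10 * (k * μ)
  let r6 := 18 * (k * (k * k)) + 4 * (μ * μ + S)
  let a1 := 2 * T1
  let a2 := 2 * T2
  let a3 := 6 * (k * T1)
  let a4 := 4 * (μ * T1) + 6 * (k * T2)
  let a5 := 18 * (k * k * T1) + 4 * (μ * T2)
  let c0 := 2 * (k * (P + Q)) + 4 * μ
  let c1 := 2 * ((P + Q) * μ) + 4 * (k * k)
  let c2 := 4 * T3 + 2 * (k * k * (P + Q)) + 12 * (k * μ)
  let c3 := 10 * (k * ((P + Q) * μ)) + 12 * (k * (k * k)) + 8 * (μ * μ - S)
  let c4 := 16 * (k * T3) + 4 * T4 + 2 * (k * (k * k) * (P + Q)) + 44 * (k * k * μ)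
  let n := P + Q + k
  { r2 := r2, r3 := r3, r4 := r4,
    n0 := n, n1 := r2 + a1, n2 := n * r2 + (r3 + a2), n3 := n * r3 + (r4 + a3),
    n4 := n * r4 + (r5 + a4),
    m0 := n * n + (r2 + (2 * a1 + c0)),
    m1 := 2 * (n * (r2 + a1)) + (r3 + (2 * a2 + c1)),
    m2 := n * (n * r2) + (2 * (n * (r3 + a2)) + (r4 + (2 * a3 + c2))),
    m3 := n * (n * r3) + (2 * (n * (r4 + a3)) + (r5 + (2 * a4 + c3))),
    m4 := n * (n * r4) + (2 * (n * (r5 + a4)) + (r6 + (2 * a5 + c4))) }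

def two (u : PE) : PE := .mul (.q 2 0) u
def sc (n : ℤ) (u : PE) : PE := .mul (.q n 0) u

/-- the moments as expressions -/
def momP (P C Q K : PE) : Mom PE :=
  let k : PE := .mul P Q
  let μ : PE := .mul C K
  let S : PE := .mul (psub (.mul (.mul P P) P) (.mul C C)) (psub (.mul (.mul Q Q) Q) (.mul K K))
  let T1 : PE := .add (.mul Q C) (.mul P K)
  let T2 : PE := .add (.mul P (.mul P K)) (.mul Q (.mul Q C))
  let T3 : PE := .add (.mul (.mul Q Q) (.mul C C)) (.mul (.mul P P) (.mul K K))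
  let T4 : PE := .add (.mul (.mul (.mul P P) (.mul P P)) (.mul K K))
    (.mul (.mul (.mul Q Q) (.mul Q Q)) (.mul C C))
  let r2 := sc 2 k
  let r3 := sc 2 μ
  let r4 := sc 6 (.mul k k)
  let r5 := sc 10 (.mul k μ)
  let r6 : PE := .add (sc 18 (.mul k (.mul k k))) (sc 4 (.add (.mul μ μ) S))
  let a1 := sc 2 T1
  let a2 := sc 2 T2
  let a3 := sc 6 (.mul k T1)
  let a4 : PE := .add (sc 4 (.mul μ T1)) (sc 6 (.mul k T2))
  let a5 : PE := .add (sc 18 (.mul (.mul k k) T1)) (sc 4 (.mul μ T2))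
  let c0 : PE := .add (sc 2 (.mul k (.add P Q))) (sc 4 μ)
  let c1 : PE := .add (sc 2 (.mul (.add P Q) μ)) (sc 4 (.mul k k))
  let c2 : PE := .add (.add (sc 4 T3) (sc 2 (.mul (.mul k k) (.add P Q)))) (sc 12 (.mul k μ))
  let c3 : PE := .add (.add (sc 10 (.mul k (.mul (.add P Q) μ))) (sc 12 (.mul k (.mul k k))))
    (sc 8 (psub (.mul μ μ) S))
  let c4 : PE := .add (.add (.add (sc 16 (.mul k T3)) (sc 4 T4))
    (sc 2 (.mul (.mul k (.mul k k)) (.add P Q)))) (sc 44 (.mul (.mul k k) μ))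
  let n : PE := .add (.add P Q) k
  { r2 := r2, r3 := r3, r4 := r4,
    n0 := n, n1 := .add r2 a1, n2 := .add (.mul n r2) (.add r3 a2),
    n3 := .add (.mul n r3) (.add r4 a3), n4 := .add (.mul n r4) (.add r5 a4),
    m0 := .add (.mul n n) (.add r2 (.add (sc 2 a1) c0)),
    m1 := .add (sc 2 (.mul n (.add r2 a1))) (.add r3 (.add (sc 2 a2) c1)),
    m2 := .add (.mul n (.mul n r2)) (.add (sc 2 (.mul n (.add r3 a2)))
      (.add r4 (.add (sc 2 a3) c2))),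
    m3 := .add (.mul n (.mul n r3)) (.add (sc 2 (.mul n (.add r4 a3)))
      (.add r5 (.add (sc 2 a4) c3))),
    m4 := .add (.mul n (.mul n r4)) (.add (sc 2 (.mul n (.add r5 a4)))
      (.add r6 (.add (sc 2 a5) c4))) }

/-- the data of a potential together with its pointwise bounds -/
structure Pot where
  f : CL
  f2 : CL
  f3 : CL
  f4 : CL
  g : CL
  g2 : CL
  g3 : CL
  g4 : CL
  h : CL
  h2 : CL
  h3 : CL
  h4 : CL

/-- the quartic part of the potential -/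
noncomputable def psiR (D : Pot) (P p : ℝ) : ℝ := hr D.f p + P * (hr D.g p + P * hr D.h p)

def psiP (D : Pot) (P p : PE) : PE := .add (hp D.f p) (.mul P (.add (hp D.g p) (.mul P (hp D.h p))))

theorem psiP_real (s : ℝ) (v : ℕ → ℝ) (D : Pot) (P p : PE) :
    (psiP D P p).real s v = psiR D (P.real s v) (p.real s v) := by
  simp only [psiP, psiR, PE.real_add, PE.real_mul, hp_real]

/-- upper bound for the average of the quartic part after merging -/
noncomputable def avR (D : Pot) (M : Mom ℝ) (π : ℝ) : ℝ :=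
  (hr D.f π + (M.r2 * hr D.f2 π + (M.r3 * hr D.f3 π + M.r4 * hr D.f4 π)))
  + ((M.n0 * hr D.g π + (M.n1 * hr (dl (-1) D.g) π + (M.n2 * hr D.g2 π
      + (M.n3 * hr D.g3 π + M.n4 * hr D.g4 π))))
  + (M.m0 * hr D.h π + (M.m1 * hr (dl (-3) D.h) π + (M.m2 * hr D.h2 π
      + (M.m3 * hr D.h3 π + M.m4 * hr D.h4 π)))))

def avP (D : Pot) (M : Mom PE) (π : PE) : PE :=
  .add (.add (hp D.f π) (.add (.mul M.r2 (hp D.f2 π)) (.add (.mul M.r3 (hp D.f3 π))
      (.mul M.r4 (hp D.f4 π)))))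
  (.add (.add (.mul M.n0 (hp D.g π)) (.add (.mul M.n1 (hp (dl (-1) D.g) π))
      (.add (.mul M.n2 (hp D.g2 π)) (.add (.mul M.n3 (hp D.g3 π)) (.mul M.n4 (hp D.g4 π))))))
  (.add (.mul M.m0 (hp D.h π)) (.add (.mul M.m1 (hp (dl (-3) D.h) π))
      (.add (.mul M.m2 (hp D.h2 π)) (.add (.mul M.m3 (hp D.h3 π)) (.mul M.m4 (hp D.h4 π)))))))

noncomputable def HR4 (D : Pot) (P C Q K A : ℝ) : ℝ :=
  (1 - 3 * (P * Q) + 2 * (C * K)) *
      (A - avR D (momR P C Q K) ((1 - 3 * P + 2 * C) * (1 - 3 * Q + 2 * K)))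
    - 2 * (2 * ((P + Q) * (P * Q - C * K)) - (P * Q) - (P * Q) * (P * Q) + 2 * (C * K)
        - 2 * (C * (Q * (1 - Q)) + K * (P * (1 - P))))

def HP4 (D : Pot) (P C Q K A : PE) : PE :=
  let kap : PE := .mul P Q
  let mu : PE := .mul C K
  psub (.mul (pofP kap mu) (psub A (avP D (momP P C Q K) (.mul (pofP P C) (pofP Q K)))))
    (.mul (.q 2 0)
      (.add (.mul (.q 2 0) (.add (.mul (.add P Q) (psub kap mu)) mu))
        (.neg (.add kap (.add (.mul kap kap)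
          (.mul (.q 2 0) (.add (.mul C (.mul Q (psub one' Q))) (.mul K (.mul P (psub one' P))))))))))

theorem avP_real (s : ℝ) (v : ℕ → ℝ) (D : Pot) (P C Q K π : PE) :
    (avP D (momP P C Q K) π).real s v
      = avR D (momR (P.real s v) (C.real s v) (Q.real s v) (K.real s v)) (π.real s v) := by
  simp only [avP, avR, momP, momR, sc, psub, PE.real_add, PE.real_mul, PE.real_neg, PE.real_q,
    hp_real]
  norm_num [sub_eq_add_neg]

theorem HP4_real (s : ℝ) (v : ℕ → ℝ) (D : Pot) (P C Q K A : PE) :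
    (HP4 D P C Q K A).real s v
      = HR4 D (P.real s v) (C.real s v) (Q.real s v) (K.real s v) (A.real s v) := by
  simp only [HP4, psub, one', PE.real_add, PE.real_mul, PE.real_neg, PE.real_q, pofP_real,
    HR4, avP_real]
  norm_num
  ring

end Vale.Agent.P154
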