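import Vale.Agent.P154.Step

/-! Homogeneous form of the inequalities. -/

namespace Vale.Agent.P154

/-- the sum over the six rearrangements -/
def six (G : ℝ → ℝ → ℝ → ℝ) (b0 b1 b2 : ℝ) : ℝ :=
  G b0 b1 b2 + G b1 b2 b0 + G b2 b0 b1 + G b0 b2 b1 + G b2 b1 b0 + G b1 b0 b2

/-- mass -/
noncomputable def ms (a0 a1 a2 : ℝ) : ℝ := (a0 + a1 + a2) / 3

/-- homogeneous `P` -/
noncomputable def chi (a0 a1 a2 : ℝ) : ℝ :=
  ms a0 a1 a2 - ((a0 * a1 + a0 * a2 + a1 * a2) / 3) / ms a0 a1 a2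

theorem Ut_zero (φ : CL) : Ut φ 0 0 0 = 0 := by simp [Ut]

theorem Ut_smul (φ : CL) (t a0 a1 a2 : ℝ) (ht : t ≠ 0) :
    Ut φ (t * a0) (t * a1) (t * a2) = t * Ut φ a0 a1 a2 := by
  have e1 : (t * a0 + t * a1 + t * a2) / 3 = t * ((a0 + a1 + a2) / 3) := by ring
  have e2 : (t * a0 * (t * a1) + t * a0 * (t * a2) + t * a1 * (t * a2)) / 3
      = t * (t * ((a0 * a1 + a0 * a2 + a1 * a2) / 3)) := by ring
  have e3 : t * a0 * (t * a1) * (t * a2) / (t * ((a0 + a1 + a2) / 3)) ^ 3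
      = a0 * a1 * a2 / ((a0 + a1 + a2) / 3) ^ 3 := by
    have : t * a0 * (t * a1) * (t * a2) = t ^ 3 * (a0 * a1 * a2) := by ring
    rw [this, mul_pow, mul_div_mul_left _ _ (pow_ne_zero 3 ht)]
  unfold Ut
  rw [e1, e2, e3, mul_div_mul_left _ _ ht]
  ring

theorem Ut_unit (φ : CL) (q0 q1 q2 : ℝ) (h : q0 + q1 + q2 = 3) :
    Ut φ q0 q1 q2 = 2 * Pf q0 q1 q2 + hr φ (q0 * q1 * q2) := by
  unfold Ut Pf
  rw [h]
  norm_num
  ring

theorem chi_smul (t a0 a1 a2 : ℝ) (ht : t ≠ 0) :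
    chi (t * a0) (t * a1) (t * a2) = t * chi a0 a1 a2 := by
  have e1 : ms (t * a0) (t * a1) (t * a2) = t * ms a0 a1 a2 := by unfold ms; ring
  have e2 : (t * a0 * (t * a1) + t * a0 * (t * a2) + t * a1 * (t * a2)) / 3
      = t * (t * ((a0 * a1 + a0 * a2 + a1 * a2) / 3)) := by ring
  unfold chi
  rw [e1, e2, mul_div_mul_left _ _ ht]
  ring

theorem chi_unit (q0 q1 q2 : ℝ) (h : q0 + q1 + q2 = 3) : chi q0 q1 q2 = Pf q0 q1 q2 := by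
  unfold chi ms Pf
  rw [h]
  norm_num

theorem ms_zero {a0 a1 a2 : ℝ} (h0 : 0 ≤ a0) (h1 : 0 ≤ a1) (h2 : 0 ≤ a2)
    (h : ms a0 a1 a2 = 0) : a0 = 0 ∧ a1 = 0 ∧ a2 = 0 := by
  unfold ms at h
  refine ⟨?_, ?_, ?_⟩ <;> linarith

theorem ms_nonneg {a0 a1 a2 : ℝ} (h0 : 0 ≤ a0) (h1 : 0 ≤ a1) (h2 : 0 ≤ a2) :
    0 ≤ ms a0 a1 a2 := by unfold ms; positivity

/-- normalization -/
theorem normalize {a0 a1 a2 : ℝ} (h : 0 < ms a0 a1 a2) :
    a0 / ms a0 a1 a2 + a1 / ms a0 a1 a2 + a2 / ms a0 a1 a2 = 3 := by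
  unfold ms at h ⊢
  have h' : a0 + a1 + a2 ≠ 0 := by
    intro h0
    rw [h0] at h
    norm_num at h
  field_simp

/-- noise -/
noncomputable def ns (lam m a : ℝ) : ℝ := m + lam * (a - m)

theorem ns_zero (lam : ℝ) : ns lam 0 0 = 0 := by simp [ns]

theorem ns_norm (lam m a : ℝ) (hm : m ≠ 0) : ns lam m a = m * (1 + lam * (a / m - 1)) := by
  unfold ns; field_simp

theorem ms_ns (lam a0 a1 a2 : ℝ) :
    ms (ns lam (ms a0 a1 a2) a0) (ns lam (ms a0 a1 a2) a1) (ns lam (ms a0 a1 a2) a2)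
      = ms a0 a1 a2 := by
  unfold ns ms; ring

theorem ns_ns (l1 l2 m a : ℝ) : ns l1 m (ns l2 m a) = ns (l1 * l2) m a := by
  unfold ns; ring

theorem ns_nonneg (lam a0 a1 a2 : ℝ) (h0 : 0 ≤ a0) (h1 : 0 ≤ a1) (h2 : 0 ≤ a2)
    (hl : 0 ≤ lam) (hl1 : lam ≤ 1) : 0 ≤ ns lam (ms a0 a1 a2) a0 := by
  have := ms_nonneg h0 h1 h2
  have e : ns lam (ms a0 a1 a2) a0 = (1 - lam) * ms a0 a1 a2 + lam * a0 := by unfold ns; ring
  rw [e]
  have := mul_nonneg (sub_nonneg.2 hl1) this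
  positivity

theorem six_mul (G : ℝ → ℝ → ℝ → ℝ) (t b0 b1 b2 : ℝ) :
    six (fun x y z => t * G x y z) b0 b1 b2 = t * six G b0 b1 b2 := by
  unfold six; ring

/-- **homogeneous step** -/
theorem hom_step (lam : ℝ) (φk φ1 φd e2 e3 : CL) (wd : ℝ) (lo hi : ℝ)
    (hlam : 0 ≤ lam) (hlam1 : lam < 1) (hw : lam ^ 2 = wd)
    (hlo : lo ≤ 1 - lam) (hhi : 1 + 2 * lam ≤ hi)
    (hpt : ∀ w π : ℝ, 0 ≤ π → lo ≤ w → w ≤ hi → π ≤ w ^ 3 → (1 ≤ w → π * w ^ 2 ≤ 1) →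
      0 ≤ ptR φk e2 e3 w π (π / w ^ 3))
    (hH : ∀ q0 q1 q2 r0 r1 r2 : ℝ, 0 ≤ q0 → 0 ≤ q1 → 0 ≤ q2 → q0 + q1 + q2 = 3 →
      0 ≤ r0 → 0 ≤ r1 → 0 ≤ r2 → r0 + r1 + r2 = 3 →
      0 ≤ HR φk e2 e3 (Pf q0 q1 q2) (Cf q0 q1 q2) (lam ^ 2 * Pf r0 r1 r2) (lam ^ 3 * Cf r0 r1 r2)
        (hr φ1 (q0 * q1 * q2) + wd * hr φd (r0 * r1 * r2)))
    (a0 a1 a2 b0 b1 b2 : ℝ) (ha0 : 0 ≤ a0) (ha1 : 0 ≤ a1) (ha2 : 0 ≤ a2)
    (hb0 : 0 ≤ b0) (hb1 : 0 ≤ b1) (hb2 : 0 ≤ b2) :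
    six (fun x y z => Ut φk (a0 * ns lam (ms b0 b1 b2) x) (a1 * ns lam (ms b0 b1 b2) y)
        (a2 * ns lam (ms b0 b1 b2) z)) b0 b1 b2
      ≤ 6 * (ms b0 b1 b2 * Ut φ1 a0 a1 a2 + wd * (ms a0 a1 a2 * Ut φd b0 b1 b2)) := by
  rcases (ms_nonneg ha0 ha1 ha2).eq_or_lt with hma | hma
  · obtain ⟨z0, z1, z2⟩ := ms_zero ha0 ha1 ha2 hma.symm
    subst z0; subst z1; subst z2
    have : ms 0 0 0 = 0 := by unfold ms; norm_num
    unfold six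
    simp only [zero_mul, Ut_zero, this]
    norm_num
  rcases (ms_nonneg hb0 hb1 hb2).eq_or_lt with hmb | hmb
  · obtain ⟨z0, z1, z2⟩ := ms_zero hb0 hb1 hb2 hmb.symm
    subst z0; subst z1; subst z2
    have : ms 0 0 0 = 0 := by unfold ms; norm_num
    unfold six
    simp only [this, ns_zero, mul_zero, zero_mul, Ut_zero]
    norm_num
  set ma := ms a0 a1 a2 with hma'
  set mb := ms b0 b1 b2 with hmb'
  have nq := normalize (a0 := a0) (a1 := a1) (a2 := a2) hma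
  have nr := normalize (a0 := b0) (a1 := b1) (a2 := b2) hmb
  rw [← hma'] at nq
  rw [← hmb'] at nr
  set q0 := a0 / ma with hq0
  set q1 := a1 / ma with hq1
  set q2 := a2 / ma with hq2
  set r0 := b0 / mb with hr0
  set r1 := b1 / mb with hr1
  set r2 := b2 / mb with hr2
  have q0n : 0 ≤ q0 := div_nonneg ha0 hma.le
  have q1n : 0 ≤ q1 := div_nonneg ha1 hma.le
  have q2n : 0 ≤ q2 := div_nonneg ha2 hma.le
  have r0n : 0 ≤ r0 := div_nonneg hb0 hmb.le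
  have r1n : 0 ≤ r1 := div_nonneg hb1 hmb.le
  have r2n : 0 ≤ r2 := div_nonneg hb2 hmb.le
  have ea0 : a0 = ma * q0 := by rw [hq0]; field_simp
  have ea1 : a1 = ma * q1 := by rw [hq1]; field_simp
  have ea2 : a2 = ma * q2 := by rw [hq2]; field_simp
  have eb0 : b0 = mb * r0 := by rw [hr0]; field_simp
  have eb1 : b1 = mb * r1 := by rw [hr1]; field_simp
  have eb2 : b2 = mb * r2 := by rw [hr2]; field_simp
  have U1 : Ut φ1 a0 a1 a2 = ma * (2 * Pf q0 q1 q2 + hr φ1 (q0 * q1 * q2)) := by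
    rw [ea0, ea1, ea2, Ut_smul _ _ _ _ _ hma.ne', Ut_unit _ _ _ _ nq]
  have U2 : Ut φd b0 b1 b2 = mb * (2 * Pf r0 r1 r2 + hr φd (r0 * r1 * r2)) := by
    rw [eb0, eb1, eb2, Ut_smul _ _ _ _ _ hmb.ne', Ut_unit _ _ _ _ nr]
  have yr : ∀ r, 0 ≤ r → 0 < 1 + lam * (r - 1) := by
    intro r hr
    have : 0 ≤ lam * r := by positivity
    linarith
  have ys : (1 + lam * (r0 - 1)) + (1 + lam * (r1 - 1)) + (1 + lam * (r2 - 1)) = 3 := by
    have : r2 = 3 - r0 - r1 := by linarith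
    rw [this]; ring
  have H := hH q0 q1 q2 r0 r1 r2 q0n q1n q2n nq r0n r1n r2n nr
  rw [← noise_P lam r0 r1 r2 nr, ← noise_C lam r0 r1 r2 nr] at H
  have M := merge_bound φk e2 e3 q0 q1 q2 (1 + lam * (r0 - 1)) (1 + lam * (r1 - 1))
    (1 + lam * (r2 - 1)) lo hi _ q0n q1n q2n nq (yr r0 r0n) (yr r1 r1n) (yr r2 r2n) ys hpt
    (by
      rintro c0 c1 c2 (⟨h0, h1, h2⟩ | ⟨h0, h1, h2⟩ | ⟨h0, h1, h2⟩ | ⟨h0, h1, h2⟩ | ⟨h0, h1, h2⟩ |
        ⟨h0, h1, h2⟩) <;> rw [h0, h1, h2]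
      · obtain ⟨l, u⟩ := W_range1 lam q0 q1 q2 r0 r1 r2 hlam q0n q1n q2n nq r0n r1n r2n
          (by linarith)
        exact ⟨by linarith, by linarith⟩
      · obtain ⟨l, u⟩ := W_range1 lam q0 q1 q2 r1 r2 r0 hlam q0n q1n q2n nq r1n r2n r0n
          (by linarith)
        exact ⟨by linarith, by linarith⟩
      · obtain ⟨l, u⟩ := W_range1 lam q0 q1 q2 r2 r0 r1 hlam q0n q1n q2n nq r2n r0n r1n
          (by linarith)
        exact ⟨by linarith, by linarith⟩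
      · obtain ⟨l, u⟩ := W_range1 lam q0 q1 q2 r0 r2 r1 hlam q0n q1n q2n nq r0n r2n r1n
          (by linarith)
        exact ⟨by linarith, by linarith⟩
      · obtain ⟨l, u⟩ := W_range1 lam q0 q1 q2 r2 r1 r0 hlam q0n q1n q2n nq r2n r1n r0n
          (by linarith)
        exact ⟨by linarith, by linarith⟩
      · obtain ⟨l, u⟩ := W_range1 lam q0 q1 q2 r1 r0 r2 hlam q0n q1n q2n nq r1n r0n r2n
          (by linarith)
        exact ⟨by linarith, by linarith⟩) H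
  rw [noise_P lam r0 r1 r2 nr] at M
  have key : ∀ x y z : ℝ, Ut φk (a0 * ns lam mb x) (a1 * ns lam mb y) (a2 * ns lam mb z)
      = (ma * mb) * Ut φk (q0 * (1 + lam * (x / mb - 1))) (q1 * (1 + lam * (y / mb - 1)))
        (q2 * (1 + lam * (z / mb - 1))) := by
    intro x y z
    rw [← Ut_smul _ _ _ _ _ (mul_ne_zero hma.ne' hmb.ne'), ns_norm lam mb x hmb.ne',
      ns_norm lam mb y hmb.ne', ns_norm lam mb z hmb.ne', ea0, ea1, ea2]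
    congr 1 <;> ring
  have e6 : six (fun x y z => Ut φk (a0 * ns lam mb x) (a1 * ns lam mb y) (a2 * ns lam mb z))
      b0 b1 b2 = (ma * mb) * (Ut φk (q0 * (1 + lam * (r0 - 1))) (q1 * (1 + lam * (r1 - 1)))
        (q2 * (1 + lam * (r2 - 1))) + Ut φk (q0 * (1 + lam * (r1 - 1))) (q1 * (1 + lam * (r2 - 1)))
        (q2 * (1 + lam * (r0 - 1))) + Ut φk (q0 * (1 + lam * (r2 - 1))) (q1 * (1 + lam * (r0 - 1)))
        (q2 * (1 + lam * (r1 - 1))) + Ut φk (q0 * (1 + lam * (r0 - 1))) (q1 * (1 + lam * (r2 - 1)))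
        (q2 * (1 + lam * (r1 - 1))) + Ut φk (q0 * (1 + lam * (r2 - 1))) (q1 * (1 + lam * (r1 - 1)))
        (q2 * (1 + lam * (r0 - 1))) + Ut φk (q0 * (1 + lam * (r1 - 1))) (q1 * (1 + lam * (r0 - 1)))
        (q2 * (1 + lam * (r2 - 1)))) := by
    unfold six
    simp only [key]
    rw [← hr0, ← hr1, ← hr2]
    ring
  rw [e6, U1, U2]
  calc _ ≤ (ma * mb) * (6 * (2 * Pf q0 q1 q2 + 2 * (lam ^ 2 * Pf r0 r1 r2)
        + (hr φ1 (q0 * q1 * q2) + wd * hr φd (r0 * r1 * r2)))) :=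
        mul_le_mul_of_nonneg_left M (by positivity)
    _ = _ := by rw [hw]; ring

/-- **homogeneous base step** -/
theorem hom_base (lam : ℝ) (φ2 φd e2 e3 : CL) (wd cm : ℝ) (lo hi : ℝ)
    (hlam : -(1 / 2) < lam) (hlam1 : lam < 1) (hw : lam ^ 2 = wd)
    (hlo : lo ≤ 1 - lam ^ 2) (hhi : 1 + 2 * lam ^ 2 ≤ hi)
    (hpt : ∀ w π : ℝ, 0 ≤ π → lo ≤ w → w ≤ hi → π ≤ w ^ 3 → (1 ≤ w → π * w ^ 2 ≤ 1) →
      0 ≤ ptR φ2 e2 e3 w π (π / w ^ 3))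
    (hH : ∀ q0 q1 q2 r0 r1 r2 : ℝ, 0 ≤ q0 → 0 ≤ q1 → 0 ≤ q2 → q0 + q1 + q2 = 3 →
      0 ≤ r0 → 0 ≤ r1 → 0 ≤ r2 → r0 + r1 + r2 = 3 →
      0 ≤ HR φ2 e2 e3 (lam ^ 2 * Pf q0 q1 q2) (lam ^ 3 * Cf q0 q1 q2) (lam ^ 2 * Pf r0 r1 r2)
        (lam ^ 3 * Cf r0 r1 r2)
        (wd * (hr φd (q0 * q1 * q2) + hr φd (r0 * r1 * r2)) - cm * (Pf q0 q1 q2 * Pf r0 r1 r2)))
    (a0 a1 a2 b0 b1 b2 : ℝ) (ha0 : 0 ≤ a0) (ha1 : 0 ≤ a1) (ha2 : 0 ≤ a2)
    (hb0 : 0 ≤ b0) (hb1 : 0 ≤ b1) (hb2 : 0 ≤ b2) :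
    six (fun x y z => Ut φ2 (ns lam (ms a0 a1 a2) a0 * ns lam (ms b0 b1 b2) x)
        (ns lam (ms a0 a1 a2) a1 * ns lam (ms b0 b1 b2) y)
        (ns lam (ms a0 a1 a2) a2 * ns lam (ms b0 b1 b2) z)) b0 b1 b2
      ≤ 6 * (wd * (ms b0 b1 b2 * Ut φd a0 a1 a2 + ms a0 a1 a2 * Ut φd b0 b1 b2)
        - cm * (chi a0 a1 a2 * chi b0 b1 b2)) := by
  rcases (ms_nonneg ha0 ha1 ha2).eq_or_lt with hma | hma
  · obtain ⟨z0, z1, z2⟩ := ms_zero ha0 ha1 ha2 hma.symm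
    subst z0; subst z1; subst z2
    have h0 : ms 0 0 0 = 0 := by unfold ms; norm_num
    have h1 : chi 0 0 0 = 0 := by unfold chi; rw [h0]; norm_num
    unfold six
    simp only [h0, h1, ns_zero, zero_mul, Ut_zero]
    norm_num
  rcases (ms_nonneg hb0 hb1 hb2).eq_or_lt with hmb | hmb
  · obtain ⟨z0, z1, z2⟩ := ms_zero hb0 hb1 hb2 hmb.symm
    subst z0; subst z1; subst z2
    have h0 : ms 0 0 0 = 0 := by unfold ms; norm_num
    have h1 : chi 0 0 0 = 0 := by unfold chi; rw [h0]; norm_num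
    unfold six
    simp only [h0, h1, ns_zero, mul_zero, zero_mul, Ut_zero]
    norm_num
  set ma := ms a0 a1 a2 with hma'
  set mb := ms b0 b1 b2 with hmb'
  have nq := normalize (a0 := a0) (a1 := a1) (a2 := a2) hma
  have nr := normalize (a0 := b0) (a1 := b1) (a2 := b2) hmb
  rw [← hma'] at nq
  rw [← hmb'] at nr
  set q0 := a0 / ma with hq0
  set q1 := a1 / ma with hq1
  set q2 := a2 / ma with hq2
  set r0 := b0 / mb with hr0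
  set r1 := b1 / mb with hr1
  set r2 := b2 / mb with hr2
  have q0n : 0 ≤ q0 := div_nonneg ha0 hma.le
  have q1n : 0 ≤ q1 := div_nonneg ha1 hma.le
  have q2n : 0 ≤ q2 := div_nonneg ha2 hma.le
  have r0n : 0 ≤ r0 := div_nonneg hb0 hmb.le
  have r1n : 0 ≤ r1 := div_nonneg hb1 hmb.le
  have r2n : 0 ≤ r2 := div_nonneg hb2 hmb.le
  have ea0 : a0 = ma * q0 := by rw [hq0]; field_simp
  have ea1 : a1 = ma * q1 := by rw [hq1]; field_simp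
  have ea2 : a2 = ma * q2 := by rw [hq2]; field_simp
  have eb0 : b0 = mb * r0 := by rw [hr0]; field_simp
  have eb1 : b1 = mb * r1 := by rw [hr1]; field_simp
  have eb2 : b2 = mb * r2 := by rw [hr2]; field_simp
  have U1 : Ut φd a0 a1 a2 = ma * (2 * Pf q0 q1 q2 + hr φd (q0 * q1 * q2)) := by
    rw [ea0, ea1, ea2, Ut_smul _ _ _ _ _ hma.ne', Ut_unit _ _ _ _ nq]
  have U2 : Ut φd b0 b1 b2 = mb * (2 * Pf r0 r1 r2 + hr φd (r0 * r1 * r2)) := by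
    rw [eb0, eb1, eb2, Ut_smul _ _ _ _ _ hmb.ne', Ut_unit _ _ _ _ nr]
  have X1 : chi a0 a1 a2 = ma * Pf q0 q1 q2 := by
    rw [ea0, ea1, ea2, chi_smul _ _ _ _ hma.ne', chi_unit _ _ _ nq]
  have X2 : chi b0 b1 b2 = mb * Pf r0 r1 r2 := by
    rw [eb0, eb1, eb2, chi_smul _ _ _ _ hmb.ne', chi_unit _ _ _ nr]
  have yr : ∀ r, 0 ≤ r → r ≤ 3 → 0 < 1 + lam * (r - 1) := by
    intro r hr hr3
    rcases le_total 0 lam with h | h
    · have : 0 ≤ lam * r := by positivity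
      linarith
    · nlinarith
  have r0l : r0 ≤ 3 := by linarith
  have r1l : r1 ≤ 3 := by linarith
  have r2l : r2 ≤ 3 := by linarith
  have q0l : q0 ≤ 3 := by linarith
  have q1l : q1 ≤ 3 := by linarith
  have q2l : q2 ≤ 3 := by linarith
  have ys : (1 + lam * (r0 - 1)) + (1 + lam * (r1 - 1)) + (1 + lam * (r2 - 1)) = 3 := by
    have : r2 = 3 - r0 - r1 := by linarith
    rw [this]; ring
  have xs : (1 + lam * (q0 - 1)) + (1 + lam * (q1 - 1)) + (1 + lam * (q2 - 1)) = 3 := by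
    have : q2 = 3 - q0 - q1 := by linarith
    rw [this]; ring
  have H := hH q0 q1 q2 r0 r1 r2 q0n q1n q2n nq r0n r1n r2n nr
  rw [← noise_P lam r0 r1 r2 nr, ← noise_C lam r0 r1 r2 nr, ← noise_P lam q0 q1 q2 nq,
    ← noise_C lam q0 q1 q2 nq] at H
  have M := merge_bound φ2 e2 e3 (1 + lam * (q0 - 1)) (1 + lam * (q1 - 1)) (1 + lam * (q2 - 1))
    (1 + lam * (r0 - 1)) (1 + lam * (r1 - 1))
    (1 + lam * (r2 - 1)) lo hi _ (yr q0 q0n q0l).le (yr q1 q1n q1l).le (yr q2 q2n q2l).le xs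
    (yr r0 r0n r0l) (yr r1 r1n r1l) (yr r2 r2n r2l) ys hpt
    (by
      rintro c0 c1 c2 (⟨h0, h1, h2⟩ | ⟨h0, h1, h2⟩ | ⟨h0, h1, h2⟩ | ⟨h0, h1, h2⟩ | ⟨h0, h1, h2⟩ |
        ⟨h0, h1, h2⟩) <;> rw [h0, h1, h2]
      · obtain ⟨l, u⟩ := W_range2 lam q0 q1 q2 r0 r1 r2 q0n q1n q2n nq r0n r1n r2n
          (by linarith)
        exact ⟨by linarith, by linarith⟩
      · obtain ⟨l, u⟩ := W_range2 lam q0 q1 q2 r1 r2 r0 q0n q1n q2n nq r1n r2n r0n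
          (by linarith)
        exact ⟨by linarith, by linarith⟩
      · obtain ⟨l, u⟩ := W_range2 lam q0 q1 q2 r2 r0 r1 q0n q1n q2n nq r2n r0n r1n
          (by linarith)
        exact ⟨by linarith, by linarith⟩
      · obtain ⟨l, u⟩ := W_range2 lam q0 q1 q2 r0 r2 r1 q0n q1n q2n nq r0n r2n r1n
          (by linarith)
        exact ⟨by linarith, by linarith⟩
      · obtain ⟨l, u⟩ := W_range2 lam q0 q1 q2 r2 r1 r0 q0n q1n q2n nq r2n r1n r0n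
          (by linarith)
        exact ⟨by linarith, by linarith⟩
      · obtain ⟨l, u⟩ := W_range2 lam q0 q1 q2 r1 r0 r2 q0n q1n q2n nq r1n r0n r2n
          (by linarith)
        exact ⟨by linarith, by linarith⟩) H
  rw [noise_P lam r0 r1 r2 nr, noise_P lam q0 q1 q2 nq] at M
  have key : ∀ x y z : ℝ, Ut φ2 (ns lam ma a0 * ns lam mb x) (ns lam ma a1 * ns lam mb y)
      (ns lam ma a2 * ns lam mb z)
      = (ma * mb) * Ut φ2 ((1 + lam * (q0 - 1)) * (1 + lam * (x / mb - 1)))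
        ((1 + lam * (q1 - 1)) * (1 + lam * (y / mb - 1)))
        ((1 + lam * (q2 - 1)) * (1 + lam * (z / mb - 1))) := by
    intro x y z
    rw [← Ut_smul _ _ _ _ _ (mul_ne_zero hma.ne' hmb.ne'), ns_norm lam mb x hmb.ne',
      ns_norm lam mb y hmb.ne', ns_norm lam mb z hmb.ne', ns_norm lam ma a0 hma.ne',
      ns_norm lam ma a1 hma.ne', ns_norm lam ma a2 hma.ne', ← hq0, ← hq1, ← hq2]
    congr 1 <;> ring
  unfold six
  simp only [key]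
  rw [← hr0, ← hr1, ← hr2, U1, U2, X1, X2]
  have M' := mul_le_mul_of_nonneg_left M (show 0 ≤ ma * mb by positivity)
  refine le_trans (le_of_eq ?_) (le_trans M' (le_of_eq ?_))
  · ring
  · rw [hw]; ring

end Vale.Agent.P154
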