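import Vale.Agent.P154.Model
import Vale.Agent.P154.Hom

/-! From per-step inequalities to nonreconstruction on the regular tree, `q = 3`. -/

open scoped BigOperators

namespace Vale.Agent.P154

section abstractPart

variable {α : Type} [Fintype α]

theorem sum_fin_succ (F : (Fin 3 → ℝ) → ℝ) (ν : α → Fin 3 → ℝ) (k : ℕ) :
    ∑ c : Fin (k + 1) → α, F (fun i => ∏ j, ν (c j) i)
      = ∑ c : Fin k → α, ∑ b : α, F (fun i => (∏ j, ν (c j) i) * ν b i) := by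
  rw [← (Fin.consEquiv fun _ : Fin (k + 1) => α).sum_comp, Fintype.sum_prod_type,
    Finset.sum_comm]
  refine Finset.sum_congr rfl fun c _ => Finset.sum_congr rfl fun b _ => ?_
  congr 1
  funext i
  rw [Fin.prod_univ_succ]
  simp [Fin.consEquiv, mul_comm]

theorem sum_fin_zero (F : (Fin 0 → α) → ℝ) : ∑ c : Fin 0 → α, F c = F (fun i => i.elim0) := by
  rw [Fintype.sum_unique]
  congr 1

/-- symmetric family of messages -/
def SymFam (L : α → Fin 3 → ℝ) : Prop :=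
  ∀ τ : Equiv.Perm (Fin 3), ∃ e : α ≃ α, ∀ b i, L (e b) (τ i) = L b i

theorem SymFam.sum_eq {L : α → Fin 3 → ℝ} (h : SymFam L) (G : ℝ → ℝ → ℝ → ℝ)
    (τ : Equiv.Perm (Fin 3)) :
    ∑ b, G (L b (τ 0)) (L b (τ 1)) (L b (τ 2)) = ∑ b, G (L b 0) (L b 1) (L b 2) := by
  obtain ⟨e, he⟩ := h τ
  rw [← e.sum_comp]
  simp only [he]

theorem SymFam.six {L : α → Fin 3 → ℝ} (h : SymFam L) (G : ℝ → ℝ → ℝ → ℝ) :
    ∑ b, six G (L b 0) (L b 1) (L b 2) = 6 * ∑ b, G (L b 0) (L b 1) (L b 2) := by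
  unfold P154.six
  simp only [Finset.sum_add_distrib]
  have h1 := h.sum_eq G (finRotate 3)
  have h2 := h.sum_eq G (finRotate 3 * finRotate 3)
  have h3 := h.sum_eq G (Equiv.swap 1 2)
  have h4 := h.sum_eq G (Equiv.swap 0 2)
  have h5 := h.sum_eq G (Equiv.swap 0 1)
  have r0 : finRotate 3 0 = 1 := by decide
  have r1 : finRotate 3 1 = 2 := by decide
  have r2 : finRotate 3 2 = 0 := by decide
  have a0 : (Equiv.swap (1 : Fin 3) 2) 0 = 0 := by decide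
  have a1 : (Equiv.swap (1 : Fin 3) 2) 1 = 2 := by decide
  have a2 : (Equiv.swap (1 : Fin 3) 2) 2 = 1 := by decide
  have b0 : (Equiv.swap (0 : Fin 3) 2) 0 = 2 := by decide
  have b1 : (Equiv.swap (0 : Fin 3) 2) 1 = 1 := by decide
  have b2 : (Equiv.swap (0 : Fin 3) 2) 2 = 0 := by decide
  have c0 : (Equiv.swap (0 : Fin 3) 1) 0 = 1 := by decide
  have c1 : (Equiv.swap (0 : Fin 3) 1) 1 = 0 := by decide
  have c2 : (Equiv.swap (0 : Fin 3) 1) 2 = 2 := by decide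
  simp only [Equiv.Perm.mul_apply, r0, r1, r2] at h1 h2
  rw [a0, a1, a2] at h3
  rw [b0, b1, b2] at h4
  rw [c0, c1, c2] at h5
  rw [h1, h2, h3, h4, h5]
  ring

theorem ms_rot (x y z : ℝ) : ms y z x = ms x y z := by unfold ms; ring
theorem ms_sw (x y z : ℝ) : ms x z y = ms x y z := by unfold ms; ring

/-- the symmetrized sum where the noise uses the mass of the rearranged vector -/
theorem six_ms (lam : ℝ) (G : ℝ → ℝ → ℝ → ℝ) (b0 b1 b2 : ℝ) :
    six (fun x y z => G (ns lam (ms x y z) x) (ns lam (ms x y z) y) (ns lam (ms x y z) z)) b0 b1 b2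
      = six (fun x y z => G (ns lam (ms b0 b1 b2) x) (ns lam (ms b0 b1 b2) y)
          (ns lam (ms b0 b1 b2) z)) b0 b1 b2 := by
  have e1 : ms b1 b2 b0 = ms b0 b1 b2 := by unfold ms; ring
  have e2 : ms b2 b0 b1 = ms b0 b1 b2 := by unfold ms; ring
  have e3 : ms b0 b2 b1 = ms b0 b1 b2 := by unfold ms; ring
  have e4 : ms b2 b1 b0 = ms b0 b1 b2 := by unfold ms; ring
  have e5 : ms b1 b0 b2 = ms b0 b1 b2 := by unfold ms; ring
  unfold six
  simp only [e1, e2, e3, e4, e5]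

/-- noisy message -/
noncomputable def nz (lam : ℝ) (b : Fin 3 → ℝ) (i : Fin 3) : ℝ := ns lam (ms (b 0) (b 1) (b 2)) (b i)

theorem nz_nonneg (lam : ℝ) (h1 : lam ≤ 1) (h0 : -(1 / 2) ≤ lam) (b : Fin 3 → ℝ)
    (hb : ∀ i, 0 ≤ b i) (i : Fin 3) : 0 ≤ nz lam b i := by
  have p0 := hb 0
  have p1 := hb 1
  have p2 := hb 2
  have : ∀ x y z : ℝ, 0 ≤ x → 0 ≤ y → 0 ≤ z → 0 ≤ (x + y + z) / 3 + lam * (x - (x + y + z) / 3) := by
    intro x y z hx hy hz
    have e : (x + y + z) / 3 + lam * (x - (x + y + z) / 3)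
      = (1 + 2 * lam) / 3 * x + (1 - lam) / 3 * (y + z) := by ring
    rw [e]
    have h1' : 0 ≤ (1 - lam) / 3 := by linarith
    have h0' : 0 ≤ (1 + 2 * lam) / 3 := by linarith
    positivity
  fin_cases i
  · have := this (b 0) (b 1) (b 2) p0 p1 p2
    simpa [nz, ns, ms] using this
  · have := this (b 1) (b 0) (b 2) p1 p0 p2
    have e : (b 1 + b 0 + b 2) = b 0 + b 1 + b 2 := by ring
    rw [e] at this
    simpa [nz, ns, ms] using this
  · have := this (b 2) (b 0) (b 1) p2 p0 p1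
    have e : (b 2 + b 0 + b 1) = b 0 + b 1 + b 2 := by ring
    rw [e] at this
    simpa [nz, ns, ms] using this

/-- value of a three-argument functional on a vector -/
def at3 (G : ℝ → ℝ → ℝ → ℝ) (a : Fin 3 → ℝ) : ℝ := G (a 0) (a 1) (a 2)

theorem sum_one_step {L : α → Fin 3 → ℝ} (h : SymFam L) (lam : ℝ) (G : ℝ → ℝ → ℝ → ℝ)
    (a : Fin 3 → ℝ) :
    ∑ b, at3 G (fun i => a i * nz lam (L b) i)
      = (1 / 6) * ∑ b, six (fun x y z => G (a 0 * ns lam (ms (L b 0) (L b 1) (L b 2)) x)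
          (a 1 * ns lam (ms (L b 0) (L b 1) (L b 2)) y)
          (a 2 * ns lam (ms (L b 0) (L b 1) (L b 2)) z)) (L b 0) (L b 1) (L b 2) := by
  have := h.six (fun x y z => G (a 0 * ns lam (ms x y z) x) (a 1 * ns lam (ms x y z) y)
    (a 2 * ns lam (ms x y z) z))
  have e : ∀ b, six (fun x y z => G (a 0 * ns lam (ms x y z) x) (a 1 * ns lam (ms x y z) y)
    (a 2 * ns lam (ms x y z) z)) (L b 0) (L b 1) (L b 2) =
    six (fun x y z => G (a 0 * ns lam (ms (L b 0) (L b 1) (L b 2)) x)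
          (a 1 * ns lam (ms (L b 0) (L b 1) (L b 2)) y)
          (a 2 * ns lam (ms (L b 0) (L b 1) (L b 2)) z)) (L b 0) (L b 1) (L b 2) := by
    intro b
    exact six_ms lam (fun x y z => G (a 0 * x) (a 1 * y) (a 2 * z)) _ _ _
  simp only [e] at this
  rw [this]
  simp only [at3, nz]
  ring

end abstractPart

/-- the hypotheses of the method -/
structure Method (d : ℕ) (lam wd cm B : ℝ) (Ψ : ℕ → ℝ → ℝ → ℝ → ℝ) : Prop where
  cmpos : 0 < cm
  Bnn : 0 ≤ B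
  hd : 2 ≤ d
  hwd : (d : ℝ) * wd = 1
  lam1 : lam ≤ 1
  lam0 : -(1 / 2) ≤ lam
  base : ∀ a0 a1 a2 b0 b1 b2 : ℝ, 0 ≤ a0 → 0 ≤ a1 → 0 ≤ a2 → 0 ≤ b0 → 0 ≤ b1 → 0 ≤ b2 →
    six (fun x y z => Ψ 2 (ns lam (ms a0 a1 a2) a0 * ns lam (ms b0 b1 b2) x)
        (ns lam (ms a0 a1 a2) a1 * ns lam (ms b0 b1 b2) y)
        (ns lam (ms a0 a1 a2) a2 * ns lam (ms b0 b1 b2) z)) b0 b1 b2
      ≤ 6 * (wd * (ms b0 b1 b2 * Ψ d a0 a1 a2 + ms a0 a1 a2 * Ψ d b0 b1 b2)
        - cm * (chi a0 a1 a2 * chi b0 b1 b2))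
  step : ∀ k, 2 ≤ k → k + 1 ≤ d → ∀ a0 a1 a2 b0 b1 b2 : ℝ, 0 ≤ a0 → 0 ≤ a1 → 0 ≤ a2 →
    0 ≤ b0 → 0 ≤ b1 → 0 ≤ b2 →
    six (fun x y z => Ψ (k + 1) (a0 * ns lam (ms b0 b1 b2) x) (a1 * ns lam (ms b0 b1 b2) y)
        (a2 * ns lam (ms b0 b1 b2) z)) b0 b1 b2
      ≤ 6 * (ms b0 b1 b2 * Ψ k a0 a1 a2 + wd * (ms a0 a1 a2 * Ψ d b0 b1 b2))
  low : ∀ a0 a1 a2 : ℝ, 0 ≤ a0 → 0 ≤ a1 → 0 ≤ a2 → 0 ≤ Ψ d a0 a1 a2 + B * ms a0 a1 a2

section treePart

variable {d : ℕ} {lam : ℝ}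

/-- likelihood vector -/
noncomputable def Lv (d : ℕ) (lam : ℝ) (n : ℕ) (c : Conf 3 d n) (i : Fin 3) : ℝ :=
  lik 3 d lam n i c

theorem potts_pos3 (h1 : lam ≤ 1) (h0 : -(1 / 2) ≤ lam) (i j : Fin 3) : 0 ≤ potts 3 lam i j := by
  refine potts_nonneg 3 lam h1 ?_ i j
  norm_num
  linarith

theorem Lv_nonneg (h1 : lam ≤ 1) (h0 : -(1 / 2) ≤ lam) (n : ℕ) (c : Conf 3 d n) (i : Fin 3) :
    0 ≤ Lv d lam n c i := lik_nonneg 3 d lam (potts_pos3 h1 h0) n i c

theorem Lv_sym (n : ℕ) : SymFam (Lv d lam n) := by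
  intro τ
  exact ⟨relab 3 d τ n, fun c i => lik_relab 3 d lam τ n i c⟩

theorem Lv_succ (n : ℕ) (c : Fin d → Conf 3 d n) (i : Fin 3) :
    Lv d lam (n + 1) c i = ∏ j, nz lam (Lv d lam n (c j)) i := by
  unfold Lv
  rw [lik_succ]
  refine Finset.prod_congr rfl fun j _ => ?_
  unfold potts nz ns ms
  rw [Fin.sum_univ_three]
  fin_cases i <;> simp <;> ring

theorem Lv_sum (n : ℕ) (i : Fin 3) : ∑ c, Lv d lam n c i = 1 := lik_sum 3 d (by norm_num) lam n i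

theorem ms_sum (n : ℕ) : ∑ c, ms (Lv d lam n c 0) (Lv d lam n c 1) (Lv d lam n c 2) = 1 := by
  unfold ms
  rw [← Finset.sum_div, Finset.sum_add_distrib, Finset.sum_add_distrib, Lv_sum, Lv_sum, Lv_sum]
  norm_num

theorem nz_sum (n : ℕ) (i : Fin 3) : ∑ c, nz lam (Lv d lam n c) i = 1 := by
  have : ∀ c, nz lam (Lv d lam n c) i
      = (1 - lam) * ms (Lv d lam n c 0) (Lv d lam n c 1) (Lv d lam n c 2)
        + lam * Lv d lam n c i := by
    intro c; unfold nz ns; ring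
  simp only [this]
  rw [Finset.sum_add_distrib, ← Finset.mul_sum, ← Finset.mul_sum, ms_sum, Lv_sum]
  ring

/-- functional at stage `k` -/
noncomputable def Sk (d : ℕ) (lam : ℝ) (n k : ℕ) (G : ℝ → ℝ → ℝ → ℝ) : ℝ :=
  ∑ c : Fin k → Conf 3 d n, at3 G (fun i => ∏ j, nz lam (Lv d lam n (c j)) i)

theorem Sk_ms (n k : ℕ) : Sk d lam n k ms = 1 := by
  unfold Sk at3 ms
  rw [← Finset.sum_div, Finset.sum_add_distrib, Finset.sum_add_distrib]
  have : ∀ i, ∑ c : Fin k → Conf 3 d n, ∏ j, nz lam (Lv d lam n (c j)) i = 1 := by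
    intro i
    rw [← Fintype.prod_sum (fun (_ : Fin k) (c : Conf 3 d n) => nz lam (Lv d lam n c) i)]
    simp [nz_sum]
  rw [this, this, this]
  norm_num

/-- level functional -/
noncomputable def Lf (d : ℕ) (lam : ℝ) (n : ℕ) (G : ℝ → ℝ → ℝ → ℝ) : ℝ :=
  ∑ c : Conf 3 d n, at3 G (Lv d lam n c)

theorem Lf_succ (n : ℕ) (G : ℝ → ℝ → ℝ → ℝ) : Lf d lam (n + 1) G = Sk d lam n d G := by
  unfold Lf Sk
  rw [sum_conf_succ]
  refine Finset.sum_congr rfl fun c _ => ?_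
  congr 1
  funext i
  exact Lv_succ n c i

theorem Sk_succ (n k : ℕ) (G : ℝ → ℝ → ℝ → ℝ) :
    Sk d lam n (k + 1) G = ∑ c : Fin k → Conf 3 d n, ∑ b, at3 G (fun i =>
      (∏ j, nz lam (Lv d lam n (c j)) i) * nz lam (Lv d lam n b) i) := by
  unfold Sk
  exact sum_fin_succ (at3 G) (fun c => nz lam (Lv d lam n c)) k

variable {wd cm B : ℝ} {Ψ : ℕ → ℝ → ℝ → ℝ → ℝ}

theorem Method.step_sum (M : Method d lam wd cm B Ψ) (n k : ℕ) (hk : 2 ≤ k) (hkd : k + 1 ≤ d) :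
    Sk d lam n (k + 1) (Ψ (k + 1)) ≤ Sk d lam n k (Ψ k) + wd * Lf d lam n (Ψ d) := by
  rw [Sk_succ]
  have key : ∀ c : Fin k → Conf 3 d n, ∑ b, at3 (Ψ (k + 1)) (fun i =>
      (∏ j, nz lam (Lv d lam n (c j)) i) * nz lam (Lv d lam n b) i)
      ≤ at3 (Ψ k) (fun i => ∏ j, nz lam (Lv d lam n (c j)) i)
        + at3 ms (fun i => ∏ j, nz lam (Lv d lam n (c j)) i) * (wd * Lf d lam n (Ψ d)) := by
    intro c
    set a : Fin 3 → ℝ := fun i => ∏ j, nz lam (Lv d lam n (c j)) i with ha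
    have ha0 : ∀ i, 0 ≤ a i := fun i => Finset.prod_nonneg fun j _ =>
      nz_nonneg lam M.lam1 M.lam0 _ (Lv_nonneg M.lam1 M.lam0 n _) i
    have e : ∀ b, (fun i => (∏ j, nz lam (Lv d lam n (c j)) i) * nz lam (Lv d lam n b) i)
      = fun i => a i * nz lam (Lv d lam n b) i := fun b => rfl
    simp only [e]
    rw [sum_one_step (Lv_sym n) lam (Ψ (k + 1)) a]
    have hb : ∀ b, six (fun x y z => Ψ (k + 1) (a 0 * ns lam (ms (Lv d lam n b 0) (Lv d lam n b 1)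
          (Lv d lam n b 2)) x)
          (a 1 * ns lam (ms (Lv d lam n b 0) (Lv d lam n b 1) (Lv d lam n b 2)) y)
          (a 2 * ns lam (ms (Lv d lam n b 0) (Lv d lam n b 1) (Lv d lam n b 2)) z))
          (Lv d lam n b 0) (Lv d lam n b 1) (Lv d lam n b 2)
        ≤ 6 * (ms (Lv d lam n b 0) (Lv d lam n b 1) (Lv d lam n b 2) * Ψ k (a 0) (a 1) (a 2)
          + wd * (ms (a 0) (a 1) (a 2) * Ψ d (Lv d lam n b 0) (Lv d lam n b 1)
            (Lv d lam n b 2))) := fun b =>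
      M.step k hk hkd _ _ _ _ _ _ (ha0 0) (ha0 1) (ha0 2) (Lv_nonneg M.lam1 M.lam0 n b 0)
        (Lv_nonneg M.lam1 M.lam0 n b 1) (Lv_nonneg M.lam1 M.lam0 n b 2)
    calc _ ≤ (1 / 6) * ∑ b, 6 * (ms (Lv d lam n b 0) (Lv d lam n b 1) (Lv d lam n b 2)
          * Ψ k (a 0) (a 1) (a 2)
          + wd * (ms (a 0) (a 1) (a 2) * Ψ d (Lv d lam n b 0) (Lv d lam n b 1)
            (Lv d lam n b 2))) :=
          mul_le_mul_of_nonneg_left (Finset.sum_le_sum fun b _ => hb b) (by norm_num)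
      _ = (∑ b, ms (Lv d lam n b 0) (Lv d lam n b 1) (Lv d lam n b 2)) * Ψ k (a 0) (a 1) (a 2)
          + ms (a 0) (a 1) (a 2) * (wd * ∑ b, Ψ d (Lv d lam n b 0) (Lv d lam n b 1)
            (Lv d lam n b 2)) := by
          rw [← Finset.mul_sum, Finset.sum_add_distrib, ← Finset.sum_mul, ← Finset.mul_sum,
            ← Finset.mul_sum]
          ring
      _ = _ := by rw [ms_sum]; simp only [at3, Lf, one_mul]
  calc _ ≤ ∑ c : Fin k → Conf 3 d n, (at3 (Ψ k) (fun i => ∏ j, nz lam (Lv d lam n (c j)) i)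
        + at3 ms (fun i => ∏ j, nz lam (Lv d lam n (c j)) i) * (wd * Lf d lam n (Ψ d))) :=
        Finset.sum_le_sum fun c _ => key c
    _ = _ := by
      rw [Finset.sum_add_distrib, ← Finset.sum_mul]
      have := Sk_ms (d := d) (lam := lam) n k
      unfold Sk at this ⊢
      rw [this, one_mul]

theorem Sk_two (n : ℕ) (G : ℝ → ℝ → ℝ → ℝ) :
    Sk d lam n 2 G = ∑ a, ∑ b, at3 G (fun i =>
      nz lam (Lv d lam n a) i * nz lam (Lv d lam n b) i) := by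
  have h1 := sum_fin_succ (α := Conf 3 d n)
    (fun a => ∑ b, at3 G (fun i => a i * nz lam (Lv d lam n b) i))
    (fun c => nz lam (Lv d lam n c)) 0
  rw [Sk_succ]
  simp only at h1
  rw [h1, sum_fin_zero]
  simp

theorem Method.base_sum (M : Method d lam wd cm B Ψ) (n : ℕ) :
    Sk d lam n 2 (Ψ 2) ≤ 2 * (wd * Lf d lam n (Ψ d)) - cm * (Lf d lam n chi) ^ 2 := by
  rw [Sk_two]
  have key : ∀ a, ∑ b, at3 (Ψ 2) (fun i => nz lam (Lv d lam n a) i * nz lam (Lv d lam n b) i)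
      ≤ wd * at3 (Ψ d) (Lv d lam n a) + at3 ms (Lv d lam n a) * (wd * Lf d lam n (Ψ d))
        - cm * (at3 chi (Lv d lam n a) * Lf d lam n chi) := by
    intro a
    rw [sum_one_step (Lv_sym n) lam (Ψ 2) (nz lam (Lv d lam n a))]
    set A := Lv d lam n a with hA
    have hb : ∀ b, six (fun x y z => Ψ 2 (nz lam A 0 * ns lam (ms (Lv d lam n b 0)
          (Lv d lam n b 1) (Lv d lam n b 2)) x)
          (nz lam A 1 * ns lam (ms (Lv d lam n b 0) (Lv d lam n b 1) (Lv d lam n b 2)) y)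
          (nz lam A 2 * ns lam (ms (Lv d lam n b 0) (Lv d lam n b 1) (Lv d lam n b 2)) z))
          (Lv d lam n b 0) (Lv d lam n b 1) (Lv d lam n b 2)
        ≤ 6 * (wd * (ms (Lv d lam n b 0) (Lv d lam n b 1) (Lv d lam n b 2) * Ψ d (A 0) (A 1) (A 2)
          + ms (A 0) (A 1) (A 2) * Ψ d (Lv d lam n b 0) (Lv d lam n b 1) (Lv d lam n b 2))
          - cm * (chi (A 0) (A 1) (A 2) * chi (Lv d lam n b 0) (Lv d lam n b 1)
            (Lv d lam n b 2))) := fun b =>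
      M.base _ _ _ _ _ _ (Lv_nonneg M.lam1 M.lam0 n a 0)
        (Lv_nonneg M.lam1 M.lam0 n a 1) (Lv_nonneg M.lam1 M.lam0 n a 2)
        (Lv_nonneg M.lam1 M.lam0 n b 0)
        (Lv_nonneg M.lam1 M.lam0 n b 1) (Lv_nonneg M.lam1 M.lam0 n b 2)
    calc _ ≤ (1 / 6) * ∑ b, 6 * (wd * (ms (Lv d lam n b 0) (Lv d lam n b 1) (Lv d lam n b 2)
          * Ψ d (A 0) (A 1) (A 2)
          + ms (A 0) (A 1) (A 2) * Ψ d (Lv d lam n b 0) (Lv d lam n b 1) (Lv d lam n b 2))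
          - cm * (chi (A 0) (A 1) (A 2) * chi (Lv d lam n b 0) (Lv d lam n b 1)
            (Lv d lam n b 2))) :=
          mul_le_mul_of_nonneg_left (Finset.sum_le_sum fun b _ => hb b) (by norm_num)
      _ = wd * ((∑ b, ms (Lv d lam n b 0) (Lv d lam n b 1) (Lv d lam n b 2))
          * Ψ d (A 0) (A 1) (A 2)) + ms (A 0) (A 1) (A 2) * (wd * ∑ b, Ψ d (Lv d lam n b 0)
            (Lv d lam n b 1) (Lv d lam n b 2))
          - cm * (chi (A 0) (A 1) (A 2) * ∑ b, chi (Lv d lam n b 0) (Lv d lam n b 1)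
            (Lv d lam n b 2)) := by
          rw [← Finset.mul_sum, Finset.sum_sub_distrib, ← Finset.mul_sum, ← Finset.mul_sum,
            Finset.sum_add_distrib, ← Finset.sum_mul, ← Finset.mul_sum, ← Finset.mul_sum]
          ring
      _ = _ := by rw [ms_sum]; simp only [at3, Lf, one_mul]
  calc _ ≤ ∑ a, (wd * at3 (Ψ d) (Lv d lam n a) + at3 ms (Lv d lam n a) * (wd * Lf d lam n (Ψ d))
        - cm * (at3 chi (Lv d lam n a) * Lf d lam n chi)) := Finset.sum_le_sum fun a _ => key a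
    _ = wd * Lf d lam n (Ψ d) + (∑ a, at3 ms (Lv d lam n a)) * (wd * Lf d lam n (Ψ d))
        - cm * (Lf d lam n chi * Lf d lam n chi) := by
      rw [Finset.sum_sub_distrib, Finset.sum_add_distrib, ← Finset.mul_sum, ← Finset.sum_mul,
        ← Finset.mul_sum, ← Finset.sum_mul]
      rfl
    _ = _ := by
      have : ∑ a, at3 ms (Lv d lam n a) = 1 := ms_sum n
      rw [this]; ring

theorem Method.all_sum (M : Method d lam wd cm B Ψ) (n : ℕ) (k : ℕ) (hk : 2 ≤ k) (hkd : k ≤ d) :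
    Sk d lam n k (Ψ k) ≤ k * (wd * Lf d lam n (Ψ d)) - cm * (Lf d lam n chi) ^ 2 := by
  induction k, hk using Nat.le_induction with
  | base => exact_mod_cast M.base_sum n
  | succ k hk ih =>
    have h1 := ih (by omega)
    have h2 := M.step_sum n k hk hkd
    push_cast
    linarith

theorem Method.descent (M : Method d lam wd cm B Ψ) (n : ℕ) :
    Lf d lam (n + 1) (Ψ d) ≤ Lf d lam n (Ψ d) - cm * (Lf d lam n chi) ^ 2 := by
  rw [Lf_succ]
  have h := M.all_sum n d M.hd le_rfl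
  have : (d : ℝ) * (wd * Lf d lam n (Ψ d)) = Lf d lam n (Ψ d) := by
    rw [← mul_assoc, M.hwd, one_mul]
  linarith

theorem Method.lower (M : Method d lam wd cm B Ψ) (n : ℕ) : -B ≤ Lf d lam n (Ψ d) := by
  have h : 0 ≤ ∑ c, (at3 (Ψ d) (Lv d lam n c) + B * at3 ms (Lv d lam n c)) :=
    Finset.sum_nonneg fun c _ => M.low _ _ _ (Lv_nonneg M.lam1 M.lam0 n c 0)
      (Lv_nonneg M.lam1 M.lam0 n c 1) (Lv_nonneg M.lam1 M.lam0 n c 2)
  rw [Finset.sum_add_distrib, ← Finset.mul_sum] at h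
  have : ∑ a, at3 ms (Lv d lam n a) = 1 := ms_sum n
  rw [this] at h
  unfold Lf
  linarith

theorem Method.tele (M : Method d lam wd cm B Ψ) (n : ℕ) :
    ∑ i ∈ Finset.range n, cm * (Lf d lam i chi) ^ 2
      ≤ Lf d lam 0 (Ψ d) - Lf d lam n (Ψ d) := by
  induction n with
  | zero => simp
  | succ n ih =>
    rw [Finset.sum_range_succ]
    have := M.descent n
    linarith

theorem Method.chi_tendsto (M : Method d lam wd cm B Ψ) :
    Filter.Tendsto (fun n => (Lf d lam n chi) ^ 2) Filter.atTop (nhds 0) := by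
  have hs : Summable fun n => cm * (Lf d lam n chi) ^ 2 := by
    refine summable_of_sum_range_le (c := Lf d lam 0 (Ψ d) + B) (fun n => ?_) fun n => ?_
    · exact mul_nonneg M.cmpos.le (sq_nonneg _)
    · have h1 := M.tele n
      have h2 := M.lower n
      linarith
  have ht := hs.tendsto_atTop_zero
  have : (fun n => (Lf d lam n chi) ^ 2) = fun n => (1 / cm) * (cm * (Lf d lam n chi) ^ 2) := by
    funext n
    have := M.cmpos.ne'
    field_simp
  rw [this]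
  simpa using ht.const_mul (1 / cm)

/-- pointwise comparison of the total variation term -/
theorem tv_term (δ a0 a1 a2 : ℝ) (hδ : 0 < δ) (h0 : 0 ≤ a0) (h1 : 0 ≤ a1) (h2 : 0 ≤ a2) :
    (1 / 6) * (|a0 - ms a0 a1 a2| + |a1 - ms a0 a1 a2| + |a2 - ms a0 a1 a2|)
      ≤ δ / 4 * ms a0 a1 a2 + 1 / (2 * δ) * chi a0 a1 a2 := by
  rcases (ms_nonneg h0 h1 h2).eq_or_lt with hm | hm
  · obtain ⟨z0, z1, z2⟩ := ms_zero h0 h1 h2 hm.symm
    subst z0; subst z1; subst z2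
    have e0 : ms 0 0 0 = 0 := by unfold ms; norm_num
    have e1 : chi 0 0 0 = 0 := by unfold chi; rw [e0]; norm_num
    rw [e0, e1]; norm_num
  · have key : ∀ x : ℝ, |x - ms a0 a1 a2|
        ≤ δ / 2 * ms a0 a1 a2 + 1 / (2 * δ * ms a0 a1 a2) * (x - ms a0 a1 a2) ^ 2 := by
      intro x
      set y := |x - ms a0 a1 a2| with hy
      have : (x - ms a0 a1 a2) ^ 2 = y ^ 2 := by rw [hy, sq_abs]
      rw [this]
      have h : 0 ≤ (y - δ * ms a0 a1 a2) ^ 2 / (2 * δ * ms a0 a1 a2) := by positivity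
      have e : (y - δ * ms a0 a1 a2) ^ 2 / (2 * δ * ms a0 a1 a2)
          = 1 / (2 * δ * ms a0 a1 a2) * y ^ 2 - y + δ / 2 * ms a0 a1 a2 := by
        field_simp; ring
      rw [e] at h
      linarith
    have s1 := key a0
    have s2 := key a1
    have s3 := key a2
    have e : chi a0 a1 a2 = ((a0 - ms a0 a1 a2) ^ 2 + (a1 - ms a0 a1 a2) ^ 2
        + (a2 - ms a0 a1 a2) ^ 2) / (6 * ms a0 a1 a2) := by
      rw [eq_div_iff (by positivity)]
      unfold chi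
      have : (ms a0 a1 a2 - (a0 * a1 + a0 * a2 + a1 * a2) / 3 / ms a0 a1 a2) * (6 * ms a0 a1 a2)
        = 6 * ms a0 a1 a2 ^ 2 - 2 * (a0 * a1 + a0 * a2 + a1 * a2) := by
        field_simp
        ring
      rw [this]
      unfold ms
      ring
    have e2 : 1 / (2 * δ) * chi a0 a1 a2 = (1 / 6) * (1 / (2 * δ * ms a0 a1 a2) *
        ((a0 - ms a0 a1 a2) ^ 2 + (a1 - ms a0 a1 a2) ^ 2 + (a2 - ms a0 a1 a2) ^ 2)) := by
      rw [e]; field_simp
    rw [e2]
    linarith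

theorem aSeq_le (h1 : lam ≤ 1) (h0 : -(1 / 2) ≤ lam) (n : ℕ) (δ : ℝ) (hδ : 0 < δ) :
    aSeq 3 d lam n ≤ δ / 4 + 1 / (2 * δ) * Lf d lam n chi := by
  have key : ∀ c, marg 3 d lam n c * (1 / 2 * ∑ i : Fin 3, |post 3 d lam n i c - 1 / 3|)
      ≤ δ / 4 * at3 ms (Lv d lam n c) + 1 / (2 * δ) * at3 chi (Lv d lam n c) := by
    intro c
    have p0 := Lv_nonneg h1 h0 n c 0
    have p1 := Lv_nonneg h1 h0 n c 1
    have p2 := Lv_nonneg h1 h0 n c 2
    refine le_trans (le_of_eq ?_) (tv_term δ _ _ _ hδ p0 p1 p2)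
    have hm : marg 3 d lam n c = ms (Lv d lam n c 0) (Lv d lam n c 1) (Lv d lam n c 2) := by
      unfold marg joint ms Lv
      rw [Fin.sum_univ_three]
      push_cast
      ring
    have hj : ∀ i, joint 3 d lam n i c = 1 / 3 * Lv d lam n c i := by
      intro i; unfold joint Lv; push_cast; ring
    rcases (ms_nonneg p0 p1 p2).eq_or_lt with hz | hz
    · obtain ⟨z0, z1, z2⟩ := ms_zero p0 p1 p2 hz.symm
      have e0 : ms 0 0 0 = 0 := by unfold ms; norm_num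
      rw [hm, z0, z1, z2, e0]
      norm_num
    · rw [hm, Fin.sum_univ_three]
      unfold post
      rw [hm, hj, hj, hj]
      set m := ms (Lv d lam n c 0) (Lv d lam n c 1) (Lv d lam n c 2) with hmdef
      have e : ∀ x : ℝ, |1 / 3 * x / m - 1 / 3| = 1 / 3 * |x - m| / m := by
        intro x
        have : 1 / 3 * x / m - 1 / 3 = (1 / 3 / m) * (x - m) := by field_simp
        rw [this, abs_mul, abs_of_pos (by positivity)]
        ring
      rw [e, e, e]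
      field_simp
      ring
  unfold aSeq
  have : ((3 : ℕ) : ℝ) = 3 := by norm_num
  rw [this]
  refine le_trans (Finset.sum_le_sum fun c _ => key c) (le_of_eq ?_)
  rw [Finset.sum_add_distrib, ← Finset.mul_sum, ← Finset.mul_sum]
  have e : ∑ a, at3 ms (Lv d lam n a) = 1 := ms_sum n
  rw [e, mul_one]
  rfl

theorem aSeq_nonneg (h1 : lam ≤ 1) (h0 : -(1 / 2) ≤ lam) (n : ℕ) : 0 ≤ aSeq 3 d lam n := by
  unfold aSeq
  refine Finset.sum_nonneg fun c _ => mul_nonneg ?_ (by positivity)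
  unfold marg joint
  exact Finset.sum_nonneg fun i _ => mul_nonneg (by positivity)
    (lik_nonneg 3 d lam (potts_pos3 h1 h0) n i c)

theorem Method.result (M : Method d lam wd cm B Ψ) :
    Filter.Tendsto (fun n => aSeq 3 d lam n) Filter.atTop (nhds 0) := by
  have ht := M.chi_tendsto
  rw [Metric.tendsto_atTop] at ht ⊢
  intro ε hε
  obtain ⟨N, hN⟩ := ht (ε ^ 4) (by positivity)
  refine ⟨N, fun n hn => ?_⟩
  have h := hN n hn
  rw [Real.dist_eq, sub_zero, abs_of_nonneg (sq_nonneg _)] at h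
  have h2 : Lf d lam n chi < ε ^ 2 := by
    by_contra hcon
    push Not at hcon
    have : (ε ^ 2) ^ 2 ≤ (Lf d lam n chi) ^ 2 := pow_le_pow_left₀ (by positivity) hcon 2
    have e : (ε ^ 2) ^ 2 = ε ^ 4 := by ring
    rw [e] at this
    linarith
  rw [Real.dist_eq, sub_zero, abs_of_nonneg (aSeq_nonneg M.lam1 M.lam0 n)]
  have h3 := aSeq_le (d := d) M.lam1 M.lam0 n ε hε
  have h4 : 1 / (2 * ε) * Lf d lam n chi ≤ 1 / (2 * ε) * ε ^ 2 :=
    mul_le_mul_of_nonneg_left h2.le (by positivity)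
  have h5 : 1 / (2 * ε) * ε ^ 2 = ε / 2 := by field_simp
  linarith

end treePart

end Vale.Agent.P154
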