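import Vale.Agent.P154.Bound3

/-! Potentials `A(p) + P B(p) + P² E(p)` with joint polynomial majorants. -/

namespace Vale.Agent.P154

/-- a potential `A(p) + P B(p) + P² E(p)` together with the coefficients of its majorant -/
structure NP where
  A : CL
  B : CL
  E : CL
  a0 : CL
  a1 : CL
  a2 : CL
  a3 : CL
  a4 : CL
  b0 : CL
  b1 : CL
  b2 : CL
  b3 : CL
  b4 : CL
  g0 : CL
  g1 : CL
  g2 : CL

/-- the potential as a function of `P` and `p` -/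
noncomputable def wR (D : NP) (P p : ℝ) : ℝ := hr D.A p + P * (hr D.B p + P * hr D.E p)
def wP (D : NP) (P p : PE) : PE := .add (hp D.A p) (.mul P (.add (hp D.B p) (.mul P (hp D.E p))))

theorem wP_real (s : ℝ) (v : ℕ → ℝ) (D : NP) (P p : PE) :
    (wP D P p).real s v = wR D (P.real s v) (p.real s v) := by
  simp only [wP, wR, PE.real_add, PE.real_mul, hp_real]

/-- the majorant of `w W(X)` as a function of `r = w - 1`, `E = w² (1 - P)`, `π = w³ p` -/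
noncomputable def uR (D : NP) (r E π : ℝ) : ℝ :=
  (hr D.a0 π + r * (hr D.a1 π + r * (hr D.a2 π + r * (hr D.a3 π + r * hr D.a4 π))))
  + E * ((hr D.b0 π + r * (hr D.b1 π + r * (hr D.b2 π + r * (hr D.b3 π + r * hr D.b4 π))))
    + E * (hr D.g0 π + r * (hr D.g1 π + r * hr D.g2 π)))

def uP (D : NP) (r E π : PE) : PE :=
  .add (.add (hp D.a0 π) (.mul r (.add (hp D.a1 π) (.mul r (.add (hp D.a2 π)
    (.mul r (.add (hp D.a3 π) (.mul r (hp D.a4 π)))))))))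
  (.mul E (.add (.add (hp D.b0 π) (.mul r (.add (hp D.b1 π) (.mul r (.add (hp D.b2 π)
    (.mul r (.add (hp D.b3 π) (.mul r (hp D.b4 π)))))))))
    (.mul E (.add (hp D.g0 π) (.mul r (.add (hp D.g1 π) (.mul r (hp D.g2 π))))))))

theorem uP_real (s : ℝ) (v : ℕ → ℝ) (D : NP) (r E π : PE) :
    (uP D r E π).real s v = uR D (r.real s v) (E.real s v) (π.real s v) := by
  simp only [uP, uR, PE.real_add, PE.real_mul, hp_real]

/-- averages of `r^j`, `E r^j`, `E² r^j` -/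
structure Mo (α : Type) where
  r2 : α
  r3 : α
  r4 : α
  e0 : α
  e1 : α
  e2 : α
  e3 : α
  e4 : α
  f0 : α
  f1 : α
  f2 : α

/-- the averages as real polynomials -/
def moR (P C Q K : ℝ) : Mo ℝ :=
  let k := P * Q
  let μ := C * K
  let S := (P * P * P - C * C) * (Q * Q * Q - K * K)
  let T1 := Q * C + P * K
  let T2 := P * (P * K) + Q * (Q * C)
  let T3 := Q * Q * (C * C) + P * P * (K * K)
  let r2 := 2 * k
  let r3 := 2 * μ
  let r4 := 6 * (k * k)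
  let r5 := 10 * (k * μ)
  let r6 := 18 * (k * (k * k)) + 4 * (μ * μ + S)
  let a1 := 2 * T1
  let a2 := 2 * T2
  let a3 := 6 * (k * T1)
  let a4 := 4 * (μ * T1) + 6 * (k * T2)
  let c0 := 2 * (k * (P + Q)) + 4 * μ
  let c1 := 2 * ((P + Q) * μ) + 4 * (k * k)
  let c2 := 4 * T3 + 2 * (k * k * (P + Q)) + 12 * (k * μ)
  let l := 1 - (P + Q + k)
  { r2 := r2, r3 := r3, r4 := r4,
    e0 := (1 - P) * (1 - Q),
    e1 := r2 + (r3 - a1),
    e2 := l * r2 + (r3 + (r4 - a2)),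
    e3 := l * r3 + (r4 + (r5 - a3)),
    e4 := l * r4 + (r5 + (r6 - a4)),
    f0 := l * (l + 2 * r2) + (r2 + (2 * r3 + (r4 + (c0 - 2 * (a1 + a2))))),
    f1 := 2 * (l * (r2 + (r3 - a1))) + (r3 + (2 * r4 + (r5 + (c1 - 2 * (a2 + a3))))),
    f2 := l * (l * r2 + 2 * (r3 + (r4 - a2))) + (r4 + (2 * r5 + (r6 + (c2 - 2 * (a3 + a4))))) }

/-- the averages as expressions -/
def moP (P C Q K : PE) : Mo PE :=
  let k : PE := .mul P Q
  let μ : PE := .mul C K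
  let S : PE := .mul (psub (.mul (.mul P P) P) (.mul C C)) (psub (.mul (.mul Q Q) Q) (.mul K K))
  let T1 : PE := .add (.mul Q C) (.mul P K)
  let T2 : PE := .add (.mul P (.mul P K)) (.mul Q (.mul Q C))
  let T3 : PE := .add (.mul (.mul Q Q) (.mul C C)) (.mul (.mul P P) (.mul K K))
  let r2 := sc 2 k
  let r3 := sc 2 μ
  let r4 := sc 6 (.mul k k)
  let r5 := sc 10 (.mul k μ)
  let r6 : PE := .add (sc 18 (.mul k (.mul k k))) (sc 4 (.add (.mul μ μ) S))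
  let a1 := sc 2 T1
  let a2 := sc 2 T2
  let a3 := sc 6 (.mul k T1)
  let a4 : PE := .add (sc 4 (.mul μ T1)) (sc 6 (.mul k T2))
  let c0 : PE := .add (sc 2 (.mul k (.add P Q))) (sc 4 μ)
  let c1 : PE := .add (sc 2 (.mul (.add P Q) μ)) (sc 4 (.mul k k))
  let c2 : PE := .add (.add (sc 4 T3) (sc 2 (.mul (.mul k k) (.add P Q)))) (sc 12 (.mul k μ))
  let l : PE := psub one' (.add (.add P Q) k)
  { r2 := r2, r3 := r3, r4 := r4,
    e0 := .mul (psub one' P) (psub one' Q),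
    e1 := .add r2 (psub r3 a1),
    e2 := .add (.mul l r2) (.add r3 (psub r4 a2)),
    e3 := .add (.mul l r3) (.add r4 (psub r5 a3)),
    e4 := .add (.mul l r4) (.add r5 (psub r6 a4)),
    f0 := .add (.mul l (.add l (sc 2 r2))) (.add r2 (.add (sc 2 r3) (.add r4
      (psub c0 (sc 2 (.add a1 a2)))))),
    f1 := .add (sc 2 (.mul l (.add r2 (psub r3 a1)))) (.add r3 (.add (sc 2 r4) (.add r5
      (psub c1 (sc 2 (.add a2 a3)))))),
    f2 := .add (.mul l (.add (.mul l r2) (sc 2 (.add r3 (psub r4 a2))))) (.add r4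
      (.add (sc 2 r5) (.add r6 (psub c2 (sc 2 (.add a3 a4)))))) }

/-- average of the majorant -/
noncomputable def avU (D : NP) (M : Mo ℝ) (π : ℝ) : ℝ :=
  (hr D.a0 π + (M.r2 * hr D.a2 π + (M.r3 * hr D.a3 π + M.r4 * hr D.a4 π)))
  + ((M.e0 * hr D.b0 π + (M.e1 * hr D.b1 π + (M.e2 * hr D.b2 π
      + (M.e3 * hr D.b3 π + M.e4 * hr D.b4 π))))
  + (M.f0 * hr D.g0 π + (M.f1 * hr D.g1 π + M.f2 * hr D.g2 π)))

def avUP (D : NP) (M : Mo PE) (π : PE) : PE :=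
  .add (.add (hp D.a0 π) (.add (.mul M.r2 (hp D.a2 π)) (.add (.mul M.r3 (hp D.a3 π))
      (.mul M.r4 (hp D.a4 π)))))
  (.add (.add (.mul M.e0 (hp D.b0 π)) (.add (.mul M.e1 (hp D.b1 π))
      (.add (.mul M.e2 (hp D.b2 π)) (.add (.mul M.e3 (hp D.b3 π)) (.mul M.e4 (hp D.b4 π))))))
  (.add (.mul M.f0 (hp D.g0 π)) (.add (.mul M.f1 (hp D.g1 π)) (.mul M.f2 (hp D.g2 π)))))

/-- average as a function of the two messages -/
noncomputable def avg (D : NP) (P C Q K : ℝ) : ℝ :=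
  avU D (moR P C Q K) ((1 - 3 * P + 2 * C) * (1 - 3 * Q + 2 * K))

def avgP (D : NP) (P C Q K : PE) : PE := avUP D (moP P C Q K) (.mul (pofP P C) (pofP Q K))

theorem avgP_real (s : ℝ) (v : ℕ → ℝ) (D : NP) (P C Q K : PE) :
    (avgP D P C Q K).real s v
      = avg D (P.real s v) (C.real s v) (Q.real s v) (K.real s v) := by
  simp only [avgP, avg, avUP, avU, moP, moR, sc, psub, one', PE.real_add, PE.real_mul,
    PE.real_neg, PE.real_q, hp_real, pofP_real]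
  norm_num [sub_eq_add_neg]

theorem six_U (D : NP) (x0 x1 y0 y1 π : ℝ) :
    s6 (fun u v => uR D (rr x0 x1 u v) ((1 + rr x0 x1 u v) ^ 2
        - ((Pc x0 x1 + Pc y0 y1 + Pc x0 x1 * Pc y0 y1)
        + rr x0 x1 u v + aa x0 x1 u v + bb x0 x1 u v)) π) y0 y1
      = 6 * avU D (moR (Pc x0 x1) (Cc x0 x1) (Pc y0 y1) (Cc y0 y1)) π := by
  have h1 := s_r1 x0 x1 y0 y1
  have h2 := s_r2 x0 x1 y0 y1
  have h3 := s_r3 x0 x1 y0 y1
  have h4 := s_r4 x0 x1 y0 y1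
  have h5 := s_r5 x0 x1 y0 y1
  have h6 := s_r6 x0 x1 y0 y1
  have ha0 := s_a0 x0 x1 y0 y1
  have ha1 := s_a1 x0 x1 y0 y1
  have ha2 := s_a2 x0 x1 y0 y1
  have ha3 := s_a3 x0 x1 y0 y1
  have ha4 := s_a4 x0 x1 y0 y1
  have hb0 := s_b0 x0 x1 y0 y1
  have hb1 := s_b1 x0 x1 y0 y1
  have hb2 := s_b2 x0 x1 y0 y1
  have hb3 := s_b3 x0 x1 y0 y1
  have hb4 := s_b4 x0 x1 y0 y1
  have haa0 := s_aa0 x0 x1 y0 y1
  have haa1 := s_aa1 x0 x1 y0 y1
  have haa2 := s_aa2 x0 x1 y0 y1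
  have hbb0 := s_bb0 x0 x1 y0 y1
  have hbb1 := s_bb1 x0 x1 y0 y1
  have hbb2 := s_bb2 x0 x1 y0 y1
  have hab0 := s_ab0 x0 x1 y0 y1
  have hab1 := s_ab1 x0 x1 y0 y1
  have hab2 := s_ab2 x0 x1 y0 y1
  simp only [s6] at h1 h2 h3 h4 h5 h6 ha0 ha1 ha2 ha3 ha4 hb0 hb1 hb2 hb3 hb4
  simp only [s6] at haa0 haa1 haa2 hbb0 hbb1 hbb2 hab0 hab1 hab2
  simp only [s6, uR, avU, moR]
  generalize hr D.a0 π = A0
  generalize hr D.a1 π = A1
  generalize hr D.a2 π = A2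
  generalize hr D.a3 π = A3
  generalize hr D.a4 π = A4
  generalize hr D.b0 π = B0
  generalize hr D.b1 π = B1
  generalize hr D.b2 π = B2
  generalize hr D.b3 π = B3
  generalize hr D.b4 π = B4
  generalize hr D.g0 π = G0
  generalize hr D.g1 π = G1
  generalize hr D.g2 π = G2
  generalize rr x0 x1 y0 y1 = r1 at *
  generalize rr x0 x1 y1 (-y0 - y1) = r2 at *
  generalize rr x0 x1 (-y0 - y1) y0 = r3 at *
  generalize rr x0 x1 y0 (-y0 - y1) = r4 at *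
  generalize rr x0 x1 (-y0 - y1) y1 = r5 at *
  generalize rr x0 x1 y1 y0 = r6 at *
  generalize aa x0 x1 y0 y1 = a1 at *
  generalize aa x0 x1 y1 (-y0 - y1) = a2 at *
  generalize aa x0 x1 (-y0 - y1) y0 = a3 at *
  generalize aa x0 x1 y0 (-y0 - y1) = a4 at *
  generalize aa x0 x1 (-y0 - y1) y1 = a5 at *
  generalize aa x0 x1 y1 y0 = a6 at *
  generalize bb x0 x1 y0 y1 = b1 at *
  generalize bb x0 x1 y1 (-y0 - y1) = b2 at *
  generalize bb x0 x1 (-y0 - y1) y0 = b3 at *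
  generalize bb x0 x1 y0 (-y0 - y1) = b4 at *
  generalize bb x0 x1 (-y0 - y1) y1 = b5 at *
  generalize bb x0 x1 y1 y0 = b6 at *
  generalize Pc x0 x1 = P at *
  generalize Cc x0 x1 = C at *
  generalize Pc y0 y1 = Q at *
  generalize Cc y0 y1 = K at *
  have hcc0 := haa0
  linear_combination (A1 + B0 * 1 + B1 * (1 - (P + Q + P * Q)) + G0 * (2 * (1 - (P + Q + P * Q)))
      + G1 * (1 - (P + Q + P * Q)) ^ 2) * h1
    + (A2 + B0 + B1 + B2 * (1 - (P + Q + P * Q)) + G0 * (2 * (1 - (P + Q + P * Q)) + 1)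
      + G1 * (2 * (1 - (P + Q + P * Q))) + G2 * (1 - (P + Q + P * Q)) ^ 2) * h2
    + (A3 + B1 + B2 + B3 * (1 - (P + Q + P * Q)) + G0 * 2
      + G1 * (2 * (1 - (P + Q + P * Q)) + 1) + G2 * (2 * (1 - (P + Q + P * Q)))) * h3
    + (A4 + B2 + B3 + B4 * (1 - (P + Q + P * Q)) + G0 + G1 * 2
      + G2 * (2 * (1 - (P + Q + P * Q)) + 1)) * h4
    + (B3 + B4 + G1 + 2 * G2) * h5 + (B4 + G2) * h6
    - (B0 + 2 * (1 - (P + Q + P * Q)) * G0) * (ha0 + hb0)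
    - (B1 + 2 * G0 + 2 * (1 - (P + Q + P * Q)) * G1) * (ha1 + hb1)
    - (B2 + 2 * G0 + 2 * G1 + 2 * (1 - (P + Q + P * Q)) * G2) * (ha2 + hb2)
    - (B3 + 2 * G1 + 2 * G2) * (ha3 + hb3) - (B4 + 2 * G2) * (ha4 + hb4)
    + G0 * (haa0 + 2 * hab0 + hbb0) + G1 * (haa1 + 2 * hab1 + hbb1)
    + G2 * (haa2 + 2 * hab2 + hbb2)

end Vale.Agent.P154
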