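import Vale.Agent.P154.Mono
import Vale.Agent.P154.Chain
import Vale.Agent.P154.Pot2

/-! From step inequalities with a balancing term to nonreconstruction on the regular tree. -/

open scoped BigOperators

namespace Vale.Agent.P154

/-- homogeneous functional attached to a function of `P` and `C` -/
noncomputable def hom (g : ℝ → ℝ → ℝ) (a0 a1 a2 : ℝ) : ℝ :=
  ms a0 a1 a2 * g (Pf (a0 / ms a0 a1 a2) (a1 / ms a0 a1 a2) (a2 / ms a0 a1 a2))
    (Cf (a0 / ms a0 a1 a2) (a1 / ms a0 a1 a2) (a2 / ms a0 a1 a2))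

theorem hom_zero (g : ℝ → ℝ → ℝ) : hom g 0 0 0 = 0 := by
  have : ms 0 0 0 = 0 := by unfold ms; norm_num
  unfold hom; rw [this, zero_mul]

theorem hom_unit (g : ℝ → ℝ → ℝ) (q0 q1 q2 : ℝ) (h : q0 + q1 + q2 = 3) :
    hom g q0 q1 q2 = g (Pf q0 q1 q2) (Cf q0 q1 q2) := by
  have : ms q0 q1 q2 = 1 := by unfold ms; rw [h]; norm_num
  unfold hom; rw [this]; simp

theorem hom_smul (g : ℝ → ℝ → ℝ) (t a0 a1 a2 : ℝ) :
    hom g (t * a0) (t * a1) (t * a2) = t * hom g a0 a1 a2 := by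
  rcases eq_or_ne t 0 with h | h
  · rw [h]; simp [hom_zero]
  · have e1 : ms (t * a0) (t * a1) (t * a2) = t * ms a0 a1 a2 := by unfold ms; ring
    unfold hom
    rw [e1, mul_div_mul_left _ _ h, mul_div_mul_left _ _ h, mul_div_mul_left _ _ h]
    ring

theorem hom_one : hom (fun _ _ => 1) = ms := by
  funext a b c; unfold hom; ring

theorem Pf_zero3 : Pf 1 1 1 = 0 := by unfold Pf; norm_num
theorem Cf_zero3 : Cf 1 1 1 = 0 := by unfold Cf Pf; norm_num

theorem hom_triv (g : ℝ → ℝ → ℝ) : hom g 1 1 1 = g 0 0 := by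
  rw [hom_unit g 1 1 1 (by norm_num), Pf_zero3, Cf_zero3]

theorem ms_smul (t a0 a1 a2 : ℝ) : ms (t * a0) (t * a1) (t * a2) = t * ms a0 a1 a2 := by
  unfold ms; ring

theorem hom_chi (a0 a1 a2 : ℝ) (h0 : 0 ≤ a0) (h1 : 0 ≤ a1) (h2 : 0 ≤ a2) :
    hom (fun P _ => P) a0 a1 a2 = chi a0 a1 a2 := by
  rcases (ms_nonneg h0 h1 h2).eq_or_lt with h | h
  · obtain ⟨z0, z1, z2⟩ := ms_zero h0 h1 h2 h.symm
    subst z0; subst z1; subst z2
    rw [hom_zero, chi_zero]
  · have nq := normalize (a0 := a0) (a1 := a1) (a2 := a2) h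
    have e0 : a0 = ms a0 a1 a2 * (a0 / ms a0 a1 a2) := by field_simp
    have e1 : a1 = ms a0 a1 a2 * (a1 / ms a0 a1 a2) := by field_simp
    have e2 : a2 = ms a0 a1 a2 * (a2 / ms a0 a1 a2) := by field_simp
    have : chi a0 a1 a2 = chi (ms a0 a1 a2 * (a0 / ms a0 a1 a2))
        (ms a0 a1 a2 * (a1 / ms a0 a1 a2)) (ms a0 a1 a2 * (a2 / ms a0 a1 a2)) := by
      rw [← e0, ← e1, ← e2]
    rw [this, chi_smul', chi_unit _ _ _ nq]; rfl

/-- balancing term at the three nodes -/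
noncomputable def bal (κ μ : ℝ) (j : ℕ) (x m h0 h1 : ℝ) : ℝ :=
  match j with
  | 0 => κ * x * h0
  | 1 => (κ * x * h1 + (κ * x - μ * m) * h0) / 2
  | _ => (κ * x - μ * m) * h1

/-- a system of potentials satisfying the step inequalities -/
structure Sys (d : ℕ) (lam κ μ δ B : ℝ) (W ψ h : ℕ → ℕ → ℝ → ℝ → ℝ) : Prop where
  hd : 1 ≤ d
  lam1 : lam ≤ 1
  lam0 : -(1 / 2) ≤ lam
  κpos : 0 < κ
  hκμ : κ ≤ μ
  δpos : 0 < δ
  Bnn : 0 ≤ B
  step : ∀ j k, j < 3 → k < d → ∀ a0 a1 a2 b0 b1 b2 : ℝ, (k = 0 → a0 = 1 ∧ a1 = 1 ∧ a2 = 1) →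
    0 ≤ a0 → 0 ≤ a1 → 0 ≤ a2 → 0 ≤ b0 → 0 ≤ b1 → 0 ≤ b2 →
    six (fun x y z => hom (W j (k + 1)) (a0 * ns lam (ms b0 b1 b2) x)
        (a1 * ns lam (ms b0 b1 b2) y) (a2 * ns lam (ms b0 b1 b2) z)) b0 b1 b2
      ≤ 6 * (ms b0 b1 b2 * hom (W j k) a0 a1 a2 + ms a0 a1 a2 * hom (ψ j k) b0 b1 b2
        + bal κ μ j (chi b0 b1 b2) (ms b0 b1 b2) (hom (h 0 k) a0 a1 a2) (hom (h 1 k) a0 a1 a2))
  final : ∀ j, j < 3 → ∀ b0 b1 b2 : ℝ, 0 ≤ b0 → 0 ≤ b1 → 0 ≤ b2 →
    ∑ k ∈ Finset.range d, hom (ψ j k) b0 b1 b2 + ms b0 b1 b2 * (W j 0 0 0)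
      + (if j = 2 then δ else 0) * ms b0 b1 b2 ≤ hom (W j d) b0 b1 b2
  bddW : ∀ j, j < 3 → ∀ a0 a1 a2 : ℝ, 0 ≤ a0 → 0 ≤ a1 → 0 ≤ a2 →
    |hom (W j d) a0 a1 a2| ≤ B * ms a0 a1 a2
  bddh : ∀ i k, i < 2 → k < d → ∀ a0 a1 a2 : ℝ, 0 ≤ a0 → 0 ≤ a1 → 0 ≤ a2 →
    |hom (h i k) a0 a1 a2| ≤ B * ms a0 a1 a2

section
variable {d : ℕ} {lam κ μ δ B : ℝ} {W ψ h : ℕ → ℕ → ℝ → ℝ → ℝ}

theorem prod_nz_nonneg (h1 : lam ≤ 1) (h0 : -(1 / 2) ≤ lam) (n k : ℕ) (c : Fin k → Conf 3 d n)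
    (i : Fin 3) : 0 ≤ ∏ j, nz lam (Lv d lam n (c j)) i :=
  Finset.prod_nonneg fun j _ => nz_nonneg lam h1 h0 _ (fun i => Lv_nonneg h1 h0 n (c j) i) i

/-- double sum of a product functional -/
theorem sum_prod (n k : ℕ) (F G : ℝ → ℝ → ℝ → ℝ) :
    ∑ c : Fin k → Conf 3 d n, ∑ b : Conf 3 d n,
      at3 F (fun i => ∏ j, nz lam (Lv d lam n (c j)) i) * at3 G (Lv d lam n b)
      = Sk d lam n k F * Lf d lam n G := by
  unfold Sk Lf
  rw [Finset.sum_mul_sum]

theorem Sys.stage (S : Sys d lam κ μ δ B W ψ h) (n j k : ℕ) (hj : j < 3) (hk : k < d) :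
    Sk d lam n (k + 1) (hom (W j (k + 1))) ≤ Sk d lam n k (hom (W j k)) + Lf d lam n (hom (ψ j k))
      + bal κ μ j (Lf d lam n chi) 1 (Sk d lam n k (hom (h 0 k))) (Sk d lam n k (hom (h 1 k))) := by
  rw [Sk_succ]
  have hms : Lf d lam n ms = 1 := by unfold Lf at3; exact ms_sum n
  have hk1 : Sk d lam n k ms = 1 := Sk_ms n k
  have hone : ∀ c : Fin k → Conf 3 d n,
      ∑ b, at3 (hom (W j (k + 1))) (fun i =>
        (∏ j, nz lam (Lv d lam n (c j)) i) * nz lam (Lv d lam n b) i)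
      ≤ ∑ b, (at3 (hom (W j k)) (fun i => ∏ j, nz lam (Lv d lam n (c j)) i) * at3 ms (Lv d lam n b)
        + at3 ms (fun i => ∏ j, nz lam (Lv d lam n (c j)) i) * at3 (hom (ψ j k)) (Lv d lam n b)
        + bal κ μ j (at3 chi (Lv d lam n b)) (at3 ms (Lv d lam n b))
          (at3 (hom (h 0 k)) (fun i => ∏ j, nz lam (Lv d lam n (c j)) i))
          (at3 (hom (h 1 k)) (fun i => ∏ j, nz lam (Lv d lam n (c j)) i))) := by
    intro c
    set a : Fin 3 → ℝ := fun i => ∏ j, nz lam (Lv d lam n (c j)) i with ha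
    have han : ∀ i, 0 ≤ a i := fun i => prod_nz_nonneg S.lam1 S.lam0 n k c i
    have hone := sum_one_step (Lv_sym (d := d) (lam := lam) n) lam (hom (W j (k + 1))) a
    rw [hone, Finset.mul_sum]
    refine Finset.sum_le_sum fun b _ => ?_
    have h1 := S.step j k hj hk (a 0) (a 1) (a 2) (Lv d lam n b 0) (Lv d lam n b 1)
      (Lv d lam n b 2) (by
        intro hk0
        subst hk0
        simp [ha]) (han 0) (han 1) (han 2) (Lv_nonneg S.lam1 S.lam0 n b 0)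
      (Lv_nonneg S.lam1 S.lam0 n b 1) (Lv_nonneg S.lam1 S.lam0 n b 2)
    unfold at3
    linarith
  refine le_trans (Finset.sum_le_sum fun c _ => hone c) (le_of_eq ?_)
  simp only [Finset.sum_add_distrib]
  rw [sum_prod n k (hom (W j k)) ms, hms, mul_one, sum_prod n k ms (hom (ψ j k)), hk1, one_mul]
  congr 1
  interval_cases j
  · simp only [bal]
    have : ∀ (c : Fin k → Conf 3 d n) (b : Conf 3 d n), κ * at3 chi (Lv d lam n b)
        * at3 (hom (h 0 k)) (fun i => ∏ j, nz lam (Lv d lam n (c j)) i)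
        = κ * (at3 (hom (h 0 k)) (fun i => ∏ j, nz lam (Lv d lam n (c j)) i)
          * at3 chi (Lv d lam n b)) := by intro c b; ring
    simp only [this, ← Finset.mul_sum]
    have h2 := sum_prod (d := d) (lam := lam) n k (hom (h 0 k)) chi
    simp only [← Finset.mul_sum] at h2
    rw [h2]; ring
  · simp only [bal]
    have : ∀ (c : Fin k → Conf 3 d n) (b : Conf 3 d n), (κ * at3 chi (Lv d lam n b)
        * at3 (hom (h 1 k)) (fun i => ∏ j, nz lam (Lv d lam n (c j)) i)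
        + (κ * at3 chi (Lv d lam n b) - μ * at3 ms (Lv d lam n b))
        * at3 (hom (h 0 k)) (fun i => ∏ j, nz lam (Lv d lam n (c j)) i)) / 2
        = κ / 2 * (at3 (hom (h 1 k)) (fun i => ∏ j, nz lam (Lv d lam n (c j)) i)
          * at3 chi (Lv d lam n b))
        + κ / 2 * (at3 (hom (h 0 k)) (fun i => ∏ j, nz lam (Lv d lam n (c j)) i)
          * at3 chi (Lv d lam n b))
        - μ / 2 * (at3 (hom (h 0 k)) (fun i => ∏ j, nz lam (Lv d lam n (c j)) i)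
          * at3 ms (Lv d lam n b)) := by intro c b; ring
    simp only [this, Finset.sum_add_distrib, Finset.sum_sub_distrib]
    have h2 := sum_prod (d := d) (lam := lam) n k (hom (h 1 k)) chi
    have h3 := sum_prod (d := d) (lam := lam) n k (hom (h 0 k)) chi
    have h4 := sum_prod (d := d) (lam := lam) n k (hom (h 0 k)) ms
    rw [hms] at h4
    simp only [← Finset.mul_sum] at h2 h3 h4 ⊢
    rw [h2, h3, h4]; ring
  · simp only [bal]
    have : ∀ (c : Fin k → Conf 3 d n) (b : Conf 3 d n),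
        (κ * at3 chi (Lv d lam n b) - μ * at3 ms (Lv d lam n b))
        * at3 (hom (h 1 k)) (fun i => ∏ j, nz lam (Lv d lam n (c j)) i)
        = κ * (at3 (hom (h 1 k)) (fun i => ∏ j, nz lam (Lv d lam n (c j)) i)
          * at3 chi (Lv d lam n b))
        - μ * (at3 (hom (h 1 k)) (fun i => ∏ j, nz lam (Lv d lam n (c j)) i)
          * at3 ms (Lv d lam n b)) := by intro c b; ring
    simp only [this, Finset.sum_sub_distrib]
    have h3 := sum_prod (d := d) (lam := lam) n k (hom (h 1 k)) chi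
    have h4 := sum_prod (d := d) (lam := lam) n k (hom (h 1 k)) ms
    rw [hms] at h4
    simp only [← Finset.mul_sum] at h3 h4 ⊢
    rw [h3, h4]; ring

/-- sum of the multipliers -/
noncomputable def HH (d : ℕ) (lam : ℝ) (h : ℕ → ℕ → ℝ → ℝ → ℝ) (n i k : ℕ) : ℝ :=
  ∑ l ∈ Finset.range k, Sk d lam n l (hom (h i l))

theorem bal_add (j : ℕ) (x m a b c e : ℝ) :
    bal κ μ j x m (a + c) (b + e) = bal κ μ j x m a b + bal κ μ j x m c e := by
  unfold bal
  split <;> ring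

theorem Sk_zero' (n : ℕ) (g : ℝ → ℝ → ℝ) : Sk d lam n 0 (hom g) = g 0 0 := by
  unfold Sk
  rw [Fintype.sum_unique]
  unfold at3
  simp [hom_triv]

theorem Sys.chain (S : Sys d lam κ μ δ B W ψ h) (n j : ℕ) (hj : j < 3) :
    ∀ k, k ≤ d → Sk d lam n k (hom (W j k)) ≤ W j 0 0 0
      + ∑ l ∈ Finset.range k, Lf d lam n (hom (ψ j l))
      + bal κ μ j (Lf d lam n chi) 1 (HH d lam h n 0 k) (HH d lam h n 1 k)
  | 0, _ => by
      rw [Sk_zero']
      have : bal κ μ j (Lf d lam n chi) 1 (HH d lam h n 0 0) (HH d lam h n 1 0) = 0 := by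
        unfold HH bal; split <;> simp
      rw [this]; simp
  | k + 1, hk => by
      have ih := S.chain n j hj k (by omega)
      have st := S.stage n j k hj (by omega)
      unfold HH at ih ⊢
      rw [Finset.sum_range_succ, Finset.sum_range_succ, Finset.sum_range_succ, bal_add]
      linarith

theorem Lf_sum (n : ℕ) (d' : ℕ) (G : ℕ → ℝ → ℝ → ℝ → ℝ) :
    ∑ l ∈ Finset.range d', Lf d lam n (G l)
      = Lf d lam n (fun a b c => ∑ l ∈ Finset.range d', G l a b c) := by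
  unfold Lf at3
  rw [Finset.sum_comm]

theorem Sys.level (S : Sys d lam κ μ δ B W ψ h) (n j : ℕ) (hj : j < 3) :
    Lf d lam (n + 1) (hom (W j d)) ≤ Lf d lam n (hom (W j d)) - (if j = 2 then δ else 0)
      + bal κ μ j (Lf d lam n chi) 1 (HH d lam h n 0 d) (HH d lam h n 1 d) := by
  rw [Lf_succ]
  have c := S.chain n j hj d le_rfl
  rw [Lf_sum] at c
  have hms : Lf d lam n ms = 1 := by unfold Lf at3; exact ms_sum n
  have hf : Lf d lam n (fun a b c => ∑ l ∈ Finset.range d, hom (ψ j l) a b c)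
      + (W j 0 0 0 + (if j = 2 then δ else 0)) * Lf d lam n ms ≤ Lf d lam n (hom (W j d)) := by
    unfold Lf
    rw [Finset.mul_sum, ← Finset.sum_add_distrib]
    refine Finset.sum_le_sum fun b _ => ?_
    have := S.final j hj _ _ _ (Lv_nonneg S.lam1 S.lam0 n b 0) (Lv_nonneg S.lam1 S.lam0 n b 1)
      (Lv_nonneg S.lam1 S.lam0 n b 2)
    unfold at3
    linarith
  rw [hms] at hf
  linarith

theorem Lf_abs (h1 : lam ≤ 1) (h0 : -(1 / 2) ≤ lam) (n : ℕ) (G : ℝ → ℝ → ℝ → ℝ) (B : ℝ)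
    (hG : ∀ a0 a1 a2 : ℝ, 0 ≤ a0 → 0 ≤ a1 → 0 ≤ a2 → |G a0 a1 a2| ≤ B * ms a0 a1 a2) :
    |Lf d lam n G| ≤ B := by
  have hms : Lf d lam n ms = 1 := by unfold Lf at3; exact ms_sum n
  calc |Lf d lam n G| ≤ ∑ c, |at3 G (Lv d lam n c)| := Finset.abs_sum_le_sum_abs _ _
    _ ≤ ∑ c, B * at3 ms (Lv d lam n c) := Finset.sum_le_sum fun c _ =>
        hG _ _ _ (Lv_nonneg h1 h0 n c 0) (Lv_nonneg h1 h0 n c 1) (Lv_nonneg h1 h0 n c 2)
    _ = B := by
        rw [← Finset.mul_sum]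
        unfold Lf at hms
        rw [hms, mul_one]

theorem Sk_abs (h1 : lam ≤ 1) (h0 : -(1 / 2) ≤ lam) (n k : ℕ) (G : ℝ → ℝ → ℝ → ℝ) (B : ℝ)
    (hG : ∀ a0 a1 a2 : ℝ, 0 ≤ a0 → 0 ≤ a1 → 0 ≤ a2 → |G a0 a1 a2| ≤ B * ms a0 a1 a2) :
    |Sk d lam n k G| ≤ B := by
  have hms : Sk d lam n k ms = 1 := Sk_ms n k
  calc |Sk d lam n k G|
      ≤ ∑ c : Fin k → Conf 3 d n, |at3 G (fun i => ∏ j, nz lam (Lv d lam n (c j)) i)| :=
        Finset.abs_sum_le_sum_abs _ _
    _ ≤ ∑ c : Fin k → Conf 3 d n, B * at3 ms (fun i => ∏ j, nz lam (Lv d lam n (c j)) i) :=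
        Finset.sum_le_sum fun c _ => hG _ _ _ (prod_nz_nonneg h1 h0 n k c 0)
          (prod_nz_nonneg h1 h0 n k c 1) (prod_nz_nonneg h1 h0 n k c 2)
    _ = B := by
        rw [← Finset.mul_sum]
        unfold Sk at hms
        rw [hms, mul_one]

theorem HH_abs (S : Sys d lam κ μ δ B W ψ h) (n i : ℕ) (hi : i < 2) :
    |HH d lam h n i d| ≤ d * B := by
  unfold HH
  calc |∑ l ∈ Finset.range d, Sk d lam n l (hom (h i l))|
      ≤ ∑ l ∈ Finset.range d, |Sk d lam n l (hom (h i l))| := Finset.abs_sum_le_sum_abs _ _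
    _ ≤ ∑ l ∈ Finset.range d, B := Finset.sum_le_sum fun l hl =>
        Sk_abs S.lam1 S.lam0 n l _ B (S.bddh i l hi (Finset.mem_range.1 hl))
    _ = d * B := by simp

end

/-! ### analysis -/

/-- a bounded sequence which decreases by a definite amount up to an error tending to zero -/
theorem no_drop (V e : ℕ → ℝ) (c B : ℝ) (hc : 0 < c) (hV : ∀ n, |V n| ≤ B)
    (he : Filter.Tendsto e Filter.atTop (nhds 0)) (h : ∀ n, V (n + 1) ≤ V n - c + e n) : False := by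
  rw [Metric.tendsto_atTop] at he
  obtain ⟨N, hN⟩ := he (c / 2) (by positivity)
  have key : ∀ k, V (N + k) ≤ V N - k * (c / 2) := by
    intro k
    induction k with
    | zero => simp
    | succ k ih =>
      have h1 := h (N + k)
      have h2 := hN (N + k) (by omega)
      rw [Real.dist_eq, sub_zero] at h2
      have h3 := (abs_lt.1 h2).2
      rw [show N + (k + 1) = N + k + 1 by ring]
      push_cast
      linarith
  obtain ⟨k, hk⟩ := exists_nat_gt (4 * (B + 1) / c)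
  have h1 := key k
  have h2 := (abs_le.1 (hV N)).2
  have h3 := (abs_le.1 (hV (N + k))).1
  have h4 : 4 * (B + 1) < k * c := by
    rwa [div_lt_iff₀ hc] at hk
  have hB : 0 ≤ B := le_trans (abs_nonneg _) (hV 0)
  nlinarith

theorem limit_zero (X V0 V1 V2 H0 H1 : ℕ → ℝ) (κ μ δ B : ℝ) (hκ : 0 < κ) (hκμ : κ ≤ μ)
    (hδ : 0 < δ) (hX0 : ∀ n, 0 ≤ X n) (hX1 : X 0 ≤ 1) (hanti : ∀ n, X (n + 1) ≤ X n)
    (hV0 : ∀ n, |V0 n| ≤ B) (hV1 : ∀ n, |V1 n| ≤ B) (hV2 : ∀ n, |V2 n| ≤ B)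
    (hH0 : ∀ n, |H0 n| ≤ B) (hH1 : ∀ n, |H1 n| ≤ B)
    (s0 : ∀ n, V0 (n + 1) ≤ V0 n + bal κ μ 0 (X n) 1 (H0 n) (H1 n))
    (s1 : ∀ n, V1 (n + 1) ≤ V1 n + bal κ μ 1 (X n) 1 (H0 n) (H1 n))
    (s2 : ∀ n, V2 (n + 1) ≤ V2 n - δ + bal κ μ 2 (X n) 1 (H0 n) (H1 n)) :
    Filter.Tendsto X Filter.atTop (nhds 0) := by
  have ha : Antitone X := antitone_nat_of_succ_le hanti
  have hbdd : BddBelow (Set.range X) := ⟨0, by rintro _ ⟨n, rfl⟩; exact hX0 n⟩
  have hlim := tendsto_atTop_ciInf ha hbdd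
  set L := ⨅ n, X n with hL
  have hL0 : 0 ≤ L := le_ciInf hX0
  have hL1 : L ≤ 1 := le_trans (ciInf_le hbdd 0) hX1
  rcases hL0.eq_or_lt with h | h
  · rw [← h] at hlim; exact hlim
  · exfalso
    have hμ : 0 < μ := lt_of_lt_of_le hκ hκμ
    set θ := κ * L / μ with hθ
    have hθ0 : 0 < θ := by positivity
    have hθ1 : θ ≤ 1 := by
      rw [hθ, div_le_one hμ]
      nlinarith
    have hθm : μ * θ = κ * L := by rw [hθ]; field_simp
    have hB : 0 ≤ B := le_trans (abs_nonneg _) (hV0 0)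
    refine no_drop (fun n => (1 - θ) ^ 2 * V0 n + 2 * θ * (1 - θ) * V1 n + θ ^ 2 * V2 n)
      (fun n => κ * (X n - L) * ((1 - θ) * H0 n + θ * H1 n)) (θ ^ 2 * δ) B (by positivity) ?_ ?_ ?_
    · intro n
      have p0 : 0 ≤ (1 - θ) ^ 2 := by positivity
      have p1 : 0 ≤ 2 * θ * (1 - θ) := mul_nonneg (by positivity) (by linarith)
      have p2 : 0 ≤ θ ^ 2 := by positivity
      have a0 := abs_le.1 (hV0 n)
      have a1 := abs_le.1 (hV1 n)
      have a2 := abs_le.1 (hV2 n)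
      rw [abs_le]
      have hs : (1 - θ) ^ 2 + 2 * θ * (1 - θ) + θ ^ 2 = 1 := by ring
      constructor
      · have e : -B = (1 - θ) ^ 2 * -B + 2 * θ * (1 - θ) * -B + θ ^ 2 * -B := by
          linear_combination B * hs
        rw [e]
        have m0 := mul_le_mul_of_nonneg_left a0.1 p0
        have m1 := mul_le_mul_of_nonneg_left a1.1 p1
        have m2 := mul_le_mul_of_nonneg_left a2.1 p2
        linarith
      · have e : B = (1 - θ) ^ 2 * B + 2 * θ * (1 - θ) * B + θ ^ 2 * B := by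
          linear_combination -B * hs
        have m0 := mul_le_mul_of_nonneg_left a0.2 p0
        have m1 := mul_le_mul_of_nonneg_left a1.2 p1
        have m2 := mul_le_mul_of_nonneg_left a2.2 p2
        linarith
    · have t1 : Filter.Tendsto (fun n => κ * (X n - L)) Filter.atTop (nhds 0) := by
        have := (hlim.sub_const L).const_mul κ
        simpa using this
      refine squeeze_zero_norm (a := fun n => |κ * (X n - L)| * (2 * B)) ?_ ?_
      · intro n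
        rw [Real.norm_eq_abs, abs_mul]
        refine mul_le_mul_of_nonneg_left ?_ (abs_nonneg _)
        have b0 := abs_le.1 (hH0 n)
        have b1 := abs_le.1 (hH1 n)
        rw [abs_le]
        constructor <;> nlinarith
      · have := t1.abs.mul_const (2 * B)
        simpa using this
    · intro n
      have p0 : 0 ≤ (1 - θ) ^ 2 := by positivity
      have p1 : 0 ≤ 2 * θ * (1 - θ) := mul_nonneg (by positivity) (by linarith)
      have p2 : 0 ≤ θ ^ 2 := by positivity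
      have m0 := mul_le_mul_of_nonneg_left (s0 n) p0
      have m1 := mul_le_mul_of_nonneg_left (s1 n) p1
      have m2 := mul_le_mul_of_nonneg_left (s2 n) p2
      simp only [bal] at m0 m1 m2
      have e : (1 - θ) ^ 2 * (κ * X n * H0 n)
          + 2 * θ * (1 - θ) * ((κ * X n * H1 n + (κ * X n - μ * 1) * H0 n) / 2)
          + θ ^ 2 * ((κ * X n - μ * 1) * H1 n)
          = κ * (X n - L) * ((1 - θ) * H0 n + θ * H1 n) := by
        linear_combination (-((1 - θ) * H0 n + θ * H1 n)) * hθm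
      linarith

section
variable {d : ℕ} {lam κ μ δ B : ℝ} {W ψ h : ℕ → ℕ → ℝ → ℝ → ℝ}

theorem chi_le_ms (a0 a1 a2 : ℝ) (h0 : 0 ≤ a0) (h1 : 0 ≤ a1) (h2 : 0 ≤ a2) :
    chi a0 a1 a2 ≤ ms a0 a1 a2 := by
  unfold chi
  have := ms_nonneg h0 h1 h2
  have : 0 ≤ ((a0 * a1 + a0 * a2 + a1 * a2) / 3) / ms a0 a1 a2 := by positivity
  linarith

theorem chi_nn (a0 a1 a2 : ℝ) (h0 : 0 ≤ a0) (h1 : 0 ≤ a1) (h2 : 0 ≤ a2) :
    0 ≤ chi a0 a1 a2 := by
  rcases (ms_nonneg h0 h1 h2).eq_or_lt with h | h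
  · obtain ⟨z0, z1, z2⟩ := ms_zero h0 h1 h2 h.symm
    subst z0; subst z1; subst z2
    rw [chi_zero]
  · rw [← hom_chi a0 a1 a2 h0 h1 h2]
    unfold hom
    exact mul_nonneg h.le (Pf_nonneg _ _ _ (normalize h))

theorem Sys.chi_tendsto (S : Sys d lam κ μ δ B W ψ h) :
    Filter.Tendsto (fun n => Lf d lam n chi) Filter.atTop (nhds 0) := by
  have hms : ∀ n, Lf d lam n ms = 1 := fun n => by unfold Lf at3; exact ms_sum n
  have hB' : B ≤ (1 + d) * B := by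
    have := mul_nonneg (Nat.cast_nonneg (α := ℝ) d) S.Bnn
    linarith
  have hB'' : d * B ≤ (1 + d) * B := by
    have := S.Bnn
    linarith
  refine limit_zero (fun n => Lf d lam n chi) (fun n => Lf d lam n (hom (W 0 d)))
    (fun n => Lf d lam n (hom (W 1 d))) (fun n => Lf d lam n (hom (W 2 d)))
    (fun n => HH d lam h n 0 d) (fun n => HH d lam h n 1 d) κ μ δ ((1 + d) * B) S.κpos S.hκμ S.δpos
    ?_ ?_ (fun n => chi_anti S.lam1 S.lam0 n) ?_ ?_ ?_ ?_ ?_ ?_ ?_ ?_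
  · intro n
    exact Finset.sum_nonneg fun c _ => chi_nn _ _ _ (Lv_nonneg S.lam1 S.lam0 n c 0)
      (Lv_nonneg S.lam1 S.lam0 n c 1) (Lv_nonneg S.lam1 S.lam0 n c 2)
  · rw [← hms 0]
    exact Finset.sum_le_sum fun c _ => chi_le_ms _ _ _ (Lv_nonneg S.lam1 S.lam0 0 c 0)
      (Lv_nonneg S.lam1 S.lam0 0 c 1) (Lv_nonneg S.lam1 S.lam0 0 c 2)
  · intro n
    exact le_trans (Lf_abs S.lam1 S.lam0 n _ B (S.bddW 0 (by norm_num))) hB'
  · intro n
    exact le_trans (Lf_abs S.lam1 S.lam0 n _ B (S.bddW 1 (by norm_num))) hB'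
  · intro n
    exact le_trans (Lf_abs S.lam1 S.lam0 n _ B (S.bddW 2 (by norm_num))) hB'
  · intro n
    exact le_trans (HH_abs S n 0 (by norm_num)) hB''
  · intro n
    exact le_trans (HH_abs S n 1 (by norm_num)) hB''
  · intro n
    have := S.level n 0 (by norm_num)
    simpa using this
  · intro n
    have := S.level n 1 (by norm_num)
    simpa using this
  · intro n
    have := S.level n 2 (by norm_num)
    simpa using this

theorem Sys.result (S : Sys d lam κ μ δ B W ψ h) :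
    Filter.Tendsto (fun n => aSeq 3 d lam n) Filter.atTop (nhds 0) := by
  have ht := S.chi_tendsto
  rw [Metric.tendsto_atTop] at ht ⊢
  intro ε hε
  obtain ⟨N, hN⟩ := ht (ε ^ 2) (by positivity)
  refine ⟨N, fun n hn => ?_⟩
  have h := hN n hn
  rw [Real.dist_eq, sub_zero] at h
  have h2 : Lf d lam n chi < ε ^ 2 := (abs_lt.1 h).2
  rw [Real.dist_eq, sub_zero, abs_of_nonneg (aSeq_nonneg S.lam1 S.lam0 n)]
  have h3 := aSeq_le (d := d) S.lam1 S.lam0 n ε hε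
  have h4 : 1 / (2 * ε) * Lf d lam n chi < 1 / (2 * ε) * ε ^ 2 :=
    mul_lt_mul_of_pos_left h2 (by positivity)
  have h5 : 1 / (2 * ε) * ε ^ 2 = ε / 2 := by field_simp
  linarith

end

end Vale.Agent.P154
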