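import Vale.Agent.P154.ModelG
import Vale.Agent.P154.Fam

/-! The families attached to the levels of the Galton-Watson tree. -/

open scoped BigOperators

namespace Vale.Agent.P154

theorem pois_nonneg {d : ℝ} (hd : 0 ≤ d) (k : ℕ) : 0 ≤ pois d k := by
  unfold pois; positivity

theorem pois_sum (d : ℝ) : HasSum (fun k => pois d k) 1 := by
  have h := (NormedSpace.expSeries_div_hasSum_exp (d : ℝ)).mul_left (Real.exp (-d))
  rw [← Real.exp_eq_exp_ℝ, ← Real.exp_add] at h
  simp only [neg_add_cancel, Real.exp_zero] at h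
  have e : (fun k => pois d k) = fun k => Real.exp (-d) * (d ^ k / (k.factorial : ℝ)) := by
    funext k; unfold pois; ring
  rw [e]
  exact h

/-- likelihood vector -/
noncomputable def LvG (d lam : ℝ) (n : ℕ) (c : Obs 3 n) (i : Fin 3) : ℝ := likG 3 d lam n i c

variable {d lam : ℝ}

theorem LvG_succ (n k : ℕ) (c : Fin k → Obs 3 n) (i : Fin 3) :
    LvG d lam (n + 1) ⟨k, c⟩ i = pois d k * pw (fun c => nz lam (LvG d lam n c)) k c i := by
  change pois d k * ∏ j : Fin k, ∑ s : Fin 3, potts 3 lam i s * likG 3 d lam n s (c j) = _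
  congr 1
  unfold pw
  refine Finset.prod_congr rfl fun j _ => ?_
  unfold potts nz ns ms LvG
  rw [Fin.sum_univ_three]
  fin_cases i <;> simp <;> ring

/-- sigma family -/
theorem Fam.sigma {β : ℕ → Type} {p : ℕ → ℝ} (hp : HasSum p 1) (p0 : ∀ k, 0 ≤ p k)
    {u : (k : ℕ) → β k → Fin 3 → ℝ} (hu : ∀ k, Fam (u k)) :
    Fam fun (x : (k : ℕ) × β k) i => p x.1 * u x.1 x.2 i := by
  refine ⟨fun x i => mul_nonneg (p0 _) ((hu _).nn _ _), fun i => ?_⟩
  have h1 : ∀ k, HasSum (fun c => p k * u k c i) (p k) := fun k => by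
    have := ((hu k).hs i).mul_left (p k)
    rwa [mul_one] at this
  have hs : Summable fun (x : (k : ℕ) × β k) => p x.1 * u x.1 x.2 i := by
    rw [summable_sigma_of_nonneg fun x => mul_nonneg (p0 _) ((hu _).nn _ _)]
    refine ⟨fun k => (h1 k).summable, ?_⟩
    have : (fun k => ∑' c, p k * u k c i) = p := by
      funext k; exact (h1 k).tsum_eq
    rw [this]
    exact hp.summable
  have := hs.hasSum.sigma h1
  rw [hp.unique this]
  exact hs.hasSum

theorem famG (hd : 0 ≤ d) (h1 : lam ≤ 1) (h0 : -(1 / 2) ≤ lam) : ∀ n, Fam (LvG d lam n)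
  | 0 => by
      refine ⟨fun (c : Fin 3) i => ?_, fun i => ?_⟩
      · change (0 : ℝ) ≤ (if i = c then 1 else 0)
        split_ifs <;> norm_num
      · have : HasSum (fun c : Fin 3 => if i = c then (1 : ℝ) else 0) 1 := by
          have := hasSum_fintype (fun c : Fin 3 => if i = c then (1 : ℝ) else 0)
          simpa using this
        exact this
  | n + 1 => by
      have ih := (famG hd h1 h0 n).nz h1 h0
      have := Fam.sigma (pois_sum d) (pois_nonneg hd) (fun k => ih.pw k)
      have e : (fun (x : (k : ℕ) × (Fin k → Obs 3 n)) i =>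
          pois d x.1 * pw (fun c => nz lam (LvG d lam n c)) x.1 x.2 i) = LvG d lam (n + 1) := by
        funext x i
        obtain ⟨k, c⟩ := x
        exact (LvG_succ n k c i).symm
      rw [e] at this
      exact this

/-- relabeling of spins -/
def relabG (q : ℕ) (τ : Equiv.Perm (Fin q)) : (n : ℕ) → (Obs q n ≃ Obs q n)
  | 0 => τ
  | n + 1 => Equiv.sigmaCongrRight fun _ => Equiv.piCongrRight fun _ => relabG q τ n

theorem likG_relab (q : ℕ) (d lam : ℝ) (τ : Equiv.Perm (Fin q)) :
    ∀ n i c, likG q d lam n (τ i) (relabG q τ n c) = likG q d lam n i c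
  | 0, i, c => by
      exact relab_ite q τ i c
  | n + 1, i, ⟨k, c⟩ => by
      change pois d k * ∏ j : Fin k, ∑ s : Fin q, potts q lam (τ i) s * likG q d lam n s
        (relabG q τ n (c j)) = pois d k * ∏ j : Fin k, ∑ s : Fin q, potts q lam i s
          * likG q d lam n s (c j)
      congr 1
      refine Finset.prod_congr rfl fun j _ => ?_
      rw [← Equiv.sum_comp τ]
      refine Finset.sum_congr rfl fun s _ => ?_
      rw [potts_perm, likG_relab q d lam τ n s (c j)]

theorem symG (n : ℕ) : SymG (LvG d lam n) := fun τ =>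
  ⟨relabG 3 τ n, fun c i => likG_relab 3 d lam τ n i c⟩

/-- homogeneous functionals -/
def Hg (F : ℝ → ℝ → ℝ → ℝ) : Prop := ∀ t a0 a1 a2 : ℝ, F (t * a0) (t * a1) (t * a2) = t * F a0 a1 a2

theorem LG_succ (hd : 0 ≤ d) (h1 : lam ≤ 1) (h0 : -(1 / 2) ≤ lam) (n : ℕ)
    {F : ℝ → ℝ → ℝ → ℝ} {B : ℝ} (hF : Bd F B) (hg : Hg F) :
    HasSum (fun k => pois d k * SG lam (LvG d lam n) k F) (FS (LvG d lam (n + 1)) F) := by
  have hf := famG hd h1 h0 (n + 1)
  have hn := (famG hd h1 h0 n).nz h1 h0
  have hs := hf.hasSum hF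
  refine hs.sigma fun k => ?_
  have e : ∀ c : Fin k → Obs 3 n, at3 F (LvG d lam (n + 1) ⟨k, c⟩)
      = pois d k * at3 F (pw (fun c => nz lam (LvG d lam n c)) k c) := by
    intro c
    unfold at3
    rw [LvG_succ, LvG_succ, LvG_succ, hg]
  simp only [e]
  exact ((hn.pw k).hasSum hF).mul_left _

end Vale.Agent.P154
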