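import Vale.Agent.P154.GridDef
import Vale.Agent.P154.Frame2

/-! Grid upgrade: from the level `n` of the `4`-ary tree to the level `n + 1`. -/

open scoped BigOperators

namespace Vale.Agent.P154.Grid

variable {F G : ℝ → ℝ → ℝ → ℝ}

theorem Sub_zero (hF : Sub F) : F 0 0 0 = 0 := by
  have := hF.hg 0 0 0 0
  simpa using this

theorem Sub_plus (hF : Sub F) (hG : Sub G) : Sub fun x y z => F x y z + G x y z := by
  obtain ⟨B, hB, hb⟩ := hF.bd
  obtain ⟨B', hB', hb'⟩ := hG.bd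
  refine ⟨?_, ?_, B + B', by positivity, hb.add hb'⟩
  · intro u0 u1 u2 v0 v1 v2 hu0 hu1 hu2 hv0 hv1 hv2
    have := hF.add u0 u1 u2 v0 v1 v2 hu0 hu1 hu2 hv0 hv1 hv2
    have := hG.add u0 u1 u2 v0 v1 v2 hu0 hu1 hu2 hv0 hv1 hv2
    linarith
  · intro t x y z
    change F (t * x) (t * y) (t * z) + G (t * x) (t * y) (t * z) = t * (F x y z + G x y z)
    rw [hF.hg, hG.hg]
    ring

theorem Sub_mulR (hF : Sub F) (a0 a1 a2 : ℝ) (h0 : 0 ≤ a0) (h1 : 0 ≤ a1) (h2 : 0 ≤ a2) :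
    Sub fun x y z => F (x * a0) (y * a1) (z * a2) := by
  obtain ⟨B, hB, hb⟩ := hF.bd
  refine ⟨?_, ?_, B * (a0 + a1 + a2), by positivity, ?_⟩
  · intro u0 u1 u2 v0 v1 v2 hu0 hu1 hu2 hv0 hv1 hv2
    rw [add_mul, add_mul, add_mul]
    exact hF.add _ _ _ _ _ _ (mul_nonneg hu0 h0) (mul_nonneg hu1 h1) (mul_nonneg hu2 h2)
      (mul_nonneg hv0 h0) (mul_nonneg hv1 h1) (mul_nonneg hv2 h2)
  · intro t x y z
    change F (t * x * a0) (t * y * a1) (t * z * a2) = t * F (x * a0) (y * a1) (z * a2)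
    rw [mul_assoc, mul_assoc, mul_assoc]
    exact hF.hg _ _ _ _
  · intro x y z hx hy hz
    refine le_trans (hb _ _ _ (mul_nonneg hx h0) (mul_nonneg hy h1) (mul_nonneg hz h2)) ?_
    rw [mul_assoc]
    refine mul_le_mul_of_nonneg_left ?_ hB
    unfold ms
    nlinarith [mul_nonneg hx h1, mul_nonneg hx h2, mul_nonneg hy h0, mul_nonneg hy h2,
      mul_nonneg hz h0, mul_nonneg hz h1]

theorem Sub_mulL (hF : Sub F) (a0 a1 a2 : ℝ) (h0 : 0 ≤ a0) (h1 : 0 ≤ a1) (h2 : 0 ≤ a2) :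
    Sub fun x y z => F (a0 * x) (a1 * y) (a2 * z) := by
  have := Sub_mulR hF a0 a1 a2 h0 h1 h2
  simpa only [mul_comm] using this

theorem Sub_six (hF : Sub F) (z0 z1 z2 : ℝ) (h0 : 0 ≤ z0) (h1 : 0 ≤ z1) (h2 : 0 ≤ z2) :
    Sub fun x y z => six (fun u v w => F (x * u) (y * v) (z * w)) z0 z1 z2 := by
  unfold six
  exact Sub_plus (Sub_plus (Sub_plus (Sub_plus (Sub_plus
    (Sub_mulR hF _ _ _ h0 h1 h2) (Sub_mulR hF _ _ _ h1 h2 h0)) (Sub_mulR hF _ _ _ h2 h0 h1))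
    (Sub_mulR hF _ _ _ h0 h2 h1)) (Sub_mulR hF _ _ _ h2 h1 h0)) (Sub_mulR hF _ _ _ h1 h0 h2)

theorem Sub_sum {ι : Type} (hF : Sub F) (s : Finset ι) (v : ι → Fin 3 → ℝ)
    (hv : ∀ c i, 0 ≤ v c i) :
    at3 F (fun i => ∑ c ∈ s, v c i) ≤ ∑ c ∈ s, at3 F (v c) := by
  classical
  induction s using Finset.induction_on with
  | empty => simp [at3, Sub_zero hF]
  | insert c s hc ih =>
    have e : (fun i => ∑ c ∈ insert c s, v c i) = fun i => v c i + ∑ c ∈ s, v c i := by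
      funext i; rw [Finset.sum_insert hc]
    rw [e, Finset.sum_insert hc]
    refine le_trans ?_ (add_le_add_right ih _)
    have p : ∀ i, 0 ≤ ∑ c ∈ s, v c i := fun i => Finset.sum_nonneg fun c _ => hv c i
    exact hF.add _ _ _ _ _ _ (hv c 0) (hv c 1) (hv c 2) (p 0) (p 1) (p 2)

/-- products of two copies of a dominated family -/
theorem dom_mul {ι : Type} [Fintype ι] (u : ι → Fin 3 → ℝ) (hu : ∀ c i, 0 ≤ u c i) (κ : ℝ)
    (hκ : 0 ≤ κ) (m : ℕ) (w : ℕ → ℝ) (hw : ∀ t, 0 ≤ w t) (x0 x1 x2 : ℕ → ℝ)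
    (h0 : ∀ t, 0 ≤ x0 t) (h1 : ∀ t, 0 ≤ x1 t) (h2 : ∀ t, 0 ≤ x2 t)
    (h : ∀ F, Sub F → κ * ∑ c, at3 F (u c)
      ≤ ∑ t ∈ Finset.range m, w t * six F (x0 t) (x1 t) (x2 t)) :
    ∀ F, Sub F → κ ^ 2 * ∑ c, ∑ b, at3 F (fun i => u c i * u b i)
      ≤ ∑ s ∈ Finset.range m, ∑ t ∈ Finset.range m,
        w s * w t * Y2 F (x0 s) (x1 s) (x2 s) (x0 t) (x1 t) (x2 t) := by
  intro F hF
  have s1 : ∀ c, κ * ∑ b, at3 F (fun i => u c i * u b i)
      ≤ ∑ t ∈ Finset.range m, w t * six (fun x y z => F (u c 0 * x) (u c 1 * y) (u c 2 * z))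
        (x0 t) (x1 t) (x2 t) := fun c =>
    h (fun x y z => F (u c 0 * x) (u c 1 * y) (u c 2 * z))
      (Sub_mulL hF _ _ _ (hu c 0) (hu c 1) (hu c 2))
  have s2 : ∀ t, κ * ∑ c, at3 (fun x y z => six (fun u v w => F (x * u) (y * v) (z * w))
        (x0 t) (x1 t) (x2 t)) (u c)
      ≤ ∑ s ∈ Finset.range m, w s * Y2 F (x0 s) (x1 s) (x2 s) (x0 t) (x1 t) (x2 t) := fun t =>
    h _ (Sub_six hF _ _ _ (h0 t) (h1 t) (h2 t))
  calc κ ^ 2 * ∑ c, ∑ b, at3 F (fun i => u c i * u b i)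
      = κ * ∑ c, κ * ∑ b, at3 F (fun i => u c i * u b i) := by
        rw [← Finset.mul_sum]; ring
    _ ≤ κ * ∑ c, ∑ t ∈ Finset.range m, w t
          * six (fun x y z => F (u c 0 * x) (u c 1 * y) (u c 2 * z)) (x0 t) (x1 t) (x2 t) :=
        mul_le_mul_of_nonneg_left (Finset.sum_le_sum fun c _ => s1 c) hκ
    _ = ∑ t ∈ Finset.range m, w t * (κ * ∑ c, at3 (fun x y z =>
          six (fun u v w => F (x * u) (y * v) (z * w)) (x0 t) (x1 t) (x2 t)) (u c)) := by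
        rw [Finset.sum_comm, Finset.mul_sum]
        refine Finset.sum_congr rfl fun t _ => ?_
        rw [← Finset.mul_sum]
        unfold at3
        ring
    _ ≤ ∑ t ∈ Finset.range m, w t * ∑ s ∈ Finset.range m,
          w s * Y2 F (x0 s) (x1 s) (x2 s) (x0 t) (x1 t) (x2 t) :=
        Finset.sum_le_sum fun t _ => mul_le_mul_of_nonneg_left (s2 t) (hw t)
    _ = ∑ s ∈ Finset.range m, ∑ t ∈ Finset.range m,
        w s * w t * Y2 F (x0 s) (x1 s) (x2 s) (x0 t) (x1 t) (x2 t) := by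
        rw [Finset.sum_comm]
        refine Finset.sum_congr rfl fun t _ => ?_
        rw [Finset.mul_sum]
        refine Finset.sum_congr rfl fun s _ => ?_
        ring

/-- a less noisy (more negative) channel only increases sublinear functionals -/
theorem degrade_gen {ι : Type} [Fintype ι] (hF : Sub F) (lam : ℝ) (h0 : -(1 / 2) ≤ lam)
    (h1 : lam ≤ 0) (a : Fin 3 → ℝ) (ha : ∀ i, 0 ≤ a i) (v : ι → Fin 3 → ℝ)
    (hv : ∀ c i, 0 ≤ v c i) (hs : ∀ i, ∑ c, v c i = 1) :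
    ∑ b, at3 F (fun i => a i * nz lam (v b) i) ≤ ∑ b, at3 F (fun i => a i * nz (-(1 / 2)) (v b) i) := by
  have hn : ∀ b i, 0 ≤ nz (-(1 / 2)) (v b) i := fun b i =>
    nz_nonneg _ (by norm_num) le_rfl (v b) (hv b) i
  have hm : ∑ b, ms (v b 0) (v b 1) (v b 2) = 1 := by
    unfold ms
    rw [← Finset.sum_div, Finset.sum_add_distrib, Finset.sum_add_distrib, hs, hs, hs]
    norm_num
  have hnz : ∀ i, ∑ b, nz (-(1 / 2)) (v b) i = 1 := by
    intro i
    unfold nz ns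
    rw [Finset.sum_add_distrib, ← Finset.mul_sum, Finset.sum_sub_distrib, hm, hs]
    ring
  set S := ∑ b, at3 F (fun i => a i * nz (-(1 / 2)) (v b) i) with hS
  have hA : at3 F a ≤ S := by
    have := Sub_sum hF Finset.univ (fun b i => a i * nz (-(1 / 2)) (v b) i)
      (fun b i => mul_nonneg (ha i) (hn b i))
    have e : (fun i => ∑ b, a i * nz (-(1 / 2)) (v b) i) = a := by
      funext i
      rw [← Finset.mul_sum, hnz, mul_one]
    rw [e] at this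
    exact this
  have key : ∀ b, at3 F (fun i => a i * nz lam (v b) i)
      ≤ (1 + 2 * lam) * (ms (v b 0) (v b 1) (v b 2) * at3 F a)
        + (-(2 * lam)) * at3 F (fun i => a i * nz (-(1 / 2)) (v b) i) := by
    intro b
    have hmb := ms_nonneg (hv b 0) (hv b 1) (hv b 2)
    set m := ms (v b 0) (v b 1) (v b 2) with hmdef
    have c1 : 0 ≤ (1 + 2 * lam) * m := mul_nonneg (by linarith) hmb
    have c2 : 0 ≤ -(2 * lam) := by linarith
    have e1 := hF.hg ((1 + 2 * lam) * m) (a 0) (a 1) (a 2)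
    have e2 := hF.hg (-(2 * lam)) (a 0 * nz (-(1 / 2)) (v b) 0) (a 1 * nz (-(1 / 2)) (v b) 1)
      (a 2 * nz (-(1 / 2)) (v b) 2)
    have k := hF.add _ _ _ _ _ _ (mul_nonneg c1 (ha 0)) (mul_nonneg c1 (ha 1))
      (mul_nonneg c1 (ha 2)) (mul_nonneg c2 (mul_nonneg (ha 0) (hn b 0)))
      (mul_nonneg c2 (mul_nonneg (ha 1) (hn b 1))) (mul_nonneg c2 (mul_nonneg (ha 2) (hn b 2)))
    rw [e1, e2] at k
    have z : ∀ i, (1 + 2 * lam) * m * a i + -(2 * lam) * (a i * nz (-(1 / 2)) (v b) i)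
        = a i * nz lam (v b) i := by
      intro i
      unfold nz ns
      rw [← hmdef]
      ring
    rw [z 0, z 1, z 2] at k
    unfold at3
    linarith
  calc ∑ b, at3 F (fun i => a i * nz lam (v b) i)
      ≤ ∑ b, ((1 + 2 * lam) * (ms (v b 0) (v b 1) (v b 2) * at3 F a)
        + (-(2 * lam)) * at3 F (fun i => a i * nz (-(1 / 2)) (v b) i)) :=
        Finset.sum_le_sum fun b _ => key b
    _ = (1 + 2 * lam) * at3 F a + (-(2 * lam)) * S := by
        rw [Finset.sum_add_distrib, ← Finset.mul_sum, ← Finset.mul_sum, ← Finset.sum_mul, hm,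
          one_mul]
    _ ≤ S := by
        have : 0 ≤ 1 + 2 * lam := by linarith
        nlinarith [mul_le_mul_of_nonneg_left hA this]

theorem rc_ok : ∀ t, rc t / 28 + rc t % 28 ≤ 27 := by
  have h : ∀ p ∈ reps, p / 28 + p % 28 ≤ 27 := by decide
  intro t
  unfold rc
  rcases lt_or_ge t reps.length with hl | hl
  · rw [List.getD_eq_getElem _ _ hl]
    exact h _ (List.getElem_mem hl)
  · rw [List.getD_eq_default _ _ hl]
    norm_num

theorem half_pt (hF : Sub F) (i j k : ℝ) (h : i + j + k = 27) :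
    F (ns (-(1 / 2)) (ms i j k) i) (ns (-(1 / 2)) (ms i j k) j) (ns (-(1 / 2)) (ms i j k) k)
      = 1 / 2 * F (27 - i) (27 - j) (27 - k) := by
  have e : ∀ x, ns (-(1 / 2)) (ms i j k) x = 1 / 2 * (27 - x) := by
    intro x
    unfold ns ms
    rw [h]; ring
  rw [e, e, e]
  exact hF.hg _ _ _ _

theorem S6_half (hF : Sub F) (p : ℕ) (hp : p / 28 + p % 28 ≤ 27) :
    S6 (fun x y z => F (ns (-(1 / 2)) (ms x y z) x) (ns (-(1 / 2)) (ms x y z) y)
      (ns (-(1 / 2)) (ms x y z) z)) p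
      = 1 / 2 * six F ((27 - p / 28 : ℕ) : ℝ) ((27 - p % 28 : ℕ) : ℝ)
        ((p / 28 + p % 28 : ℕ) : ℝ) := by
  have e0 : ((27 - p / 28 : ℕ) : ℝ) = 27 - ((p / 28 : ℕ) : ℝ) := by
    rw [Nat.cast_sub (by omega)]; norm_num
  have e1 : ((27 - p % 28 : ℕ) : ℝ) = 27 - ((p % 28 : ℕ) : ℝ) := by
    rw [Nat.cast_sub (by omega)]; norm_num
  have e2 : ((27 - p / 28 - p % 28 : ℕ) : ℝ) = 27 - ((p / 28 : ℕ) : ℝ) - ((p % 28 : ℕ) : ℝ) := by
    rw [Nat.cast_sub (by omega), Nat.cast_sub (by omega)]; norm_num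
  have e3 : ((p / 28 + p % 28 : ℕ) : ℝ)
      = 27 - (27 - ((p / 28 : ℕ) : ℝ) - ((p % 28 : ℕ) : ℝ)) := by
    push_cast; ring
  unfold S6 six
  rw [e0, e1, e2, e3]
  generalize ((p / 28 : ℕ) : ℝ) = i
  generalize ((p % 28 : ℕ) : ℝ) = j
  have k := fun x y z h => half_pt hF x y z h
  beta_reduce
  rw [k i j _ (by ring), k j _ i (by ring), k _ i j (by ring), k i _ j (by ring),
    k _ j i (by ring), k j i _ (by ring)]
  ring

section
variable {lam : ℝ}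

theorem stepA (C n : ℕ) (h0 : -(1 / 2) ≤ lam) (h1 : lam ≤ 0) (h : Dom (Lf 4 lam n) C) :
    ∀ F, Sub F → 108000000 ^ 2 * Sk 4 lam n 2 F ≤ Q2 XA C F := by
  intro F hF
  have l1 : lam ≤ 1 := by linarith
  set u : Conf 3 4 n → Fin 3 → ℝ := fun b => nz (-(1 / 2)) (Lv 4 lam n b) with hu
  have un : ∀ c i, 0 ≤ u c i := fun c i =>
    nz_nonneg _ (by norm_num) le_rfl _ (fun i => Lv_nonneg l1 h0 n c i) i
  have dm : ∀ F, Sub F → 108000000 * ∑ c, at3 F (u c)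
      ≤ ∑ t ∈ Finset.range 75, (dg C t : ℝ) * six F ((27 - rc t / 28 : ℕ) : ℝ)
        ((27 - rc t % 28 : ℕ) : ℝ) ((rc t / 28 + rc t % 28 : ℕ) : ℝ) := by
    intro F hF
    have hn := hF.noise (lam := -(1 / 2)) (fun _ => 1) (fun _ => zero_le_one) (by norm_num) le_rfl
    simp only [one_mul] at hn
    have k := h _ hn
    have e : Lf 4 lam n (fun x y z => F (ns (-(1 / 2)) (ms x y z) x) (ns (-(1 / 2)) (ms x y z) y)
      (ns (-(1 / 2)) (ms x y z) z)) = ∑ c, at3 F (u c) := rfl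
    rw [e] at k
    have e2 : Q1 C (fun x y z => F (ns (-(1 / 2)) (ms x y z) x) (ns (-(1 / 2)) (ms x y z) y)
      (ns (-(1 / 2)) (ms x y z) z)) = 1 / 2 * ∑ t ∈ Finset.range 75, (dg C t : ℝ)
        * six F ((27 - rc t / 28 : ℕ) : ℝ)
        ((27 - rc t % 28 : ℕ) : ℝ) ((rc t / 28 + rc t % 28 : ℕ) : ℝ) := by
      unfold Q1
      rw [Finset.mul_sum]
      refine Finset.sum_congr rfl fun t _ => ?_
      rw [S6_half hF (rc t) (rc_ok t)]
      ring
    rw [e2] at k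
    linarith
  have key := dom_mul u un 108000000 (by norm_num) 75 (fun t => (dg C t : ℝ))
    (fun t => Nat.cast_nonneg _) (fun t => ((27 - rc t / 28 : ℕ) : ℝ))
    (fun t => ((27 - rc t % 28 : ℕ) : ℝ)) (fun t => ((rc t / 28 + rc t % 28 : ℕ) : ℝ))
    (fun t => Nat.cast_nonneg _) (fun t => Nat.cast_nonneg _) (fun t => Nat.cast_nonneg _) dm F hF
  have Lsum : ∀ i, ∑ c, Lv 4 lam n c i = 1 := fun i => Lv_sum n i
  have Lnn : ∀ c i, 0 ≤ Lv 4 lam n c i := fun c i => Lv_nonneg l1 h0 n c i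
  have d1 : Sk 4 lam n 2 F ≤ ∑ c, ∑ b, at3 F (fun i => u c i * u b i) := by
    rw [Sk_two]
    calc ∑ a, ∑ b, at3 F (fun i => nz lam (Lv 4 lam n a) i * nz lam (Lv 4 lam n b) i)
        ≤ ∑ a, ∑ b, at3 F (fun i => nz lam (Lv 4 lam n a) i * u b i) :=
          Finset.sum_le_sum fun a _ => degrade_gen hF lam h0 h1 _
            (fun i => nz_nonneg lam l1 h0 _ (fun i => Lnn a i) i) _ Lnn Lsum
      _ = ∑ b, ∑ a, at3 F (fun i => u b i * nz lam (Lv 4 lam n a) i) := by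
          rw [Finset.sum_comm]
          simp only [mul_comm]
      _ ≤ ∑ b, ∑ a, at3 F (fun i => u b i * u a i) :=
          Finset.sum_le_sum fun b _ => degrade_gen hF lam h0 h1 _ (un b) _ Lnn Lsum
  have : Q2 XA C F = ∑ s ∈ Finset.range 75, ∑ t ∈ Finset.range 75, (dg C s : ℝ) * (dg C t : ℝ)
      * Y2 F ((27 - rc s / 28 : ℕ) : ℝ) ((27 - rc s % 28 : ℕ) : ℝ)
        ((rc s / 28 + rc s % 28 : ℕ) : ℝ) ((27 - rc t / 28 : ℕ) : ℝ)
        ((27 - rc t % 28 : ℕ) : ℝ) ((rc t / 28 + rc t % 28 : ℕ) : ℝ) := rfl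
  rw [this]
  refine le_trans ?_ key
  exact mul_le_mul_of_nonneg_left d1 (by norm_num)

theorem Sk_four (n : ℕ) (G : ℝ → ℝ → ℝ → ℝ) :
    Sk 4 lam n 4 G = ∑ c : Fin 2 → Conf 3 4 n, ∑ b : Fin 2 → Conf 3 4 n, at3 G (fun i =>
      (∏ j, nz lam (Lv 4 lam n (c j)) i) * (∏ j, nz lam (Lv 4 lam n (b j)) i)) := by
  rw [Sk_succ]
  have h1 := sum_fin_succ (α := Conf 3 4 n)
    (fun a => ∑ b, at3 G (fun i => a i * nz lam (Lv 4 lam n b) i))
    (fun c => nz lam (Lv 4 lam n c)) 2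
  simp only at h1
  rw [h1]
  refine Finset.sum_congr rfl fun c _ => ?_
  have h2 := sum_fin_succ (α := Conf 3 4 n)
    (fun a => at3 G (fun i => (∏ j, nz lam (Lv 4 lam n (c j)) i) * a i))
    (fun c => nz lam (Lv 4 lam n c)) 1
  have h3 := sum_fin_succ (α := Conf 3 4 n)
    (fun a => ∑ b, at3 G (fun i => (∏ j, nz lam (Lv 4 lam n (c j)) i)
      * (a i * nz lam (Lv 4 lam n b) i)))
    (fun c => nz lam (Lv 4 lam n c)) 0
  simp only at h2 h3
  rw [h2, h3, sum_fin_zero]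
  refine Finset.sum_congr rfl fun b _ => Finset.sum_congr rfl fun b' _ => ?_
  congr 1
  funext i
  simp [mul_assoc]

theorem stepB (A n : ℕ) (h0 : -(1 / 2) ≤ lam) (h1 : lam ≤ 0) (h : Dom (Sk 4 lam n 2) A) :
    ∀ F, Sub F → 54000000 ^ 2 * Lf 4 lam (n + 1) F ≤ Q2 XB A F := by
  intro F hF
  have l1 : lam ≤ 1 := by linarith
  set u : (Fin 2 → Conf 3 4 n) → Fin 3 → ℝ := fun c i => ∏ j, nz lam (Lv 4 lam n (c j)) i with hu
  have un : ∀ c i, 0 ≤ u c i := fun c i => prod_nz_nonneg l1 h0 n 2 c i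
  have dm : ∀ F, Sub F → 54000000 * ∑ c, at3 F (u c)
      ≤ ∑ t ∈ Finset.range 75, (dg A t : ℝ) * six F ((rc t / 28 : ℕ) : ℝ)
        ((rc t % 28 : ℕ) : ℝ) ((27 - rc t / 28 - rc t % 28 : ℕ) : ℝ) := fun F hF => h F hF
  have key := dom_mul u un 54000000 (by norm_num) 75 (fun t => (dg A t : ℝ))
    (fun t => Nat.cast_nonneg _) (fun t => ((rc t / 28 : ℕ) : ℝ))
    (fun t => ((rc t % 28 : ℕ) : ℝ)) (fun t => ((27 - rc t / 28 - rc t % 28 : ℕ) : ℝ))
    (fun t => Nat.cast_nonneg _) (fun t => Nat.cast_nonneg _) (fun t => Nat.cast_nonneg _) dm F hF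
  rw [Lf_succ, Sk_four]
  exact key

theorem dom_zero : Dom (Lf 4 lam 0) 1000000 := by
  intro F hF
  have e1 : Lf 4 lam 0 F = F 1 0 0 + F 0 1 0 + F 0 0 1 := by
    unfold Lf
    change ∑ c : Fin 3, at3 F (Lv 4 lam 0 (c : Conf 3 4 0)) = _
    rw [Fin.sum_univ_three]
    have e : ∀ c i : Fin 3, Lv 4 lam 0 (c : Conf 3 4 0) i = if i = c then 1 else 0 :=
      fun c i => rfl
    simp [at3, e]
  have e2 : Q1 1000000 F = 1000000 * S6 F (rc 0) := by
    unfold Q1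
    rw [Finset.sum_eq_single 0]
    · norm_num [dg]
    · intro t _ ht
      have : dg 1000000 t = 0 := by
        unfold dg
        have : 1000000 / 1048576 ^ t = 0 := by
          apply Nat.div_eq_of_lt
          calc 1000000 < 1048576 ^ 1 := by norm_num
            _ ≤ 1048576 ^ t := Nat.pow_le_pow_right (by norm_num) (by omega)
        rw [this]
      rw [this]; simp
    · intro h; exact absurd (Finset.mem_range.2 (by norm_num)) h
  have e3 : S6 F (rc 0) = 54 * (F 1 0 0 + F 0 1 0 + F 0 0 1) := by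
    have r : rc 0 = 756 := rfl
    unfold S6 six
    rw [r]
    have f0 := hF.hg 27 1 0 0
    have f1 := hF.hg 27 0 1 0
    have f2 := hF.hg 27 0 0 1
    norm_num at f0 f1 f2 ⊢
    rw [f0, f1, f2]
    ring
  rw [e1, e2, e3]
  linarith

end

end Vale.Agent.P154.Grid
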