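import Vale.Agent.P154.GridVt

/-! Rounding of the packed states, and the value at the end. -/

open scoped BigOperators

namespace Vale.Agent.P154.Grid

theorem reps_le : ∀ p ∈ reps, p / 28 + p % 28 ≤ 27 := by decide +kernel

theorem reps_len : reps.length = 75 := by decide +kernel

theorem rc_mem (t : ℕ) (ht : t < 75) : rc t ∈ reps := by
  have h : t < reps.length := by rw [reps_len]; exact ht
  unfold rc
  rw [List.getD_eq_getElem _ _ h]
  exact List.getElem_mem h

theorem rc_le (t : ℕ) (ht : t < 75) : rc t / 28 + rc t % 28 ≤ 27 := reps_le _ (rc_mem t ht)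

theorem F_unit (F : ℝ → ℝ → ℝ → ℝ) (hF : Sub F) (x y z : ℝ) (hx : 0 ≤ x) (hy : 0 ≤ y)
    (hz : 0 ≤ z) : F x y z ≤ x * F 1 0 0 + y * F 0 1 0 + z * F 0 0 1 := by
  have := three_le F hF 1 x y z x y z 1 0 0 0 1 0 0 0 1 hx hy hz zero_le_one le_rfl le_rfl le_rfl
    zero_le_one le_rfl le_rfl le_rfl zero_le_one (by ring) (by ring) (by ring)
  linarith

theorem S6_le (F : ℝ → ℝ → ℝ → ℝ) (hF : Sub F) (t : ℕ) (ht : t < 75) :
    S6 F (rc t) ≤ S6 F (rc 0) := by
  have h := rc_le t ht
  have e0 : rc 0 = 756 := rfl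
  have hs : rc t / 28 + rc t % 28 + (27 - rc t / 28 - rc t % 28) = 27 := by omega
  rw [e0]
  unfold S6
  have a1 : (756 / 28 : ℕ) = 27 := by norm_num
  have a2 : (756 % 28 : ℕ) = 0 := by norm_num
  have a3 : (27 - 756 / 28 - 756 % 28 : ℕ) = 0 := by norm_num
  rw [a1, a2]
  have a4 : (27 - 27 - 0 : ℕ) = 0 := by norm_num
  rw [a4]
  set i := rc t / 28
  set j := rc t % 28
  set k := 27 - i - j
  have hr : (i : ℝ) + j + k = 27 := by exact_mod_cast hs
  have pi : (0 : ℝ) ≤ i := Nat.cast_nonneg i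
  have pj : (0 : ℝ) ≤ j := Nat.cast_nonneg j
  have pk : (0 : ℝ) ≤ k := Nat.cast_nonneg k
  have b1 := F_unit F hF i j k pi pj pk
  have b2 := F_unit F hF j k i pj pk pi
  have b3 := F_unit F hF k i j pk pi pj
  have b4 := F_unit F hF i k j pi pk pj
  have b5 := F_unit F hF k j i pk pj pi
  have b6 := F_unit F hF j i k pj pi pk
  have c1 := hF.hg 27 1 0 0
  have c2 := hF.hg 27 0 1 0
  have c3 := hF.hg 27 0 0 1
  norm_num at c1 c2 c3
  have hx : six F ((27 : ℕ) : ℝ) ((0 : ℕ) : ℝ) ((0 : ℕ) : ℝ)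
      = 54 * (F 1 0 0 + F 0 1 0 + F 0 0 1) := by
    unfold six
    push_cast
    rw [c1, c2, c3]
    ring
  have hy : six F (i : ℝ) (j : ℝ) (k : ℝ)
      ≤ 2 * ((i : ℝ) + j + k) * (F 1 0 0 + F 0 1 0 + F 0 0 1) := by
    unfold six
    nlinarith [b1, b2, b3, b4, b5, b6]
  rw [hx]
  rw [hr] at hy
  linarith

/-! ### digits -/

theorem dg_zero (C : ℕ) : dg C 0 = C % 1048576 := by
  unfold dg
  rw [pow_zero, Nat.div_one]

theorem dg_succ (C t : ℕ) : dg (C / 1048576) t = dg C (t + 1) := by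
  unfold dg
  rw [Nat.div_div_eq_div_mul, pow_succ, Nat.mul_comm]

theorem dsum_eq (n : ℕ) : ∀ C, dsum n C = ∑ t ∈ Finset.range n, dg C t := by
  induction n with
  | zero => intro C; rfl
  | succ n ih =>
    intro C
    have e : dsum (n + 1) C = C % 1048576 + dsum n (C / 1048576) := rfl
    rw [e, ih, Finset.sum_range_succ', dg_zero, Nat.add_comm]
    congr 1
    exact Finset.sum_congr rfl fun t _ => dg_succ C t

theorem chk_spec (M n : ℕ) : ∀ V C, chk M n V C = true →
    ∀ t < n, M * dg C t ≤ V / 72057594037927936 ^ t % 72057594037927936 := by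
  induction n with
  | zero => intro V C _ t ht; omega
  | succ n ih =>
    intro V C h t ht
    have e : chk M (n + 1) V C = (Nat.ble (M * (C % 1048576)) (V % 72057594037927936) &&
      chk M n (V / 72057594037927936) (C / 1048576)) := rfl
    rw [e, Bool.and_eq_true] at h
    obtain ⟨h1, h2⟩ := h
    rcases t with _ | t
    · rw [dg_zero, pow_zero, Nat.div_one]
      exact Nat.le_of_ble_eq_true h1
    · have := ih _ _ h2 t (by omega)
      rw [dg_succ, Nat.div_div_eq_div_mul] at this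
      rw [pow_succ, Nat.mul_comm (72057594037927936 ^ t)]
      exact this

theorem digit_eq (B : ℕ) (hB : 0 < B) (n : ℕ) : ∀ (f : ℕ → ℕ), (∀ t < n, f t < B) →
    ∀ s < n, (∑ t ∈ Finset.range n, f t * B ^ t) / B ^ s % B = f s := by
  induction n with
  | zero => intro f _ s hs; omega
  | succ n ih =>
    intro f hf s hs
    have e : ∑ t ∈ Finset.range (n + 1), f t * B ^ t
        = f 0 + B * ∑ t ∈ Finset.range n, f (t + 1) * B ^ t := by
      rw [Finset.sum_range_succ', pow_zero, mul_one, Nat.add_comm, Finset.mul_sum]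
      congr 1
      exact Finset.sum_congr rfl fun t _ => by ring
    rw [e]
    have h0 := hf 0 (by omega)
    rcases s with _ | s
    · rw [pow_zero, Nat.div_one, Nat.add_mul_mod_self_left, Nat.mod_eq_of_lt h0]
    · rw [pow_succ, Nat.mul_comm (B ^ s), ← Nat.div_div_eq_div_mul, Nat.add_mul_div_left _ _ hB,
        Nat.div_eq_of_lt h0, Nat.zero_add]
      exact ih (fun t => f (t + 1)) (fun t ht => hf (t + 1) (by omega)) s (by omega)

theorem ok1_sound (V M C : ℕ) (X : (ℝ → ℝ → ℝ → ℝ) → ℝ) (hM : 0 < M) (hM2 : M * 1000000 < 2 ^ 56)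
    (hR : Rp V (M * 1000000) X) (h : ok1 V M C = true) :
    (∑ t ∈ Finset.range 75, dg C t = 1000000) ∧ ∀ F, Sub F → X F ≤ (M : ℝ) * Q1 C F := by
  have _ := hM
  have e : ok1 V M C = (Nat.beq (dsum 75 C) 1000000 &&
    chk M 74 (V / 72057594037927936) (C / 1048576)) := rfl
  rw [e, Bool.and_eq_true] at h
  obtain ⟨h1, h2⟩ := h
  have tot : ∑ t ∈ Finset.range 75, dg C t = 1000000 := by
    rw [← dsum_eq]
    exact Nat.eq_of_beq_eq_true h1
  refine ⟨tot, ?_⟩
  obtain ⟨f, hV, hf, hX⟩ := hR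
  intro F hF
  have hfl : ∀ t < 75, f t < 72057594037927936 := by
    intro t ht
    have : f t ≤ ∑ t ∈ Finset.range 75, f t :=
      Finset.single_le_sum (f := f) (fun _ _ => Nat.zero_le _) (Finset.mem_range.2 ht)
    rw [hf] at this
    norm_num at hM2
    omega
  have hVB : V = ∑ t ∈ Finset.range 75, f t * 72057594037927936 ^ t := by
    rw [hV]
    refine Finset.sum_congr rfl fun t _ => ?_
    rw [pow_mul]
    norm_num
  have hdig : ∀ t < 75, V / 72057594037927936 ^ t % 72057594037927936 = f t := by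
    intro t ht
    rw [hVB]
    exact digit_eq _ (by norm_num) 75 f hfl t ht
  have hge : ∀ t, 1 ≤ t → t < 75 → M * dg C t ≤ f t := by
    intro t h1 ht
    obtain ⟨s, rfl⟩ : ∃ s, t = s + 1 := ⟨t - 1, by omega⟩
    have := chk_spec M 74 _ _ h2 s (by omega)
    rw [dg_succ, Nat.div_div_eq_div_mul, Nat.mul_comm 72057594037927936, ← pow_succ,
      hdig (s + 1) ht] at this
    exact this
  refine le_trans (hX F hF) ?_
  unfold Q1
  rw [Finset.mul_sum]
  have key : ∑ t ∈ Finset.range 75, ((f t : ℝ) - M * dg C t) * S6 F (rc t)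
      ≤ ∑ t ∈ Finset.range 75, ((f t : ℝ) - M * dg C t) * S6 F (rc 0) := by
    refine Finset.sum_le_sum fun t ht => ?_
    rcases Nat.eq_zero_or_pos t with h0 | h0
    · rw [h0]
    · have ht' := Finset.mem_range.1 ht
      have := hge t h0 ht'
      have hr : (M : ℝ) * dg C t ≤ f t := by exact_mod_cast this
      exact mul_le_mul_of_nonneg_left (S6_le F hF t ht') (by linarith)
  have z : ∑ t ∈ Finset.range 75, ((f t : ℝ) - M * dg C t) * S6 F (rc 0) = 0 := by
    rw [← Finset.sum_mul, Finset.sum_sub_distrib, ← Finset.mul_sum]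
    have q1 : ∑ t ∈ Finset.range 75, (f t : ℝ) = M * 1000000 := by exact_mod_cast hf
    have q2 : ∑ t ∈ Finset.range 75, (dg C t : ℝ) = 1000000 := by exact_mod_cast tot
    rw [q1, q2]
    ring
  rw [z] at key
  have e3 : ∑ t ∈ Finset.range 75, ((f t : ℝ) - M * dg C t) * S6 F (rc t)
      = ∑ t ∈ Finset.range 75, (f t : ℝ) * S6 F (rc t)
        - ∑ t ∈ Finset.range 75, (M : ℝ) * ((dg C t : ℝ) * S6 F (rc t)) := by
    rw [← Finset.sum_sub_distrib]
    exact Finset.sum_congr rfl fun t _ => by ring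
  rw [e3] at key
  linarith

/-! ### value at the end -/

/-- `243 - (i j + i k + j k)` at the grid point with code `p` -/
def vl (p : ℕ) : ℕ :=
  Nat.sub 243 (Nat.add (Nat.mul (Nat.div p 28) (Nat.mod p 28))
    (Nat.mul (Nat.add (Nat.div p 28) (Nat.mod p 28))
      (Nat.sub (Nat.sub 27 (Nat.div p 28)) (Nat.mod p 28))))

noncomputable def fsum (l : List ℕ) (C : ℕ) : ℕ :=
  @List.rec ℕ (fun _ => ℕ → ℕ) (fun _ => 0)
    (fun p _ ih C => Nat.add (Nat.mul (Nat.mod C 1048576) (vl p)) (ih (Nat.div C 1048576))) l C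

/-- the final check -/
noncomputable def finB (C : ℕ) : Bool := Nat.ble (Nat.mul 5 (fsum reps C)) 243000000

theorem fsum_eq (l : List ℕ) : ∀ C, fsum l C
    = ∑ t ∈ Finset.range l.length, dg C t * vl (l.getD t 0) := by
  induction l with
  | nil => intro C; rfl
  | cons p l ih =>
    intro C
    have e : fsum (p :: l) C = C % 1048576 * vl p + fsum l (C / 1048576) := rfl
    rw [e, ih, List.length_cons, Finset.sum_range_succ', dg_zero, Nat.add_comm]
    congr 1
    refine Finset.sum_congr rfl fun t _ => ?_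
    rw [dg_succ]
    rfl

theorem vl_ok : ∀ p ∈ reps, p / 28 * (p % 28) + (p / 28 + p % 28) * (27 - p / 28 - p % 28)
    ≤ 243 := by decide +kernel

theorem S6_chi (t : ℕ) (ht : t < 75) : S6 chi (rc t) = 2 / 9 * (vl (rc t) : ℝ) := by
  have h := rc_le t ht
  have hv := vl_ok _ (rc_mem t ht)
  have e : vl (rc t) = 243 - (rc t / 28 * (rc t % 28)
    + (rc t / 28 + rc t % 28) * (27 - rc t / 28 - rc t % 28)) := rfl
  have hs : rc t / 28 + rc t % 28 + (27 - rc t / 28 - rc t % 28) = 27 := by omega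
  rw [e, Nat.cast_sub hv]
  unfold S6
  set i := rc t / 28
  set j := rc t % 28
  set k := 27 - i - j
  have hr : (i : ℝ) + j + k = 27 := by exact_mod_cast hs
  have hk : (k : ℝ) = 27 - i - j := by linarith
  push_cast
  rw [hk]
  unfold six chi ms
  have m1 : (i : ℝ) + j + (27 - i - j) = 27 := by ring
  have m2 : (j : ℝ) + (27 - i - j) + i = 27 := by ring
  have m3 : (27 - (i : ℝ) - j) + i + j = 27 := by ring
  have m4 : (i : ℝ) + (27 - i - j) + j = 27 := by ring
  have m5 : (27 - (i : ℝ) - j) + j + i = 27 := by ring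
  have m6 : (j : ℝ) + i + (27 - i - j) = 27 := by ring
  rw [m1, m2, m3, m4, m5, m6]
  ring

theorem fin_val (C : ℕ) (L : (ℝ → ℝ → ℝ → ℝ) → ℝ) (hD : Dom L C) (h : finB C = true) :
    L chi ≤ 1 / 5 := by
  have h' : 5 * fsum reps C ≤ 243000000 := Nat.le_of_ble_eq_true h
  rw [fsum_eq, reps_len] at h'
  have k := hD chi Sub_chi
  have e : Q1 C chi = 2 / 9 * ((∑ t ∈ Finset.range 75, dg C t * vl (reps.getD t 0) : ℕ) : ℝ) := by
    unfold Q1
    push_cast
    rw [Finset.mul_sum]
    refine Finset.sum_congr rfl fun t ht => ?_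
    rw [S6_chi t (Finset.mem_range.1 ht)]
    unfold rc
    ring
  rw [e] at k
  have h2 : (5 : ℝ) * ((∑ t ∈ Finset.range 75, dg C t * vl (reps.getD t 0) : ℕ) : ℝ)
      ≤ 243000000 := by exact_mod_cast h'
  linarith

end Vale.Agent.P154.Grid
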