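import Vale.Agent.P154.GridBil
import Vale.Agent.P154.GridOk
import Vale.Agent.P154.GridDom

/-! Soundness of the grid upgrade of the density evolution on the `4`-ary tree. -/

open scoped BigOperators

namespace Vale.Agent.P154.Grid

/-- the digits add up to the total and the level is dominated -/
structure St (lam : ℝ) (n C : ℕ) : Prop where
  tot : ∑ t ∈ Finset.range 75, dg C t = 1000000
  dom : Dom (Lf 4 lam n) C

theorem run1_sound (lam : ℝ) (h0 : -(1 / 2) ≤ lam) (h1 : lam ≤ 0) (n C A C' : ℕ)
    (hC : St lam n C) (h : run1 C A C' = true) : St lam (n + 1) C' := by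
  unfold run1 at h
  rw [Bool.and_eq_true] at h
  obtain ⟨hA, hB⟩ := h
  have rA := bilA C hC.tot fun p q hp hq => Rp_entA p q (reps_ok p hp) (reps_ok q hq)
  have eA : 5832 * 10 ^ 12 = 5832000000 * 1000000 := by norm_num
  rw [eA] at rA
  obtain ⟨tA, dA⟩ := ok1_sound _ _ _ _ (by norm_num) (by norm_num) rA hA
  have sA := stepA C n h0 h1 hC.dom
  have DA : Dom (Sk 4 lam n 2) A := by
    intro F hF
    have k1 := dA F hF
    have k2 := sA F hF
    push_cast at k1
    linarith
  have rB := bilB A tA fun p q hp hq => Rp_entB p q (reps_ok p hp) (reps_ok q hq)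
  have eB : 1458 * 10 ^ 12 = 1458000000 * 1000000 := by norm_num
  rw [eB] at rB
  obtain ⟨tB, dB⟩ := ok1_sound _ _ _ _ (by norm_num) (by norm_num) rB hB
  have sB := stepB A n h0 h1 DA
  refine ⟨tB, ?_⟩
  intro F hF
  have k1 := dB F hF
  have k2 := sB F hF
  push_cast at k1
  linarith

theorem run_sound (lam : ℝ) (h0 : -(1 / 2) ≤ lam) (h1 : lam ≤ 0) (L : ℕ) :
    ∀ (l : List (ℕ × ℕ)) (n C : ℕ), St lam n C → run l C L = true →
      St lam (n + l.length) L := by
  intro l
  induction l with
  | nil =>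
    intro n C hC h
    have h' : Nat.beq C L = true := h
    have : C = L := Nat.eq_of_beq_eq_true h'
    rw [← this]
    exact hC
  | cons p l ih =>
    intro n C hC h
    have h' : (run1 C p.1 p.2 && run l p.2 L) = true := h
    rw [Bool.and_eq_true] at h'
    have := ih (n + 1) p.2 (run1_sound lam h0 h1 n C p.1 p.2 hC h'.1) h'.2
    rw [List.length_cons]
    have e : n + (l.length + 1) = n + 1 + l.length := by omega
    rw [e]
    exact this

theorem tot_zero : ∑ t ∈ Finset.range 75, dg 1000000 t = 1000000 := by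
  have h : ∀ t ∈ Finset.range 75, t ≠ 0 → dg 1000000 t = 0 := by
    intro t _ ht
    unfold dg
    have h1 : 1 ≤ t := Nat.one_le_iff_ne_zero.2 ht
    have h2 : 1000000 < 1048576 ^ t :=
      lt_of_lt_of_le (by norm_num) (Nat.pow_le_pow_right (by norm_num) h1)
    rw [Nat.div_eq_of_lt h2, Nat.zero_mod]
  rw [Finset.sum_eq_single_of_mem 0 (by simp) h]
  unfold dg
  norm_num

theorem St_zero (lam : ℝ) : St lam 0 1000000 := ⟨tot_zero, dom_zero⟩

end Vale.Agent.P154.Grid
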