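import Vale.Agent.P154.GridDef

/-! Finite grid upgrade: the bilinear evaluation of a packed state. -/

open scoped BigOperators

namespace Vale.Agent.P154.Grid

theorem Y2_symm (F : ℝ → ℝ → ℝ → ℝ) (x0 x1 x2 z0 z1 z2 : ℝ) :
    Y2 F x0 x1 x2 z0 z1 z2 = Y2 F z0 z1 z2 x0 x1 x2 := by
  unfold Y2 six
  simp only [mul_comm z0, mul_comm z1, mul_comm z2]
  ring

theorem reps_ok : ∀ p, p ∈ reps → p / 28 + p % 28 ≤ 27 := by decide +kernel

theorem reps_length : reps.length = 75 := rfl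

theorem brc_mem (t : ℕ) (ht : t < 75) : rc t ∈ reps := by
  unfold rc
  rw [List.getD_eq_getElem _ _ (by rw [reps_length]; exact ht)]
  exact List.getElem_mem _

theorem Rp_zero' : Rp 0 0 (fun _ => 0) :=
  ⟨fun _ => 0, by simp, by simp, fun F _ => by simp⟩

theorem Rp_add' {E K E' K' : ℕ} {X X' : (ℝ → ℝ → ℝ → ℝ) → ℝ} (h : Rp E K X) (h' : Rp E' K' X') :
    Rp (E + E') (K + K') (fun F => X F + X' F) := by
  obtain ⟨f, h1, h2, h3⟩ := h
  obtain ⟨g, g1, g2, g3⟩ := h'
  refine ⟨fun t => f t + g t, ?_, ?_, ?_⟩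
  · rw [h1, g1, ← Finset.sum_add_distrib]
    exact Finset.sum_congr rfl fun t _ => by ring
  · rw [← h2, ← g2, Finset.sum_add_distrib]
  · intro F hF
    have e : ∑ t ∈ Finset.range 75, ((f t + g t : ℕ) : ℝ) * S6 F (rc t) =
        ∑ t ∈ Finset.range 75, (f t : ℝ) * S6 F (rc t) +
        ∑ t ∈ Finset.range 75, (g t : ℝ) * S6 F (rc t) := by
      rw [← Finset.sum_add_distrib]
      exact Finset.sum_congr rfl fun t _ => by push_cast; ring
    rw [e]
    exact add_le_add (h3 F hF) (g3 F hF)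

theorem Rp_smul' (m : ℕ) {E K : ℕ} {X : (ℝ → ℝ → ℝ → ℝ) → ℝ} (h : Rp E K X) :
    Rp (m * E) (m * K) (fun F => (m : ℝ) * X F) := by
  obtain ⟨f, h1, h2, h3⟩ := h
  refine ⟨fun t => m * f t, ?_, ?_, ?_⟩
  · rw [h1, Finset.mul_sum]
    exact Finset.sum_congr rfl fun t _ => by ring
  · rw [← h2, Finset.mul_sum]
  · intro F hF
    have e : ∑ t ∈ Finset.range 75, ((m * f t : ℕ) : ℝ) * S6 F (rc t) =
        (m : ℝ) * ∑ t ∈ Finset.range 75, (f t : ℝ) * S6 F (rc t) := by
      rw [Finset.mul_sum]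
      exact Finset.sum_congr rfl fun t _ => by push_cast; ring
    rw [e]
    exact mul_le_mul_of_nonneg_left (h3 F hF) (Nat.cast_nonneg _)

theorem bdg_zero (C : ℕ) : dg C 0 = C % 1048576 := by
  unfold dg; rw [pow_zero, Nat.div_one]

theorem bdg_succ (C t : ℕ) : dg C (t + 1) = dg (C / 1048576) t := by
  unfold dg; rw [pow_succ, mul_comm, Nat.div_div_eq_div_mul]

section alg
variable {R : Type*} [CommSemiring R]

/-- evaluation of a row -/
def RL (b : ℕ → R) : List ℕ → ℕ → R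
  | [], _ => 0
  | q :: qs, C => ((C % 1048576 : ℕ) : R) * (2 * b q) + RL b qs (C / 1048576)

/-- evaluation of the triangular table -/
def QL (b : ℕ → ℕ → R) : List ℕ → ℕ → R
  | [], _ => 0
  | p :: ps, C =>
    ((C % 1048576 : ℕ) : R) * (((C % 1048576 : ℕ) : R) * b p p + RL (b p) ps (C / 1048576)) +
      QL b ps (C / 1048576)

theorem RL_eq (b : ℕ → R) (l : List ℕ) (C : ℕ) :
    RL b l C = 2 * ∑ t ∈ Finset.range l.length, ((dg C t : ℕ) : R) * b (l.getD t 0) := by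
  induction l generalizing C with
  | nil => simp [RL]
  | cons q qs ih =>
    rw [RL, ih, List.length_cons, Finset.sum_range_succ']
    have h1 : ∀ t ∈ Finset.range qs.length,
        ((dg C (t + 1) : ℕ) : R) * b ((q :: qs).getD (t + 1) 0) =
        ((dg (C / 1048576) t : ℕ) : R) * b (qs.getD t 0) := by
      intro t _
      rw [bdg_succ, List.getD_cons_succ]
    rw [Finset.sum_congr rfl h1, bdg_zero, List.getD_cons_zero]
    ring

theorem QL_eq (b : ℕ → ℕ → R) (hs : ∀ p q, b p q = b q p) (l : List ℕ) (C : ℕ) :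
    QL b l C = ∑ s ∈ Finset.range l.length, ∑ t ∈ Finset.range l.length,
      ((dg C s : ℕ) : R) * ((dg C t : ℕ) : R) * b (l.getD s 0) (l.getD t 0) := by
  induction l generalizing C with
  | nil => simp [QL]
  | cons p ps ih =>
    rw [QL, ih, RL_eq, List.length_cons, Finset.sum_range_succ']
    have h1 : ∀ s ∈ Finset.range ps.length, ∑ t ∈ Finset.range (ps.length + 1),
        ((dg C (s + 1) : ℕ) : R) * ((dg C t : ℕ) : R) *
          b ((p :: ps).getD (s + 1) 0) ((p :: ps).getD t 0) =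
        ∑ t ∈ Finset.range ps.length, ((dg (C / 1048576) s : ℕ) : R) *
          ((dg (C / 1048576) t : ℕ) : R) * b (ps.getD s 0) (ps.getD t 0) +
        ((C % 1048576 : ℕ) : R) * (((dg (C / 1048576) s : ℕ) : R) * b p (ps.getD s 0)) := by
      intro s _
      rw [Finset.sum_range_succ', bdg_succ, bdg_zero, List.getD_cons_succ, List.getD_cons_zero,
        hs (ps.getD s 0) p]
      congr 1
      · refine Finset.sum_congr rfl fun t _ => ?_
        rw [bdg_succ, List.getD_cons_succ]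
      · ring
    have h2 : ∑ t ∈ Finset.range (ps.length + 1),
        ((dg C 0 : ℕ) : R) * ((dg C t : ℕ) : R) *
          b ((p :: ps).getD 0 0) ((p :: ps).getD t 0) =
        ((C % 1048576 : ℕ) : R) * ∑ t ∈ Finset.range ps.length,
          ((dg (C / 1048576) t : ℕ) : R) * b p (ps.getD t 0) +
        ((C % 1048576 : ℕ) : R) * (((C % 1048576 : ℕ) : R) * b p p) := by
      rw [Finset.sum_range_succ', bdg_zero, List.getD_cons_zero, Finset.mul_sum]
      congr 1
      · refine Finset.sum_congr rfl fun t _ => ?_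
        rw [bdg_succ, List.getD_cons_succ]
        ring
      · ring
    rw [Finset.sum_congr rfl h1, Finset.sum_add_distrib, h2, ← Finset.mul_sum]
    ring

end alg

theorem rdot_nil (C : ℕ) : rdot [] C = 0 := rfl

theorem rdot_cons (e : ℕ) (l : List ℕ) (C : ℕ) :
    rdot (e :: l) C = C % 1048576 * e + rdot l (C / 1048576) := rfl

theorem bil_cons (r : List ℕ) (l : List (List ℕ)) (C : ℕ) :
    bil (r :: l) C = C % 1048576 * rdot r C + bil l (C / 1048576) := rfl

theorem mrow_cons (E : ℕ → ℕ → ℕ) (p q : ℕ) (l : List ℕ) :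
    mrow E p (q :: l) = (2 * E p q) :: mrow E p l := rfl

theorem rows_cons (E : ℕ → ℕ → ℕ) (p : ℕ) (l : List ℕ) :
    rows E (p :: l) = (E p p :: mrow E p l) :: rows E l := rfl

theorem Rp_mrow (E : ℕ → ℕ → ℕ) (K : ℕ) (X : ℕ → ℕ → (ℝ → ℝ → ℝ → ℝ) → ℝ) (p : ℕ)
    (l : List ℕ) (hE : ∀ q, q ∈ l → Rp (E p q) K (X p q)) (C : ℕ) :
    Rp (rdot (mrow E p l) C) (RL (fun _ => K) l C) (fun F => RL (fun q => X p q F) l C) := by
  induction l generalizing C with
  | nil => exact Rp_zero'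
  | cons q qs ih =>
    have h1 : Rp (C % 1048576 * (2 * E p q)) (C % 1048576 * (2 * K))
        (fun F => ((C % 1048576 : ℕ) : ℝ) * ((2 : ℕ) * X p q F)) :=
      Rp_smul' _ (Rp_smul' 2 (hE q List.mem_cons_self))
    have h2 := ih (fun r hr => hE r (List.mem_cons_of_mem _ hr)) (C / 1048576)
    have h3 := Rp_add' h1 h2
    rw [mrow_cons, rdot_cons]
    simpa only [RL, Nat.cast_ofNat, Nat.cast_id] using h3

theorem Rp_rows (E : ℕ → ℕ → ℕ) (K : ℕ) (X : ℕ → ℕ → (ℝ → ℝ → ℝ → ℝ) → ℝ)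
    (l : List ℕ) (hE : ∀ p q, p ∈ l → q ∈ l → Rp (E p q) K (X p q)) (C : ℕ) :
    Rp (bil (rows E l) C) (QL (fun _ _ => K) l C) (fun F => QL (fun p q => X p q F) l C) := by
  induction l generalizing C with
  | nil => exact Rp_zero'
  | cons p ps ih =>
    have h1 := Rp_mrow E K X p ps
      (fun q hq => hE p q List.mem_cons_self (List.mem_cons_of_mem _ hq)) (C / 1048576)
    have h2 := Rp_smul' (C % 1048576) (hE p p List.mem_cons_self List.mem_cons_self)
    have h3 := Rp_smul' (C % 1048576) (Rp_add' h2 h1)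
    have h4 := ih (fun q r hq hr => hE q r (List.mem_cons_of_mem _ hq)
      (List.mem_cons_of_mem _ hr)) (C / 1048576)
    have h5 := Rp_add' h3 h4
    rw [rows_cons, bil_cons, rdot_cons]
    simpa only [QL, Nat.cast_id] using h5

theorem Rp_bil (E : ℕ → ℕ → ℕ) (K : ℕ) (X : ℕ → ℕ → (ℝ → ℝ → ℝ → ℝ) → ℝ)
    (hE : ∀ p q, p ∈ reps → q ∈ reps → Rp (E p q) K (X p q))
    (hs : ∀ p q F, X p q F = X q p F) (C : ℕ) (S : ℕ)
    (hS : ∑ t ∈ Finset.range 75, dg C t = S) :
    Rp (bil (rows E reps) C) (K * S ^ 2) (Q2 X C) := by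
  have h := Rp_rows E K X reps hE C
  have h1 : QL (fun _ _ => K) reps C = K * S ^ 2 := by
    rw [QL_eq (fun _ _ => K) (fun _ _ => rfl), reps_length, ← hS, sq, Finset.sum_mul_sum,
      Finset.mul_sum]
    refine Finset.sum_congr rfl fun s _ => ?_
    rw [Finset.mul_sum]
    refine Finset.sum_congr rfl fun t _ => ?_
    simp only [Nat.cast_id]
    ring
  have h2 : (fun F => QL (fun p q => X p q F) reps C) = Q2 X C := by
    funext F
    rw [QL_eq (fun p q => X p q F) (fun p q => hs p q F), reps_length]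
    rfl
  rw [h1, h2] at h
  exact h

theorem Q2_smul (c : ℝ) (X : ℕ → ℕ → (ℝ → ℝ → ℝ → ℝ) → ℝ) (C : ℕ) :
    Q2 (fun p q F => c * X p q F) C = fun F => c * Q2 X C F := by
  funext F
  unfold Q2
  rw [Finset.mul_sum]
  refine Finset.sum_congr rfl fun s _ => ?_
  rw [Finset.mul_sum]
  refine Finset.sum_congr rfl fun t _ => ?_
  ring

theorem XA_symm (p q : ℕ) (F : ℝ → ℝ → ℝ → ℝ) : XA p q F = XA q p F := by
  unfold XA
  rw [Y2_symm]

theorem XB_symm (p q : ℕ) (F : ℝ → ℝ → ℝ → ℝ) : XB p q F = XB q p F := by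
  unfold XB
  rw [Y2_symm]

theorem bil_aux (E : ℕ → ℕ → ℕ) (K : ℕ) (X : ℕ → ℕ → (ℝ → ℝ → ℝ → ℝ) → ℝ)
    (hE : ∀ p q, p ∈ reps → q ∈ reps → Rp (E p q) K (fun F => 27 * X p q F))
    (hs : ∀ p q F, X p q F = X q p F) (C : ℕ)
    (hS : ∑ t ∈ Finset.range 75, dg C t = 1000000) :
    Rp (bil (rows E reps) C) (K * 10 ^ 12) (fun F => 27 * Q2 X C F) := by
  have h := Rp_bil E K (fun p q F => 27 * X p q F) hE
    (fun p q F => by simp only [hs p q F]) C 1000000 hS
  rw [Q2_smul] at h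
  have e : (1000000 : ℕ) ^ 2 = 10 ^ 12 := by norm_num
  rw [e] at h
  exact h

theorem bilA (C : ℕ) (hS : ∑ t ∈ Finset.range 75, dg C t = 1000000)
    (hA : ∀ p q, p ∈ reps → q ∈ reps → Rp (entA p q) 5832 (fun F => 27 * XA p q F)) :
    Rp (bil tabA C) (5832 * 10 ^ 12) (fun F => 27 * Q2 XA C F) :=
  bil_aux entA 5832 XA hA XA_symm C hS

theorem bilB (C : ℕ) (hS : ∑ t ∈ Finset.range 75, dg C t = 1000000)
    (hB : ∀ p q, p ∈ reps → q ∈ reps → Rp (entB p q) 1458 (fun F => 27 * XB p q F)) :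
    Rp (bil tabB C) (1458 * 10 ^ 12) (fun F => 27 * Q2 XB C F) :=
  bil_aux entB 1458 XB hB XB_symm C hS

end Vale.Agent.P154.Grid
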