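import Vale.Agent.P154.GridAsm
import Vale.Agent.P154.Data.GD4

/-! The chi-square statistic on the `4`-ary tree drops below one fifth. -/

open scoped BigOperators

namespace Vale.Agent.P154.Grid

theorem fin4 : finB st4 = true := by decide +kernel

/-- at some level the chi-square statistic is at most one fifth -/
theorem grid_bound (lam : ℝ) (h0 : -(1 / 2) ≤ lam) (h1 : lam ≤ 0) :
    ∃ N, Lf 4 lam N chi ≤ 1 / 5 := by
  have a0 := St_zero lam
  have a1 := run_sound lam h0 h1 st1 lv1 _ _ a0 lvl1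
  have a2 := run_sound lam h0 h1 st2 lv2 _ _ a1 lvl2
  have a3 := run_sound lam h0 h1 st3 lv3 _ _ a2 lvl3
  have a4 := run_sound lam h0 h1 st4 lv4 _ _ a3 lvl4
  exact ⟨_, fin_val st4 _ a4.dom fin4⟩

end Vale.Agent.P154.Grid
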