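import Vale.Agent.P154.GridDef

/-! Packed weights for the products of grid points. -/

open scoped BigOperators

namespace Vale.Agent.P154.Grid

theorem Rp_zero : Rp 0 0 (fun _ => 0) :=
  ⟨fun _ => 0, by simp, by simp, fun F _ => by simp⟩

theorem Rp.add {E K E' K' : ℕ} {X X' : (ℝ → ℝ → ℝ → ℝ) → ℝ} (h : Rp E K X) (h' : Rp E' K' X') :
    Rp (E + E') (K + K') (fun F => X F + X' F) := by
  obtain ⟨f, h1, h2, h3⟩ := h
  obtain ⟨g, k1, k2, k3⟩ := h'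
  refine ⟨fun t => f t + g t, ?_, ?_, ?_⟩
  · rw [h1, k1, ← Finset.sum_add_distrib]
    exact Finset.sum_congr rfl fun t _ => by ring
  · rw [← h2, ← k2, ← Finset.sum_add_distrib]
  · intro F hF
    have a := h3 F hF
    have b := k3 F hF
    have e : ∑ t ∈ Finset.range 75, ((f t + g t : ℕ) : ℝ) * S6 F (rc t)
        = ∑ t ∈ Finset.range 75, (f t : ℝ) * S6 F (rc t)
          + ∑ t ∈ Finset.range 75, (g t : ℝ) * S6 F (rc t) := by
      rw [← Finset.sum_add_distrib]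
      exact Finset.sum_congr rfl fun t _ => by push_cast; ring
    rw [e]
    exact add_le_add a b

theorem Rp.smul (m : ℕ) {E K : ℕ} {X : (ℝ → ℝ → ℝ → ℝ) → ℝ} (h : Rp E K X) :
    Rp (m * E) (m * K) (fun F => (m : ℝ) * X F) := by
  obtain ⟨f, h1, h2, h3⟩ := h
  refine ⟨fun t => m * f t, ?_, ?_, ?_⟩
  · rw [h1, Finset.mul_sum]
    exact Finset.sum_congr rfl fun t _ => by ring
  · rw [← h2, Finset.mul_sum]
  · intro F hF
    have a := mul_le_mul_of_nonneg_left (h3 F hF) (Nat.cast_nonneg (α := ℝ) m)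
    refine le_trans a (le_of_eq ?_)
    rw [Finset.mul_sum]
    exact Finset.sum_congr rfl fun t _ => by push_cast; ring

theorem Rp.le {E K : ℕ} {X X' : (ℝ → ℝ → ℝ → ℝ) → ℝ} (h : Rp E K X)
    (hX : ∀ F, Sub F → X' F ≤ X F) : Rp E K X' := by
  obtain ⟨f, h1, h2, h3⟩ := h
  exact ⟨f, h1, h2, fun F hF => le_trans (hX F hF) (h3 F hF)⟩

theorem Rp.cast {E K E' K' : ℕ} {X : (ℝ → ℝ → ℝ → ℝ) → ℝ} (h : Rp E K X) (hE : E = E')
    (hK : K = K') : Rp E' K' X := by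
  subst hE; subst hK; exact h

/-! ### the table of orbits -/

/-- `(a, b, c)` is a rearrangement of `(i, j, k)` -/
def isP (a b c i j k : ℕ) : Prop :=
  (a = i ∧ b = j ∧ c = k) ∨ (a = i ∧ b = k ∧ c = j) ∨ (a = j ∧ b = i ∧ c = k) ∨
  (a = j ∧ b = k ∧ c = i) ∨ (a = k ∧ b = i ∧ c = j) ∨ (a = k ∧ b = j ∧ c = i)

instance (a b c i j k : ℕ) : Decidable (isP a b c i j k) := by
  unfold isP; infer_instance

theorem lut_ok : ∀ i < 28, ∀ j < 28, i + j ≤ 27 → lut i j < 75 ∧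
    isP (rc (lut i j) / 28) (rc (lut i j) % 28) (27 - rc (lut i j) / 28 - rc (lut i j) % 28)
      i j (27 - i - j) := by
  decide +kernel

theorem six_isP (F : ℝ → ℝ → ℝ → ℝ) (a b c i j k : ℕ) (h : isP a b c i j k) :
    six F (a : ℝ) (b : ℝ) (c : ℝ) = six F (i : ℝ) (j : ℝ) (k : ℝ) := by
  unfold isP at h
  rcases h with ⟨h1, h2, h3⟩ | ⟨h1, h2, h3⟩ | ⟨h1, h2, h3⟩ | ⟨h1, h2, h3⟩ | ⟨h1, h2, h3⟩ |
    ⟨h1, h2, h3⟩ <;> subst h1 <;> subst h2 <;> subst h3 <;> unfold six <;> ring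

theorem Rp_sg (w i j : ℕ) (h : i + j ≤ 27) :
    Rp (sg w i j) w (fun F => (w : ℝ) * six F (i : ℝ) (j : ℝ) ((27 - i - j : ℕ) : ℝ)) := by
  obtain ⟨h1, h2⟩ := lut_ok i (by omega) j (by omega) h
  refine ⟨fun t => if t = lut i j then w else 0, ?_, ?_, ?_⟩
  · have e : sg w i j = w * 2 ^ (56 * lut i j) := by
      unfold sg
      exact Nat.shiftLeft_eq _ _
    rw [e, Finset.sum_eq_single_of_mem (lut i j) (Finset.mem_range.2 h1)]
    · simp
    · intro t _ ht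
      simp [ht]
  · rw [Finset.sum_eq_single_of_mem (lut i j) (Finset.mem_range.2 h1)]
    · simp
    · intro t _ ht
      simp [ht]
  · intro F _
    rw [Finset.sum_eq_single_of_mem (lut i j) (Finset.mem_range.2 h1)]
    · simp only [if_true]
      unfold S6
      rw [six_isP F _ _ _ i j (27 - i - j) h2]
    · intro t _ ht
      simp [ht]

/-! ### sublinearity -/

theorem three_le (F : ℝ → ℝ → ℝ → ℝ) (hF : Sub F) (m u v w : ℝ)
    (y0 y1 y2 p0 p1 p2 q0 q1 q2 r0 r1 r2 : ℝ) (hu : 0 ≤ u) (hv : 0 ≤ v) (hw : 0 ≤ w)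
    (hp0 : 0 ≤ p0) (hp1 : 0 ≤ p1) (hp2 : 0 ≤ p2) (hq0 : 0 ≤ q0) (hq1 : 0 ≤ q1) (hq2 : 0 ≤ q2)
    (hr0 : 0 ≤ r0) (hr1 : 0 ≤ r1) (hr2 : 0 ≤ r2)
    (e0 : m * y0 = u * p0 + v * q0 + w * r0) (e1 : m * y1 = u * p1 + v * q1 + w * r1)
    (e2 : m * y2 = u * p2 + v * q2 + w * r2) :
    m * F y0 y1 y2 ≤ u * F p0 p1 p2 + v * F q0 q1 q2 + w * F r0 r1 r2 := by
  have h0 := hF.hg m y0 y1 y2
  rw [← h0, e0, e1, e2]
  have k1 := hF.add (u * p0 + v * q0) (u * p1 + v * q1) (u * p2 + v * q2) (w * r0) (w * r1)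
    (w * r2) (by positivity) (by positivity) (by positivity) (by positivity) (by positivity)
    (by positivity)
  have k2 := hF.add (u * p0) (u * p1) (u * p2) (v * q0) (v * q1) (v * q2) (by positivity)
    (by positivity) (by positivity) (by positivity) (by positivity) (by positivity)
  rw [← hF.hg u p0 p1 p2, ← hF.hg v q0 q1 q2, ← hF.hg w r0 r1 r2]
  linarith

theorem six_le (F : ℝ → ℝ → ℝ → ℝ) (hF : Sub F) (m u v w : ℝ)
    (y0 y1 y2 p0 p1 p2 q0 q1 q2 r0 r1 r2 : ℝ) (hu : 0 ≤ u) (hv : 0 ≤ v) (hw : 0 ≤ w)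
    (hp0 : 0 ≤ p0) (hp1 : 0 ≤ p1) (hp2 : 0 ≤ p2) (hq0 : 0 ≤ q0) (hq1 : 0 ≤ q1) (hq2 : 0 ≤ q2)
    (hr0 : 0 ≤ r0) (hr1 : 0 ≤ r1) (hr2 : 0 ≤ r2)
    (e0 : m * y0 = u * p0 + v * q0 + w * r0) (e1 : m * y1 = u * p1 + v * q1 + w * r1)
    (e2 : m * y2 = u * p2 + v * q2 + w * r2) :
    m * six F y0 y1 y2 ≤ u * six F p0 p1 p2 + v * six F q0 q1 q2 + w * six F r0 r1 r2 := by
  have a1 := three_le F hF m u v w y0 y1 y2 p0 p1 p2 q0 q1 q2 r0 r1 r2 hu hv hw hp0 hp1 hp2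
    hq0 hq1 hq2 hr0 hr1 hr2 e0 e1 e2
  have a2 := three_le F hF m u v w y1 y2 y0 p1 p2 p0 q1 q2 q0 r1 r2 r0 hu hv hw hp1 hp2 hp0
    hq1 hq2 hq0 hr1 hr2 hr0 e1 e2 e0
  have a3 := three_le F hF m u v w y2 y0 y1 p2 p0 p1 q2 q0 q1 r2 r0 r1 hu hv hw hp2 hp0 hp1
    hq2 hq0 hq1 hr2 hr0 hr1 e2 e0 e1
  have a4 := three_le F hF m u v w y0 y2 y1 p0 p2 p1 q0 q2 q1 r0 r2 r1 hu hv hw hp0 hp2 hp1
    hq0 hq2 hq1 hr0 hr2 hr1 e0 e2 e1
  have a5 := three_le F hF m u v w y2 y1 y0 p2 p1 p0 q2 q1 q0 r2 r1 r0 hu hv hw hp2 hp1 hp0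
    hq2 hq1 hq0 hr2 hr1 hr0 e2 e1 e0
  have a6 := three_le F hF m u v w y1 y0 y2 p1 p0 p2 q1 q0 q2 r1 r0 r2 hu hv hw hp1 hp0 hp2
    hq1 hq0 hq2 hr1 hr0 hr2 e1 e0 e2
  unfold six
  linarith

/-! ### vertices of the grid triangle -/

theorem Rp_vtC (Y y0 y1 y2 a0 a1 a2 f0 f1 f2 s : ℕ) (hY : 0 < Y) (hf0 : f0 < Y) (hf1 : f1 < Y)
    (hf2 : f2 < Y) (e0 : 27 * y0 = Y * a0 + f0) (e1 : 27 * y1 = Y * a1 + f1)
    (e2 : 27 * y2 = Y * a2 + f2) (hy : y0 + y1 + y2 = Y) (hs : s = 27 - a0 - a1 - a2) :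
    Rp (vtC Y a0 a1 f0 f1 f2 s) Y (fun F => 27 * six F (y0 : ℝ) (y1 : ℝ) (y2 : ℝ)) := by
  have hsum : Y * (a0 + a1 + a2) + (f0 + f1 + f2) = 27 * Y := by
    calc _ = (Y * a0 + f0) + (Y * a1 + f1) + (Y * a2 + f2) := by ring
      _ = 27 * y0 + 27 * y1 + 27 * y2 := by rw [e0, e1, e2]
      _ = 27 * (y0 + y1 + y2) := by ring
      _ = _ := by rw [hy]
  have hle : a0 + a1 + a2 ≤ 27 := by
    by_contra hcon
    have : 28 ≤ a0 + a1 + a2 := by omega
    have := Nat.mul_le_mul_left Y this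
    omega
  have hS : a0 + a1 + a2 + s = 27 := by omega
  have hfs : f0 + f1 + f2 = Y * s := by
    have : Y * (a0 + a1 + a2) + Y * s = 27 * Y := by
      rw [← Nat.mul_add, hS, Nat.mul_comm]
    omega
  have hs3 : s < 3 := by
    by_contra hcon
    have : 3 ≤ s := by omega
    have := Nat.mul_le_mul_left Y this
    omega
  have r0 : (27 : ℝ) * y0 = Y * a0 + f0 := by exact_mod_cast e0
  have r1 : (27 : ℝ) * y1 = Y * a1 + f1 := by exact_mod_cast e1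
  have r2 : (27 : ℝ) * y2 = Y * a2 + f2 := by exact_mod_cast e2
  interval_cases s
  · have g0 : f0 = 0 := by omega
    have g1 : f1 = 0 := by omega
    have g2 : f2 = 0 := by omega
    subst g0; subst g1; subst g2
    have e : vtC Y a0 a1 0 0 0 0 = sg Y a0 a1 := rfl
    rw [e]
    refine (Rp_sg Y a0 a1 (by omega)).le fun F hF => ?_
    have ha : ((27 - a0 - a1 : ℕ) : ℝ) = a2 := by
      congr 1; omega
    rw [ha]
    have := six_le F hF 27 Y 0 0 y0 y1 y2 a0 a1 a2 0 0 0 0 0 0 (by positivity) le_rfl le_rfl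
      (by positivity) (by positivity) (by positivity) le_rfl le_rfl le_rfl le_rfl le_rfl le_rfl
      (by push_cast at r0; linarith) (by push_cast at r1; linarith) (by push_cast at r2; linarith)
    linarith
  · have e : vtC Y a0 a1 f0 f1 f2 1 = sg f0 (a0 + 1) a1 + (sg f1 a0 (a1 + 1) + sg f2 a0 a1) := rfl
    rw [e]
    have R := (Rp_sg f0 (a0 + 1) a1 (by omega)).add ((Rp_sg f1 a0 (a1 + 1) (by omega)).add
      (Rp_sg f2 a0 a1 (by omega)))
    refine (R.cast rfl (by omega)).le fun F hF => ?_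
    have h0 : ((27 - (a0 + 1) - a1 : ℕ) : ℝ) = a2 := by congr 1; omega
    have h1 : ((27 - a0 - (a1 + 1) : ℕ) : ℝ) = a2 := by congr 1; omega
    have h2 : ((27 - a0 - a1 : ℕ) : ℝ) = a2 + 1 := by
      have : 27 - a0 - a1 = a2 + 1 := by omega
      rw [this]; push_cast; ring
    rw [h0, h1, h2]
    have hf : (f0 : ℝ) + f1 + f2 = Y := by
      have : f0 + f1 + f2 = Y := by omega
      exact_mod_cast this
    have := six_le F hF 27 f0 f1 f2 y0 y1 y2 (a0 + 1) a1 a2 a0 (a1 + 1) a2 a0 a1 (a2 + 1)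
      (by positivity) (by positivity) (by positivity)
      (by positivity) (by positivity) (by positivity) (by positivity) (by positivity)
      (by positivity) (by positivity) (by positivity) (by positivity)
      (by rw [r0, ← hf]; ring) (by rw [r1, ← hf]; ring) (by rw [r2, ← hf]; ring)
    push_cast
    linarith
  · have e : vtC Y a0 a1 f0 f1 f2 2 = sg (Y - f0) a0 (a1 + 1) + (sg (Y - f1) (a0 + 1) a1
        + sg (Y - f2) (a0 + 1) (a1 + 1)) := rfl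
    rw [e]
    have R := (Rp_sg (Y - f0) a0 (a1 + 1) (by omega)).add
      ((Rp_sg (Y - f1) (a0 + 1) a1 (by omega)).add
      (Rp_sg (Y - f2) (a0 + 1) (a1 + 1) (by omega)))
    refine (R.cast rfl (by omega)).le fun F hF => ?_
    have h0 : ((27 - a0 - (a1 + 1) : ℕ) : ℝ) = a2 + 1 := by
      have : 27 - a0 - (a1 + 1) = a2 + 1 := by omega
      rw [this]; push_cast; ring
    have h1 : ((27 - (a0 + 1) - a1 : ℕ) : ℝ) = a2 + 1 := by
      have : 27 - (a0 + 1) - a1 = a2 + 1 := by omega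
      rw [this]; push_cast; ring
    have h2 : ((27 - (a0 + 1) - (a1 + 1) : ℕ) : ℝ) = a2 := by congr 1; omega
    rw [h0, h1, h2, Nat.cast_sub hf0.le, Nat.cast_sub hf1.le, Nat.cast_sub hf2.le]
    have hf : (f0 : ℝ) + f1 + f2 = Y * 2 := by exact_mod_cast hfs
    have k0 : (0 : ℝ) ≤ (Y : ℝ) - f0 := by
      have : (f0 : ℝ) ≤ Y := by exact_mod_cast hf0.le
      linarith
    have k1 : (0 : ℝ) ≤ (Y : ℝ) - f1 := by
      have : (f1 : ℝ) ≤ Y := by exact_mod_cast hf1.le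
      linarith
    have k2 : (0 : ℝ) ≤ (Y : ℝ) - f2 := by
      have : (f2 : ℝ) ≤ Y := by exact_mod_cast hf2.le
      linarith
    have := six_le F hF 27 (Y - f0) (Y - f1) (Y - f2) y0 y1 y2 a0 (a1 + 1) (a2 + 1)
      (a0 + 1) a1 (a2 + 1) (a0 + 1) (a1 + 1) a2 k0 k1 k2
      (by positivity) (by positivity) (by positivity) (by positivity) (by positivity)
      (by positivity) (by positivity) (by positivity) (by positivity)
      (by rw [r0]; linear_combination (a0 + 1) * hf)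
      (by rw [r1]; linear_combination (a1 + 1) * hf)
      (by rw [r2]; linear_combination (a2 + 1) * hf)
    push_cast
    linarith

theorem Rp_vt (y0 y1 y2 : ℕ) :
    Rp (vt y0 y1 y2) (y0 + y1 + y2) (fun F => 27 * six F (y0 : ℝ) (y1 : ℝ) (y2 : ℝ)) := by
  rcases Nat.eq_zero_or_pos (y0 + y1 + y2) with h | h
  · have z0 : y0 = 0 := by omega
    have z1 : y1 = 0 := by omega
    have z2 : y2 = 0 := by omega
    subst z0; subst z1; subst z2
    have e : vt 0 0 0 = 0 := rfl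
    rw [e]
    refine Rp_zero.le fun F hF => ?_
    have z : F 0 0 0 = 0 := by
      have := hF.hg 0 0 0 0
      simpa using this
    have z' : six F ((0 : ℕ) : ℝ) ((0 : ℕ) : ℝ) ((0 : ℕ) : ℝ) = 0 := by
      unfold six
      rw [Nat.cast_zero, z]
      ring
    rw [z']
    simp
  · have hb : Nat.beq (y0 + y1 + y2) 0 = false := by
      have hn : ∀ n : ℕ, 0 < n → Nat.beq n 0 = false := fun n hn => by
        cases n with
        | zero => omega
        | succ m => rfl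
      exact hn _ h
    have e : vt y0 y1 y2 = vtB (y0 + y1 + y2) (27 * y0) (27 * y1) (27 * y2) := by
      change cond (Nat.beq (y0 + y1 + y2) 0) 0
        (vtB (y0 + y1 + y2) (27 * y0) (27 * y1) (27 * y2)) = _
      rw [hb]
      rfl
    rw [e]
    change Rp (vtC (y0 + y1 + y2) (27 * y0 / (y0 + y1 + y2)) (27 * y1 / (y0 + y1 + y2))
      (27 * y0 % (y0 + y1 + y2)) (27 * y1 % (y0 + y1 + y2)) (27 * y2 % (y0 + y1 + y2))
      (27 - 27 * y0 / (y0 + y1 + y2) - 27 * y1 / (y0 + y1 + y2) - 27 * y2 / (y0 + y1 + y2)))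
      _ _
    refine Rp_vtC (y0 + y1 + y2) y0 y1 y2 _ _ (27 * y2 / (y0 + y1 + y2)) _ _ _ _ h
      (Nat.mod_lt _ h) (Nat.mod_lt _ h) (Nat.mod_lt _ h) (Nat.div_add_mod _ _).symm
      (Nat.div_add_mod _ _).symm (Nat.div_add_mod _ _).symm rfl rfl

theorem Rp_ent (x0 x1 x2 z0 z1 z2 : ℕ) :
    Rp (ent x0 x1 x2 z0 z1 z2) (2 * ((x0 + x1 + x2) * (z0 + z1 + z2)))
      (fun F => 27 * Y2 F (x0 : ℝ) (x1 : ℝ) (x2 : ℝ) (z0 : ℝ) (z1 : ℝ) (z2 : ℝ)) := by
  have R := (Rp_vt (x0 * z0) (x1 * z1) (x2 * z2)).add ((Rp_vt (x0 * z1) (x1 * z2) (x2 * z0)).add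
    ((Rp_vt (x0 * z2) (x1 * z0) (x2 * z1)).add ((Rp_vt (x0 * z0) (x1 * z2) (x2 * z1)).add
    ((Rp_vt (x0 * z2) (x1 * z1) (x2 * z0)).add (Rp_vt (x0 * z1) (x1 * z0) (x2 * z2))))))
  refine (R.cast (E' := ent x0 x1 x2 z0 z1 z2) rfl (by ring)).le fun F _ => le_of_eq ?_
  unfold Y2 six
  push_cast
  ring

theorem Rp_entA (p q : ℕ) (hp : p / 28 + p % 28 ≤ 27) (hq : q / 28 + q % 28 ≤ 27) :
    Rp (entA p q) 5832 (fun F => 27 * XA p q F) := by
  refine (Rp_ent (27 - p / 28) (27 - p % 28) (p / 28 + p % 28) (27 - q / 28) (27 - q % 28)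
    (q / 28 + q % 28)).cast rfl ?_
  have e1 : 27 - p / 28 + (27 - p % 28) + (p / 28 + p % 28) = 54 := by omega
  have e2 : 27 - q / 28 + (27 - q % 28) + (q / 28 + q % 28) = 54 := by omega
  rw [e1, e2]

theorem Rp_entB (p q : ℕ) (hp : p / 28 + p % 28 ≤ 27) (hq : q / 28 + q % 28 ≤ 27) :
    Rp (entB p q) 1458 (fun F => 27 * XB p q F) := by
  refine (Rp_ent (p / 28) (p % 28) (27 - p / 28 - p % 28) (q / 28) (q % 28)
    (27 - q / 28 - q % 28)).cast rfl ?_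
  have e1 : p / 28 + p % 28 + (27 - p / 28 - p % 28) = 27 := by omega
  have e2 : q / 28 + q % 28 + (27 - q / 28 - q % 28) = 27 := by omega
  rw [e1, e2]

end Vale.Agent.P154.Grid
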