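import Vale.Agent.P154.GW

/-! Interpolation weights between zero and a Poisson number of messages. -/

open scoped BigOperators
open MeasureTheory

namespace Vale.Agent.P154

/-- cubic Bernstein polynomials -/
noncomputable def bp (k : ℕ) (t : ℝ) : ℝ :=
  match k with
  | 0 => (1 - t) ^ 3
  | 1 => 3 * t * (1 - t) ^ 2
  | 2 => 3 * t ^ 2 * (1 - t)
  | _ => t ^ 3

theorem bp_nonneg (k : ℕ) {t : ℝ} (h0 : 0 ≤ t) (h1 : t ≤ 1) : 0 ≤ bp k t := by
  have : 0 ≤ 1 - t := by linarith
  rcases k with _ | _ | _ | k <;> simp only [bp] <;> positivity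

theorem bp_cont (k : ℕ) : Continuous (bp k) := by
  rcases k with _ | _ | _ | k <;> (unfold bp; fun_prop)

theorem bp_int (k : ℕ) (_ : k < 4) : ∫ t in (0 : ℝ)..1, bp k t = 1 / 4 := by
  have key : ∀ F : ℝ → ℝ, (∀ t, HasDerivAt F (bp k t) t) →
      ∫ t in (0 : ℝ)..1, bp k t = F 1 - F 0 := fun F hF =>
    intervalIntegral.integral_eq_sub_of_hasDerivAt (fun t _ => hF t)
      ((bp_cont k).intervalIntegrable _ _)
  interval_cases k
  · rw [key (fun t => -(1 - t) ^ 4 / 4)]
    · norm_num
    · intro t
      have h := ((((hasDerivAt_id t).const_sub 1).pow 4).neg).div_const 4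
      exact h.congr_deriv (by simp only [bp, id]; push_cast; ring)
  · rw [key (fun t => 3 * (t ^ 2 / 2 - 2 * (t ^ 3 / 3) + t ^ 4 / 4))]
    · norm_num
    · intro t
      have h := (((((hasDerivAt_id t).pow 2).div_const 2).sub
        ((((hasDerivAt_id t).pow 3).div_const 3).const_mul 2)).add
        (((hasDerivAt_id t).pow 4).div_const 4)).const_mul 3
      exact h.congr_deriv (by simp only [bp, id]; push_cast; ring)
  · rw [key (fun t => 3 * (t ^ 3 / 3 - t ^ 4 / 4))]
    · norm_num
    · intro t
      have h := ((((hasDerivAt_id t).pow 3).div_const 3).sub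
        (((hasDerivAt_id t).pow 4).div_const 4)).const_mul 3
      exact h.congr_deriv (by simp only [bp, id]; push_cast; ring)
  · rw [key (fun t => t ^ 4 / 4)]
    · norm_num
    · intro t
      have h := ((hasDerivAt_id t).pow 4).div_const 4
      exact h.congr_deriv (by simp only [bp, id]; push_cast; ring)

/-- weights -/
noncomputable def up (d : ℝ) (k l : ℕ) : ℝ := ∫ t in (0 : ℝ)..1, bp k t * pois (d * t) l

theorem pois_cont (d : ℝ) (l : ℕ) : Continuous fun t => pois (d * t) l := by
  unfold pois
  fun_prop

theorem up_cont (d : ℝ) (k l : ℕ) : Continuous fun t => bp k t * pois (d * t) l :=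
  (bp_cont k).mul (pois_cont d l)

theorem up_nonneg {d : ℝ} (hd : 0 ≤ d) (k l : ℕ) : 0 ≤ up d k l := by
  unfold up
  refine intervalIntegral.integral_nonneg zero_le_one fun t ht => ?_
  exact mul_nonneg (bp_nonneg k ht.1 ht.2) (pois_nonneg (mul_nonneg hd ht.1) l)

theorem up_sum {d : ℝ} (hd : 0 ≤ d) (k : ℕ) (hk : k < 4) : HasSum (fun l => up d k l) (1 / 4) := by
  rw [← bp_int k hk]
  unfold up
  refine intervalIntegral.hasSum_integral_of_dominated_convergence
    (fun l t => bp k t * pois (d * t) l) (fun l => (up_cont d k l).aestronglyMeasurable) ?_ ?_ ?_ ?_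
  · intro l
    refine Filter.Eventually.of_forall fun t ht => ?_
    rw [Set.uIoc_of_le zero_le_one] at ht
    rw [Real.norm_eq_abs, abs_of_nonneg]
    exact mul_nonneg (bp_nonneg k ht.1.le ht.2) (pois_nonneg (mul_nonneg hd ht.1.le) l)
  · refine Filter.Eventually.of_forall fun t _ => ?_
    exact (pois_sum (d * t)).summable.mul_left _
  · have : (fun t => ∑' l, bp k t * pois (d * t) l) = bp k := by
      funext t
      rw [tsum_mul_left, (pois_sum (d * t)).tsum_eq, mul_one]
    rw [this]
    exact (bp_cont k).intervalIntegrable _ _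
  · refine Filter.Eventually.of_forall fun t _ => ?_
    have := (pois_sum (d * t)).mul_left (bp k t)
    rwa [mul_one] at this

theorem pois_deriv0 (d t : ℝ) : HasDerivAt (fun t => pois (d * t) 0) (-d * pois (d * t) 0) t := by
  have h1 : HasDerivAt (fun t => -(d * t)) (-d) t := by
    have := ((hasDerivAt_id t).const_mul d).neg
    exact this.congr_deriv (by ring)
  have h := h1.exp
  have e : (fun t => pois (d * t) 0) = fun t => Real.exp (-(d * t)) := by
    funext t; unfold pois; simp
  rw [e]
  exact h.congr_deriv (by unfold pois; simp; ring)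

theorem pois_deriv (d t : ℝ) (l : ℕ) : HasDerivAt (fun t => pois (d * t) (l + 1))
    (d * (pois (d * t) l - pois (d * t) (l + 1))) t := by
  have h1 : HasDerivAt (fun t => -(d * t)) (-d) t := by
    have := ((hasDerivAt_id t).const_mul d).neg
    exact this.congr_deriv (by ring)
  have h2 : HasDerivAt (fun t => d * t) d t := by
    have := (hasDerivAt_id t).const_mul d
    exact this.congr_deriv (by ring)
  have h := ((h1.exp).mul (h2.pow (l + 1))).div_const ((l + 1).factorial : ℝ)
  have e : (fun t => pois (d * t) (l + 1))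
      = fun t => (Real.exp (-(d * t)) * (d * t) ^ (l + 1)) / ((l + 1).factorial : ℝ) := by
    funext t; unfold pois; rfl
  rw [e]
  refine h.congr_deriv ?_
  unfold pois
  have hl : ((l + 1).factorial : ℝ) = (l + 1) * (l.factorial : ℝ) := by
    rw [Nat.factorial_succ]; push_cast; ring
  have hl0 : (l.factorial : ℝ) ≠ 0 := by exact_mod_cast l.factorial_ne_zero
  have hl1 : ((l : ℝ) + 1) ≠ 0 := by positivity
  rw [hl]
  simp only [Nat.add_sub_cancel, Pi.pow_apply]
  push_cast
  field_simp
  ring

/-- derivative of a Bernstein polynomial in the Bernstein basis -/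
noncomputable def bd' (k : ℕ) (f : ℕ → ℝ) : ℝ :=
  match k with
  | 0 => -3 * f 0 - f 1
  | 1 => 3 * f 0 - f 1 - 2 * f 2
  | 2 => 2 * f 1 + f 2 - 3 * f 3
  | _ => f 2 + 3 * f 3

theorem bp_deriv (k : ℕ) (t : ℝ) : HasDerivAt (bp k) (bd' k fun i => bp i t) t := by
  have h1 : HasDerivAt (fun t : ℝ => 1 - t) (-1) t := (hasDerivAt_id t).const_sub 1
  have h0 := hasDerivAt_id t
  rcases k with _ | _ | _ | k
  · have h := h1.pow 3
    exact h.congr_deriv (by simp only [bd', bp]; push_cast; ring)
  · have h := (h0.const_mul 3).mul (h1.pow 2)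
    exact h.congr_deriv (by simp only [bd', bp, id, Pi.pow_apply]; push_cast; ring)
  · have h := ((h0.pow 2).const_mul 3).mul h1
    exact h.congr_deriv (by simp only [bd', bp, id, Pi.pow_apply]; push_cast; ring)
  · have h := h0.pow 3
    exact h.congr_deriv (by simp only [bd', bp, id, Pi.pow_apply]; push_cast; ring)

theorem bd'_int (d : ℝ) (k l : ℕ) :
    ∫ t in (0 : ℝ)..1, (bd' k fun i => bp i t) * pois (d * t) l = bd' k fun i => up d i l := by
  have hi : ∀ i, IntervalIntegrable (fun t => bp i t * pois (d * t) l) volume 0 1 := fun i =>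
    (up_cont d i l).intervalIntegrable _ _
  unfold up
  rcases k with _ | _ | _ | k
  · simp only [bd']
    have e : (fun t => (-3 * bp 0 t - bp 1 t) * pois (d * t) l)
        = fun t => -3 * (bp 0 t * pois (d * t) l) - bp 1 t * pois (d * t) l := by
      funext t; ring
    rw [e, intervalIntegral.integral_sub ((hi 0).const_mul _) (hi 1),
      intervalIntegral.integral_const_mul]
  · simp only [bd']
    have e : (fun t => (3 * bp 0 t - bp 1 t - 2 * bp 2 t) * pois (d * t) l)
        = fun t => (3 * (bp 0 t * pois (d * t) l) - bp 1 t * pois (d * t) l)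
          - 2 * (bp 2 t * pois (d * t) l) := by
      funext t; ring
    rw [e, intervalIntegral.integral_sub (((hi 0).const_mul _).sub (hi 1)) ((hi 2).const_mul _),
      intervalIntegral.integral_sub ((hi 0).const_mul _) (hi 1),
      intervalIntegral.integral_const_mul, intervalIntegral.integral_const_mul]
  · simp only [bd']
    have e : (fun t => (2 * bp 1 t + bp 2 t - 3 * bp 3 t) * pois (d * t) l)
        = fun t => (2 * (bp 1 t * pois (d * t) l) + bp 2 t * pois (d * t) l)
          - 3 * (bp 3 t * pois (d * t) l) := by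
      funext t; ring
    rw [e, intervalIntegral.integral_sub (((hi 1).const_mul _).add (hi 2)) ((hi 3).const_mul _),
      intervalIntegral.integral_add ((hi 1).const_mul _) (hi 2),
      intervalIntegral.integral_const_mul, intervalIntegral.integral_const_mul]
  · simp only [bd']
    have e : (fun t => (bp 2 t + 3 * bp 3 t) * pois (d * t) l)
        = fun t => bp 2 t * pois (d * t) l + 3 * (bp 3 t * pois (d * t) l) := by
      funext t; ring
    rw [e, intervalIntegral.integral_add (hi 2) ((hi 3).const_mul _),
      intervalIntegral.integral_const_mul]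

/-- shifted weights -/
noncomputable def ups (d : ℝ) (k : ℕ) : ℕ → ℝ
  | 0 => 0
  | l + 1 => up d k l

theorem bd'_cont (k : ℕ) : Continuous fun t => bd' k fun i => bp i t := by
  have h0 := bp_cont 0
  have h1 := bp_cont 1
  have h2 := bp_cont 2
  have h3 := bp_cont 3
  rcases k with _ | _ | _ | k <;> (simp only [bd']; fun_prop)

/-- integration by parts -/
theorem up_parts (d : ℝ) (k l : ℕ) :
    (bd' k fun i => up d i l) + d * (ups d k l - up d k l)
      = bp k 1 * pois d l - bp k 0 * pois 0 l := by
  have hfc : ∀ l, ∫ t in (0 : ℝ)..1, bp k t * pois (d * t) l = up d k l := fun l => rfl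
  rw [← bd'_int]
  rcases l with _ | l
  · have hF : ∀ t, HasDerivAt (fun t => bp k t * pois (d * t) 0)
        ((bd' k fun i => bp i t) * pois (d * t) 0 + bp k t * (-d * pois (d * t) 0)) t := fun t =>
      (bp_deriv k t).mul (pois_deriv0 d t)
    have hc1 : Continuous fun t => (bd' k fun i => bp i t) * pois (d * t) 0 :=
      (bd'_cont k).mul (pois_cont d 0)
    have hc2 : Continuous fun t => bp k t * (-d * pois (d * t) 0) :=
      (bp_cont k).mul ((pois_cont d 0).const_mul _)
    have h := intervalIntegral.integral_eq_sub_of_hasDerivAt (a := 0) (b := 1)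
      (fun t _ => hF t) ((hc1.add hc2).intervalIntegrable _ _)
    rw [intervalIntegral.integral_add (hc1.intervalIntegrable _ _)
      (hc2.intervalIntegrable _ _)] at h
    have e : ∫ t in (0 : ℝ)..1, bp k t * (-d * pois (d * t) 0) = -d * up d k 0 := by
      rw [← hfc 0, ← intervalIntegral.integral_const_mul]
      congr 1
      funext t; ring
    rw [e] at h
    simp only [mul_one, mul_zero] at h
    rw [← h]
    unfold ups
    ring
  · have hF : ∀ t, HasDerivAt (fun t => bp k t * pois (d * t) (l + 1))
        ((bd' k fun i => bp i t) * pois (d * t) (l + 1)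
          + bp k t * (d * (pois (d * t) l - pois (d * t) (l + 1)))) t := fun t =>
      (bp_deriv k t).mul (pois_deriv d t l)
    have hc1 : Continuous fun t => (bd' k fun i => bp i t) * pois (d * t) (l + 1) :=
      (bd'_cont k).mul (pois_cont d (l + 1))
    have hc3 : Continuous fun t => d * (bp k t * pois (d * t) l) := (up_cont d k l).const_mul _
    have hc4 : Continuous fun t => d * (bp k t * pois (d * t) (l + 1)) :=
      (up_cont d k (l + 1)).const_mul _
    have e2 : ∀ t, bp k t * (d * (pois (d * t) l - pois (d * t) (l + 1)))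
        = d * (bp k t * pois (d * t) l) - d * (bp k t * pois (d * t) (l + 1)) := fun t => by ring
    simp only [e2] at hF
    have h := intervalIntegral.integral_eq_sub_of_hasDerivAt (a := 0) (b := 1)
      (fun t _ => hF t) ((hc1.add (hc3.sub hc4)).intervalIntegrable _ _)
    have hc5 : Continuous fun t => d * (bp k t * pois (d * t) l)
        - d * (bp k t * pois (d * t) (l + 1)) := hc3.sub hc4
    rw [intervalIntegral.integral_add (hc1.intervalIntegrable _ _)
      (hc5.intervalIntegrable _ _),
      intervalIntegral.integral_sub (hc3.intervalIntegrable _ _) (hc4.intervalIntegrable _ _),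
      intervalIntegral.integral_const_mul, intervalIntegral.integral_const_mul, hfc, hfc] at h
    simp only [mul_one, mul_zero] at h
    rw [← h]
    unfold ups
    ring

end Vale.Agent.P154
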