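import Vale.Agent.P154.GW

/-! Reconstruction above the Kesten-Stigum bound on the Poisson tree. -/

open scoped BigOperators

namespace Vale.Agent.P154

namespace KSP

/-- centred test function -/
noncomputable def fv (i : Fin 3) : ℝ := if i = 0 then 2 / 3 else -(1 / 3)

/-- the census of the level, weighted by the test function -/
noncomputable def stat : (n : ℕ) → Obs 3 n → ℝ
  | 0, (c : Fin 3) => fv c
  | n + 1, (c : (k : ℕ) × (Fin k → Obs 3 n)) => ∑ j : Fin c.1, stat n (c.2 j)

theorem hsc {α : Type} {f g : α → ℝ} {a b : ℝ} (h : HasSum f a) (hf : ∀ x, g x = f x)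
    (hb : b = a) : HasSum g b := by
  have e : g = f := funext hf
  rw [e, hb]
  exact h

theorem hs_mul {ι κ : Type} {f : ι → ℝ} {g : κ → ℝ} {s t : ℝ} (hf : HasSum f s)
    (hg : HasSum g t) : HasSum (fun x : ι × κ => f x.1 * g x.2) (s * t) :=
  hf.mul hg (summable_mul_of_summable_norm hf.summable.norm hg.summable.norm)

theorem prod_mom {ι : Type} {u S : ι → ℝ} {m v : ℝ} (h1 : HasSum u 1)
    (hm : HasSum (fun c => u c * S c) m) (hv : HasSum (fun c => u c * S c ^ 2) v) : ∀ k : ℕ,
    HasSum (fun c : Fin k → ι => ∏ j, u (c j)) 1 ∧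
    HasSum (fun c : Fin k → ι => (∏ j, u (c j)) * ∑ j, S (c j)) (k * m) ∧
    HasSum (fun c : Fin k → ι => (∏ j, u (c j)) * (∑ j, S (c j)) ^ 2)
      (k * v + k * (k - 1) * m ^ 2)
  | 0 => by
      refine ⟨?_, ?_, ?_⟩
      · simp
      · simp
      · simp
  | k + 1 => by
      obtain ⟨a, b, c⟩ := prod_mom h1 hm hv k
      refine ⟨?_, ?_, ?_⟩
      · rw [← (Fin.consEquiv fun _ : Fin (k + 1) => ι).hasSum_iff]
        have h := hs_mul h1 a
        rw [mul_one] at h
        convert h using 1
        funext p
        obtain ⟨x, y⟩ := p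
        simp [Function.comp, Fin.consEquiv, Fin.prod_univ_succ]
      · rw [← (Fin.consEquiv fun _ : Fin (k + 1) => ι).hasSum_iff]
        have h := (hs_mul hm a).add (hs_mul h1 b)
        convert h using 1
        · funext p
          obtain ⟨x, y⟩ := p
          simp only [Function.comp, Fin.consEquiv, Fin.prod_univ_succ, Fin.sum_univ_succ,
            Equiv.coe_fn_mk, Fin.cons_zero, Fin.cons_succ]
          ring
        · push_cast; ring
      · rw [← (Fin.consEquiv fun _ : Fin (k + 1) => ι).hasSum_iff]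
        have h := ((hs_mul hv a).add ((hs_mul hm b).mul_left 2)).add (hs_mul h1 c)
        convert h using 1
        · funext p
          obtain ⟨x, y⟩ := p
          simp only [Function.comp, Fin.consEquiv, Fin.prod_univ_succ, Fin.sum_univ_succ,
            Equiv.coe_fn_mk, Fin.cons_zero, Fin.cons_succ]
          ring
        · push_cast; ring

theorem sig_nn {β : ℕ → Type} {g : ((k : ℕ) × β k) → ℝ} (g0 : ∀ x, 0 ≤ g x) {a : ℕ → ℝ} {A : ℝ}
    (hg : ∀ k, HasSum (fun c => g ⟨k, c⟩) (a k)) (ha : HasSum a A) : HasSum g A := by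
  have hs : Summable g := by
    rw [summable_sigma_of_nonneg g0]
    refine ⟨fun k => (hg k).summable, ?_⟩
    have : (fun k => ∑' c, g ⟨k, c⟩) = a := by funext k; exact (hg k).tsum_eq
    rw [this]; exact ha.summable
  have := hs.hasSum.sigma hg
  rw [ha.unique this]
  exact hs.hasSum

theorem pois_m1 (d : ℝ) : HasSum (fun k : ℕ => pois d k * k) d := by
  have h := (pois_sum d).mul_right d
  rw [one_mul] at h
  have e : (fun k : ℕ => pois d k * d) = fun k : ℕ => pois d (k + 1) * ((k + 1 : ℕ) : ℝ) := by
    funext k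
    unfold pois
    rw [Nat.factorial_succ, pow_succ]
    push_cast
    have h1 : (k.factorial : ℝ) ≠ 0 := by positivity
    have h2 : (k : ℝ) + 1 ≠ 0 := by positivity
    field_simp
  rw [e] at h
  have := (hasSum_nat_add_iff (f := fun k : ℕ => pois d k * k) 1).1 h
  simpa using this

theorem pois_m2 (d : ℝ) : HasSum (fun k : ℕ => pois d k * (k * (k - 1))) (d ^ 2) := by
  have h := (pois_m1 d).mul_right d
  have e : (fun k : ℕ => pois d k * k * d)
      = fun k : ℕ => pois d (k + 1) * (((k + 1 : ℕ) : ℝ) * (((k + 1 : ℕ) : ℝ) - 1)) := by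
    funext k
    unfold pois
    rw [Nat.factorial_succ, pow_succ]
    push_cast
    have h1 : (k.factorial : ℝ) ≠ 0 := by positivity
    have h2 : (k : ℝ) + 1 ≠ 0 := by positivity
    field_simp
    ring
  rw [e] at h
  have := (hasSum_nat_add_iff (f := fun k : ℕ => pois d k * ((k : ℝ) * ((k : ℝ) - 1))) 1).1 h
  have e2 : d * d = d ^ 2 := by ring
  rw [e2] at this
  simpa using this

variable {d lam : ℝ}

theorem potts_fv (i : Fin 3) : ∑ s, potts 3 lam i s * fv s = lam * fv i := by
  unfold potts fv
  rw [Fin.sum_univ_three]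
  fin_cases i <;> simp <;> ring

theorem fv_sq (i : Fin 3) : fv i ^ 2 ≤ 4 / 9 := by
  unfold fv
  split_ifs <;> norm_num

/-- constant in the second moment bound -/
noncomputable def CC (d lam : ℝ) : ℝ := 4 / 9 * (d * lam ^ 2) / (d * lam ^ 2 - 1)

theorem CC_pos (hk : 1 < d * lam ^ 2) : 0 < CC d lam := by
  unfold CC
  have : 0 < d * lam ^ 2 - 1 := by linarith
  positivity

theorem CC_ge (hk : 1 < d * lam ^ 2) : 4 / 9 ≤ CC d lam := by
  unfold CC
  have : 0 < d * lam ^ 2 - 1 := by linarith
  rw [le_div_iff₀ this]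
  linarith

theorem CC_rec (hk : 1 < d * lam ^ 2) (hd : 0 < d) :
    d * CC d lam + d ^ 2 * lam ^ 2 * (4 / 9) = CC d lam * (d * lam) ^ 2 := by
  unfold CC
  have : d * lam ^ 2 - 1 ≠ 0 := by
    have : 0 < d * lam ^ 2 - 1 := by linarith
    exact this.ne'
  field_simp
  ring

theorem level (hd : 0 < d) (h0 : -(1 / 2) ≤ lam) (h1 : lam ≤ 1) (hk : 1 < d * lam ^ 2) :
    ∀ n, ∀ i : Fin 3,
      HasSum (fun c => likG 3 d lam n i c * stat n c) ((d * lam) ^ n * fv i) ∧
      ∃ v, HasSum (fun c => likG 3 d lam n i c * stat n c ^ 2) v ∧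
        v ≤ CC d lam * (d * lam) ^ (2 * n)
  | 0, i => by
      refine ⟨?_, fv i ^ 2, ?_, ?_⟩
      · have h := hasSum_fintype (fun c : Fin 3 => (if i = c then (1 : ℝ) else 0) * fv c)
        have e : ∑ c : Fin 3, (if i = c then (1 : ℝ) else 0) * fv c = (d * lam) ^ 0 * fv i := by
          simp
        rw [e] at h
        exact h
      · have h := hasSum_fintype (fun c : Fin 3 => (if i = c then (1 : ℝ) else 0) * fv c ^ 2)
        have e : ∑ c : Fin 3, (if i = c then (1 : ℝ) else 0) * fv c ^ 2 = fv i ^ 2 := by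
          simp
        rw [e] at h
        exact h
      · have a := fv_sq i
        have b := CC_ge hk
        simp only [Nat.mul_zero, pow_zero, mul_one]
        linarith
  | n + 1, i => by
      have ih := level hd h0 h1 hk n
      choose v hv hvle using fun s => (ih s).2
      have fam := famG hd.le h1 h0 n
      have fam' := famG hd.le h1 h0 (n + 1)
      set ν : Obs 3 n → ℝ := fun c => ∑ s, potts 3 lam i s * likG 3 d lam n s c with hν
      have ν1 : HasSum ν 1 := by
        have := hasSum_sum (s := Finset.univ) (f := fun (s : Fin 3) (c : Obs 3 n) =>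
          potts 3 lam i s * likG 3 d lam n s c) (a := fun s => potts 3 lam i s * 1)
          (fun s _ => (fam.hs s).mul_left _)
        simp only [mul_one] at this
        rw [potts_row 3 (by norm_num)] at this
        exact this
      have νm : HasSum (fun c => ν c * stat n c) (lam * (d * lam) ^ n * fv i) := by
        have := hasSum_sum (s := Finset.univ) (f := fun (s : Fin 3) (c : Obs 3 n) =>
          potts 3 lam i s * (likG 3 d lam n s c * stat n c))
          (a := fun s => potts 3 lam i s * ((d * lam) ^ n * fv s))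
          (fun s _ => ((ih s).1).mul_left _)
        refine hsc this (fun c => ?_) ?_
        · rw [hν, Finset.sum_mul]
          exact Finset.sum_congr rfl fun s _ => by ring
        · have e := potts_fv (lam := lam) i
          calc lam * (d * lam) ^ n * fv i = (d * lam) ^ n * (lam * fv i) := by ring
            _ = (d * lam) ^ n * ∑ s, potts 3 lam i s * fv s := by rw [e]
            _ = _ := by
              rw [Finset.mul_sum]
              exact Finset.sum_congr rfl fun s _ => by ring
      have νv : HasSum (fun c => ν c * stat n c ^ 2) (∑ s, potts 3 lam i s * v s) := by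
        have := hasSum_sum (s := Finset.univ) (f := fun (s : Fin 3) (c : Obs 3 n) =>
          potts 3 lam i s * (likG 3 d lam n s c * stat n c ^ 2))
          (a := fun s => potts 3 lam i s * v s)
          (fun s _ => (hv s).mul_left _)
        refine hsc this (fun c => ?_) rfl
        rw [hν, Finset.sum_mul]
        exact Finset.sum_congr rfl fun s _ => by ring
      set m := lam * (d * lam) ^ n * fv i with hm
      set w := ∑ s, potts 3 lam i s * v s with hw
      have PM := prod_mom ν1 νm νv
      have lik0 : ∀ x, 0 ≤ likG 3 d lam (n + 1) i x := fun x => fam'.nn x i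
      have H2 : HasSum (fun x : (k : ℕ) × (Fin k → Obs 3 n) =>
          likG 3 d lam (n + 1) i (x : Obs 3 (n + 1)) * stat (n + 1) (x : Obs 3 (n + 1)) ^ 2)
          (d * w + d ^ 2 * m ^ 2) := by
        refine sig_nn (a := fun k : ℕ => pois d k * (k * w + k * (k - 1) * m ^ 2))
          (fun x => mul_nonneg (lik0 x) (sq_nonneg _)) (fun k => ?_) ?_
        · refine hsc (((PM k).2.2).mul_left (pois d k)) (fun c => ?_) rfl
          change pois d k * (∏ j : Fin k, ν (c j)) * (∑ j : Fin k, stat n (c j)) ^ 2 = _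
          ring
        · refine hsc (((pois_m1 d).mul_right w).add ((pois_m2 d).mul_right (m ^ 2)))
            (fun k => ?_) rfl
          ring
      have H1s : Summable (fun x : (k : ℕ) × (Fin k → Obs 3 n) =>
          likG 3 d lam (n + 1) i (x : Obs 3 (n + 1)) * stat (n + 1) (x : Obs 3 (n + 1))) := by
        have hs0 : Summable (fun x : (k : ℕ) × (Fin k → Obs 3 n) =>
            likG 3 d lam (n + 1) i (x : Obs 3 (n + 1))) := (fam'.hs i).summable
        refine Summable.of_norm_bounded (hs0.add H2.summable) fun x => ?_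
        rw [Real.norm_eq_abs, abs_mul, abs_of_nonneg (lik0 x)]
        have : |stat (n + 1) x| ≤ 1 + stat (n + 1) x ^ 2 := by
          rw [← sq_abs]
          nlinarith [sq_nonneg (|stat (n + 1) x| - 1), abs_nonneg (stat (n + 1) x)]
        have := mul_le_mul_of_nonneg_left this (lik0 x)
        linarith
      have H1 := H1s.hasSum.sigma (g := fun k : ℕ => pois d k * (k * m)) (fun k => by
        refine hsc (((PM k).2.1).mul_left (pois d k)) (fun c => ?_) rfl
        change pois d k * (∏ j : Fin k, ν (c j)) * (∑ j : Fin k, stat n (c j)) = _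
        ring)
      have H1' : HasSum (fun k : ℕ => pois d k * (k * m)) (d * m) :=
        hsc ((pois_m1 d).mul_right m) (fun k => by ring) rfl
      have H1t := H1s.hasSum
      rw [H1.unique H1'] at H1t
      refine ⟨?_, d * w + d ^ 2 * m ^ 2, H2, ?_⟩
      · have e : (d * lam) ^ (n + 1) * fv i = d * m := by rw [hm]; ring
        rw [e]
        exact H1t
      · have p0 : ∀ s, 0 ≤ potts 3 lam i s := fun s => by
          refine potts_nonneg 3 lam h1 ?_ i s
          norm_num
          linarith
        have wle : w ≤ CC d lam * (d * lam) ^ (2 * n) := by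
          calc w ≤ ∑ s, potts 3 lam i s * (CC d lam * (d * lam) ^ (2 * n)) :=
                Finset.sum_le_sum fun s _ => mul_le_mul_of_nonneg_left (hvle s) (p0 s)
            _ = _ := by
                rw [← Finset.sum_mul, potts_row 3 (by norm_num), one_mul]
        have q : 0 ≤ (d * lam) ^ (2 * n) := by
          rw [pow_mul']
          positivity
        have mle : m ^ 2 ≤ lam ^ 2 * (4 / 9) * (d * lam) ^ (2 * n) := by
          have e : m ^ 2 = lam ^ 2 * (d * lam) ^ (2 * n) * fv i ^ 2 := by
            rw [hm, pow_mul']; ring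
          rw [e]
          have := mul_le_mul_of_nonneg_left (fv_sq i) (mul_nonneg (sq_nonneg lam) q)
          linarith
        have e := CC_rec hk hd
        calc d * w + d ^ 2 * m ^ 2
            ≤ d * (CC d lam * (d * lam) ^ (2 * n))
              + d ^ 2 * (lam ^ 2 * (4 / 9) * (d * lam) ^ (2 * n)) :=
              add_le_add (mul_le_mul_of_nonneg_left wle hd.le)
                (mul_le_mul_of_nonneg_left mle (sq_nonneg d))
          _ = (d * CC d lam + d ^ 2 * lam ^ 2 * (4 / 9)) * (d * lam) ^ (2 * n) := by ring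
          _ = CC d lam * (d * lam) ^ 2 * (d * lam) ^ (2 * n) := by rw [e]
          _ = CC d lam * (d * lam) ^ (2 * (n + 1)) := by ring

/-- term of the total variation distance -/
theorem tv_eq (hd : 0 ≤ d) (h0 : -(1 / 2) ≤ lam) (h1 : lam ≤ 1) (n : ℕ) (c : Obs 3 n) :
    margG 3 d lam n c * (1 / 2 * ∑ i : Fin 3, |postG 3 d lam n i c - 1 / (3 : ℕ)|)
      = 1 / 6 * ∑ i : Fin 3, |likG 3 d lam n i c - margG 3 d lam n c| := by
  have fam := famG hd h1 h0 n
  have l0 : ∀ i, 0 ≤ likG 3 d lam n i c := fun i => fam.nn c i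
  have hm : margG 3 d lam n c = 1 / 3 * (likG 3 d lam n 0 c + likG 3 d lam n 1 c
      + likG 3 d lam n 2 c) := by
    unfold margG jointG
    rw [Fin.sum_univ_three]
    push_cast
    ring
  rcases eq_or_ne (margG 3 d lam n c) 0 with hz | hz
  · have z0 : likG 3 d lam n 0 c = 0 := by linarith [l0 0, l0 1, l0 2]
    have z1 : likG 3 d lam n 1 c = 0 := by linarith [l0 0, l0 1, l0 2]
    have z2 : likG 3 d lam n 2 c = 0 := by linarith [l0 0, l0 1, l0 2]
    rw [Fin.sum_univ_three, Fin.sum_univ_three, hz, z0, z1, z2]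
    simp
  · have hp : 0 < margG 3 d lam n c := by
      refine lt_of_le_of_ne ?_ hz.symm
      rw [hm]
      have := l0 0
      have := l0 1
      have := l0 2
      positivity
    have e : ∀ i, margG 3 d lam n c * |postG 3 d lam n i c - 1 / (3 : ℕ)|
        = 1 / 3 * |likG 3 d lam n i c - margG 3 d lam n c| := by
      intro i
      rw [← abs_of_pos hp, ← abs_mul, abs_of_pos hp]
      have : margG 3 d lam n c * (postG 3 d lam n i c - 1 / (3 : ℕ))
          = 1 / 3 * (likG 3 d lam n i c - margG 3 d lam n c) := by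
        unfold postG jointG
        push_cast
        field_simp
      rw [this, abs_mul, abs_of_pos (by norm_num : (0 : ℝ) < 1 / 3)]
    have e2 : margG 3 d lam n c * (1 / 2 * ∑ i : Fin 3, |postG 3 d lam n i c - 1 / (3 : ℕ)|)
        = 1 / 2 * ∑ i : Fin 3, margG 3 d lam n c * |postG 3 d lam n i c - 1 / (3 : ℕ)| := by
      rw [← Finset.mul_sum]
      ring
    rw [e2]
    simp only [e]
    rw [← Finset.mul_sum]
    ring

end KSP

open KSP in
/-- reconstruction on the Poisson tree above the Kesten-Stigum bound -/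
theorem ks_pois {d lam : ℝ} (hd : 0 < d) (h0 : -(1 / 2) ≤ lam) (h1 : lam ≤ 1)
    (h : 1 < d * lam ^ 2) : ∃ c : ℝ, 0 < c ∧ ∀ n, c ≤ aSeqG 3 d lam n := by
  have hC := CC_pos h
  refine ⟨1 / (27 * CC d lam), by positivity, fun n => ?_⟩
  have fam := famG hd.le h1 h0 n
  have lv := level hd h0 h1 h n
  have l0 : ∀ i c, 0 ≤ likG 3 d lam n i c := fun i c => fam.nn c i
  have hmg : ∀ c, margG 3 d lam n c = 1 / 3 * (likG 3 d lam n 0 c + likG 3 d lam n 1 c
      + likG 3 d lam n 2 c) := by
    intro c
    unfold margG jointG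
    rw [Fin.sum_univ_three]
    push_cast
    ring
  have m0 : ∀ c, 0 ≤ margG 3 d lam n c := fun c => by
    rw [hmg]
    have := l0 0 c
    have := l0 1 c
    have := l0 2 c
    positivity
  have sm : Summable fun c => margG 3 d lam n c := by
    have := (((fam.hs 0).add (fam.hs 1)).add (fam.hs 2)).mul_left (1 / 3)
    exact (hsc this (fun c => hmg c) rfl).summable
  have sx : ∀ i, Summable fun c => |likG 3 d lam n i c - margG 3 d lam n c| := fun i =>
    (((fam.hs i).summable).sub sm).abs
  -- the first moment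
  have hx : HasSum (fun c => (likG 3 d lam n 0 c - margG 3 d lam n c) * stat n c)
      ((d * lam) ^ n * (2 / 3)) := by
    have a0 := (lv 0).1
    have a1 := (lv 1).1
    have a2 := (lv 2).1
    refine hsc (a0.sub (((a0.add a1).add a2).mul_left (1 / 3))) (fun c => ?_) ?_
    · rw [hmg]
      ring
    · have f0 : fv 0 = 2 / 3 := by unfold fv; simp
      have f1 : fv 1 = -(1 / 3) := by unfold fv; simp
      have f2 : fv 2 = -(1 / 3) := by unfold fv; simp
      rw [f0, f1, f2]
      ring
  -- the second moment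
  obtain ⟨v0, k0, b0⟩ := (lv 0).2
  obtain ⟨v1, k1, b1⟩ := (lv 1).2
  obtain ⟨v2, k2, b2⟩ := (lv 2).2
  have hs2 : HasSum (fun c => margG 3 d lam n c * stat n c ^ 2) (1 / 3 * (v0 + v1 + v2)) := by
    refine hsc (((k0.add k1).add k2).mul_left (1 / 3)) (fun c => ?_) rfl
    rw [hmg]
    ring
  have hdl : d * lam ≠ 0 := by
    intro hz
    have : d * lam ^ 2 = (d * lam) * lam := by ring
    rw [this, hz] at h
    norm_num at h
  set R := |d * lam| ^ n with hR
  have hRpos : 0 < R := pow_pos (abs_pos.2 hdl) n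
  have hR2 : (d * lam) ^ (2 * n) = R ^ 2 := by
    rw [hR, ← pow_mul, Nat.mul_comm n 2, pow_mul, pow_mul, sq_abs]
  rw [hR2] at b0 b1 b2
  set T := ∑' c, |likG 3 d lam n 0 c - margG 3 d lam n c| with hT
  have hTs := (sx 0).hasSum
  set t := 3 * CC d lam * R with ht
  have tpos : 0 < t := by positivity
  have key : ∀ c, |(likG 3 d lam n 0 c - margG 3 d lam n c) * stat n c|
      ≤ t / 2 * |likG 3 d lam n 0 c - margG 3 d lam n c|
        + 1 / t * (margG 3 d lam n c * stat n c ^ 2) := by
    intro c
    rw [abs_mul]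
    set x := |likG 3 d lam n 0 c - margG 3 d lam n c| with hx
    set s := |stat n c| with hs
    have s2 : stat n c ^ 2 = s ^ 2 := by rw [hs, sq_abs]
    rw [s2]
    have x0 : 0 ≤ x := abs_nonneg _
    have xle : x ≤ 2 * margG 3 d lam n c := by
      rw [hx, abs_le]
      have e := hmg c
      have q0 := l0 0 c
      have q1 := l0 1 c
      have q2 := l0 2 c
      constructor <;> linarith
    have am : s ≤ t / 2 + 1 / (2 * t) * s ^ 2 := by
      have e : t / 2 + 1 / (2 * t) * s ^ 2 - s = (s - t) ^ 2 / (2 * t) := by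
        field_simp
        ring
      have : 0 ≤ (s - t) ^ 2 / (2 * t) := by positivity
      linarith
    have e1 := mul_le_mul_of_nonneg_left am x0
    have e2 : x * (1 / (2 * t) * s ^ 2) ≤ 2 * margG 3 d lam n c * (1 / (2 * t) * s ^ 2) :=
      mul_le_mul_of_nonneg_right xle (by positivity)
    have e3 : 2 * margG 3 d lam n c * (1 / (2 * t) * s ^ 2)
        = 1 / t * (margG 3 d lam n c * s ^ 2) := by
      field_simp
    have e4 : x * (t / 2 + 1 / (2 * t) * s ^ 2) = t / 2 * x + x * (1 / (2 * t) * s ^ 2) := by ring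
    linarith
  have hsum := (hTs.mul_left (t / 2)).add (hs2.mul_left (1 / t))
  have up := hasSum_le (fun c => (abs_le.1 (key c)).2) hx hsum
  have dn := hasSum_le (fun c => (abs_le.1 (key c)).1) hsum.neg hx
  have habs : R * (2 / 3) ≤ t / 2 * T + 1 / t * (1 / 3 * (v0 + v1 + v2)) := by
    have e : |(d * lam) ^ n * (2 / 3)| = R * (2 / 3) := by
      rw [abs_mul, abs_pow, abs_of_pos (by norm_num : (0 : ℝ) < 2 / 3)]
    rw [← e]
    exact abs_le.2 ⟨dn, up⟩
  have hb : 1 / t * (1 / 3 * (v0 + v1 + v2)) ≤ R / 3 := by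
    have e : 1 / t * (CC d lam * R ^ 2) = R / 3 := by
      rw [ht]
      field_simp
    rw [← e]
    refine mul_le_mul_of_nonneg_left ?_ (by positivity)
    linarith
  have hTb : 2 / (9 * CC d lam) ≤ T := by
    have e1 : R / 3 ≤ 3 * CC d lam * R / 2 * T := by
      rw [ht] at habs hb
      linarith
    rw [div_le_iff₀ (by positivity)]
    have e2 : R * 2 ≤ R * (T * (9 * CC d lam)) := by
      calc R * 2 = 6 * (R / 3) := by ring
        _ ≤ 6 * (3 * CC d lam * R / 2 * T) := by linarith
        _ = _ := by ring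
    exact le_of_mul_le_mul_left e2 hRpos
  have hA : aSeqG 3 d lam n
      = ∑' c, 1 / 6 * ∑ i : Fin 3, |likG 3 d lam n i c - margG 3 d lam n c| := by
    unfold aSeqG
    exact tsum_congr fun c => tv_eq hd.le h0 h1 n c
  have hs6 : Summable fun c => 1 / 6 * ∑ i : Fin 3, |likG 3 d lam n i c - margG 3 d lam n c| :=
    (summable_sum fun i _ => sx i).mul_left _
  have hle : 1 / 6 * T ≤ aSeqG 3 d lam n := by
    rw [hA]
    refine hasSum_le (fun c => ?_) (hTs.mul_left (1 / 6)) hs6.hasSum
    refine mul_le_mul_of_nonneg_left ?_ (by norm_num)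
    exact Finset.single_le_sum (f := fun i => |likG 3 d lam n i c - margG 3 d lam n c|)
      (fun i _ => abs_nonneg _) (Finset.mem_univ 0)
  have e : 1 / (27 * CC d lam) = 1 / 6 * (2 / (9 * CC d lam)) := by
    field_simp
    norm_num
  rw [e]
  linarith

end Vale.Agent.P154
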