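import Vale.Agent.P154.Frame

/-! The Kesten-Stigum direction on the regular tree, `q = 3`: a second moment proof. -/

open scoped BigOperators

namespace Vale.Agent.P154

namespace KSR

section prodPart
variable {α : Type} [Fintype α]

theorem m0 (T : α → ℝ) (hT : ∑ a, T a = 1) (d : ℕ) :
    ∑ c : Fin d → α, ∏ j, T (c j) = 1 := by
  rw [← Fintype.prod_sum (fun (_ : Fin d) (a : α) => T a)]
  simp [hT]

theorem m1 (T S : α → ℝ) (hT : ∑ a, T a = 1) (d : ℕ) :
    ∑ c : Fin d → α, (∏ j, T (c j)) * (∑ j, S (c j)) = d * ∑ a, T a * S a := by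
  induction d with
  | zero => simp
  | succ d ih =>
    rw [← (Fin.consEquiv fun _ : Fin (d + 1) => α).sum_comp, Fintype.sum_prod_type]
    have h1 : ∀ a : α, ∑ c : Fin d → α,
        (∏ j, T ((Fin.consEquiv fun _ : Fin (d + 1) => α) (a, c) j)) *
          (∑ j, S ((Fin.consEquiv fun _ : Fin (d + 1) => α) (a, c) j)) =
        T a * S a + T a * (d * ∑ b, T b * S b) := by
      intro a
      rw [← ih]
      have h2 : ∀ c : Fin d → α,
          (∏ j, T ((Fin.consEquiv fun _ : Fin (d + 1) => α) (a, c) j)) *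
          (∑ j, S ((Fin.consEquiv fun _ : Fin (d + 1) => α) (a, c) j)) =
          T a * S a * (∏ j, T (c j)) + T a * ((∏ j, T (c j)) * (∑ j, S (c j))) := by
        intro c
        rw [Fin.prod_univ_succ, Fin.sum_univ_succ]
        simp only [Fin.consEquiv, Equiv.coe_fn_mk, Fin.cons_zero, Fin.cons_succ]
        ring
      rw [Finset.sum_congr rfl (fun c _ => h2 c), Finset.sum_add_distrib, ← Finset.mul_sum,
        ← Finset.mul_sum, m0 T hT d, mul_one]
    rw [Finset.sum_congr rfl (fun a _ => h1 a), Finset.sum_add_distrib, ← Finset.sum_mul, hT]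
    push_cast
    ring

theorem m2 (T S : α → ℝ) (hT : ∑ a, T a = 1) (d : ℕ) :
    ∑ c : Fin d → α, (∏ j, T (c j)) * (∑ j, S (c j)) ^ 2 =
      d * ∑ a, T a * S a ^ 2 + d * (d - 1) * (∑ a, T a * S a) ^ 2 := by
  induction d with
  | zero => simp
  | succ d ih =>
    rw [← (Fin.consEquiv fun _ : Fin (d + 1) => α).sum_comp, Fintype.sum_prod_type]
    have h1 : ∀ a : α, ∑ c : Fin d → α,
        (∏ j, T ((Fin.consEquiv fun _ : Fin (d + 1) => α) (a, c) j)) *
          (∑ j, S ((Fin.consEquiv fun _ : Fin (d + 1) => α) (a, c) j)) ^ 2 =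
        T a * S a ^ 2 + 2 * (d * ∑ b, T b * S b) * (T a * S a) +
          T a * (d * ∑ b, T b * S b ^ 2 + d * (d - 1) * (∑ b, T b * S b) ^ 2) := by
      intro a
      rw [← ih, ← m1 T S hT d]
      have h2 : ∀ c : Fin d → α,
          (∏ j, T ((Fin.consEquiv fun _ : Fin (d + 1) => α) (a, c) j)) *
          (∑ j, S ((Fin.consEquiv fun _ : Fin (d + 1) => α) (a, c) j)) ^ 2 =
          T a * S a ^ 2 * (∏ j, T (c j)) +
            2 * (T a * S a) * ((∏ j, T (c j)) * (∑ j, S (c j))) +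
            T a * ((∏ j, T (c j)) * (∑ j, S (c j)) ^ 2) := by
        intro c
        rw [Fin.prod_univ_succ, Fin.sum_univ_succ]
        simp only [Fin.consEquiv, Equiv.coe_fn_mk, Fin.cons_zero, Fin.cons_succ]
        ring
      rw [Finset.sum_congr rfl (fun c _ => h2 c), Finset.sum_add_distrib,
        Finset.sum_add_distrib, ← Finset.mul_sum, ← Finset.mul_sum, ← Finset.mul_sum,
        m0 T hT d, mul_one]
      ring
    rw [Finset.sum_congr rfl (fun a _ => h1 a), Finset.sum_add_distrib,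
      Finset.sum_add_distrib, ← Finset.sum_mul, ← Finset.mul_sum, hT]
    push_cast
    ring

end prodPart

/-- the test function -/
noncomputable def ff (i : Fin 3) : ℝ := if i = 0 then 2 / 3 else -(1 / 3)

theorem ff_sum : ∑ i, ff i = 0 := by
  rw [Fin.sum_univ_three]; simp [ff]; norm_num

theorem ff_sq : ∑ i, ff i ^ 2 = 2 / 3 := by
  rw [Fin.sum_univ_three]; simp [ff]; norm_num

theorem potts_ff (lam : ℝ) (i : Fin 3) : ∑ k, potts 3 lam i k * ff k = lam * ff i := by
  have h1 : ∀ k, potts 3 lam i k * ff k =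
      lam * (if i = k then ff k else 0) + (1 - lam) / 3 * ff k := by
    intro k
    unfold potts
    split_ifs <;> push_cast <;> ring
  rw [Finset.sum_congr rfl (fun k _ => h1 k), Finset.sum_add_distrib, ← Finset.mul_sum,
    ← Finset.mul_sum, ff_sum, Finset.sum_ite_eq]
  simp

theorem potts_col (lam : ℝ) (k : Fin 3) : ∑ i, potts 3 lam i k = 1 := by
  rw [← potts_row 3 (by norm_num) lam k]
  refine Finset.sum_congr rfl fun i _ => ?_
  unfold potts
  by_cases h : i = k
  · subst h; rfl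
  · rw [if_neg h, if_neg (fun h' => h h'.symm)]

/-- the linear statistic -/
noncomputable def Sf (d : ℕ) : (n : ℕ) → Conf 3 d n → ℝ
  | 0, (c : Fin 3) => ff c
  | n + 1, c => ∑ j : Fin d, Sf d n (c j)

/-- one noisy child -/
noncomputable def Tk (d : ℕ) (lam : ℝ) (n : ℕ) (i : Fin 3) (c : Conf 3 d n) : ℝ :=
  ∑ k : Fin 3, potts 3 lam i k * lik 3 d lam n k c

theorem Tk_sum (d : ℕ) (lam : ℝ) (n : ℕ) (i : Fin 3) : ∑ c, Tk d lam n i c = 1 := by
  unfold Tk
  rw [Finset.sum_comm]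
  simp_rw [← Finset.mul_sum, lik_sum 3 d (by norm_num) lam n, mul_one]
  exact potts_row 3 (by norm_num) lam i

theorem Tk_mul (d : ℕ) (lam : ℝ) (n : ℕ) (i : Fin 3) (G : Conf 3 d n → ℝ) :
    ∑ c, Tk d lam n i c * G c = ∑ k, potts 3 lam i k * ∑ c, lik 3 d lam n k c * G c := by
  unfold Tk
  simp_rw [Finset.sum_mul, Finset.mul_sum]
  rw [Finset.sum_comm]
  refine Finset.sum_congr rfl fun k _ => Finset.sum_congr rfl fun c _ => by ring

theorem E1 (d : ℕ) (lam : ℝ) : ∀ (n : ℕ) (i : Fin 3),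
    ∑ c, lik 3 d lam n i c * Sf d n c = (d * lam) ^ n * ff i
  | 0, i => by
    change ∑ c : Fin 3, (if i = c then (1 : ℝ) else 0) * ff c = _
    simp
  | n + 1, i => by
    rw [sum_conf_succ]
    change ∑ c : Fin d → Conf 3 d n, (∏ j : Fin d, Tk d lam n i (c j)) *
      (∑ j : Fin d, Sf d n (c j)) = _
    rw [m1 (Tk d lam n i) (Sf d n) (Tk_sum d lam n i) d, Tk_mul]
    simp_rw [E1 d lam n]
    have : ∑ k, potts 3 lam i k * ((d * lam) ^ n * ff k) = (d * lam) ^ n * (lam * ff i) := by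
      rw [← potts_ff lam i, Finset.mul_sum]
      exact Finset.sum_congr rfl fun k _ => by ring
    rw [this]
    ring

/-- second moment given the root -/
noncomputable def V2 (d : ℕ) (lam : ℝ) (n : ℕ) (i : Fin 3) : ℝ :=
  ∑ c, lik 3 d lam n i c * Sf d n c ^ 2

theorem V2_zero (d : ℕ) (lam : ℝ) (i : Fin 3) : V2 d lam 0 i = ff i ^ 2 := by
  change ∑ c : Fin 3, (if i = c then (1 : ℝ) else 0) * ff c ^ 2 = _
  simp

theorem V2_succ (d : ℕ) (lam : ℝ) (n : ℕ) (i : Fin 3) :
    V2 d lam (n + 1) i = d * ∑ k, potts 3 lam i k * V2 d lam n k +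
      d * (d - 1) * ((d * lam) ^ n * (lam * ff i)) ^ 2 := by
  unfold V2
  rw [sum_conf_succ]
  change ∑ c : Fin d → Conf 3 d n, (∏ j : Fin d, Tk d lam n i (c j)) *
      (∑ j : Fin d, Sf d n (c j)) ^ 2 = _
  rw [m2 (Tk d lam n i) (Sf d n) (Tk_sum d lam n i) d, Tk_mul d lam n i (fun c => Sf d n c ^ 2),
    Tk_mul]
  simp_rw [E1 d lam n]
  have : ∑ k, potts 3 lam i k * ((d * lam) ^ n * ff k) = (d * lam) ^ n * (lam * ff i) := by
    rw [← potts_ff lam i, Finset.mul_sum]
    exact Finset.sum_congr rfl fun k _ => by ring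
  rw [this]

/-- second moment with a uniform root -/
noncomputable def W2 (d : ℕ) (lam : ℝ) (n : ℕ) : ℝ := (∑ i, V2 d lam n i) / 3

theorem W2_zero (d : ℕ) (lam : ℝ) : W2 d lam 0 = 2 / 9 := by
  unfold W2
  simp_rw [V2_zero]
  rw [ff_sq]; norm_num

theorem W2_succ (d : ℕ) (lam : ℝ) (n : ℕ) :
    W2 d lam (n + 1) = d * W2 d lam n +
      d * (d - 1) * lam ^ 2 * ((d * lam) ^ 2) ^ n * (2 / 9) := by
  unfold W2
  simp_rw [V2_succ]
  rw [Finset.sum_add_distrib, ← Finset.mul_sum, Finset.sum_comm]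
  have h1 : ∀ k : Fin 3, ∑ i, potts 3 lam i k * V2 d lam n k = V2 d lam n k := by
    intro k
    rw [← Finset.sum_mul, potts_col, one_mul]
  rw [Finset.sum_congr rfl (fun k _ => h1 k)]
  have h2 : ∑ i : Fin 3, (d : ℝ) * (d - 1) * ((d * lam) ^ n * (lam * ff i)) ^ 2 =
      d * (d - 1) * lam ^ 2 * ((d * lam) ^ 2) ^ n * (2 / 3) := by
    rw [← ff_sq, Finset.mul_sum]
    refine Finset.sum_congr rfl fun i _ => ?_
    rw [← pow_mul, mul_comm 2 n, pow_mul]
    ring
  rw [h2]
  ring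

theorem W2_le {d : ℕ} {lam : ℝ} (h : 1 < d * lam ^ 2) (n : ℕ) :
    W2 d lam n ≤ 2 / 9 * (d * lam ^ 2 / (d * lam ^ 2 - 1)) * ((d * lam) ^ 2) ^ n := by
  set r : ℝ := d * lam ^ 2 with hr
  have hr1 : 0 < r - 1 := by linarith
  have hd : (0 : ℝ) ≤ d := Nat.cast_nonneg d
  have hx : ((d : ℝ) * lam) ^ 2 = d * r := by rw [hr]; ring
  have hC : (2 : ℝ) / 9 ≤ 2 / 9 * (r / (r - 1)) := by
    have : 1 ≤ r / (r - 1) := by rw [le_div_iff₀ hr1]; linarith
    linarith
  induction n with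
  | zero => rw [W2_zero, pow_zero, mul_one]; exact hC
  | succ n ih =>
    rw [W2_succ]
    have hxn : (0 : ℝ) ≤ (((d : ℝ) * lam) ^ 2) ^ n := by positivity
    have e1 : (d : ℝ) * (d - 1) * lam ^ 2 * (((d : ℝ) * lam) ^ 2) ^ n * (2 / 9) ≤
        d * r * (((d : ℝ) * lam) ^ 2) ^ n * (2 / 9) := by
      have : (d : ℝ) * (d - 1) * lam ^ 2 ≤ d * r := by
        rw [hr]
        have : (0 : ℝ) ≤ d * lam ^ 2 := by positivity
        nlinarith
      gcongr
    have e2 := mul_le_mul_of_nonneg_left ih hd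
    have e3 : (d : ℝ) * (2 / 9 * (r / (r - 1)) * (((d : ℝ) * lam) ^ 2) ^ n) +
        d * r * (((d : ℝ) * lam) ^ 2) ^ n * (2 / 9) =
        2 / 9 * (r / (r - 1)) * (((d : ℝ) * lam) ^ 2) ^ (n + 1) := by
      have e4 : (((d : ℝ) * lam) ^ 2) ^ (n + 1) = (((d : ℝ) * lam) ^ 2) ^ n * (d * r) := by
        rw [← hx]; exact pow_succ _ n
      rw [e4]
      generalize (((d : ℝ) * lam) ^ 2) ^ n = y
      field_simp
      ring
    linarith

end KSR

open KSR

theorem ks_reg {d : ℕ} {lam : ℝ} (h0 : -(1 / 2) ≤ lam) (h1 : lam ≤ 1)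
    (h : 1 < d * lam ^ 2) : ∃ c : ℝ, 0 < c ∧ ∀ n, c ≤ aSeq 3 d lam n := by
  have hr1 : 0 < (d : ℝ) * lam ^ 2 - 1 := by linarith
  set C : ℝ := 2 / 9 * (d * lam ^ 2 / (d * lam ^ 2 - 1)) with hC
  have hC0 : 0 < C := by
    rw [hC]
    have : 0 < (d : ℝ) * lam ^ 2 := by linarith
    positivity
  refine ⟨1 / (27 * C), by positivity, fun n => ?_⟩
  set m : Conf 3 d n → ℝ := fun c => marg 3 d lam n c with hm
  set δ : Conf 3 d n → ℝ := fun c => lik 3 d lam n 0 c - m c with hδ
  have hl : ∀ i c, 0 ≤ lik 3 d lam n i c := fun i c => lik_nonneg 3 d lam (potts_pos3 h1 h0) n i c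
  have hmv : ∀ c, m c = (lik 3 d lam n 0 c + lik 3 d lam n 1 c + lik 3 d lam n 2 c) / 3 := by
    intro c
    rw [hm]
    simp only [marg, joint]
    rw [Fin.sum_univ_three]
    push_cast
    ring
  have hm0 : ∀ c, 0 ≤ m c := by
    intro c; rw [hmv]; have := hl 0 c; have := hl 1 c; have := hl 2 c; positivity
  have hδm : ∀ c, |δ c| ≤ 2 * m c := by
    intro c
    have a := hl 0 c; have b := hl 1 c; have e := hl 2 c
    simp only [hδ]
    rw [abs_le, hmv]
    constructor <;> linarith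
  -- the first moment
  have hfirst : ∑ c, δ c * Sf d n c = 2 / 3 * (d * lam) ^ n := by
    have e : ∀ c, δ c * Sf d n c = lik 3 d lam n 0 c * Sf d n c -
        (1 / 3) * ∑ i, lik 3 d lam n i c * Sf d n c := by
      intro c
      simp only [hδ]
      rw [hmv, Fin.sum_univ_three]
      ring
    rw [Finset.sum_congr rfl (fun c _ => e c), Finset.sum_sub_distrib, ← Finset.mul_sum,
      Finset.sum_comm, E1]
    simp_rw [E1]
    rw [← Finset.mul_sum, ff_sum]
    simp [ff]
    ring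
  -- the second moment
  have hsecond : ∑ c, m c * Sf d n c ^ 2 = W2 d lam n := by
    unfold W2 V2
    rw [Finset.sum_comm, Finset.sum_div]
    refine Finset.sum_congr rfl fun c _ => ?_
    rw [hmv, Fin.sum_univ_three]
    ring
  have hcs : (∑ c, δ c * Sf d n c) ^ 2 ≤ (∑ c, δ c ^ 2 / m c) * ∑ c, m c * Sf d n c ^ 2 := by
    refine Finset.sum_sq_le_sum_mul_sum_of_sq_le_mul _ ?_ ?_ ?_
    · intro c _; exact div_nonneg (sq_nonneg _) (hm0 c)
    · intro c _; exact mul_nonneg (hm0 c) (sq_nonneg _)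
    · intro c _
      rcases (hm0 c).eq_or_lt with h | h
      · have : δ c = 0 := by
          have := hδm c
          rw [← h, mul_zero] at this
          exact abs_nonpos_iff.1 this
        rw [this]; simp
      · apply le_of_eq
        field_simp
  have hsum : ∑ c, δ c ^ 2 / m c ≤ 12 * aSeq 3 d lam n := by
    unfold aSeq
    rw [Finset.mul_sum]
    refine Finset.sum_le_sum fun c _ => ?_
    rcases (hm0 c).eq_or_lt with h | h
    · have e : marg 3 d lam n c = 0 := h.symm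
      rw [← h, e]; simp
    · have e1 : δ c ^ 2 / m c ≤ 2 * |δ c| := by
        rw [div_le_iff₀ h, ← sq_abs]
        have := hδm c
        have h3 := abs_nonneg (δ c)
        nlinarith
      have e2 : |δ c| = 3 * (m c * |post 3 d lam n 0 c - 1 / 3|) := by
        have e3 : post 3 d lam n 0 c - 1 / 3 = δ c / (3 * m c) := by
          simp only [post, joint, hδ]
          rw [show marg 3 d lam n c = m c from rfl]
          push_cast
          field_simp
        rw [e3, abs_div, abs_of_pos (by positivity : 0 < 3 * m c)]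
        field_simp
      have e4 : |post 3 d lam n 0 c - 1 / 3| ≤ ∑ i : Fin 3, |post 3 d lam n i c - 1 / (3 : ℕ)| := by
        rw [Fin.sum_univ_three]
        push_cast
        have := abs_nonneg (post 3 d lam n 1 c - 1 / 3)
        have := abs_nonneg (post 3 d lam n 2 c - 1 / 3)
        linarith
      have e5 := mul_le_mul_of_nonneg_left e4 (hm0 c)
      have e6 : marg 3 d lam n c = m c := rfl
      rw [e6]
      calc δ c ^ 2 / m c ≤ 2 * |δ c| := e1
        _ = 6 * (m c * |post 3 d lam n 0 c - 1 / 3|) := by rw [e2]; ring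
        _ ≤ 6 * (m c * ∑ i : Fin 3, |post 3 d lam n i c - 1 / (3 : ℕ)|) := by linarith
        _ = 12 * (m c * (1 / 2 * ∑ i : Fin 3, |post 3 d lam n i c - 1 / (3 : ℕ)|)) := by ring
  have hW := W2_le h n
  rw [hfirst, hsecond] at hcs
  have ha : 0 ≤ aSeq 3 d lam n := by
    unfold aSeq
    refine Finset.sum_nonneg fun c _ => mul_nonneg (hm0 c) ?_
    have : 0 ≤ ∑ i : Fin 3, |post 3 d lam n i c - 1 / (3 : ℕ)| :=
      Finset.sum_nonneg fun i _ => abs_nonneg _
    positivity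
  have hx : (0 : ℝ) < ((d * lam) ^ 2) ^ n := by
    have : (d : ℝ) * lam ≠ 0 := by
      intro h'
      have : (d : ℝ) * lam ^ 2 = 0 := by rw [sq, ← mul_assoc, h', zero_mul]
      rw [this] at h; norm_num at h
    positivity
  have hW0 : 0 ≤ W2 d lam n := by
    rw [← hsecond]
    exact Finset.sum_nonneg fun c _ => mul_nonneg (hm0 c) (sq_nonneg _)
  have h9 : 4 / 9 * ((d * lam) ^ 2) ^ n ≤ 12 * aSeq 3 d lam n * (C * ((d * lam) ^ 2) ^ n) := by
    have e : (2 / 3 * ((d : ℝ) * lam) ^ n) ^ 2 = 4 / 9 * ((d * lam) ^ 2) ^ n := by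
      rw [← pow_mul, mul_comm 2 n, pow_mul]; ring
    rw [← e]
    refine hcs.trans ?_
    exact mul_le_mul hsum hW hW0 (by positivity)
  have h10 : 4 / 9 ≤ 12 * aSeq 3 d lam n * C := by
    have : 4 / 9 * ((d * lam) ^ 2) ^ n ≤ (12 * aSeq 3 d lam n * C) * ((d * lam) ^ 2) ^ n := by
      linarith
    exact le_of_mul_le_mul_right this hx
  rw [div_le_iff₀ (by positivity)]
  linarith

end Vale.Agent.P154
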