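import Vale.Agent.P154.Digits

/-! Syntactic integer polynomials in four variables, as lists of monomials. -/

namespace Vale.Agent.P154

abbrev SP := List (ℤ × ℕ × ℕ × ℕ × ℕ)

section
variable {R : Type*} [CommRing R]

def mon (x0 x1 x2 x3 : R) (t : ℤ × ℕ × ℕ × ℕ × ℕ) : R :=
  (t.1 : R) * (x0 ^ t.2.1 * (x1 ^ t.2.2.1 * (x2 ^ t.2.2.2.1 * x3 ^ t.2.2.2.2)))

def ev (x0 x1 x2 x3 : R) (l : SP) : R := (l.map (mon x0 x1 x2 x3)).sum

@[simp] theorem ev_nil (x0 x1 x2 x3 : R) : ev x0 x1 x2 x3 [] = 0 := rfl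

@[simp] theorem ev_cons (x0 x1 x2 x3 : R) (t) (l : SP) :
    ev x0 x1 x2 x3 (t :: l) = mon x0 x1 x2 x3 t + ev x0 x1 x2 x3 l := by
  simp [ev]

theorem ev_append (x0 x1 x2 x3 : R) (l l' : SP) :
    ev x0 x1 x2 x3 (l ++ l') = ev x0 x1 x2 x3 l + ev x0 x1 x2 x3 l' := by
  simp [ev]

def mulT (s t : ℤ × ℕ × ℕ × ℕ × ℕ) : ℤ × ℕ × ℕ × ℕ × ℕ :=
  (s.1 * t.1, s.2.1 + t.2.1, s.2.2.1 + t.2.2.1, s.2.2.2.1 + t.2.2.2.1, s.2.2.2.2 + t.2.2.2.2)

theorem mon_mulT (x0 x1 x2 x3 : R) (s t) :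
    mon x0 x1 x2 x3 (mulT s t) = mon x0 x1 x2 x3 s * mon x0 x1 x2 x3 t := by
  simp only [mon, mulT, pow_add]; push_cast; ring

def mulS (l l' : SP) : SP := l.flatMap (fun s => l'.map (mulT s))

theorem ev_map_mulT (x0 x1 x2 x3 : R) (s) (l : SP) :
    ev x0 x1 x2 x3 (l.map (mulT s)) = mon x0 x1 x2 x3 s * ev x0 x1 x2 x3 l := by
  induction l with
  | nil => simp
  | cons t l ih => simp only [List.map_cons, ev_cons, ih, mon_mulT]; ring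

theorem ev_mulS (x0 x1 x2 x3 : R) (l l' : SP) :
    ev x0 x1 x2 x3 (mulS l l') = ev x0 x1 x2 x3 l * ev x0 x1 x2 x3 l' := by
  induction l with
  | nil => simp [mulS]
  | cons t l ih =>
    have : mulS (t :: l) l' = l'.map (mulT t) ++ mulS l l' := by simp [mulS]
    rw [this, ev_append, ih, ev_map_mulT, ev_cons]; ring

end

def l1 (l : SP) : ℕ := (l.map (fun t => t.1.natAbs)).sum

@[simp] theorem l1_nil : l1 [] = 0 := rfl
@[simp] theorem l1_cons (t) (l : SP) : l1 (t :: l) = t.1.natAbs + l1 l := by simp [l1]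
theorem l1_append (l l' : SP) : l1 (l ++ l') = l1 l + l1 l' := by simp [l1]
theorem l1_map_mulT (s) (l : SP) : l1 (l.map (mulT s)) = s.1.natAbs * l1 l := by
  induction l with
  | nil => simp
  | cons t l ih =>
    simp only [List.map_cons, l1_cons, ih, mulT, Int.natAbs_mul]; ring
theorem l1_mulS (l l' : SP) : l1 (mulS l l') = l1 l * l1 l' := by
  induction l with
  | nil => simp [mulS]
  | cons t l ih =>
    have : mulS (t :: l) l' = l'.map (mulT t) ++ mulS l l' := by simp [mulS]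
    rw [this, l1_append, ih, l1_map_mulT, l1_cons]; ring

/-- all exponents are at most `n0..n3` -/
def degB (l : SP) (n0 n1 n2 n3 : ℕ) : Prop :=
  ∀ t ∈ l, t.2.1 ≤ n0 ∧ t.2.2.1 ≤ n1 ∧ t.2.2.2.1 ≤ n2 ∧ t.2.2.2.2 ≤ n3

theorem degB_nil (n0 n1 n2 n3 : ℕ) : degB [] n0 n1 n2 n3 := by
  intro t ht; simp at ht

theorem degB_append {l l' : SP} {n0 n1 n2 n3 : ℕ} (h : degB l n0 n1 n2 n3)
    (h' : degB l' n0 n1 n2 n3) : degB (l ++ l') n0 n1 n2 n3 := by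
  intro t ht
  rcases List.mem_append.1 ht with h1 | h1
  · exact h t h1
  · exact h' t h1

theorem degB_mono {l : SP} {n0 n1 n2 n3 m0 m1 m2 m3 : ℕ} (h : degB l n0 n1 n2 n3)
    (h0 : n0 ≤ m0) (h1 : n1 ≤ m1) (h2 : n2 ≤ m2) (h3 : n3 ≤ m3) : degB l m0 m1 m2 m3 := by
  intro t ht
  obtain ⟨a, b, c, d⟩ := h t ht
  exact ⟨a.trans h0, b.trans h1, c.trans h2, d.trans h3⟩

theorem degB_mulS {l l' : SP} {n0 n1 n2 n3 m0 m1 m2 m3 : ℕ} (h : degB l n0 n1 n2 n3)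
    (h' : degB l' m0 m1 m2 m3) : degB (mulS l l') (n0 + m0) (n1 + m1) (n2 + m2) (n3 + m3) := by
  intro t ht
  simp only [mulS, List.mem_flatMap, List.mem_map] at ht
  obtain ⟨s, hs, u, hu, rfl⟩ := ht
  obtain ⟨a, b, c, d⟩ := h s hs
  obtain ⟨a', b', c', d'⟩ := h' u hu
  simp only [mulT]
  exact ⟨by omega, by omega, by omega, by omega⟩

/-- powers of a list -/
def powS (l : SP) : ℕ → SP
  | 0 => [(1, 0, 0, 0, 0)]
  | k + 1 => mulS l (powS l k)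

theorem ev_powS {R : Type*} [CommRing R] (x0 x1 x2 x3 : R) (l : SP) (k : ℕ) :
    ev x0 x1 x2 x3 (powS l k) = ev x0 x1 x2 x3 l ^ k := by
  induction k with
  | zero => simp [powS, mon]
  | succ k ih => simp only [powS, ev_mulS, ih, pow_succ]; ring

theorem l1_powS (l : SP) (k : ℕ) : l1 (powS l k) = l1 l ^ k := by
  induction k with
  | zero => simp [powS]
  | succ k ih => simp only [powS, l1_mulS, ih, pow_succ]; ring

theorem degB_powS {l : SP} {n0 n1 n2 n3 : ℕ} (h : degB l n0 n1 n2 n3) (k : ℕ) :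
    degB (powS l k) (k * n0) (k * n1) (k * n2) (k * n3) := by
  induction k with
  | zero =>
    intro t ht
    simp only [powS, List.mem_singleton] at ht
    subst ht; simp
  | succ k ih =>
    have := degB_mulS h ih
    refine degB_mono this ?_ ?_ ?_ ?_ <;> · rw [Nat.succ_mul, add_comm]

/-- `e * (1+x0)^d0 * ...` as a list -/
def facS (e d0 d1 d2 d3 : ℕ) : SP :=
  mulS [((e : ℤ), 0, 0, 0, 0)]
    (mulS (powS [(1, 0, 0, 0, 0), (1, 1, 0, 0, 0)] d0)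
      (mulS (powS [(1, 0, 0, 0, 0), (1, 0, 1, 0, 0)] d1)
        (mulS (powS [(1, 0, 0, 0, 0), (1, 0, 0, 1, 0)] d2)
          (powS [(1, 0, 0, 0, 0), (1, 0, 0, 0, 1)] d3))))

theorem ev_facS {R : Type*} [CommRing R] (x0 x1 x2 x3 : R) (e d0 d1 d2 d3 : ℕ) :
    ev x0 x1 x2 x3 (facS e d0 d1 d2 d3)
      = (e : R) * ((1 + x0) ^ d0 * ((1 + x1) ^ d1 * ((1 + x2) ^ d2 * (1 + x3) ^ d3))) := by
  simp only [facS, ev_mulS, ev_powS]
  simp [mon]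

theorem l1_facS (e d0 d1 d2 d3 : ℕ) :
    l1 (facS e d0 d1 d2 d3) = e * 2 ^ (d0 + d1 + d2 + d3) := by
  have h0 : l1 [((1 : ℤ), 0, 0, 0, 0), (1, 1, 0, 0, 0)] = 2 := rfl
  have h1 : l1 [((1 : ℤ), 0, 0, 0, 0), (1, 0, 1, 0, 0)] = 2 := rfl
  have h2 : l1 [((1 : ℤ), 0, 0, 0, 0), (1, 0, 0, 1, 0)] = 2 := rfl
  have h3 : l1 [((1 : ℤ), 0, 0, 0, 0), (1, 0, 0, 0, 1)] = 2 := rfl
  have hc : l1 [((e : ℤ), 0, 0, 0, 0)] = e := by simp
  simp only [facS, l1_mulS, l1_powS, h0, h1, h2, h3, hc]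
  ring

theorem degB_facS (e d0 d1 d2 d3 : ℕ) : degB (facS e d0 d1 d2 d3) d0 d1 d2 d3 := by
  have h0 : degB [((1 : ℤ), 0, 0, 0, 0), (1, 1, 0, 0, 0)] 1 0 0 0 := by
    intro t ht; simp at ht; rcases ht with rfl | rfl <;> simp
  have h1 : degB [((1 : ℤ), 0, 0, 0, 0), (1, 0, 1, 0, 0)] 0 1 0 0 := by
    intro t ht; simp at ht; rcases ht with rfl | rfl <;> simp
  have h2 : degB [((1 : ℤ), 0, 0, 0, 0), (1, 0, 0, 1, 0)] 0 0 1 0 := by
    intro t ht; simp at ht; rcases ht with rfl | rfl <;> simp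
  have h3 : degB [((1 : ℤ), 0, 0, 0, 0), (1, 0, 0, 0, 1)] 0 0 0 1 := by
    intro t ht; simp at ht; rcases ht with rfl | rfl <;> simp
  have hc : degB [((e : ℤ), 0, 0, 0, 0)] 0 0 0 0 := by
    intro t ht; simp at ht; subst ht; simp
  have := degB_mulS hc (degB_mulS (degB_powS h0 d0) (degB_mulS (degB_powS h1 d1)
    (degB_mulS (degB_powS h2 d2) (degB_powS h3 d3))))
  refine degB_mono this ?_ ?_ ?_ ?_ <;> simp

/-- scaling -/
def scS (z : ℤ) (l : SP) : SP := l.map (mulT (z, 0, 0, 0, 0))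

theorem ev_scS {R : Type*} [CommRing R] (x0 x1 x2 x3 : R) (z : ℤ) (l : SP) :
    ev x0 x1 x2 x3 (scS z l) = (z : R) * ev x0 x1 x2 x3 l := by
  rw [scS, ev_map_mulT]; simp [mon]

theorem l1_scS (z : ℤ) (l : SP) : l1 (scS z l) = z.natAbs * l1 l := by
  rw [scS, l1_map_mulT]

theorem degB_scS {l : SP} {n0 n1 n2 n3 : ℕ} (z : ℤ) (h : degB l n0 n1 n2 n3) :
    degB (scS z l) n0 n1 n2 n3 := by
  intro t ht
  simp only [scS, List.mem_map] at ht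
  obtain ⟨u, hu, rfl⟩ := ht
  have := h u hu
  simpa [mulT] using this

/-! ### collecting coefficients -/

/-- packed index of an exponent vector -/
def idx (N0 N1 N2 : ℕ) (t : ℤ × ℕ × ℕ × ℕ × ℕ) : ℕ :=
  t.2.1 + N0 * (t.2.2.1 + N1 * (t.2.2.2.1 + N2 * t.2.2.2.2))

/-- collected coefficient -/
def coef (N0 N1 N2 : ℕ) : SP → ℕ → ℤ
  | [], _ => 0
  | t :: l, i => (if idx N0 N1 N2 t = i then t.1 else 0) + coef N0 N1 N2 l i

theorem abs_coef_le (N0 N1 N2 : ℕ) (l : SP) (i : ℕ) : |coef N0 N1 N2 l i| ≤ l1 l := by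
  induction l with
  | nil => simp [coef]
  | cons t l ih =>
    simp only [coef, l1_cons]
    push_cast
    calc |(if idx N0 N1 N2 t = i then t.1 else 0) + coef N0 N1 N2 l i|
        ≤ |(if idx N0 N1 N2 t = i then t.1 else 0)| + |coef N0 N1 N2 l i| := abs_add_le _ _
      _ ≤ |t.1| + l1 l := by
        apply add_le_add _ ih
        split
        · exact le_rfl
        · simp

/-- the value of the monomial with packed index `i` -/
def gval {R : Type*} [CommRing R] (x0 x1 x2 x3 : R) (N0 N1 N2 i : ℕ) : R :=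
  x0 ^ (i % N0) * (x1 ^ (i / N0 % N1) * (x2 ^ (i / N0 / N1 % N2) * x3 ^ (i / N0 / N1 / N2)))

theorem mon_eq_gval {R : Type*} [CommRing R] (x0 x1 x2 x3 : R) {N0 N1 N2 : ℕ}
    (t : ℤ × ℕ × ℕ × ℕ × ℕ) (h0 : t.2.1 < N0) (h1 : t.2.2.1 < N1) (h2 : t.2.2.2.1 < N2) :
    mon x0 x1 x2 x3 t = (t.1 : R) * gval x0 x1 x2 x3 N0 N1 N2 (idx N0 N1 N2 t) := by
  have e0 : idx N0 N1 N2 t % N0 = t.2.1 := by
    simp [idx, Nat.add_mul_mod_self_left, Nat.mod_eq_of_lt h0]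
  have e1 : idx N0 N1 N2 t / N0 = t.2.2.1 + N1 * (t.2.2.2.1 + N2 * t.2.2.2.2) := by
    rw [idx, Nat.add_mul_div_left _ _ (by omega), Nat.div_eq_of_lt h0, zero_add]
  have e2 : idx N0 N1 N2 t / N0 / N1 = t.2.2.2.1 + N2 * t.2.2.2.2 := by
    rw [e1, Nat.add_mul_div_left _ _ (by omega), Nat.div_eq_of_lt h1, zero_add]
  have e3 : idx N0 N1 N2 t / N0 / N1 / N2 = t.2.2.2.2 := by
    rw [e2, Nat.add_mul_div_left _ _ (by omega), Nat.div_eq_of_lt h2, zero_add]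
  rw [gval, e0, e3]
  have e4 : idx N0 N1 N2 t / N0 % N1 = t.2.2.1 := by
    rw [e1, Nat.add_mul_mod_self_left, Nat.mod_eq_of_lt h1]
  have e5 : idx N0 N1 N2 t / N0 / N1 % N2 = t.2.2.2.1 := by
    rw [e2, Nat.add_mul_mod_self_left, Nat.mod_eq_of_lt h2]
  rw [e4, e5]; rfl

theorem ev_eq_sum {R : Type*} [CommRing R] (x0 x1 x2 x3 : R) {N0 N1 N2 N3 : ℕ} (l : SP)
    (g : ℕ → R) (hg : ∀ t ∈ l, mon x0 x1 x2 x3 t = (t.1 : R) * g (idx N0 N1 N2 t))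
    (hi : ∀ t ∈ l, idx N0 N1 N2 t < N0 * (N1 * (N2 * N3))) :
    ev x0 x1 x2 x3 l
      = ∑ i ∈ Finset.range (N0 * (N1 * (N2 * N3))), (coef N0 N1 N2 l i : R) * g i := by
  induction l with
  | nil => simp [coef]
  | cons t l ih =>
    rw [ev_cons, ih (fun s hs => hg s (List.mem_cons_of_mem _ hs))
      (fun s hs => hi s (List.mem_cons_of_mem _ hs))]
    simp only [coef]
    push_cast
    simp only [add_mul, Finset.sum_add_distrib]
    congr 1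
    rw [hg t (List.mem_cons_self)]
    rw [Finset.sum_eq_single (idx N0 N1 N2 t)]
    · simp
    · intro i _ hne
      rw [if_neg (Ne.symm hne)]; simp
    · intro hn
      exact absurd (Finset.mem_range.2 (hi t List.mem_cons_self)) hn

theorem idx_lt {N0 N1 N2 N3 : ℕ} {t : ℤ × ℕ × ℕ × ℕ × ℕ} (h0 : t.2.1 < N0) (h1 : t.2.2.1 < N1)
    (h2 : t.2.2.2.1 < N2) (h3 : t.2.2.2.2 < N3) :
    idx N0 N1 N2 t < N0 * (N1 * (N2 * N3)) := by
  have a3 : t.2.2.2.1 + N2 * t.2.2.2.2 < N2 * N3 := by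
    calc t.2.2.2.1 + N2 * t.2.2.2.2 < N2 + N2 * t.2.2.2.2 := by omega
      _ = N2 * (t.2.2.2.2 + 1) := by ring
      _ ≤ N2 * N3 := Nat.mul_le_mul_left _ h3
  have a2 : t.2.2.1 + N1 * (t.2.2.2.1 + N2 * t.2.2.2.2) < N1 * (N2 * N3) := by
    calc t.2.2.1 + N1 * (t.2.2.2.1 + N2 * t.2.2.2.2)
        < N1 + N1 * (t.2.2.2.1 + N2 * t.2.2.2.2) := by omega
      _ = N1 * ((t.2.2.2.1 + N2 * t.2.2.2.2) + 1) := by ring
      _ ≤ N1 * (N2 * N3) := Nat.mul_le_mul_left _ a3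
  calc idx N0 N1 N2 t < N0 + N0 * (t.2.2.1 + N1 * (t.2.2.2.1 + N2 * t.2.2.2.2)) := by
        unfold idx; omega
    _ = N0 * ((t.2.2.1 + N1 * (t.2.2.2.1 + N2 * t.2.2.2.2)) + 1) := by ring
    _ ≤ N0 * (N1 * (N2 * N3)) := Nat.mul_le_mul_left _ a2

/-- If the packed value of `l` has all top bits clear then `l` is nonnegative at nonnegative
points. -/
theorem ev_nonneg_of_bits (b N0 N1 N2 N3 : ℕ) (hb : 0 < b) (l : SP) (N : ℕ)
    (n0 n1 n2 n3 : ℕ) (hdeg : degB l n0 n1 n2 n3) (h0 : n0 < N0) (h1 : n1 < N1) (h2 : n2 < N2)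
    (h3 : n3 < N3) (hl : 2 * l1 l < 2 ^ b)
    (hN : (N : ℤ) = ev ((2 ^ b : ℕ) : ℤ) ((2 ^ (b * N0) : ℕ) : ℤ) ((2 ^ (b * (N0 * N1)) : ℕ) : ℤ)
      ((2 ^ (b * (N0 * (N1 * N2))) : ℕ) : ℤ) l)
    (hbits : Nat.land N (mask b (N0 * (N1 * (N2 * N3)))) = 0)
    (x0 x1 x2 x3 : ℝ) (hx0 : 0 ≤ x0) (hx1 : 0 ≤ x1) (hx2 : 0 ≤ x2) (hx3 : 0 ≤ x3) :
    0 ≤ ev x0 x1 x2 x3 l := by
  have hd : ∀ t ∈ l, t.2.1 < N0 ∧ t.2.2.1 < N1 ∧ t.2.2.2.1 < N2 ∧ t.2.2.2.2 < N3 := by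
    intro t ht
    obtain ⟨a, b, c, d⟩ := hdeg t ht
    exact ⟨by omega, by omega, by omega, by omega⟩
  have hidx : ∀ t ∈ l, idx N0 N1 N2 t < N0 * (N1 * (N2 * N3)) := by
    intro t ht
    obtain ⟨a, b, c, d⟩ := hd t ht
    exact idx_lt a b c d
  have hz : ev ((2 ^ b : ℕ) : ℤ) ((2 ^ (b * N0) : ℕ) : ℤ) ((2 ^ (b * (N0 * N1)) : ℕ) : ℤ)
      ((2 ^ (b * (N0 * (N1 * N2))) : ℕ) : ℤ) l
      = ∑ i ∈ Finset.range (N0 * (N1 * (N2 * N3))),
        coef N0 N1 N2 l i * (2 ^ b) ^ i := by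
    rw [ev_eq_sum (N3 := N3) _ _ _ _ l (fun i => ((2 : ℤ) ^ b) ^ i) _ hidx]
    · simp
    · intro t _
      simp only [mon, idx, Int.cast_id]
      push_cast
      congr 1
      simp only [← pow_mul, ← pow_add]
      congr 1
      ring
  have hnn := digits_nonneg b hb (N0 * (N1 * (N2 * N3))) (coef N0 N1 N2 l) N (by
    intro i
    have := abs_coef_le N0 N1 N2 l i
    have hl' : (2 * l1 l : ℤ) < 2 ^ b := by exact_mod_cast hl
    linarith) (by rw [hN, hz]) (testBit_of_land b hb _ N hbits)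
  rw [ev_eq_sum (N3 := N3) x0 x1 x2 x3 l (gval x0 x1 x2 x3 N0 N1 N2) (by
    intro t ht
    obtain ⟨a, b, c, d⟩ := hd t ht
    exact mon_eq_gval x0 x1 x2 x3 t a b c) hidx]
  apply Finset.sum_nonneg
  intro i hi
  apply mul_nonneg
  · exact_mod_cast hnn i (Finset.mem_range.1 hi)
  · unfold gval; positivity

end Vale.Agent.P154
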