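import Vale.Agent.P154.Forms

/-! Merging two three-state messages, averaged over relabelings. -/

namespace Vale.Agent.P154

/-- inner product of two mean-one vectors -/
noncomputable def Wf (a0 a1 a2 b0 b1 b2 : ℝ) : ℝ := (a0 * b0 + a1 * b1 + a2 * b2) / 3
/-- second symmetric function of the product vector, divided by three -/
noncomputable def Ef (a0 a1 a2 b0 b1 b2 : ℝ) : ℝ :=
  ((a0 * b0) * (a1 * b1) + (a0 * b0) * (a2 * b2) + (a1 * b1) * (a2 * b2)) / 3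

/-- the homogeneous potential -/
noncomputable def Ut (φ : CL) (a0 a1 a2 : ℝ) : ℝ :=
  2 * ((a0 + a1 + a2) / 3) - 2 * (((a0 * a1 + a0 * a2 + a1 * a2) / 3) / ((a0 + a1 + a2) / 3))
    + ((a0 + a1 + a2) / 3) * hr φ (a0 * a1 * a2 / ((a0 + a1 + a2) / 3) ^ 3)

/-- `P` of a mean-one vector -/
noncomputable def Pf (a0 a1 a2 : ℝ) : ℝ := 1 - (a0 * a1 + a0 * a2 + a1 * a2) / 3
/-- `C` of a mean-one vector -/
noncomputable def Cf (a0 a1 a2 : ℝ) : ℝ := (a0 * a1 * a2 - 1 + 3 * Pf a0 a1 a2) / 2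

theorem pC (a0 a1 a2 : ℝ) : 1 - 3 * Pf a0 a1 a2 + 2 * Cf a0 a1 a2 = a0 * a1 * a2 := by
  unfold Cf; ring

section
variable (q0 q1 q2 r0 r1 r2 : ℝ)

/-- `D̄` -/
noncomputable def Dbf (P C Q K : ℝ) : ℝ := 1 - 3 * (P * Q) + 2 * (C * K)
/-- `Num` -/
noncomputable def Numf (P C Q K : ℝ) : ℝ :=
  (1 - P * Q) * (1 - P * Q - P - Q) + 2 * (C * (Q * (1 - Q))) + 2 * (K * (P * (1 - P)))

theorem even_id (hq : q2 = 3 - q0 - q1) (hr' : r2 = 3 - r0 - r1) :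
    Ef q0 q1 q2 r0 r1 r2 * (Wf q0 q1 q2 r1 r2 r0 * Wf q0 q1 q2 r2 r0 r1)
    + Ef q0 q1 q2 r1 r2 r0 * (Wf q0 q1 q2 r0 r1 r2 * Wf q0 q1 q2 r2 r0 r1)
    + Ef q0 q1 q2 r2 r0 r1 * (Wf q0 q1 q2 r0 r1 r2 * Wf q0 q1 q2 r1 r2 r0)
    = 3 * Numf (Pf q0 q1 q2) (Cf q0 q1 q2) (Pf r0 r1 r2) (Cf r0 r1 r2) := by
  subst hq; subst hr'
  unfold Ef Wf Numf Cf Pf
  ring

theorem D_id (hq : q2 = 3 - q0 - q1) (hr' : r2 = 3 - r0 - r1) :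
    Wf q0 q1 q2 r0 r1 r2 * Wf q0 q1 q2 r1 r2 r0 * Wf q0 q1 q2 r2 r0 r1
    + Wf q0 q1 q2 r0 r2 r1 * Wf q0 q1 q2 r2 r1 r0 * Wf q0 q1 q2 r1 r0 r2
    = 2 * Dbf (Pf q0 q1 q2) (Cf q0 q1 q2) (Pf r0 r1 r2) (Cf r0 r1 r2) := by
  subst hq; subst hr'
  unfold Wf Dbf Cf Pf
  ring

theorem s1_id (hq : q2 = 3 - q0 - q1) (hr' : r2 = 3 - r0 - r1) :
    (Wf q0 q1 q2 r0 r1 r2 - 1) + (Wf q0 q1 q2 r1 r2 r0 - 1) + (Wf q0 q1 q2 r2 r0 r1 - 1)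
    + (Wf q0 q1 q2 r0 r2 r1 - 1) + (Wf q0 q1 q2 r2 r1 r0 - 1) + (Wf q0 q1 q2 r1 r0 r2 - 1)
    = 0 := by
  subst hq; subst hr'
  unfold Wf
  ring

theorem s2_id (hq : q2 = 3 - q0 - q1) (hr' : r2 = 3 - r0 - r1) :
    (Wf q0 q1 q2 r0 r1 r2 - 1) ^ 2 + (Wf q0 q1 q2 r1 r2 r0 - 1) ^ 2
    + (Wf q0 q1 q2 r2 r0 r1 - 1) ^ 2 + (Wf q0 q1 q2 r0 r2 r1 - 1) ^ 2
    + (Wf q0 q1 q2 r2 r1 r0 - 1) ^ 2 + (Wf q0 q1 q2 r1 r0 r2 - 1) ^ 2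
    = 12 * (Pf q0 q1 q2 * Pf r0 r1 r2) := by
  subst hq; subst hr'
  unfold Wf Pf
  ring

theorem s3_id (hq : q2 = 3 - q0 - q1) (hr' : r2 = 3 - r0 - r1) :
    (Wf q0 q1 q2 r0 r1 r2 - 1) ^ 3 + (Wf q0 q1 q2 r1 r2 r0 - 1) ^ 3
    + (Wf q0 q1 q2 r2 r0 r1 - 1) ^ 3 + (Wf q0 q1 q2 r0 r2 r1 - 1) ^ 3
    + (Wf q0 q1 q2 r2 r1 r0 - 1) ^ 3 + (Wf q0 q1 q2 r1 r0 r2 - 1) ^ 3
    = 12 * (Cf q0 q1 q2 * Cf r0 r1 r2) := by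
  subst hq; subst hr'
  unfold Wf Cf Pf
  ring

end

theorem amgm3 (x y z : ℝ) (hx : 0 ≤ x) (hy : 0 ≤ y) (hz : 0 ≤ z) :
    x * y * z ≤ ((x + y + z) / 3) ^ 3 := by
  have h1 : 0 ≤ (x + y + z) * ((x - y) ^ 2 + (y - z) ^ 2 + (z - x) ^ 2) := by positivity
  have h2 : 0 ≤ x * (y - z) ^ 2 + y * (z - x) ^ 2 + z * (x - y) ^ 2 := by positivity
  nlinarith [h1, h2]

theorem psq_le (a b c : ℝ) (ha : 0 ≤ a) (hb : 0 ≤ b) (hc : 0 ≤ c) (h : a + b + c = 3) :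
    a * b * c * ((a ^ 2 + b ^ 2 + c ^ 2) / 3) ≤ 1 := by
  set s := a * b + b * c + c * a with hs
  have h1 : 9 * (a * b * c) ≤ s ^ 2 := by
    have : s ^ 2 - 3 * (a * b * c) * (a + b + c)
        = ((a * b - b * c) ^ 2 + (b * c - c * a) ^ 2 + (c * a - a * b) ^ 2) / 2 := by
      rw [hs]; ring
    have h3 : 0 ≤ ((a * b - b * c) ^ 2 + (b * c - c * a) ^ 2 + (c * a - a * b) ^ 2) / 2 := by
      positivity
    rw [h] at this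
    linarith
  have h2 : a ^ 2 + b ^ 2 + c ^ 2 = 9 - 2 * s := by
    have : (a + b + c) ^ 2 = a ^ 2 + b ^ 2 + c ^ 2 + 2 * s := by rw [hs]; ring
    rw [h] at this; linarith
  have h4 : 0 ≤ 9 - 2 * s := by rw [← h2]; positivity
  have h5 : 0 ≤ s := by rw [hs]; positivity
  rw [h2]
  have h6 : 0 ≤ (s - 3) ^ 2 * (2 * s + 3) := by positivity
  have h7 := mul_le_mul_of_nonneg_right h1 h4
  nlinarith [h6, h7]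

theorem w2_le (q0 q1 q2 b0 b1 b2 : ℝ) :
    (Wf q0 q1 q2 b0 b1 b2) ^ 2
      ≤ ((q0 ^ 2 + q1 ^ 2 + q2 ^ 2) / 3) * ((b0 ^ 2 + b1 ^ 2 + b2 ^ 2) / 3) := by
  unfold Wf
  nlinarith [sq_nonneg (q0 * b1 - q1 * b0), sq_nonneg (q0 * b2 - q2 * b0),
    sq_nonneg (q1 * b2 - q2 * b1)]

/-- one term of the average -/
theorem term_bound (φ e2 e3 : CL) (q0 q1 q2 b0 b1 b2 lo hi : ℝ)
    (hq0 : 0 ≤ q0) (hq1 : 0 ≤ q1) (hq2 : 0 ≤ q2) (hq : q0 + q1 + q2 = 3)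
    (hb0 : 0 < b0) (hb1 : 0 < b1) (hb2 : 0 < b2) (hb : b0 + b1 + b2 = 3)
    (hpt : ∀ w π : ℝ, 0 ≤ π → lo ≤ w → w ≤ hi → π ≤ w ^ 3 → (1 ≤ w → π * w ^ 2 ≤ 1) →
      0 ≤ ptR φ e2 e3 w π (π / w ^ 3))
    (hlo : lo ≤ Wf q0 q1 q2 b0 b1 b2) (hhi : Wf q0 q1 q2 b0 b1 b2 ≤ hi) (π : ℝ)
    (hπ : π = (q0 * q1 * q2) * (b0 * b1 * b2)) :
    Ut φ (q0 * b0) (q1 * b1) (q2 * b2)
      ≤ 2 * Wf q0 q1 q2 b0 b1 b2 - 2 * (Ef q0 q1 q2 b0 b1 b2 / Wf q0 q1 q2 b0 b1 b2)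
        + (hr φ π + (Wf q0 q1 q2 b0 b1 b2 - 1) * hr (dl 1 φ) π
          + (Wf q0 q1 q2 b0 b1 b2 - 1) ^ 2 * hr e2 π
          + (Wf q0 q1 q2 b0 b1 b2 - 1) ^ 3 * hr e3 π) := by
  have hw0 : 0 ≤ Wf q0 q1 q2 b0 b1 b2 := by unfold Wf; positivity
  have hπ0 : 0 ≤ π := by rw [hπ]; positivity
  have h1 : π ≤ (Wf q0 q1 q2 b0 b1 b2) ^ 3 := by
    have := amgm3 (q0 * b0) (q1 * b1) (q2 * b2) (by positivity) (by positivity) (by positivity)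
    rw [hπ]; unfold Wf
    calc q0 * q1 * q2 * (b0 * b1 * b2) = q0 * b0 * (q1 * b1) * (q2 * b2) := by ring
      _ ≤ _ := this
  have h2 : 1 ≤ Wf q0 q1 q2 b0 b1 b2 → π * (Wf q0 q1 q2 b0 b1 b2) ^ 2 ≤ 1 := by
    intro _
    have a1 := psq_le q0 q1 q2 hq0 hq1 hq2 hq
    have a2 := psq_le b0 b1 b2 hb0.le hb1.le hb2.le hb
    calc π * (Wf q0 q1 q2 b0 b1 b2) ^ 2
        ≤ π * (((q0 ^ 2 + q1 ^ 2 + q2 ^ 2) / 3) * ((b0 ^ 2 + b1 ^ 2 + b2 ^ 2) / 3)) :=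
          mul_le_mul_of_nonneg_left (w2_le _ _ _ _ _ _) hπ0
      _ = (q0 * q1 * q2 * ((q0 ^ 2 + q1 ^ 2 + q2 ^ 2) / 3))
          * (b0 * b1 * b2 * ((b0 ^ 2 + b1 ^ 2 + b2 ^ 2) / 3)) := by rw [hπ]; ring
      _ ≤ 1 * 1 := by
          apply mul_le_mul a1 a2 _ zero_le_one
          positivity
      _ = 1 := one_mul 1
  have h3 := hpt _ π hπ0 hlo hhi h1 h2
  have e1 : (q0 * b0 + q1 * b1 + q2 * b2) / 3 = Wf q0 q1 q2 b0 b1 b2 := rfl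
  have e2' : ((q0 * b0) * (q1 * b1) + (q0 * b0) * (q2 * b2) + (q1 * b1) * (q2 * b2)) / 3
      = Ef q0 q1 q2 b0 b1 b2 := rfl
  have e3' : (q0 * b0) * (q1 * b1) * (q2 * b2) = π := by rw [hπ]; ring
  unfold Ut
  rw [e1, e2', e3']
  unfold ptR at h3
  nlinarith [h3]

theorem inv_sum (a b c : ℝ) (ha : 0 < a) (hb : 0 < b) (h : a + b = 2 * c) :
    2 / c ≤ 1 / a + 1 / b := by
  have hc : 0 < c := by linarith
  rw [div_add_div _ _ ha.ne' hb.ne', div_le_div_iff₀ hc (by positivity)]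
  have : c = (a + b) / 2 := by linarith
  rw [this]
  nlinarith [sq_nonneg (a - b)]

/-- **Merging bound.** -/
theorem merge_bound (φ e2 e3 : CL) (q0 q1 q2 r0 r1 r2 lo hi A : ℝ)
    (hq0 : 0 ≤ q0) (hq1 : 0 ≤ q1) (hq2 : 0 ≤ q2) (hq : q0 + q1 + q2 = 3)
    (hr0 : 0 < r0) (hr1 : 0 < r1) (hr2 : 0 < r2) (hr' : r0 + r1 + r2 = 3)
    (hpt : ∀ w π : ℝ, 0 ≤ π → lo ≤ w → w ≤ hi → π ≤ w ^ 3 → (1 ≤ w → π * w ^ 2 ≤ 1) →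
      0 ≤ ptR φ e2 e3 w π (π / w ^ 3))
    (hw : ∀ b0 b1 b2 : ℝ, (b0 = r0 ∧ b1 = r1 ∧ b2 = r2) ∨ (b0 = r1 ∧ b1 = r2 ∧ b2 = r0) ∨
      (b0 = r2 ∧ b1 = r0 ∧ b2 = r1) ∨ (b0 = r0 ∧ b1 = r2 ∧ b2 = r1) ∨
      (b0 = r2 ∧ b1 = r1 ∧ b2 = r0) ∨ (b0 = r1 ∧ b1 = r0 ∧ b2 = r2) →
      lo ≤ Wf q0 q1 q2 b0 b1 b2 ∧ Wf q0 q1 q2 b0 b1 b2 ≤ hi)
    (hH : 0 ≤ HR φ e2 e3 (Pf q0 q1 q2) (Cf q0 q1 q2) (Pf r0 r1 r2) (Cf r0 r1 r2) A) :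
    Ut φ (q0 * r0) (q1 * r1) (q2 * r2) + Ut φ (q0 * r1) (q1 * r2) (q2 * r0)
      + Ut φ (q0 * r2) (q1 * r0) (q2 * r1) + Ut φ (q0 * r0) (q1 * r2) (q2 * r1)
      + Ut φ (q0 * r2) (q1 * r1) (q2 * r0) + Ut φ (q0 * r1) (q1 * r0) (q2 * r2)
      ≤ 6 * (2 * Pf q0 q1 q2 + 2 * Pf r0 r1 r2 + A) := by
  have hq2' : q2 = 3 - q0 - q1 := by linarith
  have hr2' : r2 = 3 - r0 - r1 := by linarith
  set π := (q0 * q1 * q2) * (r0 * r1 * r2) with hπ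
  obtain ⟨l1, u1⟩ := hw r0 r1 r2 (by simp)
  obtain ⟨l2, u2⟩ := hw r1 r2 r0 (by simp)
  obtain ⟨l3, u3⟩ := hw r2 r0 r1 (by simp)
  obtain ⟨l4, u4⟩ := hw r0 r2 r1 (by simp)
  obtain ⟨l5, u5⟩ := hw r2 r1 r0 (by simp)
  obtain ⟨l6, u6⟩ := hw r1 r0 r2 (by simp)
  have t1 := term_bound φ e2 e3 q0 q1 q2 r0 r1 r2 lo hi hq0 hq1 hq2 hq hr0 hr1 hr2
    (by linarith) hpt l1 u1 π (by rw [hπ])
  have t2 := term_bound φ e2 e3 q0 q1 q2 r1 r2 r0 lo hi hq0 hq1 hq2 hq hr1 hr2 hr0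
    (by linarith) hpt l2 u2 π (by rw [hπ]; ring)
  have t3 := term_bound φ e2 e3 q0 q1 q2 r2 r0 r1 lo hi hq0 hq1 hq2 hq hr2 hr0 hr1
    (by linarith) hpt l3 u3 π (by rw [hπ]; ring)
  have t4 := term_bound φ e2 e3 q0 q1 q2 r0 r2 r1 lo hi hq0 hq1 hq2 hq hr0 hr2 hr1
    (by linarith) hpt l4 u4 π (by rw [hπ]; ring)
  have t5 := term_bound φ e2 e3 q0 q1 q2 r2 r1 r0 lo hi hq0 hq1 hq2 hq hr2 hr1 hr0
    (by linarith) hpt l5 u5 π (by rw [hπ]; ring)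
  have t6 := term_bound φ e2 e3 q0 q1 q2 r1 r0 r2 lo hi hq0 hq1 hq2 hq hr1 hr0 hr2
    (by linarith) hpt l6 u6 π (by rw [hπ]; ring)
  -- positivity of the weights
  have wpos : ∀ b0 b1 b2 : ℝ, 0 < b0 → 0 < b1 → 0 < b2 → 0 < Wf q0 q1 q2 b0 b1 b2 := by
    intro b0 b1 b2 h0 h1 h2
    unfold Wf
    rcases hq0.lt_or_eq with h | h
    · have : 0 < q0 * b0 := mul_pos h h0
      positivity
    · rcases hq1.lt_or_eq with h' | h'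
      · have : 0 < q1 * b1 := mul_pos h' h1
        positivity
      · have : 0 < q2 := by linarith
        have : 0 < q2 * b2 := mul_pos this h2
        positivity
  have p1 := wpos r0 r1 r2 hr0 hr1 hr2
  have p2 := wpos r1 r2 r0 hr1 hr2 hr0
  have p3 := wpos r2 r0 r1 hr2 hr0 hr1
  have p4 := wpos r0 r2 r1 hr0 hr2 hr1
  have p5 := wpos r2 r1 r0 hr2 hr1 hr0
  have p6 := wpos r1 r0 r2 hr1 hr0 hr2
  have ev1 := even_id q0 q1 q2 r0 r1 r2 hq2' hr2'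
  have ev2 := even_id q0 q1 q2 r0 r2 r1 hq2' (by linarith)
  have hP : Pf r0 r2 r1 = Pf r0 r1 r2 := by unfold Pf; ring
  have hC : Cf r0 r2 r1 = Cf r0 r1 r2 := by unfold Cf Pf; ring
  rw [hP, hC] at ev2
  have hD := D_id q0 q1 q2 r0 r1 r2 hq2' hr2'
  have S1 := s1_id q0 q1 q2 r0 r1 r2 hq2' hr2'
  have S2 := s2_id q0 q1 q2 r0 r1 r2 hq2' hr2'
  have S3 := s3_id q0 q1 q2 r0 r1 r2 hq2' hr2'
  set P := Pf q0 q1 q2 with hPdef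
  set C := Cf q0 q1 q2 with hCdef
  set Q := Pf r0 r1 r2 with hQdef
  set K := Cf r0 r1 r2 with hKdef
  set w1 := Wf q0 q1 q2 r0 r1 r2 with hw1
  set w2 := Wf q0 q1 q2 r1 r2 r0 with hw2
  set w3 := Wf q0 q1 q2 r2 r0 r1 with hw3
  set w4 := Wf q0 q1 q2 r0 r2 r1 with hw4
  set w5 := Wf q0 q1 q2 r2 r1 r0 with hw5
  set w6 := Wf q0 q1 q2 r1 r0 r2 with hw6
  set f1 := Ef q0 q1 q2 r0 r1 r2 with hf1
  set f2 := Ef q0 q1 q2 r1 r2 r0 with hf2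
  set f3 := Ef q0 q1 q2 r2 r0 r1 with hf3
  set f4 := Ef q0 q1 q2 r0 r2 r1 with hf4
  set f5 := Ef q0 q1 q2 r2 r1 r0 with hf5
  set f6 := Ef q0 q1 q2 r1 r0 r2 with hf6
  have epos : 0 ≤ f1 ∧ 0 ≤ f2 ∧ 0 ≤ f3 := by
    refine ⟨?_, ?_, ?_⟩
    · rw [hf1]; unfold Ef; positivity
    · rw [hf2]; unfold Ef; positivity
    · rw [hf3]; unfold Ef; positivity
  obtain ⟨ep1, ep2, ep3⟩ := epos
  have hNum : 0 ≤ Numf P C Q K := by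
    have : 0 ≤ 3 * Numf P C Q K := by rw [← ev1]; positivity
    linarith
  have d1 : 0 < w1 * w2 * w3 := by positivity
  have d2 : 0 < w4 * w5 * w6 := by positivity
  have hDb : 0 < Dbf P C Q K := by linarith
  have E1 : f1 / w1 + f2 / w2 + f3 / w3 = 3 * Numf P C Q K * (1 / (w1 * w2 * w3)) := by
    rw [← ev1]; field_simp
  have E2 : f4 / w4 + f5 / w5 + f6 / w6 = 3 * Numf P C Q K * (1 / (w4 * w5 * w6)) := by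
    rw [← ev2]; field_simp
  have E3 := inv_sum _ _ _ d1 d2 hD
  have E4 : 3 * Numf P C Q K * (2 / Dbf P C Q K)
      ≤ (f1 / w1 + f2 / w2 + f3 / w3) + (f4 / w4 + f5 / w5 + f6 / w6) := by
    rw [E1, E2, ← mul_add]
    exact mul_le_mul_of_nonneg_left E3 (by positivity)
  -- use the main inequality
  have hπ' : (1 - 3 * P + 2 * C) * (1 - 3 * Q + 2 * K) = π := by
    rw [hPdef, hCdef, hQdef, hKdef, pC, pC]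
  unfold HR at hH
  rw [hπ'] at hH
  set F := hr φ π with hF
  set g2 := hr e2 π with hg2
  set g3 := hr e3 π with hg3
  set g1 := hr (dl 1 φ) π with hg1
  have E5 : 0 ≤ Dbf P C Q K * (A - (F + 2 * ((P * Q) * g2 + (C * K) * g3)) - 2 * (1 - P - Q))
      + 2 * Numf P C Q K := by
    have : Dbf P C Q K * (A - (F + 2 * ((P * Q) * g2 + (C * K) * g3)) - 2 * (1 - P - Q))
      + 2 * Numf P C Q K = (1 - 3 * (P * Q) + 2 * (C * K)) * (A - (F + 2 * (P * Q * g2 + C * K * g3)))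
        - 2 * (2 * ((P + Q) * (P * Q - C * K)) - P * Q - P * Q * (P * Q) + 2 * (C * K)
          - 2 * (C * (Q * (1 - Q)) + K * (P * (1 - P)))) := by
      unfold Dbf Numf; ring
    rw [this]; exact hH
  have E6 : 0 ≤ (A - (F + 2 * ((P * Q) * g2 + (C * K) * g3)) - 2 * (1 - P - Q))
      + 2 * (Numf P C Q K / Dbf P C Q K) := by
    have : (A - (F + 2 * ((P * Q) * g2 + (C * K) * g3)) - 2 * (1 - P - Q))
      + 2 * (Numf P C Q K / Dbf P C Q K) = (Dbf P C Q K *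
        (A - (F + 2 * ((P * Q) * g2 + (C * K) * g3)) - 2 * (1 - P - Q))
      + 2 * Numf P C Q K) / Dbf P C Q K := by
      field_simp
    rw [this]
    exact div_nonneg E5 hDb.le
  have E7 : 3 * Numf P C Q K * (2 / Dbf P C Q K) = 6 * (Numf P C Q K / Dbf P C Q K) := by
    field_simp; ring
  rw [E7] at E4
  have S2' : ((w1 - 1) ^ 2 + (w2 - 1) ^ 2 + (w3 - 1) ^ 2 + (w4 - 1) ^ 2 + (w5 - 1) ^ 2
      + (w6 - 1) ^ 2) * g2 = 12 * (P * Q) * g2 := by rw [S2]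
  have S3' : ((w1 - 1) ^ 3 + (w2 - 1) ^ 3 + (w3 - 1) ^ 3 + (w4 - 1) ^ 3 + (w5 - 1) ^ 3
      + (w6 - 1) ^ 3) * g3 = 12 * (C * K) * g3 := by rw [S3]
  have S1' : ((w1 - 1) + (w2 - 1) + (w3 - 1) + (w4 - 1) + (w5 - 1) + (w6 - 1)) * g1 = 0 := by
    rw [S1]; ring
  linarith

end Vale.Agent.P154
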