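import Vale.Agent.P154.Bound3
import Vale.Agent.P154.Cert

/-! Stationary potentials: one merging inequality for all numbers of children. -/

namespace Vale.Agent.P154

theorem W_range (lam q0 q1 q2 b0 b1 b2 : ℝ)
    (hq0 : 0 ≤ q0) (hq1 : 0 ≤ q1) (hq2 : 0 ≤ q2) (hq : q0 + q1 + q2 = 3)
    (hb0 : 0 ≤ b0) (hb1 : 0 ≤ b1) (hb2 : 0 ≤ b2) (hb : b0 + b1 + b2 = 3) :
    min (1 - lam) (1 + 2 * lam)
      ≤ Wf q0 q1 q2 (1 + lam * (b0 - 1)) (1 + lam * (b1 - 1)) (1 + lam * (b2 - 1)) ∧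
    Wf q0 q1 q2 (1 + lam * (b0 - 1)) (1 + lam * (b1 - 1)) (1 + lam * (b2 - 1))
      ≤ max (1 - lam) (1 + 2 * lam) := by
  have e : Wf q0 q1 q2 (1 + lam * (b0 - 1)) (1 + lam * (b1 - 1)) (1 + lam * (b2 - 1))
      = 1 + lam * ((q0 * b0 + q1 * b1 + q2 * b2) / 3 - 1) := by
    have : q2 = 3 - q0 - q1 := by linarith
    subst this; unfold Wf; ring
  rw [e]
  have l : 0 ≤ q0 * b0 + q1 * b1 + q2 * b2 := by positivity
  have u : q0 * b0 + q1 * b1 + q2 * b2 ≤ 9 := by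
    have : (q0 + q1 + q2) * (b0 + b1 + b2) = 9 := by rw [hq, hb]; norm_num
    have : 0 ≤ q0 * b1 + q0 * b2 + q1 * b0 + q1 * b2 + q2 * b0 + q2 * b1 := by positivity
    nlinarith
  rcases le_total 0 lam with h | h
  · constructor
    · refine le_trans (min_le_left _ _) ?_; nlinarith
    · refine le_trans ?_ (le_max_right _ _); nlinarith
  · constructor
    · refine le_trans (min_le_right _ _) ?_; nlinarith
    · refine le_trans ?_ (le_max_left _ _); nlinarith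

theorem Vt_zero (D : Pot) : Vt D 0 0 0 = 0 := by simp [Vt]

theorem Vt_smul (D : Pot) (t a0 a1 a2 : ℝ) (ht : t ≠ 0) :
    Vt D (t * a0) (t * a1) (t * a2) = t * Vt D a0 a1 a2 := by
  have e1 : (t * a0 + t * a1 + t * a2) / 3 = t * ((a0 + a1 + a2) / 3) := by ring
  have e2 : (t * a0 * (t * a1) + t * a0 * (t * a2) + t * a1 * (t * a2)) / 3
      = t * (t * ((a0 * a1 + a0 * a2 + a1 * a2) / 3)) := by ring
  unfold Vt
  simp only [e1, e2]
  set m := (a0 + a1 + a2) / 3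
  set e := (a0 * a1 + a0 * a2 + a1 * a2) / 3
  have e3 : t * a0 * (t * a1) * (t * a2) / (t * m) ^ 3 = a0 * a1 * a2 / m ^ 3 := by
    have : t * a0 * (t * a1) * (t * a2) = t ^ 3 * (a0 * a1 * a2) := by ring
    rw [this, mul_pow, mul_div_mul_left _ _ (pow_ne_zero 3 ht)]
  have e4 : t * (t * e) / (t * m) = t * (e / m) := by
    rw [mul_div_mul_left _ _ ht]; ring
  have e5 : ((t * m) ^ 2 - t * (t * e)) / (t * m) = t * ((m ^ 2 - e) / m) := by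
    have : (t * m) ^ 2 - t * (t * e) = t * (t * (m ^ 2 - e)) := by ring
    rw [this, mul_div_mul_left _ _ ht]; ring
  have e6 : ((t * m) ^ 2 - t * (t * e)) ^ 2 / (t * m) ^ 3 = t * ((m ^ 2 - e) ^ 2 / m ^ 3) := by
    have : ((t * m) ^ 2 - t * (t * e)) ^ 2 = t ^ 3 * (t * (m ^ 2 - e) ^ 2) := by ring
    rw [this, mul_pow, mul_div_mul_left _ _ (pow_ne_zero 3 ht)]; ring
  rw [e3, e4, e5, e6]
  ring

theorem Vt_unit (D : Pot) (q0 q1 q2 : ℝ) (h : q0 + q1 + q2 = 3) :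
    Vt D q0 q1 q2 = 2 * Pf q0 q1 q2 + psiR D (Pf q0 q1 q2) (q0 * q1 * q2) := by
  unfold Vt psiR Pf
  simp only [h]
  norm_num
  ring

/-- expression of the merging inequality -/
def qE (D : Pot) (L2 L3 : PE) (cm : ℤ × ℕ) (Px Cx Pz Cz : PE) : PE :=
  HP4 D Px Cx (.mul L2 Pz) (.mul L3 Cz)
    (psub (.add (psiP D Px (pofP Px Cx)) (.mul L2 (psiP D Pz (pofP Pz Cz))))
      (.mul (.q cm.1 cm.2) (.mul Px Pz)))

def qE1 (D : Pot) (L2 L3 : PE) (cm : ℤ × ℕ) : PE :=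
  qE D L2 L3 cm (Pq (.x 0) (.x 2)) (Cq (.x 0) (.x 2))
    (Pq (.mul (.x 0) (.x 1)) (.x 3)) (Cq (.mul (.x 0) (.x 1)) (.x 3))

def qE2 (D : Pot) (L2 L3 : PE) (cm : ℤ × ℕ) : PE :=
  qE D L2 L3 cm (Pq (.mul (.x 0) (.x 1)) (.x 2)) (Cq (.mul (.x 0) (.x 1)) (.x 2))
    (Pq (.x 0) (.x 3)) (Cq (.x 0) (.x 3))

theorem qE_real (t : ℝ) (v : ℕ → ℝ) (D : Pot) (L2 L3 : PE) (cm : ℤ × ℕ) (Px Cx Pz Cz : PE) :
    (qE D L2 L3 cm Px Cx Pz Cz).real t v
      = HR4 D (Px.real t v) (Cx.real t v) (L2.real t v * Pz.real t v)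
          (L3.real t v * Cz.real t v)
          (psiR D (Px.real t v) (1 - 3 * Px.real t v + 2 * Cx.real t v)
            + L2.real t v * psiR D (Pz.real t v) (1 - 3 * Pz.real t v + 2 * Cz.real t v)
            - cv cm * (Px.real t v * Pz.real t v)) := by
  simp only [qE, psub, HP4_real, PE.real_mul, PE.real_add, PE.real_neg, PE.real_q, psiP_real,
    pofP_real, cv]
  congr 1

theorem HR4_step (t lam : ℝ) (D : Pot) (L2 L3 : PE) (cm : ℤ × ℕ)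
    (hL2 : ∀ v, L2.real t v = lam ^ 2) (hL3 : ∀ v, L3.real t v = lam ^ 3)
    (h1 : Box0 t (qE1 D L2 L3 cm)) (h2 : Box0 t (qE2 D L2 L3 cm))
    (q0 q1 q2 r0 r1 r2 : ℝ) (hq0 : 0 ≤ q0) (hq1 : 0 ≤ q1) (hq2 : 0 ≤ q2) (hq : q0 + q1 + q2 = 3)
    (hr0 : 0 ≤ r0) (hr1 : 0 ≤ r1) (hr2 : 0 ≤ r2) (hr' : r0 + r1 + r2 = 3) :
    0 ≤ HR4 D (Pf q0 q1 q2) (Cf q0 q1 q2) (lam ^ 2 * Pf r0 r1 r2) (lam ^ 3 * Cf r0 r1 r2)
      (psiR D (Pf q0 q1 q2) (q0 * q1 * q2) + lam ^ 2 * psiR D (Pf r0 r1 r2) (r0 * r1 * r2)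
        - cv cm * (Pf q0 q1 q2 * Pf r0 r1 r2)) := by
  obtain ⟨ρx, sx, a1, a2, a3, a4, e1, e2'⟩ := param q0 q1 q2 hq0 hq1 hq2 hq
  obtain ⟨ρz, sz, b1, b2, b3, b4, e3', e4⟩ := param r0 r1 r2 hr0 hr1 hr2 hr'
  rw [← pC q0 q1 q2, ← pC r0 r1 r2]
  rcases le_total ρz ρx with h | h
  · obtain ⟨τ, c1, c2, c3⟩ := exists_ratio ρz ρx b1 a1 h
    have := h1 ρx τ sx sz a1 a2 c1 c2 a3 a4 b3 b4
    rw [qE1, qE_real, hL2, hL3] at this
    simp only [Pq_real, Cq_real, PE.real_mul, PE.real_x, env, c3] at this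
    rw [← e1, ← e2', ← e3', ← e4] at this
    exact this
  · obtain ⟨τ, c1, c2, c3⟩ := exists_ratio ρx ρz a1 b1 h
    have := h2 ρz τ sx sz b1 b2 c1 c2 a3 a4 b3 b4
    rw [qE2, qE_real, hL2, hL3] at this
    simp only [Pq_real, Cq_real, PE.real_mul, PE.real_x, env, c3] at this
    rw [← e1, ← e2', ← e3', ← e4] at this
    exact this

/-- the homogeneous merging inequality -/
def MergeIneq (D : Pot) (lam cm : ℝ) : Prop :=
  ∀ a0 a1 a2 b0 b1 b2 : ℝ, 0 ≤ a0 → 0 ≤ a1 → 0 ≤ a2 → 0 ≤ b0 → 0 ≤ b1 → 0 ≤ b2 →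
    six (fun x y z => Vt D (a0 * ns lam (ms b0 b1 b2) x) (a1 * ns lam (ms b0 b1 b2) y)
        (a2 * ns lam (ms b0 b1 b2) z)) b0 b1 b2
      ≤ 6 * (ms b0 b1 b2 * Vt D a0 a1 a2 + lam ^ 2 * (ms a0 a1 a2 * Vt D b0 b1 b2)
        - cm * (chi a0 a1 a2 * chi b0 b1 b2))

theorem hom_step3 (lam : ℝ) (D : Pot) (cm : ℝ) (lo hi : ℝ)
    (hlam : -(1 / 2) < lam) (hlam1 : lam < 1)
    (hlo : lo ≤ min (1 - lam) (1 + 2 * lam)) (hhi : max (1 - lam) (1 + 2 * lam) ≤ hi)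
    (hD : PtB D lo hi)
    (hH : ∀ q0 q1 q2 r0 r1 r2 : ℝ, 0 ≤ q0 → 0 ≤ q1 → 0 ≤ q2 → q0 + q1 + q2 = 3 →
      0 ≤ r0 → 0 ≤ r1 → 0 ≤ r2 → r0 + r1 + r2 = 3 →
      0 ≤ HR4 D (Pf q0 q1 q2) (Cf q0 q1 q2) (lam ^ 2 * Pf r0 r1 r2) (lam ^ 3 * Cf r0 r1 r2)
      (psiR D (Pf q0 q1 q2) (q0 * q1 * q2) + lam ^ 2 * psiR D (Pf r0 r1 r2) (r0 * r1 * r2)
        - cm * (Pf q0 q1 q2 * Pf r0 r1 r2))) : MergeIneq D lam cm := by
  intro a0 a1 a2 b0 b1 b2 ha0 ha1 ha2 hb0 hb1 hb2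
  rcases (ms_nonneg ha0 ha1 ha2).eq_or_lt with hma | hma
  · obtain ⟨z0, z1, z2⟩ := ms_zero ha0 ha1 ha2 hma.symm
    subst z0; subst z1; subst z2
    have : ms 0 0 0 = 0 := by unfold ms; norm_num
    have h1 : chi 0 0 0 = 0 := by unfold chi; rw [this]; norm_num
    unfold six
    simp only [zero_mul, Vt_zero, this, h1]
    norm_num
  rcases (ms_nonneg hb0 hb1 hb2).eq_or_lt with hmb | hmb
  · obtain ⟨z0, z1, z2⟩ := ms_zero hb0 hb1 hb2 hmb.symm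
    subst z0; subst z1; subst z2
    have : ms 0 0 0 = 0 := by unfold ms; norm_num
    have h1 : chi 0 0 0 = 0 := by unfold chi; rw [this]; norm_num
    unfold six
    simp only [this, ns_zero, mul_zero, zero_mul, Vt_zero, h1]
    norm_num
  set ma := ms a0 a1 a2 with hma'
  set mb := ms b0 b1 b2 with hmb'
  have nq := normalize (a0 := a0) (a1 := a1) (a2 := a2) hma
  have nr := normalize (a0 := b0) (a1 := b1) (a2 := b2) hmb
  rw [← hma'] at nq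
  rw [← hmb'] at nr
  set q0 := a0 / ma with hq0
  set q1 := a1 / ma with hq1
  set q2 := a2 / ma with hq2
  set r0 := b0 / mb with hr0
  set r1 := b1 / mb with hr1
  set r2 := b2 / mb with hr2
  have q0n : 0 ≤ q0 := div_nonneg ha0 hma.le
  have q1n : 0 ≤ q1 := div_nonneg ha1 hma.le
  have q2n : 0 ≤ q2 := div_nonneg ha2 hma.le
  have r0n : 0 ≤ r0 := div_nonneg hb0 hmb.le
  have r1n : 0 ≤ r1 := div_nonneg hb1 hmb.le
  have r2n : 0 ≤ r2 := div_nonneg hb2 hmb.le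
  have ea0 : a0 = ma * q0 := by rw [hq0]; field_simp
  have ea1 : a1 = ma * q1 := by rw [hq1]; field_simp
  have ea2 : a2 = ma * q2 := by rw [hq2]; field_simp
  have eb0 : b0 = mb * r0 := by rw [hr0]; field_simp
  have eb1 : b1 = mb * r1 := by rw [hr1]; field_simp
  have eb2 : b2 = mb * r2 := by rw [hr2]; field_simp
  have U1 : Vt D a0 a1 a2 = ma * (2 * Pf q0 q1 q2 + psiR D (Pf q0 q1 q2) (q0 * q1 * q2)) := by
    rw [ea0, ea1, ea2, Vt_smul _ _ _ _ _ hma.ne', Vt_unit _ _ _ _ nq]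
  have U2 : Vt D b0 b1 b2 = mb * (2 * Pf r0 r1 r2 + psiR D (Pf r0 r1 r2) (r0 * r1 * r2)) := by
    rw [eb0, eb1, eb2, Vt_smul _ _ _ _ _ hmb.ne', Vt_unit _ _ _ _ nr]
  have X1 : chi a0 a1 a2 = ma * Pf q0 q1 q2 := by
    rw [ea0, ea1, ea2, chi_smul _ _ _ _ hma.ne', chi_unit _ _ _ nq]
  have X2 : chi b0 b1 b2 = mb * Pf r0 r1 r2 := by
    rw [eb0, eb1, eb2, chi_smul _ _ _ _ hmb.ne', chi_unit _ _ _ nr]
  have yr : ∀ r, 0 ≤ r → r ≤ 3 → 0 < 1 + lam * (r - 1) := by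
    intro r hr hr3
    rcases le_total 0 lam with h | h
    · have : 0 ≤ lam * r := by positivity
      linarith
    · nlinarith
  have r0l : r0 ≤ 3 := by linarith
  have r1l : r1 ≤ 3 := by linarith
  have r2l : r2 ≤ 3 := by linarith
  have ys : (1 + lam * (r0 - 1)) + (1 + lam * (r1 - 1)) + (1 + lam * (r2 - 1)) = 3 := by
    have : r2 = 3 - r0 - r1 := by linarith
    rw [this]; ring
  have H := hH q0 q1 q2 r0 r1 r2 q0n q1n q2n nq r0n r1n r2n nr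
  rw [← noise_P lam r0 r1 r2 nr, ← noise_C lam r0 r1 r2 nr] at H
  have M := merge_bound3 D q0 q1 q2 (1 + lam * (r0 - 1)) (1 + lam * (r1 - 1))
    (1 + lam * (r2 - 1)) lo hi _ hD q0n q1n q2n nq (yr r0 r0n r0l) (yr r1 r1n r1l)
    (yr r2 r2n r2l) ys
    (by
      rintro c0 c1 c2 (⟨h0, h1, h2⟩ | ⟨h0, h1, h2⟩ | ⟨h0, h1, h2⟩ | ⟨h0, h1, h2⟩ | ⟨h0, h1, h2⟩ |
        ⟨h0, h1, h2⟩) <;> rw [h0, h1, h2]
      · obtain ⟨l, u⟩ := W_range lam q0 q1 q2 r0 r1 r2 q0n q1n q2n nq r0n r1n r2n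
          (by linarith)
        exact ⟨by linarith, by linarith⟩
      · obtain ⟨l, u⟩ := W_range lam q0 q1 q2 r1 r2 r0 q0n q1n q2n nq r1n r2n r0n
          (by linarith)
        exact ⟨by linarith, by linarith⟩
      · obtain ⟨l, u⟩ := W_range lam q0 q1 q2 r2 r0 r1 q0n q1n q2n nq r2n r0n r1n
          (by linarith)
        exact ⟨by linarith, by linarith⟩
      · obtain ⟨l, u⟩ := W_range lam q0 q1 q2 r0 r2 r1 q0n q1n q2n nq r0n r2n r1n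
          (by linarith)
        exact ⟨by linarith, by linarith⟩
      · obtain ⟨l, u⟩ := W_range lam q0 q1 q2 r2 r1 r0 q0n q1n q2n nq r2n r1n r0n
          (by linarith)
        exact ⟨by linarith, by linarith⟩
      · obtain ⟨l, u⟩ := W_range lam q0 q1 q2 r1 r0 r2 q0n q1n q2n nq r1n r0n r2n
          (by linarith)
        exact ⟨by linarith, by linarith⟩) H
  rw [noise_P lam r0 r1 r2 nr] at M
  have key : ∀ x y z : ℝ, Vt D (a0 * ns lam mb x) (a1 * ns lam mb y) (a2 * ns lam mb z)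
      = (ma * mb) * Vt D (q0 * (1 + lam * (x / mb - 1))) (q1 * (1 + lam * (y / mb - 1)))
        (q2 * (1 + lam * (z / mb - 1))) := by
    intro x y z
    rw [← Vt_smul _ _ _ _ _ (mul_ne_zero hma.ne' hmb.ne'), ns_norm lam mb x hmb.ne',
      ns_norm lam mb y hmb.ne', ns_norm lam mb z hmb.ne', ea0, ea1, ea2]
    congr 1 <;> ring
  unfold six
  simp only [key]
  rw [← hr0, ← hr1, ← hr2, U1, U2, X1, X2]
  have M' := mul_le_mul_of_nonneg_left M (show 0 ≤ ma * mb by positivity)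
  refine le_trans (le_of_eq ?_) (le_trans M' (le_of_eq ?_))
  · ring
  · ring

/-! ### scaling and positivity of the potential -/

def scalE (D : Pot) : PE :=
  psub (.mul (.mul (.x 1) (.x 1)) (psiP D (Pq (.x 0) (.x 2))
      (pofP (Pq (.x 0) (.x 2)) (Cq (.x 0) (.x 2)))))
    (psiP D (.mul (.mul (.x 1) (.x 1)) (Pq (.x 0) (.x 2)))
      (pofP (.mul (.mul (.x 1) (.x 1)) (Pq (.x 0) (.x 2)))
      (.mul (.mul (.x 1) (.mul (.x 1) (.x 1))) (Cq (.x 0) (.x 2)))))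

/-- the potential decays quadratically under noise -/
def Quad (D : Pot) : Prop :=
  ∀ q0 q1 q2 θ : ℝ, 0 ≤ q0 → 0 ≤ q1 → 0 ≤ q2 → q0 + q1 + q2 = 3 → 0 ≤ θ → θ ≤ 1 →
    psiR D (θ ^ 2 * Pf q0 q1 q2) (1 - 3 * (θ ^ 2 * Pf q0 q1 q2) + 2 * (θ ^ 3 * Cf q0 q1 q2))
    ≤ θ ^ 2 * psiR D (Pf q0 q1 q2) (q0 * q1 * q2)

theorem quad_of_box (D : Pot) (h : Box0 0 (scalE D)) : Quad D := by
  intro q0 q1 q2 θ h0 h1 h2 hq t0 t1
  obtain ⟨ρ, s, a1, a2, a3, a4, e1, e2⟩ := param q0 q1 q2 h0 h1 h2 hq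
  have := h ρ θ s 0 a1 a2 t0 t1 a3 a4 le_rfl zero_le_one
  simp only [scalE, psub, PE.real_add, PE.real_mul, PE.real_neg, psiP_real,
    pofP_real, Pq_real, Cq_real, PE.real_x, env] at this
  rw [← e1, ← e2, pC] at this
  have e3 : θ * θ = θ ^ 2 := by ring
  have e4 : θ * (θ * θ) = θ ^ 3 := by ring
  rw [e4, e3] at this
  linarith

def posE (D : Pot) : PE :=
  .add (.mul (.q 2 0) (Pq (.x 0) (.x 1)))
    (psiP D (Pq (.x 0) (.x 1)) (pofP (Pq (.x 0) (.x 1)) (Cq (.x 0) (.x 1))))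

/-- the potential is nonnegative -/
def PosV (D : Pot) : Prop :=
  ∀ q0 q1 q2 : ℝ, 0 ≤ q0 → 0 ≤ q1 → 0 ≤ q2 → q0 + q1 + q2 = 3 →
    0 ≤ 2 * Pf q0 q1 q2 + psiR D (Pf q0 q1 q2) (q0 * q1 * q2)

theorem pos_of_box (D : Pot) (h : Box0 0 (posE D)) : PosV D := by
  intro q0 q1 q2 h0 h1 h2 hq
  obtain ⟨ρ, s, a1, a2, a3, a4, e1, e2⟩ := param q0 q1 q2 h0 h1 h2 hq
  have := h ρ s 0 0 a1 a2 a3 a4 le_rfl zero_le_one le_rfl zero_le_one
  simp only [posE, PE.real_add, PE.real_mul, PE.real_q, psiP_real,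
    pofP_real, Pq_real, Cq_real, PE.real_x, env] at this
  rw [← e1, ← e2, pC] at this
  norm_num at this
  exact this

theorem Vt_nonneg {D : Pot} (h : PosV D) (a0 a1 a2 : ℝ) (h0 : 0 ≤ a0) (h1 : 0 ≤ a1)
    (h2 : 0 ≤ a2) : 0 ≤ Vt D a0 a1 a2 := by
  rcases (ms_nonneg h0 h1 h2).eq_or_lt with hma | hma
  · obtain ⟨z0, z1, z2⟩ := ms_zero h0 h1 h2 hma.symm
    subst z0; subst z1; subst z2
    rw [Vt_zero]
  · set m := ms a0 a1 a2 with hm
    have nq := normalize (a0 := a0) (a1 := a1) (a2 := a2) hma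
    rw [← hm] at nq
    set q0 := a0 / m with hq0
    set q1 := a1 / m with hq1
    set q2 := a2 / m with hq2
    have q0n : 0 ≤ q0 := div_nonneg h0 hma.le
    have q1n : 0 ≤ q1 := div_nonneg h1 hma.le
    have q2n : 0 ≤ q2 := div_nonneg h2 hma.le
    have e0 : a0 = m * q0 := by rw [hq0]; field_simp
    have e1 : a1 = m * q1 := by rw [hq1]; field_simp
    have e2 : a2 = m * q2 := by rw [hq2]; field_simp
    rw [e0, e1, e2, Vt_smul _ _ _ _ _ hma.ne', Vt_unit _ _ _ _ nq]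
    exact mul_nonneg hma.le (h q0 q1 q2 q0n q1n q2n nq)

theorem quad_hom {D : Pot} (h : Quad D) (θ a0 a1 a2 : ℝ) (h0 : 0 ≤ a0) (h1 : 0 ≤ a1)
    (h2 : 0 ≤ a2) (t0 : 0 ≤ θ) (t1 : θ ≤ 1) :
    Vt D (ns θ (ms a0 a1 a2) a0) (ns θ (ms a0 a1 a2) a1) (ns θ (ms a0 a1 a2) a2)
      ≤ θ ^ 2 * Vt D a0 a1 a2 := by
  rcases (ms_nonneg h0 h1 h2).eq_or_lt with hma | hma
  · obtain ⟨z0, z1, z2⟩ := ms_zero h0 h1 h2 hma.symm
    subst z0; subst z1; subst z2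
    have : ms 0 0 0 = 0 := by unfold ms; norm_num
    rw [this, ns_zero, Vt_zero]; simp
  · set m := ms a0 a1 a2 with hm
    have nq := normalize (a0 := a0) (a1 := a1) (a2 := a2) hma
    rw [← hm] at nq
    set q0 := a0 / m with hq0
    set q1 := a1 / m with hq1
    set q2 := a2 / m with hq2
    have q0n : 0 ≤ q0 := div_nonneg h0 hma.le
    have q1n : 0 ≤ q1 := div_nonneg h1 hma.le
    have q2n : 0 ≤ q2 := div_nonneg h2 hma.le
    rw [ns_norm θ m a0 hma.ne', ns_norm θ m a1 hma.ne', ns_norm θ m a2 hma.ne',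
      Vt_smul _ _ _ _ _ hma.ne', ← hq0, ← hq1, ← hq2]
    have e0 : a0 = m * q0 := by rw [hq0]; field_simp
    have e1 : a1 = m * q1 := by rw [hq1]; field_simp
    have e2 : a2 = m * q2 := by rw [hq2]; field_simp
    have es : (1 + θ * (q0 - 1)) + (1 + θ * (q1 - 1)) + (1 + θ * (q2 - 1)) = 3 := by
      have : q2 = 3 - q0 - q1 := by linarith
      rw [this]; ring
    have eV : Vt D a0 a1 a2 = m * (2 * Pf q0 q1 q2 + psiR D (Pf q0 q1 q2) (q0 * q1 * q2)) := by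
      conv_lhs => rw [e0, e1, e2]
      rw [Vt_smul _ _ _ _ _ hma.ne', Vt_unit _ _ _ _ nq]
    rw [eV, Vt_unit _ _ _ _ es, ← pC (1 + θ * (q0 - 1)), noise_P _ _ _ _ nq, noise_C _ _ _ _ nq]
    have := h q0 q1 q2 θ q0n q1n q2n nq t0 t1
    have h3 : 2 * (θ ^ 2 * Pf q0 q1 q2) + psiR D (θ ^ 2 * Pf q0 q1 q2)
        (1 - 3 * (θ ^ 2 * Pf q0 q1 q2) + 2 * (θ ^ 3 * Cf q0 q1 q2))
        ≤ θ ^ 2 * (2 * Pf q0 q1 q2 + psiR D (Pf q0 q1 q2) (q0 * q1 * q2)) := by linarith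
    have h4 := mul_le_mul_of_nonneg_left h3 hma.le
    linarith

theorem chi_nonneg (a0 a1 a2 : ℝ) (h0 : 0 ≤ a0) (h1 : 0 ≤ a1) (h2 : 0 ≤ a2) :
    0 ≤ chi a0 a1 a2 := by
  rcases (ms_nonneg h0 h1 h2).eq_or_lt with hma | hma
  · obtain ⟨z0, z1, z2⟩ := ms_zero h0 h1 h2 hma.symm
    subst z0; subst z1; subst z2
    have e0 : ms 0 0 0 = 0 := by unfold ms; norm_num
    unfold chi; rw [e0]; norm_num
  · unfold chi
    have : (a0 * a1 + a0 * a2 + a1 * a2) / 3 / ms a0 a1 a2 ≤ ms a0 a1 a2 := by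
      rw [div_le_iff₀ hma]
      unfold ms
      nlinarith [sq_nonneg (a0 - a1), sq_nonneg (a1 - a2), sq_nonneg (a0 - a2)]
    linarith

/-- weakening of the noise -/
theorem MergeIneq.thin {D : Pot} {lam cm : ℝ} (h : MergeIneq D lam cm) (hq : Quad D) (θ : ℝ)
    (t0 : 0 ≤ θ) (t1 : θ ≤ 1) : MergeIneq D (lam * θ) (cm * θ ^ 2) := by
  intro a0 a1 a2 b0 b1 b2 ha0 ha1 ha2 hb0 hb1 hb2
  obtain ⟨b0', b1', b2'⟩ := ns_nonneg3 θ b0 b1 b2 hb0 hb1 hb2 t0 t1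
  have H := h _ _ _ _ _ _ ha0 ha1 ha2 b0' b1' b2'
  rw [ms_ns] at H
  have e := six_ns lam θ (ms b0 b1 b2) (fun x y z => Vt D (a0 * x) (a1 * y) (a2 * z)) b0 b1 b2
  rw [e]
  refine le_trans H ?_
  have m2 := quad_hom hq θ b0 b1 b2 hb0 hb1 hb2 t0 t1
  have c2 := chi_ns θ b0 b1 b2 hb0 hb1 hb2
  rw [c2]
  have na := ms_nonneg ha0 ha1 ha2
  have k2 := mul_le_mul_of_nonneg_left m2 na
  have k3 := mul_le_mul_of_nonneg_left k2 (sq_nonneg lam)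
  nlinarith [k3]

theorem Vt_rot (D : Pot) (x y z : ℝ) : Vt D y z x = Vt D x y z := by
  unfold Vt
  have e1 : y + z + x = x + y + z := by ring
  have e2 : y * z + y * x + z * x = x * y + x * z + y * z := by ring
  have e3 : y * z * x = x * y * z := by ring
  simp only [e1, e2, e3]

theorem Vt_sw (D : Pot) (x y z : ℝ) : Vt D x z y = Vt D x y z := by
  unfold Vt
  have e1 : x + z + y = x + y + z := by ring
  have e2 : x * z + x * y + z * y = x * y + x * z + y * z := by ring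
  have e3 : x * z * y = x * y * z := by ring
  simp only [e1, e2, e3]

/-- the potential of a noisy message -/
theorem MergeIneq.single {D : Pot} {lam cm : ℝ} (h : MergeIneq D lam cm) (hf : hr D.f 1 = 0)
    (b0 b1 b2 : ℝ) (hb0 : 0 ≤ b0) (hb1 : 0 ≤ b1) (hb2 : 0 ≤ b2) :
    Vt D (ns lam (ms b0 b1 b2) b0) (ns lam (ms b0 b1 b2) b1) (ns lam (ms b0 b1 b2) b2)
      ≤ lam ^ 2 * Vt D b0 b1 b2 := by
  have H := h 1 1 1 b0 b1 b2 zero_le_one zero_le_one zero_le_one hb0 hb1 hb2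
  have e1 : Vt D 1 1 1 = 0 := by
    rw [Vt_unit D 1 1 1 (by norm_num)]
    have : Pf 1 1 1 = 0 := by unfold Pf; norm_num
    rw [this]
    unfold psiR
    norm_num
    exact hf
  have e2 : ms 1 1 1 = 1 := by unfold ms; norm_num
  have e3 : chi 1 1 1 = 0 := by unfold chi ms; norm_num
  rw [e1, e2, e3] at H
  unfold six at H
  simp only [one_mul] at H
  set x := ns lam (ms b0 b1 b2) b0
  set y := ns lam (ms b0 b1 b2) b1
  set z := ns lam (ms b0 b1 b2) b2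
  have r1 : Vt D y z x = Vt D x y z := Vt_rot D x y z
  have r2 : Vt D z x y = Vt D x y z := by rw [Vt_rot D y z x, Vt_rot D x y z]
  have r3 : Vt D x z y = Vt D x y z := Vt_sw D x y z
  have r4 : Vt D z y x = Vt D x y z := by rw [Vt_rot D x z y, Vt_sw D x y z]
  have r5 : Vt D y x z = Vt D x y z := by rw [Vt_sw D y z x, Vt_rot D x y z]
  rw [r1, r2, r3, r4, r5] at H
  linarith

/-- the method from a stationary potential -/
theorem method3 {D : Pot} {lam cm : ℝ} (h : MergeIneq D lam cm) (hf : hr D.f 1 = 0)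
    (hpos : PosV D) (hcm : 0 < cm) (hl0 : lam ≠ 0) (hl : -(1 / 2) ≤ lam) (hl1 : lam ≤ 1) (d : ℕ)
    (hd : 2 ≤ d) (hdl : (d : ℝ) * lam ^ 2 ≤ 1) :
    Method d lam (1 / d) (cm * lam ^ 2) 0 (fun _ => Vt D) := by
  have hd0 : (0 : ℝ) < d := by
    have : 0 < d := by omega
    exact_mod_cast this
  have hle : lam ^ 2 ≤ 1 / d := by rw [le_div_iff₀ hd0]; linarith
  refine ⟨by positivity, le_rfl, hd, by field_simp, hl1, hl, ?_, ?_, ?_⟩
  · intro a0 a1 a2 b0 b1 b2 ha0 ha1 ha2 hb0 hb1 hb2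
    have hns : ∀ x : ℝ, 0 ≤ x → x ≤ 3 * ms a0 a1 a2 → 0 ≤ ns lam (ms a0 a1 a2) x := by
      intro x hx hx3
      have hm := ms_nonneg ha0 ha1 ha2
      unfold ns
      rcases le_total 0 lam with h' | h'
      · have : 0 ≤ lam * x := by positivity
        nlinarith
      · nlinarith
    have u0 : a0 ≤ 3 * ms a0 a1 a2 := by unfold ms; linarith
    have u1 : a1 ≤ 3 * ms a0 a1 a2 := by unfold ms; linarith
    have u2 : a2 ≤ 3 * ms a0 a1 a2 := by unfold ms; linarith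
    have H := h _ _ _ b0 b1 b2 (hns a0 ha0 u0) (hns a1 ha1 u1) (hns a2 ha2 u2) hb0 hb1 hb2
    rw [ms_ns] at H
    refine le_trans H ?_
    have s1 := h.single hf a0 a1 a2 ha0 ha1 ha2
    have na := ms_nonneg ha0 ha1 ha2
    have nb := ms_nonneg hb0 hb1 hb2
    have va := Vt_nonneg hpos a0 a1 a2 ha0 ha1 ha2
    have vb := Vt_nonneg hpos b0 b1 b2 hb0 hb1 hb2
    have c1 : chi (ns lam (ms a0 a1 a2) a0) (ns lam (ms a0 a1 a2) a1) (ns lam (ms a0 a1 a2) a2)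
        = lam ^ 2 * chi a0 a1 a2 := by
      rcases (ms_nonneg ha0 ha1 ha2).eq_or_lt with hma | hma
      · obtain ⟨z0, z1, z2⟩ := ms_zero ha0 ha1 ha2 hma.symm
        subst z0; subst z1; subst z2
        have e0 : ms 0 0 0 = 0 := by unfold ms; norm_num
        have e1 : chi 0 0 0 = 0 := by unfold chi; rw [e0]; norm_num
        rw [e0, ns_zero, e1, mul_zero]
      · unfold chi
        rw [ms_ns]
        have : ns lam (ms a0 a1 a2) a0 * ns lam (ms a0 a1 a2) a1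
            + ns lam (ms a0 a1 a2) a0 * ns lam (ms a0 a1 a2) a2
            + ns lam (ms a0 a1 a2) a1 * ns lam (ms a0 a1 a2) a2
            = (1 - lam ^ 2) * (3 * ms a0 a1 a2 ^ 2) + lam ^ 2 * (a0 * a1 + a0 * a2 + a1 * a2) := by
          unfold ns ms; ring
        rw [this]
        field_simp
        ring
    rw [c1]
    have k1 := mul_le_mul_of_nonneg_left s1 nb
    have k2 : ms b0 b1 b2 * (lam ^ 2 * Vt D a0 a1 a2) ≤ ms b0 b1 b2 * (1 / d * Vt D a0 a1 a2) :=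
      mul_le_mul_of_nonneg_left (mul_le_mul_of_nonneg_right hle va) nb
    have k3 : lam ^ 2 * (ms a0 a1 a2 * Vt D b0 b1 b2) ≤ 1 / d * (ms a0 a1 a2 * Vt D b0 b1 b2) :=
      mul_le_mul_of_nonneg_right hle (mul_nonneg na vb)
    nlinarith [k1, k2, k3]
  · intro k _ _ a0 a1 a2 b0 b1 b2 ha0 ha1 ha2 hb0 hb1 hb2
    have H := h _ _ _ b0 b1 b2 ha0 ha1 ha2 hb0 hb1 hb2
    refine le_trans H ?_
    have na := ms_nonneg ha0 ha1 ha2
    have vb := Vt_nonneg hpos b0 b1 b2 hb0 hb1 hb2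
    have x1 := chi_nonneg a0 a1 a2 ha0 ha1 ha2
    have x2 := chi_nonneg b0 b1 b2 hb0 hb1 hb2
    have k3 : lam ^ 2 * (ms a0 a1 a2 * Vt D b0 b1 b2) ≤ 1 / d * (ms a0 a1 a2 * Vt D b0 b1 b2) :=
      mul_le_mul_of_nonneg_right hle (mul_nonneg na vb)
    have k4 : 0 ≤ cm * (chi a0 a1 a2 * chi b0 b1 b2) := by positivity
    linarith
  · intro a0 a1 a2 h0 h1 h2
    have := Vt_nonneg hpos a0 a1 a2 h0 h1 h2
    linarith

end Vale.Agent.P154
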