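import Vale.Agent.P154.Frame2
import Vale.Agent.P154.Step3

/-! From polynomial certificates to the step inequality. -/

namespace Vale.Agent.P154

/-- the potential as a function of `P` and `C` -/
noncomputable def gR (D : NP) (P C : ℝ) : ℝ := wR D P (1 - 3 * P + 2 * C)

/-- majorant minus potential, at weight `w`, for the message with parameters `x 1`, `x 2` -/
def UE (w r : PE) (D : NP) : PE :=
  psub (uP D r (.mul (ppow w 2) (psub one' (Pq (.x 1) (.x 2))))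
      (.mul (pofP (Pq (.x 1) (.x 2)) (Cq (.x 1) (.x 2))) (ppow w 3)))
    (.mul w (wP D (Pq (.x 1) (.x 2)) (pofP (Pq (.x 1) (.x 2)) (Cq (.x 1) (.x 2)))))

def UE0 (c : ℤ × ℕ) (D : NP) : PE :=
  UE (psub one' (.mul (.q c.1 c.2) (.x 0))) (.neg (.mul (.q c.1 c.2) (.x 0))) D
def UE1 (c : ℤ × ℕ) (D : NP) : PE :=
  UE (.add one' (.mul (.q c.1 c.2) (.x 0))) (.mul (.q c.1 c.2) (.x 0)) D

/-- the majorant dominates the potential for weights between `lo` and `hi` -/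
def UB (D : NP) (lo hi : ℝ) : Prop :=
  ∀ w x0 x1 x2 : ℝ, lo ≤ w → w ≤ hi → 0 ≤ x0 → 0 ≤ x1 → 0 ≤ x2 → x0 + x1 + x2 = 3 →
    w * gR D (Pf x0 x1 x2) (Cf x0 x1 x2)
      ≤ uR D (w - 1) (w ^ 2 * (1 - Pf x0 x1 x2)) (x0 * x1 * x2 * w ^ 3)

theorem UE_real (v : ℕ → ℝ) (w r : PE) (D : NP) :
    (UE w r D).real 0 v = uR D (r.real 0 v)
      ((w.real 0 v) ^ 2 * (1 - v 1 * v 1 * (1 + -3 / 4 * v 2)))
      ((1 - 3 * (v 1 * v 1 * (1 + -3 / 4 * v 2)) + 2 * (v 1 * (v 1 * v 1) * (1 + -9 / 8 * v 2)))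
        * (w.real 0 v) ^ 3)
      - w.real 0 v * gR D (v 1 * v 1 * (1 + -3 / 4 * v 2))
        (v 1 * (v 1 * v 1) * (1 + -9 / 8 * v 2)) := by
  simp only [UE, gR, psub, one', PE.real_add, PE.real_mul, PE.real_neg, PE.real_q, uP_real,
    wP_real, pofP_real, Pq_real, Cq_real, PE.real_x, ppow_real]
  norm_num [sub_eq_add_neg]

theorem UB_of_box (c c' : ℤ × ℕ) (D : NP) (hc : 0 < cv c) (hc' : 0 < cv c')
    (h0 : Box0 0 (UE0 c D)) (h1 : Box0 0 (UE1 c' D)) : UB D (1 - cv c) (1 + cv c') := by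
  intro w x0 x1 x2 hlo hhi p0 p1 p2 hx
  obtain ⟨ρ, s, a1, a2, a3, a4, e1, e2⟩ := param x0 x1 x2 p0 p1 p2 hx
  have ep : x0 * x1 * x2 = 1 - 3 * Pf x0 x1 x2 + 2 * Cf x0 x1 x2 := (pC x0 x1 x2).symm
  rw [ep]
  rcases le_total w 1 with h | h
  · have k := h0 ((1 - w) / cv c) ρ s 0 (div_nonneg (by linarith) hc.le)
      ((div_le_one hc).2 (by linarith)) a1 a2 a3 a4 le_rfl zero_le_one
    rw [UE0, UE_real] at k
    simp only [psub, one', PE.real_add, PE.real_mul, PE.real_neg, PE.real_q, PE.real_x, env] at k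
    have ec : (c.1 : ℝ) / ((c.2 : ℝ) + 1) * ((1 - w) / cv c) = 1 - w := by
      have : (c.1 : ℝ) / ((c.2 : ℝ) + 1) = cv c := rfl
      rw [this]; field_simp
    rw [ec, ← e1, ← e2] at k
    have e3 : ((1 : ℤ) : ℝ) / (((0 : ℕ) : ℝ) + 1) + -(1 - w) = w := by norm_num
    have e4 : -(1 - w) = w - 1 := by ring
    rw [e3, e4] at k
    linarith
  · have k := h1 ((w - 1) / cv c') ρ s 0 (div_nonneg (by linarith) hc'.le)
      ((div_le_one hc').2 (by linarith)) a1 a2 a3 a4 le_rfl zero_le_one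
    rw [UE1, UE_real] at k
    simp only [psub, one', PE.real_add, PE.real_mul, PE.real_neg, PE.real_q, PE.real_x, env] at k
    have ec : (c'.1 : ℝ) / ((c'.2 : ℝ) + 1) * ((w - 1) / cv c') = w - 1 := by
      have : (c'.1 : ℝ) / ((c'.2 : ℝ) + 1) = cv c' := rfl
      rw [this]; field_simp
    rw [ec, ← e1, ← e2] at k
    have e3 : ((1 : ℤ) : ℝ) / (((0 : ℕ) : ℝ) + 1) + (w - 1) = w := by norm_num
    rw [e3] at k
    linarith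

theorem UB.mono {D : NP} {lo hi lo' hi' : ℝ} (h : UB D lo hi) (h1 : lo ≤ lo') (h2 : hi' ≤ hi) :
    UB D lo' hi' := fun w x0 x1 x2 a b => h w x0 x1 x2 (h1.trans a) (b.trans h2)

theorem term_bound2 (D : NP) (lo hi : ℝ) (hU : UB D lo hi) (q0 q1 q2 b0 b1 b2 : ℝ)
    (hq0 : 0 ≤ q0) (hq1 : 0 ≤ q1) (hq2 : 0 ≤ q2)
    (hb0 : 0 ≤ b0) (hb1 : 0 ≤ b1) (hb2 : 0 ≤ b2)
    (hlo : lo ≤ Wf q0 q1 q2 b0 b1 b2) (hhi : Wf q0 q1 q2 b0 b1 b2 ≤ hi) :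
    hom (gR D) (q0 * b0) (q1 * b1) (q2 * b2)
      ≤ uR D (Wf q0 q1 q2 b0 b1 b2 - 1) (Ef q0 q1 q2 b0 b1 b2) (q0 * q1 * q2 * (b0 * b1 * b2)) := by
  have p0 : 0 ≤ q0 * b0 := mul_nonneg hq0 hb0
  have p1 : 0 ≤ q1 * b1 := mul_nonneg hq1 hb1
  have p2 : 0 ≤ q2 * b2 := mul_nonneg hq2 hb2
  have em : ms (q0 * b0) (q1 * b1) (q2 * b2) = Wf q0 q1 q2 b0 b1 b2 := rfl
  have hw : 0 ≤ Wf q0 q1 q2 b0 b1 b2 := by rw [← em]; exact ms_nonneg p0 p1 p2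
  rcases hw.eq_or_lt with h | h
  · obtain ⟨z0, z1, z2⟩ := ms_zero p0 p1 p2 (em.trans h.symm)
    have k := hU 0 1 1 1 (by rw [h]; exact hlo) (by rw [h]; exact hhi) zero_le_one zero_le_one
      zero_le_one (by norm_num)
    have eE : Ef q0 q1 q2 b0 b1 b2 = 0 := by unfold Ef; rw [z0, z1, z2]; norm_num
    have eπ : q0 * q1 * q2 * (b0 * b1 * b2) = 0 := by
      have : q0 * q1 * q2 * (b0 * b1 * b2) = (q0 * b0) * (q1 * b1) * (q2 * b2) := by ring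
      rw [this, z0]; ring
    rw [z0, z1, z2, hom_zero, ← h, eE, eπ]
    norm_num at k
    norm_num
    exact k
  · set w := Wf q0 q1 q2 b0 b1 b2 with hwdef
    have nq := normalize (a0 := q0 * b0) (a1 := q1 * b1) (a2 := q2 * b2) (by rw [em]; exact h)
    rw [em] at nq
    have k := hU w (q0 * b0 / w) (q1 * b1 / w) (q2 * b2 / w) hlo hhi (div_nonneg p0 h.le)
      (div_nonneg p1 h.le) (div_nonneg p2 h.le) nq
    have e1 : w ^ 2 * (1 - Pf (q0 * b0 / w) (q1 * b1 / w) (q2 * b2 / w))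
        = Ef q0 q1 q2 b0 b1 b2 := by
      unfold Pf Ef; field_simp; ring
    have e2 : q0 * b0 / w * (q1 * b1 / w) * (q2 * b2 / w) * w ^ 3
        = q0 * q1 * q2 * (b0 * b1 * b2) := by field_simp
    rw [e1, e2] at k
    unfold hom
    rw [em]
    exact k

/-- **Merging bound.** -/
theorem merge2 (D : NP) (lo hi : ℝ) (hU : UB D lo hi) (q0 q1 q2 r0 r1 r2 : ℝ)
    (hq0 : 0 ≤ q0) (hq1 : 0 ≤ q1) (hq2 : 0 ≤ q2) (hq : q0 + q1 + q2 = 3)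
    (hr0 : 0 ≤ r0) (hr1 : 0 ≤ r1) (hr2 : 0 ≤ r2) (hr' : r0 + r1 + r2 = 3)
    (l0 : lo ≤ r0) (l1 : lo ≤ r1) (l2 : lo ≤ r2) (u0 : r0 ≤ hi) (u1 : r1 ≤ hi) (u2 : r2 ≤ hi) :
    hom (gR D) (q0 * r0) (q1 * r1) (q2 * r2) + hom (gR D) (q0 * r1) (q1 * r2) (q2 * r0)
      + hom (gR D) (q0 * r2) (q1 * r0) (q2 * r1) + hom (gR D) (q0 * r0) (q1 * r2) (q2 * r1)
      + hom (gR D) (q0 * r2) (q1 * r1) (q2 * r0) + hom (gR D) (q0 * r1) (q1 * r0) (q2 * r2)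
      ≤ 6 * avg D (Pf q0 q1 q2) (Cf q0 q1 q2) (Pf r0 r1 r2) (Cf r0 r1 r2) := by
  have rng : ∀ b0 b1 b2 : ℝ, lo ≤ b0 → lo ≤ b1 → lo ≤ b2 → b0 ≤ hi → b1 ≤ hi → b2 ≤ hi →
      lo ≤ Wf q0 q1 q2 b0 b1 b2 ∧ Wf q0 q1 q2 b0 b1 b2 ≤ hi := by
    intro b0 b1 b2 k0 k1 k2 m0 m1 m2
    have n0 := mul_le_mul_of_nonneg_left k0 hq0
    have n1 := mul_le_mul_of_nonneg_left k1 hq1
    have n2 := mul_le_mul_of_nonneg_left k2 hq2
    have n3 := mul_le_mul_of_nonneg_left m0 hq0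
    have n4 := mul_le_mul_of_nonneg_left m1 hq1
    have n5 := mul_le_mul_of_nonneg_left m2 hq2
    have e1 : q0 * lo + q1 * lo + q2 * lo = 3 * lo := by rw [← hq]; ring
    have e2 : q0 * hi + q1 * hi + q2 * hi = 3 * hi := by rw [← hq]; ring
    unfold Wf
    constructor <;> linarith
  obtain ⟨a1, c1⟩ := rng r0 r1 r2 l0 l1 l2 u0 u1 u2
  obtain ⟨a2, c2⟩ := rng r1 r2 r0 l1 l2 l0 u1 u2 u0
  obtain ⟨a3, c3⟩ := rng r2 r0 r1 l2 l0 l1 u2 u0 u1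
  obtain ⟨a4, c4⟩ := rng r0 r2 r1 l0 l2 l1 u0 u2 u1
  obtain ⟨a5, c5⟩ := rng r2 r1 r0 l2 l1 l0 u2 u1 u0
  obtain ⟨a6, c6⟩ := rng r1 r0 r2 l1 l0 l2 u1 u0 u2
  have t1 := term_bound2 D lo hi hU q0 q1 q2 r0 r1 r2 hq0 hq1 hq2 hr0 hr1 hr2 a1 c1
  have t2 := term_bound2 D lo hi hU q0 q1 q2 r1 r2 r0 hq0 hq1 hq2 hr1 hr2 hr0 a2 c2
  have t3 := term_bound2 D lo hi hU q0 q1 q2 r2 r0 r1 hq0 hq1 hq2 hr2 hr0 hr1 a3 c3
  have t4 := term_bound2 D lo hi hU q0 q1 q2 r0 r2 r1 hq0 hq1 hq2 hr0 hr2 hr1 a4 c4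
  have t5 := term_bound2 D lo hi hU q0 q1 q2 r2 r1 r0 hq0 hq1 hq2 hr2 hr1 hr0 a5 c5
  have t6 := term_bound2 D lo hi hU q0 q1 q2 r1 r0 r2 hq0 hq1 hq2 hr1 hr0 hr2 a6 c6
  set π := q0 * q1 * q2 * (r0 * r1 * r2) with hπ
  rw [show q0 * q1 * q2 * (r1 * r2 * r0) = π by rw [hπ]; ring] at t2
  rw [show q0 * q1 * q2 * (r2 * r0 * r1) = π by rw [hπ]; ring] at t3
  rw [show q0 * q1 * q2 * (r0 * r2 * r1) = π by rw [hπ]; ring] at t4
  rw [show q0 * q1 * q2 * (r2 * r1 * r0) = π by rw [hπ]; ring] at t5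
  rw [show q0 * q1 * q2 * (r1 * r0 * r2) = π by rw [hπ]; ring] at t6
  have hr2' : r2 = 3 - r0 - r1 := by linarith
  have six := six_U D (q0 - 1) (q1 - 1) (r0 - 1) (r1 - 1) π
  simp only [s6] at six
  have y2 : -(r0 - 1) - (r1 - 1) = r2 - 1 := by rw [hr2']; ring
  rw [y2, ← Pf_Pc q0 q1 q2 hq, ← Pf_Pc r0 r1 r2 hr', ← Cf_Cc q0 q1 q2 hq,
    ← Cf_Cc r0 r1 r2 hr'] at six
  have k1 := Nn_rr q0 q1 q2 r0 r1 r2 hq hr'
  have k2 := Nn_rr q0 q1 q2 r1 r2 r0 hq (by linarith)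
  have k3 := Nn_rr q0 q1 q2 r2 r0 r1 hq (by linarith)
  have k4 := Nn_rr q0 q1 q2 r0 r2 r1 hq (by linarith)
  have k5 := Nn_rr q0 q1 q2 r2 r1 r0 hq (by linarith)
  have k6 := Nn_rr q0 q1 q2 r1 r0 r2 hq (by linarith)
  rw [← Pf_Pc q0 q1 q2 hq, ← Pf_Pc r0 r1 r2 (by linarith)] at k1
  rw [← Pf_Pc q0 q1 q2 hq, ← Pf_Pc r1 r2 r0 (by linarith),
    show Pf r1 r2 r0 = Pf r0 r1 r2 by unfold Pf; ring] at k2
  rw [← Pf_Pc q0 q1 q2 hq, ← Pf_Pc r2 r0 r1 (by linarith),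
    show Pf r2 r0 r1 = Pf r0 r1 r2 by unfold Pf; ring] at k3
  rw [← Pf_Pc q0 q1 q2 hq, ← Pf_Pc r0 r2 r1 (by linarith),
    show Pf r0 r2 r1 = Pf r0 r1 r2 by unfold Pf; ring] at k4
  rw [← Pf_Pc q0 q1 q2 hq, ← Pf_Pc r2 r1 r0 (by linarith),
    show Pf r2 r1 r0 = Pf r0 r1 r2 by unfold Pf; ring] at k5
  rw [← Pf_Pc q0 q1 q2 hq, ← Pf_Pc r1 r0 r2 (by linarith),
    show Pf r1 r0 r2 = Pf r0 r1 r2 by unfold Pf; ring] at k6
  rw [← k1, ← k2, ← k3, ← k4, ← k5, ← k6, ← Wf_rr q0 q1 q2 r0 r1 r2 hq hr',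
    ← Wf_rr q0 q1 q2 r1 r2 r0 hq (by linarith), ← Wf_rr q0 q1 q2 r2 r0 r1 hq (by linarith),
    ← Wf_rr q0 q1 q2 r0 r2 r1 hq (by linarith), ← Wf_rr q0 q1 q2 r2 r1 r0 hq (by linarith),
    ← Wf_rr q0 q1 q2 r1 r0 r2 hq (by linarith)] at six
  have red : ∀ w e : ℝ, (1 + (w - 1)) ^ 2 - (w ^ 2 - e) = e := by intro w e; ring
  simp only [red] at six
  have hπ' : (1 - 3 * Pf q0 q1 q2 + 2 * Cf q0 q1 q2) * (1 - 3 * Pf r0 r1 r2 + 2 * Cf r0 r1 r2)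
      = π := by rw [pC, pC]
  unfold avg
  rw [hπ']
  linarith

/-- normalized `P` and `C` -/
noncomputable def Pn (a0 a1 a2 : ℝ) : ℝ :=
  Pf (a0 / ms a0 a1 a2) (a1 / ms a0 a1 a2) (a2 / ms a0 a1 a2)
noncomputable def Cn (a0 a1 a2 : ℝ) : ℝ :=
  Cf (a0 / ms a0 a1 a2) (a1 / ms a0 a1 a2) (a2 / ms a0 a1 a2)

theorem hom_eq (g : ℝ → ℝ → ℝ) (a0 a1 a2 : ℝ) :
    hom g a0 a1 a2 = ms a0 a1 a2 * g (Pn a0 a1 a2) (Cn a0 a1 a2) := rfl

/-- homogeneous merging bound -/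
theorem hom_merge (D : NP) (lam lo hi : ℝ) (hU : UB D lo hi) (h1 : lam ≤ 1)
    (h0 : -(1 / 2) ≤ lam) (hlo : lo ≤ 1 - lam) (hlo' : lo ≤ 1 + 2 * lam)
    (hhi : 1 - lam ≤ hi) (hhi' : 1 + 2 * lam ≤ hi)
    (a0 a1 a2 b0 b1 b2 : ℝ) (ha0 : 0 ≤ a0) (ha1 : 0 ≤ a1) (ha2 : 0 ≤ a2)
    (hb0 : 0 ≤ b0) (hb1 : 0 ≤ b1) (hb2 : 0 ≤ b2) :
    six (fun x y z => hom (gR D) (a0 * ns lam (ms b0 b1 b2) x) (a1 * ns lam (ms b0 b1 b2) y)
        (a2 * ns lam (ms b0 b1 b2) z)) b0 b1 b2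
      ≤ 6 * (ms a0 a1 a2 * ms b0 b1 b2 * avg D (Pn a0 a1 a2) (Cn a0 a1 a2)
        (lam ^ 2 * Pn b0 b1 b2) (lam ^ 3 * Cn b0 b1 b2)) := by
  rcases (ms_nonneg ha0 ha1 ha2).eq_or_lt with hma | hma
  · obtain ⟨z0, z1, z2⟩ := ms_zero ha0 ha1 ha2 hma.symm
    subst z0; subst z1; subst z2
    have : ms 0 0 0 = 0 := by unfold ms; norm_num
    unfold six
    simp only [zero_mul, hom_zero, this]
    norm_num
  rcases (ms_nonneg hb0 hb1 hb2).eq_or_lt with hmb | hmb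
  · obtain ⟨z0, z1, z2⟩ := ms_zero hb0 hb1 hb2 hmb.symm
    subst z0; subst z1; subst z2
    have : ms 0 0 0 = 0 := by unfold ms; norm_num
    unfold six
    simp only [this, ns_zero, mul_zero, hom_zero]
    norm_num
  have nq := normalize (a0 := a0) (a1 := a1) (a2 := a2) hma
  have nr := normalize (a0 := b0) (a1 := b1) (a2 := b2) hmb
  unfold Pn Cn
  set ma := ms a0 a1 a2 with hma'
  set mb := ms b0 b1 b2 with hmb'
  set q0 := a0 / ma with hq0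
  set q1 := a1 / ma with hq1
  set q2 := a2 / ma with hq2
  set r0 := b0 / mb with hr0
  set r1 := b1 / mb with hr1
  set r2 := b2 / mb with hr2
  have q0n : 0 ≤ q0 := div_nonneg ha0 hma.le
  have q1n : 0 ≤ q1 := div_nonneg ha1 hma.le
  have q2n : 0 ≤ q2 := div_nonneg ha2 hma.le
  have r0n : 0 ≤ r0 := div_nonneg hb0 hmb.le
  have r1n : 0 ≤ r1 := div_nonneg hb1 hmb.le
  have r2n : 0 ≤ r2 := div_nonneg hb2 hmb.le
  have ea0 : a0 = ma * q0 := by rw [hq0]; field_simp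
  have ea1 : a1 = ma * q1 := by rw [hq1]; field_simp
  have ea2 : a2 = ma * q2 := by rw [hq2]; field_simp
  have rg : ∀ r, 0 ≤ r → r ≤ 3 → lo ≤ 1 + lam * (r - 1) ∧ 1 + lam * (r - 1) ≤ hi
      ∧ 0 ≤ 1 + lam * (r - 1) := by
    intro r hr hr3
    rcases le_total 0 lam with h | h
    · have k1 : 0 ≤ lam * r := mul_nonneg h hr
      have k2 : lam * r ≤ lam * 3 := mul_le_mul_of_nonneg_left hr3 h
      refine ⟨by linarith, by linarith, by linarith⟩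
    · have k1 : lam * r ≤ 0 := mul_nonpos_of_nonpos_of_nonneg h hr
      have k2 : lam * 3 ≤ lam * r := mul_le_mul_of_nonpos_left hr3 h
      refine ⟨by linarith, by linarith, by linarith⟩
  obtain ⟨l0, u0, n0⟩ := rg r0 r0n (by linarith)
  obtain ⟨l1, u1, n1⟩ := rg r1 r1n (by linarith)
  obtain ⟨l2, u2, n2⟩ := rg r2 r2n (by linarith)
  have ys : (1 + lam * (r0 - 1)) + (1 + lam * (r1 - 1)) + (1 + lam * (r2 - 1)) = 3 := by
    have : r2 = 3 - r0 - r1 := by linarith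
    rw [this]; ring
  have M := merge2 D lo hi hU q0 q1 q2 (1 + lam * (r0 - 1)) (1 + lam * (r1 - 1))
    (1 + lam * (r2 - 1)) q0n q1n q2n nq n0 n1 n2 ys l0 l1 l2 u0 u1 u2
  rw [noise_P lam r0 r1 r2 nr, noise_C lam r0 r1 r2 nr] at M
  have key : ∀ x y z : ℝ, hom (gR D) (a0 * ns lam mb x) (a1 * ns lam mb y) (a2 * ns lam mb z)
      = (ma * mb) * hom (gR D) (q0 * (1 + lam * (x / mb - 1))) (q1 * (1 + lam * (y / mb - 1)))
        (q2 * (1 + lam * (z / mb - 1))) := by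
    intro x y z
    rw [← hom_smul, ns_norm lam mb x hmb.ne',
      ns_norm lam mb y hmb.ne', ns_norm lam mb z hmb.ne']
    conv_lhs => rw [ea0, ea1, ea2]
    congr 1 <;> ring
  have e6 : six (fun x y z => hom (gR D) (a0 * ns lam mb x) (a1 * ns lam mb y)
      (a2 * ns lam mb z)) b0 b1 b2 = (ma * mb) *
        (hom (gR D) (q0 * (1 + lam * (r0 - 1))) (q1 * (1 + lam * (r1 - 1)))
        (q2 * (1 + lam * (r2 - 1)))
      + hom (gR D) (q0 * (1 + lam * (r1 - 1))) (q1 * (1 + lam * (r2 - 1)))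
        (q2 * (1 + lam * (r0 - 1)))
      + hom (gR D) (q0 * (1 + lam * (r2 - 1))) (q1 * (1 + lam * (r0 - 1)))
        (q2 * (1 + lam * (r1 - 1)))
      + hom (gR D) (q0 * (1 + lam * (r0 - 1))) (q1 * (1 + lam * (r2 - 1)))
        (q2 * (1 + lam * (r1 - 1)))
      + hom (gR D) (q0 * (1 + lam * (r2 - 1))) (q1 * (1 + lam * (r1 - 1)))
        (q2 * (1 + lam * (r0 - 1)))
      + hom (gR D) (q0 * (1 + lam * (r1 - 1))) (q1 * (1 + lam * (r0 - 1)))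
        (q2 * (1 + lam * (r2 - 1)))) := by
    unfold six
    simp only [key]
    ring
  rw [e6]
  calc _ ≤ (ma * mb) * (6 * avg D (Pf q0 q1 q2) (Cf q0 q1 q2) (lam ^ 2 * Pf r0 r1 r2)
        (lam ^ 3 * Cf r0 r1 r2)) := mul_le_mul_of_nonneg_left M (by positivity)
    _ = _ := by ring

end Vale.Agent.P154
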