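import Vale.Agent.P154.Mom
import Vale.Agent.P154.Hom

/-! Merging bound for potentials `2P + f(p) + P g(p) + P² h(p)`. -/

namespace Vale.Agent.P154

/-- the homogeneous potential -/
noncomputable def Vt (D : Pot) (a0 a1 a2 : ℝ) : ℝ :=
  let m := (a0 + a1 + a2) / 3
  let e := (a0 * a1 + a0 * a2 + a1 * a2) / 3
  let p := a0 * a1 * a2 / m ^ 3
  2 * m - 2 * (e / m) + (m * hr D.f p + ((m ^ 2 - e) / m * hr D.g p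
    + (m ^ 2 - e) ^ 2 / m ^ 3 * hr D.h p))

theorem Nn_nonneg (q0 q1 q2 b0 b1 b2 : ℝ) :
    0 ≤ (Wf q0 q1 q2 b0 b1 b2) ^ 2 - Ef q0 q1 q2 b0 b1 b2 := by
  unfold Wf Ef
  nlinarith [sq_nonneg (q0 * b0 - q1 * b1), sq_nonneg (q1 * b1 - q2 * b2),
    sq_nonneg (q0 * b0 - q2 * b2)]

/-- the pointwise bounds for the three parts of a potential -/
structure PtB (D : Pot) (lo hi : ℝ) : Prop where
  hf : ∀ w π : ℝ, 0 ≤ π → lo ≤ w → w ≤ hi → π ≤ w ^ 3 → (1 ≤ w → π * w ^ 2 ≤ 1) →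
      0 ≤ pt4R 0 1 D.f D.f2 D.f3 D.f4 w π (π / w ^ 3)
  hg : ∀ w π : ℝ, 0 ≤ π → lo ≤ w → w ≤ hi → π ≤ w ^ 3 → (1 ≤ w → π * w ^ 2 ≤ 1) →
      0 ≤ pt4R 1 0 D.g D.g2 D.g3 D.g4 w π (π / w ^ 3)
  hh : ∀ w π : ℝ, 0 ≤ π → lo ≤ w → w ≤ hi → π ≤ w ^ 3 → (1 ≤ w → π * w ^ 2 ≤ 1) →
      0 ≤ pt4R 3 0 D.h D.h2 D.h3 D.h4 w π (π / w ^ 3)

/-- polynomial upper bound of one term, in terms of `r = w - 1`, `N` and `π` -/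
noncomputable def termU (D : Pot) (r N π : ℝ) : ℝ :=
  (hr D.f π + r * (hr (dl 1 D.f) π + r * (hr D.f2 π + r * (hr D.f3 π + r * hr D.f4 π))))
  + (N * (hr D.g π + r * (hr (dl (-1) D.g) π + r * (hr D.g2 π + r * (hr D.g3 π
      + r * hr D.g4 π))))
  + N ^ 2 * (hr D.h π + r * (hr (dl (-3) D.h) π + r * (hr D.h2 π + r * (hr D.h3 π
      + r * hr D.h4 π)))))

theorem term_bound3 (D : Pot) (lo hi : ℝ) (hD : PtB D lo hi) (q0 q1 q2 b0 b1 b2 : ℝ)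
    (hq0 : 0 ≤ q0) (hq1 : 0 ≤ q1) (hq2 : 0 ≤ q2) (hq : q0 + q1 + q2 = 3)
    (hb0 : 0 < b0) (hb1 : 0 < b1) (hb2 : 0 < b2) (hb : b0 + b1 + b2 = 3)
    (hlo : lo ≤ Wf q0 q1 q2 b0 b1 b2) (hhi : Wf q0 q1 q2 b0 b1 b2 ≤ hi) (π : ℝ)
    (hπ : π = (q0 * q1 * q2) * (b0 * b1 * b2)) (hwpos : 0 < Wf q0 q1 q2 b0 b1 b2) :
    Vt D (q0 * b0) (q1 * b1) (q2 * b2)
      ≤ 2 * Wf q0 q1 q2 b0 b1 b2 - 2 * (Ef q0 q1 q2 b0 b1 b2 / Wf q0 q1 q2 b0 b1 b2)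
        + termU D (Wf q0 q1 q2 b0 b1 b2 - 1)
          ((Wf q0 q1 q2 b0 b1 b2) ^ 2 - Ef q0 q1 q2 b0 b1 b2) π := by
  have hπ0 : 0 ≤ π := by rw [hπ]; positivity
  have h1 : π ≤ (Wf q0 q1 q2 b0 b1 b2) ^ 3 := by
    have := amgm3 (q0 * b0) (q1 * b1) (q2 * b2) (by positivity) (by positivity) (by positivity)
    rw [hπ]; unfold Wf
    calc q0 * q1 * q2 * (b0 * b1 * b2) = q0 * b0 * (q1 * b1) * (q2 * b2) := by ring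
      _ ≤ _ := this
  have h2 : 1 ≤ Wf q0 q1 q2 b0 b1 b2 → π * (Wf q0 q1 q2 b0 b1 b2) ^ 2 ≤ 1 := by
    intro _
    have a1 := psq_le q0 q1 q2 hq0 hq1 hq2 hq
    have a2 := psq_le b0 b1 b2 hb0.le hb1.le hb2.le hb
    calc π * (Wf q0 q1 q2 b0 b1 b2) ^ 2
        ≤ π * (((q0 ^ 2 + q1 ^ 2 + q2 ^ 2) / 3) * ((b0 ^ 2 + b1 ^ 2 + b2 ^ 2) / 3)) :=
          mul_le_mul_of_nonneg_left (w2_le _ _ _ _ _ _) hπ0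
      _ = (q0 * q1 * q2 * ((q0 ^ 2 + q1 ^ 2 + q2 ^ 2) / 3))
          * (b0 * b1 * b2 * ((b0 ^ 2 + b1 ^ 2 + b2 ^ 2) / 3)) := by rw [hπ]; ring
      _ ≤ 1 * 1 := by
          apply mul_le_mul a1 a2 _ zero_le_one
          positivity
      _ = 1 := one_mul 1
  have hF := hD.hf _ π hπ0 hlo hhi h1 h2
  have hG := hD.hg _ π hπ0 hlo hhi h1 h2
  have hH := hD.hh _ π hπ0 hlo hhi h1 h2
  have hN := Nn_nonneg q0 q1 q2 b0 b1 b2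
  have e1 : (q0 * b0 + q1 * b1 + q2 * b2) / 3 = Wf q0 q1 q2 b0 b1 b2 := rfl
  have e2' : ((q0 * b0) * (q1 * b1) + (q0 * b0) * (q2 * b2) + (q1 * b1) * (q2 * b2)) / 3
      = Ef q0 q1 q2 b0 b1 b2 := rfl
  have e3' : (q0 * b0) * (q1 * b1) * (q2 * b2) = π := by rw [hπ]; ring
  unfold Vt
  simp only [e1, e2', e3']
  set w := Wf q0 q1 q2 b0 b1 b2 with hw
  set e := Ef q0 q1 q2 b0 b1 b2 with he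
  set N := w ^ 2 - e with hNdef
  unfold pt4R at hF hG hH
  have c1 : ((1 : ℕ) : ℤ) - ((0 : ℕ) : ℤ) = 1 := by norm_num
  have c2 : ((0 : ℕ) : ℤ) - ((1 : ℕ) : ℤ) = -1 := by norm_num
  have c3 : ((0 : ℕ) : ℤ) - ((3 : ℕ) : ℤ) = -3 := by norm_num
  rw [c1] at hF
  rw [c2] at hG
  rw [c3] at hH
  simp only [pow_zero, pow_one, one_mul] at hF hG hH
  have gF : w * hr D.f (π / w ^ 3) ≤ hr D.f π + (w - 1) * (hr (dl 1 D.f) π + (w - 1) *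
      (hr D.f2 π + (w - 1) * (hr D.f3 π + (w - 1) * hr D.f4 π))) := by linarith
  have gG : N / w * hr D.g (π / w ^ 3) ≤ N * (hr D.g π + (w - 1) * (hr (dl (-1) D.g) π +
      (w - 1) * (hr D.g2 π + (w - 1) * (hr D.g3 π + (w - 1) * hr D.g4 π)))) := by
    have : hr D.g (π / w ^ 3) ≤ w * (hr D.g π + (w - 1) * (hr (dl (-1) D.g) π +
      (w - 1) * (hr D.g2 π + (w - 1) * (hr D.g3 π + (w - 1) * hr D.g4 π)))) := by linarith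
    calc N / w * hr D.g (π / w ^ 3) ≤ N / w * (w * (hr D.g π + (w - 1) * (hr (dl (-1) D.g) π +
      (w - 1) * (hr D.g2 π + (w - 1) * (hr D.g3 π + (w - 1) * hr D.g4 π))))) :=
          mul_le_mul_of_nonneg_left this (by positivity)
      _ = _ := by field_simp
  have gH : N ^ 2 / w ^ 3 * hr D.h (π / w ^ 3) ≤ N ^ 2 * (hr D.h π + (w - 1) *
      (hr (dl (-3) D.h) π +
      (w - 1) * (hr D.h2 π + (w - 1) * (hr D.h3 π + (w - 1) * hr D.h4 π)))) := by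
    have : hr D.h (π / w ^ 3) ≤ w ^ 3 * (hr D.h π + (w - 1) * (hr (dl (-3) D.h) π +
      (w - 1) * (hr D.h2 π + (w - 1) * (hr D.h3 π + (w - 1) * hr D.h4 π)))) := by linarith
    calc N ^ 2 / w ^ 3 * hr D.h (π / w ^ 3) ≤ N ^ 2 / w ^ 3 * (w ^ 3 * (hr D.h π + (w - 1) *
      (hr (dl (-3) D.h) π +
      (w - 1) * (hr D.h2 π + (w - 1) * (hr D.h3 π + (w - 1) * hr D.h4 π))))) :=
          mul_le_mul_of_nonneg_left this (by positivity)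
      _ = _ := by field_simp
  unfold termU
  linarith

/-- sum over six pairs `(r, N)` -/
theorem six_termU (D : Pot) (n r1 r2 r3 r4 r5 r6 a1 a2 a3 a4 a5 a6 b1 b2 b3 b4 b5 b6 π : ℝ)
    (M : Mom ℝ)
    (R1 R2 R3 R4 R5 R6 A0 A1 A2 A3 A4 A5 B0 B1 B2 B3 B4 B5 C0 C1 C2 C3 C4 : ℝ)
    (h1 : r1 + r2 + r3 + r4 + r5 + r6 = R1)
    (h2 : r1 ^ 2 + r2 ^ 2 + r3 ^ 2 + r4 ^ 2 + r5 ^ 2 + r6 ^ 2 = R2)
    (h3 : r1 ^ 3 + r2 ^ 3 + r3 ^ 3 + r4 ^ 3 + r5 ^ 3 + r6 ^ 3 = R3)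
    (h4 : r1 ^ 4 + r2 ^ 4 + r3 ^ 4 + r4 ^ 4 + r5 ^ 4 + r6 ^ 4 = R4)
    (h5 : r1 ^ 5 + r2 ^ 5 + r3 ^ 5 + r4 ^ 5 + r5 ^ 5 + r6 ^ 5 = R5)
    (h6 : r1 ^ 6 + r2 ^ 6 + r3 ^ 6 + r4 ^ 6 + r5 ^ 6 + r6 ^ 6 = R6)
    (ha0 : a1 + a2 + a3 + a4 + a5 + a6 = A0)
    (ha1 : a1 * r1 + a2 * r2 + a3 * r3 + a4 * r4 + a5 * r5 + a6 * r6 = A1)
    (ha2 : a1 * r1 ^ 2 + a2 * r2 ^ 2 + a3 * r3 ^ 2 + a4 * r4 ^ 2 + a5 * r5 ^ 2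
      + a6 * r6 ^ 2 = A2)
    (ha3 : a1 * r1 ^ 3 + a2 * r2 ^ 3 + a3 * r3 ^ 3 + a4 * r4 ^ 3 + a5 * r5 ^ 3
      + a6 * r6 ^ 3 = A3)
    (ha4 : a1 * r1 ^ 4 + a2 * r2 ^ 4 + a3 * r3 ^ 4 + a4 * r4 ^ 4 + a5 * r5 ^ 4
      + a6 * r6 ^ 4 = A4)
    (ha5 : a1 * r1 ^ 5 + a2 * r2 ^ 5 + a3 * r3 ^ 5 + a4 * r4 ^ 5 + a5 * r5 ^ 5
      + a6 * r6 ^ 5 = A5)
    (hb0 : b1 + b2 + b3 + b4 + b5 + b6 = B0)
    (hb1 : b1 * r1 + b2 * r2 + b3 * r3 + b4 * r4 + b5 * r5 + b6 * r6 = B1)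
    (hb2 : b1 * r1 ^ 2 + b2 * r2 ^ 2 + b3 * r3 ^ 2 + b4 * r4 ^ 2 + b5 * r5 ^ 2
      + b6 * r6 ^ 2 = B2)
    (hb3 : b1 * r1 ^ 3 + b2 * r2 ^ 3 + b3 * r3 ^ 3 + b4 * r4 ^ 3 + b5 * r5 ^ 3
      + b6 * r6 ^ 3 = B3)
    (hb4 : b1 * r1 ^ 4 + b2 * r2 ^ 4 + b3 * r3 ^ 4 + b4 * r4 ^ 4 + b5 * r5 ^ 4
      + b6 * r6 ^ 4 = B4)
    (hb5 : b1 * r1 ^ 5 + b2 * r2 ^ 5 + b3 * r3 ^ 5 + b4 * r4 ^ 5 + b5 * r5 ^ 5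
      + b6 * r6 ^ 5 = B5)
    (hc0 : (a1 + b1) ^ 2 + (a2 + b2) ^ 2 + (a3 + b3) ^ 2 + (a4 + b4) ^ 2 + (a5 + b5) ^ 2
      + (a6 + b6) ^ 2 = C0)
    (hc1 : (a1 + b1) ^ 2 * r1 + (a2 + b2) ^ 2 * r2 + (a3 + b3) ^ 2 * r3 + (a4 + b4) ^ 2 * r4
      + (a5 + b5) ^ 2 * r5 + (a6 + b6) ^ 2 * r6 = C1)
    (hc2 : (a1 + b1) ^ 2 * r1 ^ 2 + (a2 + b2) ^ 2 * r2 ^ 2 + (a3 + b3) ^ 2 * r3 ^ 2
      + (a4 + b4) ^ 2 * r4 ^ 2 + (a5 + b5) ^ 2 * r5 ^ 2 + (a6 + b6) ^ 2 * r6 ^ 2 = C2)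
    (hc3 : (a1 + b1) ^ 2 * r1 ^ 3 + (a2 + b2) ^ 2 * r2 ^ 3 + (a3 + b3) ^ 2 * r3 ^ 3
      + (a4 + b4) ^ 2 * r4 ^ 3 + (a5 + b5) ^ 2 * r5 ^ 3 + (a6 + b6) ^ 2 * r6 ^ 3 = C3)
    (hc4 : (a1 + b1) ^ 2 * r1 ^ 4 + (a2 + b2) ^ 2 * r2 ^ 4 + (a3 + b3) ^ 2 * r3 ^ 4
      + (a4 + b4) ^ 2 * r4 ^ 4 + (a5 + b5) ^ 2 * r5 ^ 4 + (a6 + b6) ^ 2 * r6 ^ 4 = C4)
    (hR1 : R1 = 0) (hA0 : A0 = 0) (hB0 : B0 = 0)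
    (m2 : 6 * M.r2 = R2) (m3 : 6 * M.r3 = R3) (m4 : 6 * M.r4 = R4)
    (n0 : M.n0 = n) (n1 : 6 * M.n1 = R2 + (A1 + B1)) (n2 : 6 * M.n2 = n * R2 + R3 + (A2 + B2))
    (n3 : 6 * M.n3 = n * R3 + R4 + (A3 + B3)) (n4 : 6 * M.n4 = n * R4 + R5 + (A4 + B4))
    (k0 : 6 * M.m0 = 6 * n ^ 2 + R2 + 2 * (A1 + B1) + C0)
    (k1 : 6 * M.m1 = 2 * n * (R2 + (A1 + B1)) + R3 + 2 * (A2 + B2) + C1)
    (k2 : 6 * M.m2 = n ^ 2 * R2 + 2 * n * (R3 + (A2 + B2)) + R4 + 2 * (A3 + B3) + C2)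
    (k3 : 6 * M.m3 = n ^ 2 * R3 + 2 * n * (R4 + (A3 + B3)) + R5 + 2 * (A4 + B4) + C3)
    (k4 : 6 * M.m4 = n ^ 2 * R4 + 2 * n * (R5 + (A4 + B4)) + R6 + 2 * (A5 + B5) + C4) :
    termU D r1 (n + r1 + a1 + b1) π + termU D r2 (n + r2 + a2 + b2) π
      + termU D r3 (n + r3 + a3 + b3) π + termU D r4 (n + r4 + a4 + b4) π
      + termU D r5 (n + r5 + a5 + b5) π + termU D r6 (n + r6 + a6 + b6) π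
      = 6 * avR D M π := by
  unfold termU avR
  generalize hr D.f π = F0
  generalize hr (dl 1 D.f) π = F1
  generalize hr D.f2 π = F2
  generalize hr D.f3 π = F3
  generalize hr D.f4 π = F4
  generalize hr D.g π = G0
  generalize hr (dl (-1) D.g) π = G1
  generalize hr D.g2 π = G2
  generalize hr D.g3 π = G3
  generalize hr D.g4 π = G4
  generalize hr D.h π = H0
  generalize hr (dl (-3) D.h) π = H1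
  generalize hr D.h2 π = H2
  generalize hr D.h3 π = H3
  generalize hr D.h4 π = H4
  subst hR1
  subst hA0
  subst hB0
  linear_combination F1 * h1 + F2 * (h2 - m2) + F3 * (h3 - m3) + F4 * (h4 - m4)
    + G0 * (h1 + ha0 + hb0 - 6 * n0) + G1 * (n * h1 + h2 + ha1 + hb1 - n1)
    + G2 * (n * h2 + h3 + ha2 + hb2 - n2) + G3 * (n * h3 + h4 + ha3 + hb3 - n3)
    + G4 * (n * h4 + h5 + ha4 + hb4 - n4)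
    + H0 * (2 * n * h1 + h2 + 2 * n * (ha0 + hb0) + 2 * (ha1 + hb1) + hc0 - k0)
    + H1 * (n ^ 2 * h1 + 2 * n * h2 + h3 + 2 * n * (ha1 + hb1) + 2 * (ha2 + hb2) + hc1 - k1)
    + H2 * (n ^ 2 * h2 + 2 * n * h3 + h4 + 2 * n * (ha2 + hb2) + 2 * (ha3 + hb3) + hc2 - k2)
    + H3 * (n ^ 2 * h3 + 2 * n * h4 + h5 + 2 * n * (ha3 + hb3) + 2 * (ha4 + hb4) + hc3 - k3)
    + H4 * (n ^ 2 * h4 + 2 * n * h5 + h6 + 2 * n * (ha4 + hb4) + 2 * (ha5 + hb5) + hc4 - k4)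

end Vale.Agent.P154
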