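import Mathlib

/-! Broadcasting on the regular tree: definitions and basic facts. -/

open scoped BigOperators

namespace Vale.Agent.P154

/-- The `q`-state Potts channel with nontrivial eigenvalue `lam`:
probability that a child has spin `j` given that its parent has spin `i`. -/
noncomputable def potts (q : ℕ) (lam : ℝ) (i j : Fin q) : ℝ :=
  lam * (if i = j then 1 else 0) + (1 - lam) / q

/-- Assignments of spins to the vertices at distance `n` from the root of the rooted `d`-ary
tree: for `n = 0` the spin of the root, and for `n + 1` one assignment for each of the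
`d` subtrees hanging from the root. -/
def Conf (q d : ℕ) : ℕ → Type
  | 0 => Fin q
  | n + 1 => Fin d → Conf q d n

instance instFintypeConf (q d : ℕ) : (n : ℕ) → Fintype (Conf q d n)
  | 0 => inferInstanceAs (Fintype (Fin q))
  | n + 1 =>
    letI := instFintypeConf q d n
    inferInstanceAs (Fintype (Fin d → Conf q d n))

/-- Conditional probability that the level-`n` spins are `c` given that the root has spin `i`. -/
noncomputable def lik (q d : ℕ) (lam : ℝ) : (n : ℕ) → Fin q → Conf q d n → ℝ
  | 0, i, (c : Fin q) => if i = c then 1 else 0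
  | n + 1, i, c => ∏ j : Fin d, ∑ k : Fin q, potts q lam i k * lik q d lam n k (c j)

/-- Joint probability that the root has spin `i` and the level-`n` spins are `c`; the root spin
is uniform. -/
noncomputable def joint (q d : ℕ) (lam : ℝ) (n : ℕ) (i : Fin q) (c : Conf q d n) : ℝ :=
  1 / q * lik q d lam n i c

/-- Probability that the level-`n` spins are `c`. -/
noncomputable def marg (q d : ℕ) (lam : ℝ) (n : ℕ) (c : Conf q d n) : ℝ :=
  ∑ i : Fin q, joint q d lam n i c

/-- Conditional probability that the root has spin `i` given that the level-`n` spins are `c`. -/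
noncomputable def post (q d : ℕ) (lam : ℝ) (n : ℕ) (i : Fin q) (c : Conf q d n) : ℝ :=
  joint q d lam n i c / marg q d lam n c

/-- The quantity `a_n`: expected total variation distance between the posterior law of the root
spin given the level-`n` spins and the uniform law. -/
noncomputable def aSeq (q d : ℕ) (lam : ℝ) (n : ℕ) : ℝ :=
  ∑ c : Conf q d n, marg q d lam n c * (1 / 2 * ∑ i : Fin q, |post q d lam n i c - 1 / q|)

/-! ### basic facts -/

theorem potts_row (q : ℕ) (hq : q ≠ 0) (lam : ℝ) (i : Fin q) : ∑ j, potts q lam i j = 1 := by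
  unfold potts
  rw [Finset.sum_add_distrib, ← Finset.mul_sum]
  simp
  have : (q : ℝ) ≠ 0 := by exact_mod_cast hq
  field_simp
  ring

theorem potts_perm (q : ℕ) (lam : ℝ) (τ : Equiv.Perm (Fin q)) (i j : Fin q) :
    potts q lam (τ i) (τ j) = potts q lam i j := by
  unfold potts
  simp

theorem potts_nonneg (q : ℕ) (lam : ℝ) (h1 : lam ≤ 1) (h0 : 0 ≤ 1 + (q - 1) * lam)
    (i j : Fin q) : 0 ≤ potts q lam i j := by
  have hq : 0 < q := lt_of_le_of_lt (Nat.zero_le _) i.2
  have hq' : (0 : ℝ) < q := by exact_mod_cast hq
  unfold potts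
  split_ifs with h
  · have : lam * 1 + (1 - lam) / q = (1 + (q - 1) * lam) / q := by field_simp; ring
    rw [this]
    exact div_nonneg h0 hq'.le
  · have : 0 ≤ (1 - lam) / q := div_nonneg (by linarith) hq'.le
    linarith

theorem lik_zero (q d : ℕ) (lam : ℝ) (i : Fin q) (c : Fin q) :
    lik q d lam 0 i (c : Conf q d 0) = if i = c then 1 else 0 := rfl

theorem lik_succ (q d : ℕ) (lam : ℝ) (n : ℕ) (i : Fin q) (c : Fin d → Conf q d n) :
    lik q d lam (n + 1) i c = ∏ j : Fin d, ∑ k : Fin q, potts q lam i k * lik q d lam n k (c j) :=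
  rfl

theorem lik_nonneg (q d : ℕ) (lam : ℝ) (hp : ∀ i j, 0 ≤ potts q lam i j) :
    ∀ n i c, 0 ≤ lik q d lam n i c
  | 0, i, c => by
      simp only [lik]
      split_ifs <;> norm_num
  | n + 1, i, c => by
      change 0 ≤ ∏ j : Fin d, ∑ k : Fin q, potts q lam i k * lik q d lam n k (c j)
      exact Finset.prod_nonneg fun j _ => Finset.sum_nonneg fun k _ =>
        mul_nonneg (hp i k) (lik_nonneg q d lam hp n k _)

theorem sum_conf_succ (q d n : ℕ) (F : Conf q d (n + 1) → ℝ) :
    ∑ c : Conf q d (n + 1), F c = ∑ c : Fin d → Conf q d n, F c := by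
  exact Finset.sum_congr (by
    ext x
    constructor <;> intro _ <;> exact Finset.mem_univ (α := _) x) fun _ _ => rfl

theorem lik_sum (q d : ℕ) (hq : q ≠ 0) (lam : ℝ) :
    ∀ n i, ∑ c : Conf q d n, lik q d lam n i c = 1
  | 0, i => by
      change ∑ c : Fin q, (if i = c then (1 : ℝ) else 0) = 1
      simp
  | n + 1, i => by
      rw [sum_conf_succ]
      change ∑ c : Fin d → Conf q d n, ∏ j : Fin d, ∑ k : Fin q,
        potts q lam i k * lik q d lam n k (c j) = 1
      rw [← Fintype.prod_sum (fun (_ : Fin d) (c : Conf q d n) =>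
        ∑ k : Fin q, potts q lam i k * lik q d lam n k c)]
      have : ∀ _j : Fin d, ∑ c : Conf q d n, ∑ k : Fin q, potts q lam i k * lik q d lam n k c
          = 1 := by
        intro _
        rw [Finset.sum_comm]
        simp_rw [← Finset.mul_sum, lik_sum q d hq lam n, mul_one]
        exact potts_row q hq lam i
      rw [Finset.prod_congr rfl fun j _ => this j]
      simp

/-- relabeling of spins -/
def relab (q d : ℕ) (τ : Equiv.Perm (Fin q)) : (n : ℕ) → (Conf q d n ≃ Conf q d n)
  | 0 => τ
  | n + 1 => Equiv.piCongrRight fun _ : Fin d => relab q d τ n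

theorem relab_ite (q : ℕ) (τ : Equiv.Perm (Fin q)) (i c : Fin q) :
    (if τ i = τ c then (1 : ℝ) else 0) = if i = c then 1 else 0 := by simp

theorem lik_relab (q d : ℕ) (lam : ℝ) (τ : Equiv.Perm (Fin q)) :
    ∀ n i c, lik q d lam n (τ i) (relab q d τ n c) = lik q d lam n i c
  | 0, i, c => by
      exact relab_ite q τ i c
  | n + 1, i, c => by
      change ∏ j : Fin d, ∑ k : Fin q, potts q lam (τ i) k * lik q d lam n k
        (relab q d τ n (c j)) = ∏ j : Fin d, ∑ k : Fin q, potts q lam i k * lik q d lam n k (c j)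
      refine Finset.prod_congr rfl fun j _ => ?_
      rw [← Equiv.sum_comp τ]
      refine Finset.sum_congr rfl fun k _ => ?_
      rw [potts_perm, lik_relab q d lam τ n k (c j)]

end Vale.Agent.P154
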