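import Vale.Agent.P154.Model

/-! Broadcasting on the Galton-Watson tree with Poisson offspring: definitions. -/

open scoped BigOperators

namespace Vale.Agent.P154

/-- Poisson probabilities with mean `d`. -/
noncomputable def pois (d : ℝ) (k : ℕ) : ℝ := Real.exp (-d) * d ^ k / (k.factorial : ℝ)

/-- What is seen when the first `n` generations of an ordered tree are observed together with the
spins of the vertices of generation `n`: for `n = 0` the spin of the root, and for `n + 1` the
number `k` of children of the root and what is seen in each of the `k` subtrees. -/
def Obs (q : ℕ) : ℕ → Type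
  | 0 => Fin q
  | n + 1 => (k : ℕ) × (Fin k → Obs q n)

/-- Conditional probability that `c` is observed given that the root has spin `i`: every vertex
has a Poisson number of children with mean `d`, and the spins are passed along the edges by the
Potts channel. -/
noncomputable def likG (q : ℕ) (d lam : ℝ) : (n : ℕ) → Fin q → Obs q n → ℝ
  | 0, i, (c : Fin q) => if i = c then 1 else 0
  | n + 1, i, (c : (k : ℕ) × (Fin k → Obs q n)) =>
      pois d c.1 * ∏ j : Fin c.1, ∑ s : Fin q, potts q lam i s * likG q d lam n s (c.2 j)

/-- Joint probability that the root has spin `i` and `c` is observed; the root spin is uniform. -/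
noncomputable def jointG (q : ℕ) (d lam : ℝ) (n : ℕ) (i : Fin q) (c : Obs q n) : ℝ :=
  1 / q * likG q d lam n i c

/-- Probability that `c` is observed. -/
noncomputable def margG (q : ℕ) (d lam : ℝ) (n : ℕ) (c : Obs q n) : ℝ :=
  ∑ i : Fin q, jointG q d lam n i c

/-- Conditional probability that the root has spin `i` given that `c` is observed. -/
noncomputable def postG (q : ℕ) (d lam : ℝ) (n : ℕ) (i : Fin q) (c : Obs q n) : ℝ :=
  jointG q d lam n i c / margG q d lam n c

/-- The quantity `a_n` for the Galton-Watson tree with Poisson offspring of mean `d`: expected
total variation distance between the posterior law of the root spin given the first `n`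
generations of the tree and the spins of generation `n`, and the uniform law. -/
noncomputable def aSeqG (q : ℕ) (d lam : ℝ) (n : ℕ) : ℝ :=
  ∑' c : Obs q n, margG q d lam n c * (1 / 2 * ∑ i : Fin q, |postG q d lam n i c - 1 / q|)

end Vale.Agent.P154
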