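import Vale.Agent.P154.Frame

/-! Monotonicity of the chi-square statistic along the levels of the tree. -/

open scoped BigOperators

namespace Vale.Agent.P154

theorem chi_eq (a0 a1 a2 : ℝ) (h : ms a0 a1 a2 ≠ 0) :
    chi a0 a1 a2 = (a0 ^ 2 + a1 ^ 2 + a2 ^ 2) / (6 * ms a0 a1 a2) - ms a0 a1 a2 / 2 := by
  have h' : a0 + a1 + a2 ≠ 0 := by
    intro h0; apply h; unfold ms; rw [h0]; norm_num
  unfold chi ms
  field_simp
  ring

theorem chi_zero : chi 0 0 0 = 0 := by unfold chi ms; norm_num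

theorem titu (u v S T : ℝ) (hS : 0 < S) (hT : 0 < T) :
    (u + v) ^ 2 / (6 * (S + T)) ≤ u ^ 2 / (6 * S) + v ^ 2 / (6 * T) := by
  rw [div_add_div _ _ (by positivity) (by positivity), div_le_div_iff₀ (by positivity)
    (by positivity)]
  nlinarith [mul_nonneg (mul_nonneg hS.le hT.le) (sq_nonneg (u * T - v * S)),
    sq_nonneg (u * T - v * S)]

theorem chi_add_le (u0 u1 u2 v0 v1 v2 : ℝ) (hu0 : 0 ≤ u0) (hu1 : 0 ≤ u1) (hu2 : 0 ≤ u2)
    (hv0 : 0 ≤ v0) (hv1 : 0 ≤ v1) (hv2 : 0 ≤ v2) :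
    chi (u0 + v0) (u1 + v1) (u2 + v2) ≤ chi u0 u1 u2 + chi v0 v1 v2 := by
  rcases (ms_nonneg hu0 hu1 hu2).eq_or_lt with h | h
  · obtain ⟨z0, z1, z2⟩ := ms_zero hu0 hu1 hu2 h.symm
    subst z0; subst z1; subst z2
    rw [chi_zero]; simp
  rcases (ms_nonneg hv0 hv1 hv2).eq_or_lt with h' | h'
  · obtain ⟨z0, z1, z2⟩ := ms_zero hv0 hv1 hv2 h'.symm
    subst z0; subst z1; subst z2
    rw [chi_zero]; simp
  have e : ms (u0 + v0) (u1 + v1) (u2 + v2) = ms u0 u1 u2 + ms v0 v1 v2 := by unfold ms; ring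
  rw [chi_eq _ _ _ h.ne', chi_eq _ _ _ h'.ne', chi_eq _ _ _ (by rw [e]; positivity), e]
  set S := ms u0 u1 u2
  set T := ms v0 v1 v2
  have t0 := titu u0 v0 S T h h'
  have t1 := titu u1 v1 S T h h'
  have t2 := titu u2 v2 S T h h'
  have e1 : ((u0 + v0) ^ 2 + (u1 + v1) ^ 2 + (u2 + v2) ^ 2) / (6 * (S + T))
      = (u0 + v0) ^ 2 / (6 * (S + T)) + (u1 + v1) ^ 2 / (6 * (S + T))
        + (u2 + v2) ^ 2 / (6 * (S + T)) := by ring
  have e2 : (u0 ^ 2 + u1 ^ 2 + u2 ^ 2) / (6 * S) = u0 ^ 2 / (6 * S) + u1 ^ 2 / (6 * S)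
      + u2 ^ 2 / (6 * S) := by ring
  have e3 : (v0 ^ 2 + v1 ^ 2 + v2 ^ 2) / (6 * T) = v0 ^ 2 / (6 * T) + v1 ^ 2 / (6 * T)
      + v2 ^ 2 / (6 * T) := by ring
  rw [e1, e2, e3]
  linarith

theorem chi_smul' (t a0 a1 a2 : ℝ) : chi (t * a0) (t * a1) (t * a2) = t * chi a0 a1 a2 := by
  rcases eq_or_ne t 0 with h | h
  · rw [h]; simp [chi_zero]
  · exact chi_smul t a0 a1 a2 h

theorem chi_sum_le {ι : Type} (s : Finset ι) (v : ι → Fin 3 → ℝ) (hv : ∀ c i, 0 ≤ v c i) :
    at3 chi (fun i => ∑ c ∈ s, v c i) ≤ ∑ c ∈ s, at3 chi (v c) := by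
  classical
  induction s using Finset.induction_on with
  | empty => simp [at3, chi_zero]
  | insert c s hc ih =>
    have e : (fun i => ∑ c ∈ insert c s, v c i) = fun i => v c i + ∑ c ∈ s, v c i := by
      funext i; rw [Finset.sum_insert hc]
    rw [e, Finset.sum_insert hc]
    refine le_trans ?_ (add_le_add_right ih _)
    have p : ∀ i, 0 ≤ ∑ c ∈ s, v c i := fun i => Finset.sum_nonneg fun c _ => hv c i
    exact chi_add_le _ _ _ _ _ _ (hv c 0) (hv c 1) (hv c 2) (p 0) (p 1) (p 2)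

/-- transition probabilities from the spins at level `n` to the spins at level `n + 1` -/
noncomputable def trans (d : ℕ) (lam : ℝ) : (n : ℕ) → Conf 3 d n → Conf 3 d (n + 1) → ℝ
  | 0, (c : Fin 3), c' => ∏ j : Fin d, potts 3 lam c ((c' : Fin d → Fin 3) j)
  | n + 1, c, c' => ∏ j : Fin d, trans d lam n ((c : Fin d → Conf 3 d n) j)
      ((c' : Fin d → Conf 3 d (n + 1)) j)

variable {d : ℕ} {lam : ℝ}

theorem trans_nonneg (h1 : lam ≤ 1) (h0 : -(1 / 2) ≤ lam) :
    ∀ n c c', 0 ≤ trans d lam n c c'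
  | 0, _, _ => Finset.prod_nonneg fun _ _ => potts_pos3 h1 h0 _ _
  | n + 1, _, _ => Finset.prod_nonneg fun _ _ => trans_nonneg h1 h0 n _ _

theorem trans_sum0 (c : Fin 3) : ∑ c' : Fin d → Fin 3, ∏ j : Fin d, potts 3 lam c (c' j) = 1 := by
  rw [← Fintype.prod_sum (fun (_ : Fin d) (k : Fin 3) => potts 3 lam c k)]
  simp [potts_row 3 (by norm_num) lam c]

theorem lik_trans0 (i : Fin 3) (c' : Fin d → Fin 3) :
    ∏ j : Fin d, ∑ k : Fin 3, potts 3 lam i k * (if k = c' j then 1 else 0)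
      = ∑ c : Fin 3, (if i = c then 1 else 0) * ∏ j : Fin d, potts 3 lam c (c' j) := by simp

theorem trans_sum : ∀ n c, ∑ c', trans d lam n c c' = 1
  | 0, c => by
      rw [sum_conf_succ]
      exact trans_sum0 c
  | n + 1, c => by
      rw [sum_conf_succ]
      change ∑ c' : Fin d → Conf 3 d (n + 1), ∏ j : Fin d, trans d lam n
        ((c : Fin d → Conf 3 d n) j) (c' j) = 1
      rw [← Fintype.prod_sum (fun (j : Fin d) (k : Conf 3 d (n + 1)) =>
        trans d lam n ((c : Fin d → Conf 3 d n) j) k)]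
      simp [trans_sum n]

theorem lik_trans : ∀ n i c', lik 3 d lam (n + 1) i c' = ∑ c, lik 3 d lam n i c * trans d lam n c c'
  | 0, i, c' => by
      exact lik_trans0 i c'
  | n + 1, i, c' => by
      rw [sum_conf_succ]
      change ∏ j : Fin d, ∑ k : Fin 3, potts 3 lam i k
          * lik 3 d lam (n + 1) k ((c' : Fin d → Conf 3 d (n + 1)) j)
        = ∑ c : Fin d → Conf 3 d n, (∏ j : Fin d, ∑ k : Fin 3, potts 3 lam i k
            * lik 3 d lam n k (c j)) * ∏ j : Fin d, trans d lam n (c j)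
              ((c' : Fin d → Conf 3 d (n + 1)) j)
      have e : ∀ j : Fin d, ∑ k : Fin 3, potts 3 lam i k
          * lik 3 d lam (n + 1) k ((c' : Fin d → Conf 3 d (n + 1)) j)
          = ∑ b : Conf 3 d n, (∑ k : Fin 3, potts 3 lam i k * lik 3 d lam n k b)
            * trans d lam n b ((c' : Fin d → Conf 3 d (n + 1)) j) := by
        intro j
        simp only [lik_trans n]
        simp only [Finset.mul_sum, Finset.sum_mul]
        rw [Finset.sum_comm]
        refine Finset.sum_congr rfl fun b _ => Finset.sum_congr rfl fun k _ => ?_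
        ring
      rw [Finset.prod_congr rfl fun j _ => e j]
      rw [Fintype.prod_sum (fun (j : Fin d) (b : Conf 3 d n) =>
        (∑ k : Fin 3, potts 3 lam i k * lik 3 d lam n k b)
            * trans d lam n b ((c' : Fin d → Conf 3 d (n + 1)) j))]
      refine Finset.sum_congr rfl fun c _ => ?_
      rw [Finset.prod_mul_distrib]

/-- the chi-square statistic does not increase with the level -/
theorem chi_anti (h1 : lam ≤ 1) (h0 : -(1 / 2) ≤ lam) (n : ℕ) :
    Lf d lam (n + 1) chi ≤ Lf d lam n chi := by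
  unfold Lf
  have e : ∀ c', at3 chi (Lv d lam (n + 1) c')
      ≤ ∑ c, trans d lam n c c' * at3 chi (Lv d lam n c) := by
    intro c'
    have : Lv d lam (n + 1) c' = fun i => ∑ c, trans d lam n c c' * Lv d lam n c i := by
      funext i
      unfold Lv
      rw [lik_trans]
      exact Finset.sum_congr rfl fun c _ => mul_comm _ _
    rw [this]
    refine le_trans (chi_sum_le Finset.univ (fun c i => trans d lam n c c' * Lv d lam n c i) ?_) ?_
    · intro c i
      exact mul_nonneg (trans_nonneg h1 h0 n c c') (Lv_nonneg h1 h0 n c i)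
    · refine le_of_eq (Finset.sum_congr rfl fun c _ => ?_)
      unfold at3
      exact chi_smul' _ _ _ _
  calc ∑ c', at3 chi (Lv d lam (n + 1) c')
      ≤ ∑ c', ∑ c, trans d lam n c c' * at3 chi (Lv d lam n c) := Finset.sum_le_sum fun c' _ => e c'
    _ = ∑ c, ∑ c', trans d lam n c c' * at3 chi (Lv d lam n c) := Finset.sum_comm
    _ = ∑ c, at3 chi (Lv d lam n c) := by
        refine Finset.sum_congr rfl fun c _ => ?_
        rw [← Finset.sum_mul, trans_sum, one_mul]

end Vale.Agent.P154
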