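import Vale.Agent.P154.Chain2

/-! From certificates to a system of potentials: all large numbers of children at once. -/

open scoped BigOperators

namespace Vale.Agent.P154

/-- vertex `t = 0` -/
def VE0 (j : ℕ) (D0 D1 : NP) (L2 L3 : ℤ × ℕ) (tau : PE) (psi0 h0 h1 : List CL) : PE :=
  psub (.add (wP D0 Px (pofP Px Cx)) (.add (.mul (.q L2.1 L2.2) (h2P psi0 Pz Cz))
    (balP j (.mul (.q L2.1 L2.2) Pz) tau (h2P h0 Px Cx) (h2P h1 Px Cx))))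
    (.add (.mul (psub one' tau) (avgP D0 Px Cx (.mul (.q L2.1 L2.2) Pz) (.mul (.q L3.1 L3.2) Cz)))
      (.mul tau (avgP D1 Px Cx (.mul (.q L2.1 L2.2) Pz) (.mul (.q L3.1 L3.2) Cz))))

/-- vertex `t = 1 - τ` -/
def VE1 (j : ℕ) (D0 D1 : NP) (L2 L3 : ℤ × ℕ) (tau : PE) (psi0 psi1 h0 h1 : List CL) : PE :=
  psub (.add (.add (.mul tau (wP D0 Px (pofP Px Cx))) (.mul (psub one' tau)
      (wP D1 Px (pofP Px Cx))))
    (.add (.mul (.q L2.1 L2.2) (.add (.mul tau (h2P psi0 Pz Cz)) (.mul (psub one' tau)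
      (h2P psi1 Pz Cz))))
    (balP j (.mul (.q L2.1 L2.2) Pz) tau (h2P h0 Px Cx) (h2P h1 Px Cx))))
    (avgP D1 Px Cx (.mul (.q L2.1 L2.2) Pz) (.mul (.q L3.1 L3.2) Cz))

/-- `τ = τ₀` -/
def tau1 (L2 : ℤ × ℕ) : PE := .q L2.1 L2.2
/-- `τ = τ₀ ρ²` -/
def tau0 (L2 : ℤ × ℕ) : PE := .mul (.q L2.1 L2.2) (.mul (.x 1) (.x 1))

/-- closing -/
def SE2 (D1 : NP) (w wt wt' : ℤ × ℕ) (psi0 psi1 : List CL) : PE :=
  psub (.mul (.mul (.x 0) (.x 0)) (psub (wP D1 (Pq (.x 1) (.x 2)) (pofP (Pq (.x 1) (.x 2))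
    (Cq (.x 1) (.x 2)))) (.q w.1 w.2)))
    (.add (.mul (.q wt'.1 wt'.2) (h2P psi0 (.mul (.mul (.x 0) (.x 0)) (Pq (.x 1) (.x 2)))
      (.mul (.mul (.x 0) (.mul (.x 0) (.x 0))) (Cq (.x 1) (.x 2)))))
    (.mul (.q wt.1 wt.2) (h2P psi1 (.mul (.mul (.x 0) (.x 0)) (Pq (.x 1) (.x 2)))
      (.mul (.mul (.x 0) (.mul (.x 0) (.x 0))) (Cq (.x 1) (.x 2))))))

theorem VE0_real (v : ℕ → ℝ) (j : ℕ) (D0 D1 : NP) (L2 L3 : ℤ × ℕ) (tau : PE)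
    (psi0 h0 h1 : List CL) :
    (VE0 j D0 D1 L2 L3 tau psi0 h0 h1).real 0 v
      = (gR D0 (v 0 * v 0 * (1 + -3 / 4 * v 2)) (v 0 * (v 0 * v 0) * (1 + -9 / 8 * v 2))
        + (cv L2 * h2R psi0 (v 1 * v 1 * (1 + -3 / 4 * v 3)) (v 1 * (v 1 * v 1) * (1 + -9 / 8 * v 3))
        + balR j (cv L2 * (v 1 * v 1 * (1 + -3 / 4 * v 3))) (tau.real 0 v)
          (h2R h0 (v 0 * v 0 * (1 + -3 / 4 * v 2)) (v 0 * (v 0 * v 0) * (1 + -9 / 8 * v 2)))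
          (h2R h1 (v 0 * v 0 * (1 + -3 / 4 * v 2)) (v 0 * (v 0 * v 0) * (1 + -9 / 8 * v 2)))))
      - ((1 - tau.real 0 v) * avg D0 (v 0 * v 0 * (1 + -3 / 4 * v 2))
          (v 0 * (v 0 * v 0) * (1 + -9 / 8 * v 2))
          (cv L2 * (v 1 * v 1 * (1 + -3 / 4 * v 3)))
          (cv L3 * (v 1 * (v 1 * v 1) * (1 + -9 / 8 * v 3)))
        + tau.real 0 v * avg D1 (v 0 * v 0 * (1 + -3 / 4 * v 2))
          (v 0 * (v 0 * v 0) * (1 + -9 / 8 * v 2))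
          (cv L2 * (v 1 * v 1 * (1 + -3 / 4 * v 3)))
          (cv L3 * (v 1 * (v 1 * v 1) * (1 + -9 / 8 * v 3)))) := by
  have o : ((1 : ℤ) : ℝ) / (((0 : ℕ) : ℝ) + 1) = 1 := by norm_num
  simp only [VE0, Px, Cx, Pz, Cz, gR, psub, one', PE.real_add, PE.real_mul, PE.real_neg, PE.real_q,
    wP_real, pofP_real, Pq_real, Cq_real, PE.real_x, h2P_real, balP_real, avgP_real, cv, o]
  ring

theorem VE1_real (v : ℕ → ℝ) (j : ℕ) (D0 D1 : NP) (L2 L3 : ℤ × ℕ) (tau : PE)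
    (psi0 psi1 h0 h1 : List CL) :
    (VE1 j D0 D1 L2 L3 tau psi0 psi1 h0 h1).real 0 v
      = ((tau.real 0 v * gR D0 (v 0 * v 0 * (1 + -3 / 4 * v 2))
            (v 0 * (v 0 * v 0) * (1 + -9 / 8 * v 2))
          + (1 - tau.real 0 v) * gR D1 (v 0 * v 0 * (1 + -3 / 4 * v 2))
            (v 0 * (v 0 * v 0) * (1 + -9 / 8 * v 2)))
        + (cv L2 * (tau.real 0 v * h2R psi0 (v 1 * v 1 * (1 + -3 / 4 * v 3))
            (v 1 * (v 1 * v 1) * (1 + -9 / 8 * v 3))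
          + (1 - tau.real 0 v) * h2R psi1 (v 1 * v 1 * (1 + -3 / 4 * v 3))
            (v 1 * (v 1 * v 1) * (1 + -9 / 8 * v 3)))
        + balR j (cv L2 * (v 1 * v 1 * (1 + -3 / 4 * v 3))) (tau.real 0 v)
          (h2R h0 (v 0 * v 0 * (1 + -3 / 4 * v 2)) (v 0 * (v 0 * v 0) * (1 + -9 / 8 * v 2)))
          (h2R h1 (v 0 * v 0 * (1 + -3 / 4 * v 2)) (v 0 * (v 0 * v 0) * (1 + -9 / 8 * v 2)))))
      - avg D1 (v 0 * v 0 * (1 + -3 / 4 * v 2))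
          (v 0 * (v 0 * v 0) * (1 + -9 / 8 * v 2))
          (cv L2 * (v 1 * v 1 * (1 + -3 / 4 * v 3)))
          (cv L3 * (v 1 * (v 1 * v 1) * (1 + -9 / 8 * v 3))) := by
  have o : ((1 : ℤ) : ℝ) / (((0 : ℕ) : ℝ) + 1) = 1 := by norm_num
  simp only [VE1, Px, Cx, Pz, Cz, gR, psub, one', PE.real_add, PE.real_mul, PE.real_neg, PE.real_q,
    wP_real, pofP_real, Pq_real, Cq_real, PE.real_x, h2P_real, balP_real, avgP_real, cv, o]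
  ring

theorem SE2_real (v : ℕ → ℝ) (D : NP) (w wt wt' : ℤ × ℕ) (psi0 psi1 : List CL) :
    (SE2 D w wt wt' psi0 psi1).real 0 v
      = v 0 * v 0 * (gR D (v 1 * v 1 * (1 + -3 / 4 * v 2)) (v 1 * (v 1 * v 1) * (1 + -9 / 8 * v 2))
          - cv w)
        - (cv wt' * h2R psi0 (v 0 * v 0 * (v 1 * v 1 * (1 + -3 / 4 * v 2)))
          (v 0 * (v 0 * v 0) * (v 1 * (v 1 * v 1) * (1 + -9 / 8 * v 2)))
        + cv wt * h2R psi1 (v 0 * v 0 * (v 1 * v 1 * (1 + -3 / 4 * v 2)))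
          (v 0 * (v 0 * v 0) * (v 1 * (v 1 * v 1) * (1 + -9 / 8 * v 2)))) := by
  simp only [SE2, gR, psub, PE.real_add, PE.real_mul, PE.real_neg, PE.real_q,
    wP_real, pofP_real, Pq_real, Cq_real, PE.real_x, h2P_real, cv]
  ring

/-- an affine function on an interval -/
theorem aff (a b x lo hi : ℝ) (h1 : lo ≤ x) (h2 : x ≤ hi) (k1 : 0 ≤ a + b * lo)
    (k2 : 0 ≤ a + b * hi) : 0 ≤ a + b * x := by
  rcases le_total 0 b with h | h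
  · have := mul_le_mul_of_nonneg_left h1 h
    linarith
  · have := mul_le_mul_of_nonpos_left h2 h
    linarith

theorem trapezoid (α β γ t τ τa τb : ℝ) (h1 : τa ≤ τ) (h2 : τ ≤ τb) (t0 : 0 ≤ t)
    (t1 : t ≤ 1 - τ) (v1 : 0 ≤ α + γ * τa) (v2 : 0 ≤ α + γ * τb)
    (v3 : 0 ≤ α + β * (1 - τa) + γ * τa) (v4 : 0 ≤ α + β * (1 - τb) + γ * τb) :
    0 ≤ α + β * t + γ * τ := by
  have A := aff α γ τ τa τb h1 h2 v1 v2
  have B := aff (α + β) (γ - β) τ τa τb h1 h2 (by linarith) (by linarith)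
  have C := aff (α + γ * τ) β t 0 (1 - τ) t0 t1 (by linarith) (by linarith)
  linarith

theorem vert (G0 G1 Q0 Q1 A0 A1 c0 c1 l t τ τa : ℝ) (h1 : τa ≤ τ) (h2 : τ ≤ l) (t0 : 0 ≤ t)
    (t1 : t ≤ 1 - τ)
    (v00 : 0 ≤ G0 + (l * Q0 + (c0 + τa * c1)) - ((1 - τa) * A0 + τa * A1))
    (v01 : 0 ≤ G0 + (l * Q0 + (c0 + l * c1)) - ((1 - l) * A0 + l * A1))
    (v10 : 0 ≤ τa * G0 + (1 - τa) * G1 + (l * (τa * Q0 + (1 - τa) * Q1) + (c0 + τa * c1)) - A1)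
    (v11 : 0 ≤ l * G0 + (1 - l) * G1 + (l * (l * Q0 + (1 - l) * Q1) + (c0 + l * c1)) - A1) :
    0 ≤ (1 - t) * G0 + t * G1 + (l * ((1 - t) * Q0 + t * Q1) + (c0 + τ * c1))
      - ((1 - (t + τ)) * A0 + (t + τ) * A1) := by
  have key := trapezoid (G0 + l * Q0 + c0 - A0) (G1 - G0 + l * (Q1 - Q0) + A0 - A1)
    (c1 + A0 - A1) t τ τa l h1 h2 t0 t1 (le_of_le_of_eq v00 (by ring))
    (le_of_le_of_eq v01 (by ring)) (le_of_le_of_eq v10 (by ring)) (le_of_le_of_eq v11 (by ring))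
  exact le_of_le_of_eq key (by ring)

theorem balR_aff (j : ℕ) (st mu h0 h1 : ℝ) :
    balR j st mu h0 h1 = balR j st 0 h0 h1 + mu * (balR j 0 1 h0 h1) := by
  rcases j with _ | _ | j
  · simp only [balR]; ring
  · simp only [balR]; ring
  · simp only [balR]; ring

/-- the data of a uniform family and its certificates -/
structure UnifCert (lam0 : ℝ) (D : ℕ → ℕ → NP) (psi : ℕ → ℕ → List CL) (hh : ℕ → List CL)
    (L2 L3 c c' δ wa wa' : ℤ × ℕ) (w2 : ℕ → ℤ × ℕ) : Prop where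
  hl0 : -(1 / 2) ≤ lam0
  hl1 : lam0 < 1
  hne : lam0 ≠ 0
  e2 : cv L2 = lam0 ^ 2
  e3 : cv L3 = lam0 ^ 3
  hδ : 0 < cv δ
  hwa : cv wa = (1 - lam0 ^ 2) / 2
  hwa' : cv wa' = (1 + lam0 ^ 2) / 2
  r1 : 1 - cv c ≤ 1 - lam0
  r2 : 1 - cv c ≤ 1 + 2 * lam0
  r3 : 1 - lam0 ≤ 1 + cv c'
  r4 : 1 + 2 * lam0 ≤ 1 + cv c'
  hc : 0 < cv c
  hc' : 0 < cv c'
  hU0 : ∀ j k, j < 3 → k < 2 → Box0 0 (UE0 c (D j k))
  hU1 : ∀ j k, j < 3 → k < 2 → Box0 0 (UE1 c' (D j k))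
  hV00 : ∀ j, j < 3 → Box0 0 (VE0 j (D j 0) (D j 1) L2 L3 (tau0 L2) (psi j 0) (hh 0) (hh 1))
  hV01 : ∀ j, j < 3 → Box0 0 (VE0 j (D j 0) (D j 1) L2 L3 (tau1 L2) (psi j 0) (hh 0) (hh 1))
  hV10 : ∀ j, j < 3 → Box0 0 (VE1 j (D j 0) (D j 1) L2 L3 (tau0 L2) (psi j 0) (psi j 1) (hh 0)
    (hh 1))
  hV11 : ∀ j, j < 3 → Box0 0 (VE1 j (D j 0) (D j 1) L2 L3 (tau1 L2) (psi j 0) (psi j 1) (hh 0)
    (hh 1))
  hS0 : ∀ j, j < 3 → Box0 0 (SE2 (D j 1) (w2 j) (1, 1) (1, 1) (psi j 0) (psi j 1))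
  hS1 : ∀ j, j < 3 → Box0 0 (SE2 (D j 1) (w2 j) wa wa' (psi j 0) (psi j 1))
  hR : ∀ j, j < 3 → Box0 0 (RE (D j 1) (w2 j))
  hw2 : ∀ j, j < 3 → gR (D j 0) 0 0 + (if j = 2 then cv δ else 0) = cv (w2 j)

theorem hom_comb (a b : ℝ) (g g' : ℝ → ℝ → ℝ) (x y z : ℝ) :
    hom (fun P C => a * g P C + b * g' P C) x y z = a * hom g x y z + b * hom g' x y z := by
  unfold hom; ring

theorem six_comb (a b : ℝ) (F G : ℝ → ℝ → ℝ → ℝ) (x y z : ℝ) :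
    six (fun u v w => a * F u v w + b * G u v w) x y z = a * six F x y z + b * six G x y z := by
  unfold six; ring

section
variable {lam0 : ℝ} {D : ℕ → ℕ → NP} {psi : ℕ → ℕ → List CL} {hh : ℕ → List CL}
    {L2 L3 c c' δ wa wa' : ℤ × ℕ} {w2 : ℕ → ℤ × ℕ}

theorem UnifCert.ub (T : UnifCert lam0 D psi hh L2 L3 c c' δ wa wa' w2) (j k : ℕ) (hj : j < 3)
    (hk : k < 2) : UB (D j k) (1 - cv c) (1 + cv c') :=
  UB_of_box c c' _ T.hc T.hc' (T.hU0 j k hj hk) (T.hU1 j k hj hk)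

theorem UnifCert.step (T : UnifCert lam0 D psi hh L2 L3 c c' δ wa wa' w2) (j : ℕ) (hj : j < 3)
    (s t τ : ℝ) (s0 : 0 ≤ s) (s1 : s ≤ 1) (t0 : 0 ≤ t) (t1 : t ≤ 1 - τ)
    (hτ1 : τ ≤ lam0 ^ 2) (hτ0 : (lam0 * s) ^ 2 ≤ τ)
    (a0 a1 a2 b0 b1 b2 : ℝ) (ha0 : 0 ≤ a0) (ha1 : 0 ≤ a1) (ha2 : 0 ≤ a2)
    (hb0 : 0 ≤ b0) (hb1 : 0 ≤ b1) (hb2 : 0 ≤ b2) :
    six (fun x y z => hom (fun P C => (1 - (t + τ)) * gR (D j 0) P C + (t + τ) * gR (D j 1) P C)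
        (a0 * ns (lam0 * s) (ms b0 b1 b2) x)
        (a1 * ns (lam0 * s) (ms b0 b1 b2) y) (a2 * ns (lam0 * s) (ms b0 b1 b2) z)) b0 b1 b2
      ≤ 6 * (ms b0 b1 b2 * hom (fun P C => (1 - t) * gR (D j 0) P C + t * gR (D j 1) P C) a0 a1 a2
        + ms a0 a1 a2 * hom (fun P C => lam0 ^ 2 * ((1 - t) * h2R (psi j 0) (s ^ 2 * P) (s ^ 3 * C)
          + t * h2R (psi j 1) (s ^ 2 * P) (s ^ 3 * C))) b0 b1 b2
        + bal ((lam0 * s) ^ 2) τ j (chi b0 b1 b2) (ms b0 b1 b2)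
          (hom (h2R (hh 0)) a0 a1 a2) (hom (h2R (hh 1)) a0 a1 a2)) := by
  have hτn : 0 ≤ τ := le_trans (sq_nonneg _) hτ0
  obtain ⟨r1, r2, r3, r4⟩ := range_scale lam0 s (1 - cv c) (1 + cv c') s0 s1 T.r1 T.r2 T.r3 T.r4
    (by linarith [T.hc]) (by linarith [T.hc'])
  have M0 := hom_merge (D j 0) (lam0 * s) _ _ (T.ub j 0 hj (by norm_num))
    (lam_le _ _ T.hl1.le s0 s1) (lam_ge _ _ T.hl0 s0 s1) r1 r2 r3 r4 a0 a1 a2 b0 b1 b2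
    ha0 ha1 ha2 hb0 hb1 hb2
  have M1 := hom_merge (D j 1) (lam0 * s) _ _ (T.ub j 1 hj (by norm_num))
    (lam_le _ _ T.hl1.le s0 s1) (lam_ge _ _ T.hl0 s0 s1) r1 r2 r3 r4 a0 a1 a2 b0 b1 b2
    ha0 ha1 ha2 hb0 hb1 hb2
  simp only [hom_comb]
  rw [six_comb]
  have w0 : 0 ≤ 1 - (t + τ) := by linarith
  have w1 : 0 ≤ t + τ := by linarith
  refine le_trans (add_le_add (mul_le_mul_of_nonneg_left M0 w0) (mul_le_mul_of_nonneg_left M1 w1)) ?_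
  rw [← hom_comb, ex_ms j hb0 hb1 hb2]
  rcases (ms_nonneg ha0 ha1 ha2).eq_or_lt with hma | hma
  · rw [← hma]; simp
  rcases (ms_nonneg hb0 hb1 hb2).eq_or_lt with hmb | hmb
  · rw [← hmb]; simp
  obtain ⟨ρx, sx, p1, p2, p3, p4, e4, e5⟩ := Pn_range ha0 ha1 ha2 hma
  obtain ⟨ρz, sz, q1, q2, q3, q4, e6, e7⟩ := Pn_range hb0 hb1 hb2 hmb
  have u1 : 0 ≤ s * ρz := by positivity
  have u2 : s * ρz ≤ 1 := by nlinarith
  have hta : lam0 ^ 2 * (s * ρz * (s * ρz)) ≤ τ := by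
    refine le_trans ?_ hτ0
    have : ρz * ρz ≤ 1 := mul_le_one₀ q2 q1 q2
    have h2 : 0 ≤ (lam0 * s) ^ 2 := sq_nonneg _
    calc lam0 ^ 2 * (s * ρz * (s * ρz)) = (lam0 * s) ^ 2 * (ρz * ρz) := by ring
      _ ≤ (lam0 * s) ^ 2 * 1 := mul_le_mul_of_nonneg_left this h2
      _ = (lam0 * s) ^ 2 := mul_one _
  have k00 := T.hV00 j hj ρx (s * ρz) sx sz p1 p2 u1 u2 p3 p4 q3 q4
  have k01 := T.hV01 j hj ρx (s * ρz) sx sz p1 p2 u1 u2 p3 p4 q3 q4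
  have k10 := T.hV10 j hj ρx (s * ρz) sx sz p1 p2 u1 u2 p3 p4 q3 q4
  have k11 := T.hV11 j hj ρx (s * ρz) sx sz p1 p2 u1 u2 p3 p4 q3 q4
  rw [VE0_real] at k00 k01
  rw [VE1_real] at k10 k11
  simp only [env, tau0, tau1, PE.real_mul, PE.real_q, PE.real_x] at k00 k01 k10 k11
  have f1 : s * ρz * (s * ρz) * (1 + -3 / 4 * sz) = s ^ 2 * Pn b0 b1 b2 := by rw [e6]; ring
  have f2 : s * ρz * (s * ρz * (s * ρz)) * (1 + -9 / 8 * sz) = s ^ 3 * Cn b0 b1 b2 := by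
    rw [e7]; ring
  have f3 : (L2.1 : ℝ) / ((L2.2 : ℝ) + 1) = lam0 ^ 2 := T.e2
  rw [f1, f2, ← e4, ← e5, T.e2, T.e3, f3] at k00 k01 k10 k11
  have g1 : lam0 ^ 2 * (s ^ 2 * Pn b0 b1 b2) = (lam0 * s) ^ 2 * Pn b0 b1 b2 := by ring
  have g2 : lam0 ^ 3 * (s ^ 3 * Cn b0 b1 b2) = (lam0 * s) ^ 3 * Cn b0 b1 b2 := by ring
  rw [g1, g2] at k00 k01 k10 k11
  set A0 := avg (D j 0) (Pn a0 a1 a2) (Cn a0 a1 a2) ((lam0 * s) ^ 2 * Pn b0 b1 b2)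
    ((lam0 * s) ^ 3 * Cn b0 b1 b2)
  set A1 := avg (D j 1) (Pn a0 a1 a2) (Cn a0 a1 a2) ((lam0 * s) ^ 2 * Pn b0 b1 b2)
    ((lam0 * s) ^ 3 * Cn b0 b1 b2)
  set G0 := gR (D j 0) (Pn a0 a1 a2) (Cn a0 a1 a2)
  set G1 := gR (D j 1) (Pn a0 a1 a2) (Cn a0 a1 a2)
  set Q0 := h2R (psi j 0) (s ^ 2 * Pn b0 b1 b2) (s ^ 3 * Cn b0 b1 b2)
  set Q1 := h2R (psi j 1) (s ^ 2 * Pn b0 b1 b2) (s ^ 3 * Cn b0 b1 b2)
  set H0 := h2R (hh 0) (Pn a0 a1 a2) (Cn a0 a1 a2)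
  set H1 := h2R (hh 1) (Pn a0 a1 a2) (Cn a0 a1 a2)
  rw [balR_aff j ((lam0 * s) ^ 2 * Pn b0 b1 b2) _ H0 H1] at k00 k01 k10 k11
  rw [balR_aff j ((lam0 * s) ^ 2 * Pn b0 b1 b2) τ H0 H1]
  set c0 := balR j ((lam0 * s) ^ 2 * Pn b0 b1 b2) 0 H0 H1
  set c1 := balR j 0 1 H0 H1
  have key := vert G0 G1 Q0 Q1 A0 A1 c0 c1 (lam0 ^ 2) t τ (lam0 ^ 2 * (s * ρz * (s * ρz))) hta hτ1
    t0 t1 k00 k01 k10 k11
  have m1 : 0 ≤ ms a0 a1 a2 * ms b0 b1 b2 := by positivity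
  have fin := mul_le_mul_of_nonneg_left (sub_nonneg.1 key) m1
  clear k00 k01 k10 k11 key M0 M1
  have e8 : (1 - (t + τ)) * (6 * (ms a0 a1 a2 * ms b0 b1 b2 * A0))
      + (t + τ) * (6 * (ms a0 a1 a2 * ms b0 b1 b2 * A1))
      = 6 * (ms a0 a1 a2 * ms b0 b1 b2 * ((1 - (t + τ)) * A0 + (t + τ) * A1)) := by ring
  rw [e8]
  refine mul_le_mul_of_nonneg_left (le_trans fin (le_of_eq ?_)) (by norm_num)
  ring

theorem UnifCert.sys (T : UnifCert lam0 D psi hh L2 L3 c c' δ wa wa' w2) (d : ℕ) (hd : 1 ≤ d)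
    (hdl0 : 1 ≤ (d : ℝ) * lam0 ^ 2)
    (s : ℝ) (s0 : 0 < s) (s1 : s ≤ 1) (hdl : (d : ℝ) * (lam0 * s) ^ 2 ≤ 1) :
    ∃ B, Sys d (lam0 * s) ((lam0 * s) ^ 2) (1 / d) (cv δ) B
      (fun j k P C => (1 - k / d) * gR (D j 0) P C + k / d * gR (D j 1) P C)
      (fun j k P C => lam0 ^ 2 * ((1 - k / d) * h2R (psi j 0) (s ^ 2 * P) (s ^ 3 * C)
          + k / d * h2R (psi j 1) (s ^ 2 * P) (s ^ 3 * C)))
      (fun i _ => h2R (hh i)) := by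
  have hd0 : (0 : ℝ) < d := by exact_mod_cast hd
  have hl2 : 0 < lam0 ^ 2 := by have := T.hne; positivity
  have hτ1 : 1 / (d : ℝ) ≤ lam0 ^ 2 := by
    rw [div_le_iff₀ hd0]; linarith
  have hτ0 : (lam0 * s) ^ 2 ≤ 1 / (d : ℝ) := by
    rw [le_div_iff₀ hd0]; linarith
  have hwd : ∀ j, (fun P C => (1 - (d : ℝ) / d) * gR (D j 0) P C + (d : ℝ) / d * gR (D j 1) P C)
      = gR (D j 1) := by
    intro j; funext P C; rw [div_self hd0.ne']; ring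
  refine ⟨∑ j ∈ Finset.range 3, nW (D j 1) + ∑ i ∈ Finset.range 2, n2 (hh i), ?_⟩
  have hn1 : ∀ j, 0 ≤ nW (D j 1) := fun j => by
    unfold nW
    have := nrm_nonneg (D j 1).A
    have := nrm_nonneg (D j 1).B
    have := nrm_nonneg (D j 1).E
    linarith
  have hs1 : 0 ≤ ∑ j ∈ Finset.range 3, nW (D j 1) := Finset.sum_nonneg fun j _ => hn1 j
  have hs2 : 0 ≤ ∑ i ∈ Finset.range 2, n2 (hh i) :=
    Finset.sum_nonneg fun i _ => n2_nonneg _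
  refine ⟨hd, lam_le _ _ T.hl1.le s0.le s1, lam_ge _ _ T.hl0 s0.le s1, ?_, hτ0, T.hδ, by linarith,
    ?_, ?_, ?_, ?_⟩
  · have := T.hne; positivity
  · intro j k hj hk a0 a1 a2 b0 b1 b2 _ ha0 ha1 ha2 hb0 hb1 hb2
    have hkd : (k : ℝ) + 1 ≤ d := by exact_mod_cast hk
    have e : ((k + 1 : ℕ) : ℝ) / d = k / d + 1 / d := by push_cast; ring
    rw [e]
    refine T.step j hj s (k / d) (1 / d) s0.le s1 (by positivity) ?_ hτ1 hτ0 a0 a1 a2 b0 b1 b2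
      ha0 ha1 ha2 hb0 hb1 hb2
    rw [le_sub_iff_add_le, ← add_div, div_le_one hd0]
    exact hkd
  · intro j hj b0 b1 b2 hb0 hb1 hb2
    rw [hwd j]
    have e0 : (1 - ((0 : ℕ) : ℝ) / d) * gR (D j 0) 0 0 + ((0 : ℕ) : ℝ) / d * gR (D j 1) 0 0
        = gR (D j 0) 0 0 := by simp
    rw [e0]
    have hw := T.hw2 j hj
    rcases (ms_nonneg hb0 hb1 hb2).eq_or_lt with h | h
    · obtain ⟨z0, z1, z2⟩ := ms_zero hb0 hb1 hb2 h.symm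
      subst z0; subst z1; subst z2
      simp only [hom_zero, ← h]; simp
    · obtain ⟨ρ, t, a1, a2, a3, a4, e1, e2⟩ := Pn_range hb0 hb1 hb2 h
      have k0 := T.hS0 j hj s ρ t 0 s0.le s1 a1 a2 a3 a4 le_rfl zero_le_one
      have k1 := T.hS1 j hj s ρ t 0 s0.le s1 a1 a2 a3 a4 le_rfl zero_le_one
      have k2 := T.hR j hj ρ 0 t 0 a1 a2 le_rfl zero_le_one a3 a4 le_rfl zero_le_one
      rw [SE2_real] at k0 k1
      rw [RE_real] at k2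
      simp only [env] at k0 k1 k2
      rw [← e1, ← e2, show s * s = s ^ 2 by ring, show s * (s ^ 2) = s ^ 3 by ring] at k0 k1
      rw [← e1, ← e2] at k2
      rw [T.hwa, T.hwa'] at k1
      have hh2 : cv (1, 1) = 1 / 2 := by norm_num [cv]
      rw [hh2] at k0
      simp only [hom_eq]
      rw [← Finset.mul_sum]
      set R := gR (D j 1) (Pn b0 b1 b2) (Cn b0 b1 b2) with hR
      set Q0 := h2R (psi j 0) (s ^ 2 * Pn b0 b1 b2) (s ^ 3 * Cn b0 b1 b2)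
      set Q1 := h2R (psi j 1) (s ^ 2 * Pn b0 b1 b2) (s ^ 3 * Cn b0 b1 b2)
      -- the sum over the children
      have hsum : ∑ k ∈ Finset.range d, lam0 ^ 2 * ((1 - (k : ℝ) / d) * Q0 + (k : ℝ) / d * Q1)
          = lam0 ^ 2 * d * (((1 + 1 / (d : ℝ)) / 2) * Q0 + ((1 - 1 / (d : ℝ)) / 2) * Q1) := by
        have hg : ∀ n : ℕ, ∑ k ∈ Finset.range n, (k : ℝ) = n * ((n : ℝ) - 1) / 2 := by
          intro n
          induction n with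
          | zero => simp
          | succ n ih => rw [Finset.sum_range_succ, ih]; push_cast; ring
        have : ∀ k : ℕ, lam0 ^ 2 * ((1 - (k : ℝ) / d) * Q0 + (k : ℝ) / d * Q1)
            = lam0 ^ 2 * Q0 + (k : ℝ) * (lam0 ^ 2 / d * (Q1 - Q0)) := by intro k; ring
        have e3 : ∑ k ∈ Finset.range d, (k : ℝ) * (lam0 ^ 2 / d * (Q1 - Q0))
            = (d * ((d : ℝ) - 1) / 2) * (lam0 ^ 2 / d * (Q1 - Q0)) := by
          rw [← Finset.sum_mul, hg]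
        simp only [this]
        rw [Finset.sum_add_distrib, e3]
        simp only [Finset.sum_const, Finset.card_range, nsmul_eq_mul]
        field_simp
        ring
      rw [hsum]
      have mid : lam0 ^ 2 * d * (((1 + 1 / (d : ℝ)) / 2) * Q0 + ((1 - 1 / (d : ℝ)) / 2) * Q1)
          ≤ R - cv (w2 j) := by
        have hmid : ((1 + 1 / (d : ℝ)) / 2) * Q0 + ((1 - 1 / (d : ℝ)) / 2) * Q1
            ≤ s ^ 2 * (R - cv (w2 j)) := by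
          have := aff (s ^ 2 * (R - cv (w2 j)) - (Q0 + Q1) / 2) (-(Q0 - Q1) / 2) (1 / (d : ℝ)) 0
            (lam0 ^ 2) (by positivity) hτ1 (by linarith) (by linarith)
          linarith
        have hc : 0 ≤ lam0 ^ 2 * d := by positivity
        calc _ ≤ lam0 ^ 2 * d * (s ^ 2 * (R - cv (w2 j))) := mul_le_mul_of_nonneg_left hmid hc
          _ = (d * (lam0 * s) ^ 2) * (R - cv (w2 j)) := by ring
          _ ≤ 1 * (R - cv (w2 j)) := mul_le_mul_of_nonneg_right hdl k2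
          _ = _ := one_mul _
      have := mul_le_mul_of_nonneg_left mid h.le
      rw [← hw] at this
      linarith
  · intro j hj a0 a1 a2 h0 h1 h2
    rw [hwd j]
    refine le_trans (hom_gR_abs _ _ _ _ h0 h1 h2)
      (mul_le_mul_of_nonneg_right ?_ (ms_nonneg h0 h1 h2))
    have := Finset.single_le_sum (f := fun j => nW (D j 1)) (fun j _ => hn1 j)
      (Finset.mem_range.2 hj)
    linarith
  · intro i k hi hk a0 a1 a2 h0 h1 h2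
    refine le_trans (hom_h2R_abs _ _ _ _ h0 h1 h2)
      (mul_le_mul_of_nonneg_right ?_ (ms_nonneg h0 h1 h2))
    have := Finset.single_le_sum (f := fun i => n2 (hh i)) (fun i _ => n2_nonneg _)
      (Finset.mem_range.2 hi)
    linarith

/-- nonreconstruction from a certified uniform family -/
theorem UnifCert.result (T : UnifCert lam0 D psi hh L2 L3 c c' δ wa wa' w2) (hneg : lam0 < 0)
    (d : ℕ) (hd : 1 ≤ d) (hdl0 : 1 ≤ (d : ℝ) * lam0 ^ 2)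
    (lam : ℝ) (h1 : lam ≤ 0) (hdl : (d : ℝ) * lam ^ 2 ≤ 1) :
    Filter.Tendsto (fun n => aSeq 3 d lam n) Filter.atTop (nhds 0) := by
  have hd0 : (0 : ℝ) < d := by exact_mod_cast hd
  have h0 : lam0 ≤ lam := by
    by_contra hcon
    push Not at hcon
    have : lam0 ^ 2 < lam ^ 2 := by nlinarith
    nlinarith
  rcases h1.lt_or_eq with h | h
  · have s0 : 0 < lam / lam0 := div_pos_of_neg_of_neg h hneg
    have s1 : lam / lam0 ≤ 1 := by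
      rw [div_le_one_of_neg hneg]; exact h0
    have e : lam0 * (lam / lam0) = lam := mul_div_cancel₀ lam hneg.ne
    obtain ⟨B, S⟩ := T.sys d hd hdl0 (lam / lam0) s0 s1 (by rw [e]; exact hdl)
    rw [e] at S
    exact S.result
  · rw [h]; exact zero_tendsto d

end

end Vale.Agent.P154
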