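import Vale.Agent.P154.SysG2
import Vale.Agent.P154.Unif

/-! Certificates for the Poisson tree. -/

open scoped BigOperators

namespace Vale.Agent.P154

/-- increments of the interpolation, as expressions -/
def dP (k : ℕ) (w : ℕ → PE) : PE :=
  match k with
  | 0 => psub (sc 3 (w 1)) (sc 3 (w 0))
  | 1 => psub (psub (sc 2 (w 2)) (w 1)) (w 0)
  | 2 => psub (.add (w 3) (w 2)) (sc 2 (w 1))
  | _ => psub (sc 3 (w 3)) (sc 3 (w 2))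

theorem dP_real (s : ℝ) (v : ℕ → ℝ) (k : ℕ) (w : ℕ → PE) :
    (dP k w).real s v = dW k (fun i => (w i).real s v) := by
  rcases k with _ | _ | _ | k <;> simp only [dP, dW, psub, sc, PE.real_add, PE.real_mul,
    PE.real_neg, PE.real_q] <;> norm_num <;> ring

/-- step -/
def GE (j k : ℕ) (D : ℕ → NP) (L2 L3 : ℤ × ℕ) (tau : PE) (psi h0 h1 : List CL) : PE :=
  psub (.add (wP (D k) Px (pofP Px Cx)) (.add (.mul (.q L2.1 L2.2) (h2P psi Pz Cz))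
    (balP j (.mul (.q L2.1 L2.2) Pz) tau (h2P h0 Px Cx) (h2P h1 Px Cx))))
    (.add (avgP (D k) Px Cx (.mul (.q L2.1 L2.2) Pz) (.mul (.q L3.1 L3.2) Cz))
      (.mul tau (dP k fun i => wP (D i) Px (pofP Px Cx))))

/-- closing -/
def SEG (D3 : NP) (w : ℤ × ℕ) (s : PE) (p0 p1 p2 p3 : List CL) : PE :=
  psub (.mul (.mul s s) (psub (wP D3 (Pq (.x 1) (.x 2)) (pofP (Pq (.x 1) (.x 2))
    (Cq (.x 1) (.x 2)))) (.q w.1 w.2)))
    (.mul (.q 1 3) (.add (.add (.add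
      (h2P p0 (.mul (.mul s s) (Pq (.x 1) (.x 2))) (.mul (.mul s (.mul s s)) (Cq (.x 1) (.x 2))))
      (h2P p1 (.mul (.mul s s) (Pq (.x 1) (.x 2))) (.mul (.mul s (.mul s s)) (Cq (.x 1) (.x 2)))))
      (h2P p2 (.mul (.mul s s) (Pq (.x 1) (.x 2))) (.mul (.mul s (.mul s s)) (Cq (.x 1) (.x 2)))))
      (h2P p3 (.mul (.mul s s) (Pq (.x 1) (.x 2))) (.mul (.mul s (.mul s s)) (Cq (.x 1) (.x 2))))))

/-- range of the scaling -/
def sP (ta tb : ℤ × ℕ) : PE := .add (.q ta.1 ta.2) (.mul (.q tb.1 tb.2) (.x 0))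

theorem GE_real (v : ℕ → ℝ) (j k : ℕ) (D : ℕ → NP) (L2 L3 : ℤ × ℕ) (tau : PE)
    (psi h0 h1 : List CL) :
    (GE j k D L2 L3 tau psi h0 h1).real 0 v
      = (gR (D k) (v 0 * v 0 * (1 + -3 / 4 * v 2)) (v 0 * (v 0 * v 0) * (1 + -9 / 8 * v 2))
        + (cv L2 * h2R psi (v 1 * v 1 * (1 + -3 / 4 * v 3)) (v 1 * (v 1 * v 1) * (1 + -9 / 8 * v 3))
        + balR j (cv L2 * (v 1 * v 1 * (1 + -3 / 4 * v 3))) (tau.real 0 v)
          (h2R h0 (v 0 * v 0 * (1 + -3 / 4 * v 2)) (v 0 * (v 0 * v 0) * (1 + -9 / 8 * v 2)))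
          (h2R h1 (v 0 * v 0 * (1 + -3 / 4 * v 2)) (v 0 * (v 0 * v 0) * (1 + -9 / 8 * v 2)))))
      - (avg (D k) (v 0 * v 0 * (1 + -3 / 4 * v 2))
          (v 0 * (v 0 * v 0) * (1 + -9 / 8 * v 2))
          (cv L2 * (v 1 * v 1 * (1 + -3 / 4 * v 3)))
          (cv L3 * (v 1 * (v 1 * v 1) * (1 + -9 / 8 * v 3)))
        + tau.real 0 v * dW k (fun i => gR (D i) (v 0 * v 0 * (1 + -3 / 4 * v 2))
          (v 0 * (v 0 * v 0) * (1 + -9 / 8 * v 2)))) := by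
  simp only [GE, Px, Cx, Pz, Cz, gR, psub, PE.real_add, PE.real_mul, PE.real_neg, PE.real_q,
    wP_real, pofP_real, Pq_real, Cq_real, PE.real_x, h2P_real, balP_real, avgP_real, dP_real, cv]
  ring

theorem SEG_real (v : ℕ → ℝ) (D3 : NP) (w : ℤ × ℕ) (s : PE) (p0 p1 p2 p3 : List CL) :
    (SEG D3 w s p0 p1 p2 p3).real 0 v
      = s.real 0 v * s.real 0 v * (gR D3 (v 1 * v 1 * (1 + -3 / 4 * v 2))
          (v 1 * (v 1 * v 1) * (1 + -9 / 8 * v 2)) - cv w)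
        - 1 / 4 * (h2R p0 (s.real 0 v * s.real 0 v * (v 1 * v 1 * (1 + -3 / 4 * v 2)))
          (s.real 0 v * (s.real 0 v * s.real 0 v) * (v 1 * (v 1 * v 1) * (1 + -9 / 8 * v 2)))
        + h2R p1 (s.real 0 v * s.real 0 v * (v 1 * v 1 * (1 + -3 / 4 * v 2)))
          (s.real 0 v * (s.real 0 v * s.real 0 v) * (v 1 * (v 1 * v 1) * (1 + -9 / 8 * v 2)))
        + h2R p2 (s.real 0 v * s.real 0 v * (v 1 * v 1 * (1 + -3 / 4 * v 2)))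
          (s.real 0 v * (s.real 0 v * s.real 0 v) * (v 1 * (v 1 * v 1) * (1 + -9 / 8 * v 2)))
        + h2R p3 (s.real 0 v * s.real 0 v * (v 1 * v 1 * (1 + -3 / 4 * v 2)))
          (s.real 0 v * (s.real 0 v * s.real 0 v) * (v 1 * (v 1 * v 1)
            * (1 + -9 / 8 * v 2)))) := by
  simp only [SEG, gR, psub, PE.real_add, PE.real_mul, PE.real_neg, PE.real_q,
    wP_real, pofP_real, Pq_real, Cq_real, PE.real_x, h2P_real, cv]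
  norm_num
  ring

/-- the data of a family of potentials for the Poisson tree and its certificates -/
structure PoisCert (lam0 : ℝ) (D : ℕ → ℕ → NP) (psi hh : ℕ → ℕ → List CL)
    (L2 L3 c c' δ ta tb : ℤ × ℕ) (tau0 : PE) (w2 : ℕ → ℤ × ℕ) : Prop where
  hl0 : -(1 / 2) ≤ lam0
  hl1 : lam0 ≤ 1
  hne : lam0 ≠ 0
  e2 : cv L2 = lam0 ^ 2
  e3 : cv L3 = lam0 ^ 3
  hδ : 0 < cv δ
  hta : 0 ≤ cv ta
  htb : cv tb = 1 - cv ta
  htb0 : 0 < cv tb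
  r1 : 1 - cv c ≤ 1 - lam0
  r2 : 1 - cv c ≤ 1 + 2 * lam0
  r3 : 1 - lam0 ≤ 1 + cv c'
  r4 : 1 + 2 * lam0 ≤ 1 + cv c'
  hc : 0 < cv c
  hc' : 0 < cv c'
  htau : ∀ s ρ a b e : ℝ, cv ta ≤ s → s ≤ 1 → 0 ≤ s → 0 ≤ ρ → ρ ≤ 1 →
    tau0.real 0 (env a (s * ρ) b e) ≤ (lam0 * s) ^ 2
  hU0 : ∀ j k, j < 3 → k < 4 → Box0 0 (UE0 c (D j k))
  hU1 : ∀ j k, j < 3 → k < 4 → Box0 0 (UE1 c' (D j k))
  hH0 : ∀ j k, j < 3 → k < 4 → Box0 0 (GE j k (D j) L2 L3 tau0 (psi j k) (hh 0 k) (hh 1 k))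
  hH1 : ∀ j k, j < 3 → k < 4 → Box0 0 (GE j k (D j) L2 L3 (tau1 L2) (psi j k) (hh 0 k) (hh 1 k))
  hS : ∀ j, j < 3 → Box0 0 (SEG (D j 3) (w2 j) (sP ta tb) (psi j 0) (psi j 1) (psi j 2) (psi j 3))
  hR : ∀ j, j < 3 → Box0 0 (RE (D j 3) (w2 j))
  hw2 : ∀ j, j < 3 → gR (D j 0) 0 0 + (if j = 2 then cv δ else 0) = cv (w2 j)
  hψ0 : ∀ j k, j < 3 → k < 4 → h2R (psi j k) 0 0 = 0

section
variable {lam0 : ℝ} {D : ℕ → ℕ → NP} {psi hh : ℕ → ℕ → List CL}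
    {L2 L3 c c' δ ta tb : ℤ × ℕ} {tau0 : PE} {w2 : ℕ → ℤ × ℕ}

theorem PoisCert.ub (T : PoisCert lam0 D psi hh L2 L3 c c' δ ta tb tau0 w2) (j k : ℕ) (hj : j < 3)
    (hk : k < 4) : UB (D j k) (1 - cv c) (1 + cv c') :=
  UB_of_box c c' _ T.hc T.hc' (T.hU0 j k hj hk) (T.hU1 j k hj hk)

theorem dW_hom (k : ℕ) (g : ℕ → ℝ → ℝ → ℝ) (a0 a1 a2 : ℝ) :
    dW k (fun i => hom (g i) a0 a1 a2)
      = ms a0 a1 a2 * dW k (fun i => g i (Pn a0 a1 a2) (Cn a0 a1 a2)) := by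
  obtain ⟨c0, c1, c2, c3, hc⟩ := dW_lin k
  rw [hc, hc, hom_eq, hom_eq, hom_eq, hom_eq]
  ring

theorem PoisCert.step (T : PoisCert lam0 D psi hh L2 L3 c c' δ ta tb tau0 w2) (j k : ℕ) (hj : j < 3)
    (hk : k < 4) (s : ℝ) (sa : cv ta ≤ s) (s0 : 0 ≤ s) (s1 : s ≤ 1)
    (a0 a1 a2 b0 b1 b2 : ℝ) (ha0 : 0 ≤ a0) (ha1 : 0 ≤ a1) (ha2 : 0 ≤ a2)
    (hb0 : 0 ≤ b0) (hb1 : 0 ≤ b1) (hb2 : 0 ≤ b2) :
    six (fun x y z => hom (gR (D j k)) (a0 * ns (lam0 * s) (ms b0 b1 b2) x)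
        (a1 * ns (lam0 * s) (ms b0 b1 b2) y) (a2 * ns (lam0 * s) (ms b0 b1 b2) z)) b0 b1 b2
      ≤ 6 * (ms b0 b1 b2 * hom (gR (D j k)) a0 a1 a2
        + ms a0 a1 a2 * hom (fun P C => lam0 ^ 2 * h2R (psi j k) (s ^ 2 * P) (s ^ 3 * C)) b0 b1 b2
        + bal ((lam0 * s) ^ 2) ((lam0 * s) ^ 2) j (chi b0 b1 b2) (ms b0 b1 b2)
          (hom (h2R (hh 0 k)) a0 a1 a2) (hom (h2R (hh 1 k)) a0 a1 a2)
        - (lam0 * s) ^ 2 * ms b0 b1 b2 * dW k (fun i => hom (gR (D j i)) a0 a1 a2)) := by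
  obtain ⟨r1, r2, r3, r4⟩ := range_scale lam0 s (1 - cv c) (1 + cv c') s0 s1 T.r1 T.r2 T.r3 T.r4
    (by linarith [T.hc]) (by linarith [T.hc'])
  have M0 := hom_merge (D j k) (lam0 * s) _ _ (T.ub j k hj hk)
    (lam_le _ _ T.hl1 s0 s1) (lam_ge _ _ T.hl0 s0 s1) r1 r2 r3 r4 a0 a1 a2 b0 b1 b2
    ha0 ha1 ha2 hb0 hb1 hb2
  refine le_trans M0 ?_
  rw [ex_ms j hb0 hb1 hb2, dW_hom k (fun i => gR (D j i))]
  rcases (ms_nonneg ha0 ha1 ha2).eq_or_lt with hma | hma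
  · rw [← hma]; simp
  rcases (ms_nonneg hb0 hb1 hb2).eq_or_lt with hmb | hmb
  · rw [← hmb]; simp
  obtain ⟨ρx, sx, p1, p2, p3, p4, e4, e5⟩ := Pn_range ha0 ha1 ha2 hma
  obtain ⟨ρz, sz, q1, q2, q3, q4, e6, e7⟩ := Pn_range hb0 hb1 hb2 hmb
  have u1 : 0 ≤ s * ρz := by positivity
  have u2 : s * ρz ≤ 1 := by nlinarith
  have hta := T.htau s ρz ρx sx sz sa s1 s0 q1 q2
  have htb : (lam0 * s) ^ 2 ≤ lam0 ^ 2 := by
    rw [mul_pow]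
    have : s ^ 2 ≤ 1 := by nlinarith
    nlinarith [sq_nonneg lam0]
  have k0 := T.hH0 j k hj hk ρx (s * ρz) sx sz p1 p2 u1 u2 p3 p4 q3 q4
  have k1 := T.hH1 j k hj hk ρx (s * ρz) sx sz p1 p2 u1 u2 p3 p4 q3 q4
  rw [GE_real] at k0 k1
  set τa := tau0.real 0 (env ρx (s * ρz) sx sz) with hτa
  simp only [env, tau1, PE.real_q] at k0 k1
  have f1 : s * ρz * (s * ρz) * (1 + -3 / 4 * sz) = s ^ 2 * Pn b0 b1 b2 := by rw [e6]; ring
  have f2 : s * ρz * (s * ρz * (s * ρz)) * (1 + -9 / 8 * sz) = s ^ 3 * Cn b0 b1 b2 := by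
    rw [e7]; ring
  have f3 : (L2.1 : ℝ) / ((L2.2 : ℝ) + 1) = lam0 ^ 2 := T.e2
  rw [f1, f2, ← e4, ← e5, T.e2, T.e3] at k0 k1
  rw [f3] at k1
  have g1 : lam0 ^ 2 * (s ^ 2 * Pn b0 b1 b2) = (lam0 * s) ^ 2 * Pn b0 b1 b2 := by ring
  have g2 : lam0 ^ 3 * (s ^ 3 * Cn b0 b1 b2) = (lam0 * s) ^ 3 * Cn b0 b1 b2 := by ring
  rw [g1, g2] at k0 k1
  rw [balR_aff j ((lam0 * s) ^ 2 * Pn b0 b1 b2) _ _ _] at k0 k1
  rw [balR_aff j ((lam0 * s) ^ 2 * Pn b0 b1 b2) ((lam0 * s) ^ 2) _ _]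
  set A0 := avg (D j k) (Pn a0 a1 a2) (Cn a0 a1 a2) ((lam0 * s) ^ 2 * Pn b0 b1 b2)
    ((lam0 * s) ^ 3 * Cn b0 b1 b2)
  set G0 := gR (D j k) (Pn a0 a1 a2) (Cn a0 a1 a2)
  set Q0 := h2R (psi j k) (s ^ 2 * Pn b0 b1 b2) (s ^ 3 * Cn b0 b1 b2)
  set H0 := h2R (hh 0 k) (Pn a0 a1 a2) (Cn a0 a1 a2)
  set H1 := h2R (hh 1 k) (Pn a0 a1 a2) (Cn a0 a1 a2)
  set c0 := balR j ((lam0 * s) ^ 2 * Pn b0 b1 b2) 0 H0 H1
  set c1 := balR j 0 1 H0 H1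
  set DD := dW k (fun i => gR (D j i) (Pn a0 a1 a2) (Cn a0 a1 a2))
  have key := aff (G0 + lam0 ^ 2 * Q0 + c0 - A0) (c1 - DD) ((lam0 * s) ^ 2) τa (lam0 ^ 2) hta htb
    (by linarith) (by linarith)
  have m1 : 0 ≤ ms a0 a1 a2 * ms b0 b1 b2 := by positivity
  have fin := mul_nonneg m1 key
  have e8 : 6 * (ms a0 a1 a2 * ms b0 b1 b2 * (G0 + (lam0 ^ 2 * Q0 + (c0 + (lam0 * s) ^ 2 * c1)))
      - (lam0 * s) ^ 2 * ms b0 b1 b2 * (ms a0 a1 a2 * DD))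
      - 6 * (ms a0 a1 a2 * ms b0 b1 b2 * A0)
      = 6 * (ms a0 a1 a2 * ms b0 b1 b2 * ((G0 + lam0 ^ 2 * Q0 + c0 - A0)
        + (c1 - DD) * (lam0 * s) ^ 2)) := by ring
  linarith

theorem h2R_scale_abs (l : List CL) (t s : ℝ) (s0 : 0 ≤ s) (s1 : s ≤ 1) (a0 a1 a2 : ℝ)
    (h0 : 0 ≤ a0) (h1 : 0 ≤ a1) (h2 : 0 ≤ a2) (ht : 0 ≤ t) :
    |hom (fun P C => t * h2R l (s ^ 2 * P) (s ^ 3 * C)) a0 a1 a2| ≤ t * n2 l * ms a0 a1 a2 := by
  rcases (ms_nonneg h0 h1 h2).eq_or_lt with h | h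
  · obtain ⟨z0, z1, z2⟩ := ms_zero h0 h1 h2 h.symm
    subst z0; subst z1; subst z2
    rw [hom_zero, ← h]; simp
  · rw [hom_eq, abs_mul, abs_of_pos h, mul_comm]
    obtain ⟨ρ, sx, r1, r2, r3, r4, e1, e2⟩ := Pn_range h0 h1 h2 h
    obtain ⟨b1, b2, b3⟩ := PC_bd ρ sx r1 r2 r3 r4
    rw [← e1] at b1 b2
    rw [← e2] at b3
    refine mul_le_mul_of_nonneg_right ?_ h.le
    rw [abs_mul, abs_of_nonneg ht]
    refine mul_le_mul_of_nonneg_left ?_ ht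
    have s2 : s ^ 2 ≤ 1 := by nlinarith
    have s2' : 0 ≤ s ^ 2 := by positivity
    have s3 : s ^ 3 ≤ 1 := by
      have : s ^ 3 = s ^ 2 * s := by ring
      rw [this]; nlinarith
    have s3' : 0 ≤ s ^ 3 := by positivity
    refine h2R_abs l _ _ (mul_nonneg s2' b1) (by nlinarith) ?_
    rw [abs_mul, abs_of_nonneg s3']
    nlinarith [abs_nonneg (Cn a0 a1 a2)]

theorem PoisCert.sys (T : PoisCert lam0 D psi hh L2 L3 c c' δ ta tb tau0 w2)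
    (s : ℝ) (s0 : 0 < s) (sa : cv ta ≤ s) (s1 : s ≤ 1) (d : ℝ) (hd : 0 < d)
    (hdl : d * (lam0 * s) ^ 2 ≤ 1) :
    ∃ B, SysG d (lam0 * s) ((lam0 * s) ^ 2) (cv δ) B (fun j k => gR (D j k))
      (fun j k P C => lam0 ^ 2 * h2R (psi j k) (s ^ 2 * P) (s ^ 3 * C))
      (fun i k => h2R (hh i k)) := by
  have hl2 : 0 < lam0 ^ 2 := by have := T.hne; positivity
  have hn1 : ∀ j k, 0 ≤ nW (D j k) := fun j k => by
    unfold nW
    have := nrm_nonneg (D j k).A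
    have := nrm_nonneg (D j k).B
    have := nrm_nonneg (D j k).E
    linarith
  set B1 := ∑ j ∈ Finset.range 3, ∑ k ∈ Finset.range 4, nW (D j k) with hB1
  set B2 := ∑ j ∈ Finset.range 3, ∑ k ∈ Finset.range 4, lam0 ^ 2 * n2 (psi j k) with hB2
  set B3 := ∑ j ∈ Finset.range 2, ∑ k ∈ Finset.range 4, n2 (hh j k) with hB3
  have q2 : ∀ j k, 0 ≤ lam0 ^ 2 * n2 (psi j k) := fun j k => mul_nonneg hl2.le (n2_nonneg _)
  have p1 : 0 ≤ B1 := Finset.sum_nonneg fun j _ => Finset.sum_nonneg fun k _ => hn1 j k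
  have p2 : 0 ≤ B2 := Finset.sum_nonneg fun j _ => Finset.sum_nonneg fun k _ => q2 j k
  have p3 : 0 ≤ B3 := Finset.sum_nonneg fun j _ => Finset.sum_nonneg fun k _ => n2_nonneg _
  have le1 : ∀ j k, j < 3 → k < 4 → nW (D j k) ≤ B1 := fun j k hj hk => by
    refine le_trans ?_ (Finset.single_le_sum (f := fun j => ∑ k ∈ Finset.range 4, nW (D j k))
      (fun j _ => Finset.sum_nonneg fun k _ => hn1 j k) (Finset.mem_range.2 hj))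
    exact Finset.single_le_sum (f := fun k => nW (D j k)) (fun k _ => hn1 j k)
      (Finset.mem_range.2 hk)
  have le2 : ∀ j k, j < 3 → k < 4 → lam0 ^ 2 * n2 (psi j k) ≤ B2 := fun j k hj hk => by
    refine le_trans ?_ (Finset.single_le_sum
      (f := fun j => ∑ k ∈ Finset.range 4, lam0 ^ 2 * n2 (psi j k))
      (fun j _ => Finset.sum_nonneg fun k _ => q2 j k) (Finset.mem_range.2 hj))
    exact Finset.single_le_sum (f := fun k => lam0 ^ 2 * n2 (psi j k)) (fun k _ => q2 j k)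
      (Finset.mem_range.2 hk)
  have le3 : ∀ j k, j < 2 → k < 4 → n2 (hh j k) ≤ B3 := fun j k hj hk => by
    refine le_trans ?_ (Finset.single_le_sum
      (f := fun j => ∑ k ∈ Finset.range 4, n2 (hh j k))
      (fun j _ => Finset.sum_nonneg fun k _ => n2_nonneg _) (Finset.mem_range.2 hj))
    exact Finset.single_le_sum (f := fun k => n2 (hh j k)) (fun k _ => n2_nonneg _)
      (Finset.mem_range.2 hk)
  refine ⟨B1 + B2 + B3, hd, lam_le _ _ T.hl1 s0.le s1, lam_ge _ _ T.hl0 s0.le s1, ?_, hdl, T.hδ,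
    by linarith, ?_, ?_, ?_, ?_, ?_, ?_⟩
  · have := T.hne; positivity
  · intro j k hj hk a0 a1 a2 b0 b1 b2 ha0 ha1 ha2 hb0 hb1 hb2
    exact T.step j k hj hk s sa s0.le s1 a0 a1 a2 b0 b1 b2 ha0 ha1 ha2 hb0 hb1 hb2
  · intro j k hj hk
    simp only [mul_zero]
    rw [T.hψ0 j k hj hk, mul_zero]
  · intro j hj b0 b1 b2 hb0 hb1 hb2
    have hw := T.hw2 j hj
    rcases (ms_nonneg hb0 hb1 hb2).eq_or_lt with h | h
    · obtain ⟨z0, z1, z2⟩ := ms_zero hb0 hb1 hb2 h.symm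
      subst z0; subst z1; subst z2
      simp only [hom_zero, ← h]; simp
    · obtain ⟨ρ, t, a1, a2, a3, a4, e1, e2⟩ := Pn_range hb0 hb1 hb2 h
      have hx0 : 0 ≤ (s - cv ta) / cv tb := div_nonneg (by linarith) T.htb0.le
      have hx1 : (s - cv ta) / cv tb ≤ 1 := by
        rw [div_le_one T.htb0, T.htb]; linarith
      have k0 := T.hS j hj ((s - cv ta) / cv tb) ρ t 0 hx0 hx1 a1 a2 a3 a4 le_rfl zero_le_one
      have k2 := T.hR j hj ρ 0 t 0 a1 a2 le_rfl zero_le_one a3 a4 le_rfl zero_le_one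
      have hs : (sP ta tb).real 0 (env ((s - cv ta) / cv tb) ρ t 0) = s := by
        have := T.htb0.ne'
        simp only [sP, PE.real_add, PE.real_mul, PE.real_q, PE.real_x, env]
        change cv ta + cv tb * ((s - cv ta) / cv tb) = s
        field_simp
        ring
      rw [SEG_real, hs] at k0
      rw [RE_real] at k2
      simp only [env] at k0 k2
      rw [← e1, ← e2, show s * s = s ^ 2 by ring, show s * (s ^ 2) = s ^ 3 by ring] at k0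
      rw [← e1, ← e2] at k2
      simp only [hom_eq]
      set R := gR (D j 3) (Pn b0 b1 b2) (Cn b0 b1 b2) with hR
      set Q0 := h2R (psi j 0) (s ^ 2 * Pn b0 b1 b2) (s ^ 3 * Cn b0 b1 b2)
      set Q1 := h2R (psi j 1) (s ^ 2 * Pn b0 b1 b2) (s ^ 3 * Cn b0 b1 b2)
      set Q2 := h2R (psi j 2) (s ^ 2 * Pn b0 b1 b2) (s ^ 3 * Cn b0 b1 b2)
      set Q3 := h2R (psi j 3) (s ^ 2 * Pn b0 b1 b2) (s ^ 3 * Cn b0 b1 b2)
      have mid : d * lam0 ^ 2 * (1 / 4 * (Q0 + Q1 + Q2 + Q3)) ≤ R - cv (w2 j) := by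
        have hc : 0 ≤ d * lam0 ^ 2 := by positivity
        calc _ ≤ d * lam0 ^ 2 * (s ^ 2 * (R - cv (w2 j))) :=
              mul_le_mul_of_nonneg_left (by linarith) hc
          _ = (d * (lam0 * s) ^ 2) * (R - cv (w2 j)) := by ring
          _ ≤ 1 * (R - cv (w2 j)) := mul_le_mul_of_nonneg_right hdl k2
          _ = _ := one_mul _
      have := mul_le_mul_of_nonneg_left mid h.le
      rw [← hw] at this
      linarith
  · intro j k hj hk a0 a1 a2 h0 h1 h2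
    refine le_trans (hom_gR_abs _ _ _ _ h0 h1 h2)
      (mul_le_mul_of_nonneg_right ?_ (ms_nonneg h0 h1 h2))
    linarith [le1 j k hj hk]
  · intro j k hj hk a0 a1 a2 h0 h1 h2
    refine le_trans (h2R_scale_abs _ _ s s0.le s1 _ _ _ h0 h1 h2 hl2.le)
      (mul_le_mul_of_nonneg_right ?_ (ms_nonneg h0 h1 h2))
    linarith [le2 j k hj hk]
  · intro i k hi hk a0 a1 a2 h0 h1 h2
    refine le_trans (hom_h2R_abs _ _ _ _ h0 h1 h2)
      (mul_le_mul_of_nonneg_right ?_ (ms_nonneg h0 h1 h2))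
    linarith [le3 i k hi hk]

/-- nonreconstruction on the Poisson tree from a certified family -/
theorem PoisCert.result (T : PoisCert lam0 D psi hh L2 L3 c c' δ ta tb tau0 w2)
    (d lam : ℝ) (hd : 0 < d) (h0 : 0 < lam / lam0) (ha : cv ta ≤ lam / lam0) (h1 : lam / lam0 ≤ 1)
    (hdl : d * lam ^ 2 ≤ 1) :
    Filter.Tendsto (fun n => aSeqG 3 d lam n) Filter.atTop (nhds 0) := by
  have e : lam0 * (lam / lam0) = lam := mul_div_cancel₀ lam T.hne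
  obtain ⟨B, S⟩ := T.sys (lam / lam0) h0 ha h1 d hd (by rw [e]; exact hdl)
  rw [e] at S
  exact S.result

end

end Vale.Agent.P154
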