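import Vale.Agent.P154.SysH
import Vale.Agent.P154.Pois

/-! Certificates for the Poisson tree when `lam` is close to one. -/

open scoped BigOperators

namespace Vale.Agent.P154

/-! ### differences `F - λ^n F(λ ·)` divided by `1 - λ` -/

/-- `1 + λ + ... + λ^(n-1)` -/
noncomputable def geo : ℕ → ℝ → ℝ
  | 0, _ => 0
  | n + 1, l => 1 + l * geo n l

theorem geo_eq (n : ℕ) (l : ℝ) : (1 - l) * geo n l = 1 - l ^ n := by
  induction n with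
  | zero => simp [geo]
  | succ n ih => rw [geo, mul_add, pow_succ]; linear_combination l * ih

def geoP (n : ℕ) (l : PE) : PE :=
  match n with
  | 0 => .q 0 0
  | 1 => one'
  | n + 2 => .add one' (.mul l (geoP (n + 1) l))

theorem geoP_real (s : ℝ) (v : ℕ → ℝ) (l : PE) : ∀ n, (geoP n l).real s v = geo n (l.real s v)
  | 0 => by simp [geoP, geo]
  | 1 => by simp [geoP, geo, one']
  | n + 2 => by
      rw [geoP, geo, PE.real_add, PE.real_mul, geoP_real s v l (n + 1)]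
      simp [one']

noncomputable def hg (n : ℕ) : CL → ℝ → ℝ → ℝ
  | [], _, _ => 0
  | c :: l, lam, P => cv c * geo n lam + P * hg (n + 2) l lam P

theorem hg_eq (lam P : ℝ) : ∀ (l : CL) (n : ℕ),
    hr l P - lam ^ n * hr l (lam ^ 2 * P) = (1 - lam) * hg n l lam P
  | [], n => by simp [hr, hg]
  | c :: l, n => by
      have ih := hg_eq lam P l (n + 2)
      have hg' := geo_eq n lam
      simp only [hr, hg]
      have e : lam ^ (n + 2) = lam ^ n * lam ^ 2 := by ring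
      rw [e] at ih
      linear_combination P * ih - cv c * hg'

def hgP (n : ℕ) : CL → PE → PE → PE
  | [], _, _ => .q 0 0
  | [c], lam, _ => .mul (.q c.1 c.2) (geoP n lam)
  | c :: l, lam, P => .add (.mul (.q c.1 c.2) (geoP n lam)) (.mul P (hgP (n + 2) l lam P))

theorem hgP_real (s : ℝ) (v : ℕ → ℝ) (lam P : PE) : ∀ (l : CL) (n : ℕ),
    (hgP n l lam P).real s v = hg n l (lam.real s v) (P.real s v)
  | [], n => by simp [hgP, hg]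
  | [c], n => by simp [hgP, hg, geoP_real, cv]
  | c :: c' :: l, n => by
      have ih := hgP_real s v lam P (c' :: l) (n + 2)
      have e : hgP n (c :: c' :: l) lam P = .add (.mul (.q c.1 c.2) (geoP n lam))
        (.mul P (hgP (n + 2) (c' :: l) lam P)) := rfl
      have e' : hg n (c :: c' :: l) (lam.real s v) (P.real s v) = cv c * geo n (lam.real s v)
        + P.real s v * hg (n + 2) (c' :: l) (lam.real s v) (P.real s v) := rfl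
      rw [e, e', PE.real_add, PE.real_mul, PE.real_mul, ih, geoP_real, PE.real_q, cv]

noncomputable def g2 (n : ℕ) : List CL → ℝ → ℝ → ℝ → ℝ
  | [], _, _, _ => 0
  | r :: rs, lam, P, C => hg n r lam P + C * g2 (n + 3) rs lam P C

theorem g2_eq (lam P C : ℝ) : ∀ (rs : List CL) (n : ℕ),
    h2R rs P C - lam ^ n * h2R rs (lam ^ 2 * P) (lam ^ 3 * C) = (1 - lam) * g2 n rs lam P C
  | [], n => by simp [h2R, g2]
  | r :: rs, n => by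
      have ih := g2_eq lam P C rs (n + 3)
      have h := hg_eq lam P r n
      simp only [h2R, g2]
      have e : lam ^ (n + 3) = lam ^ n * lam ^ 3 := by ring
      rw [e] at ih
      linear_combination C * ih + h

def g2P (n : ℕ) : List CL → PE → PE → PE → PE
  | [], _, _, _ => .q 0 0
  | [r], lam, P, _ => hgP n r lam P
  | r :: rs, lam, P, C => .add (hgP n r lam P) (.mul C (g2P (n + 3) rs lam P C))

theorem g2P_real (s : ℝ) (v : ℕ → ℝ) (lam P C : PE) : ∀ (rs : List CL) (n : ℕ),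
    (g2P n rs lam P C).real s v = g2 n rs (lam.real s v) (P.real s v) (C.real s v)
  | [], n => by simp [g2P, g2]
  | [r], n => by simp [g2P, g2, hgP_real]
  | r :: r' :: rs, n => by
      have ih := g2P_real s v lam P C (r' :: rs) (n + 3)
      have e : g2P n (r :: r' :: rs) lam P C = .add (hgP n r lam P)
        (.mul C (g2P (n + 3) (r' :: rs) lam P C)) := rfl
      have e' : g2 n (r :: r' :: rs) (lam.real s v) (P.real s v) (C.real s v)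
        = hg n r (lam.real s v) (P.real s v)
        + C.real s v * g2 (n + 3) (r' :: rs) (lam.real s v) (P.real s v) (C.real s v) := rfl
      rw [e, e', PE.real_add, PE.real_mul, ih, hgP_real]

/-- coefficient lists of a polynomial in `P`, `C` without constant term -/
def lst (r : CL) (rs : List CL) : List CL := ((0, 0) :: r) :: rs

noncomputable def GR (r : CL) (rs : List CL) (lam P C : ℝ) : ℝ :=
  P * hg 0 r lam P + C * g2 1 rs lam P C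

def GRP (r : CL) (rs : List CL) (lam P C : PE) : PE :=
  .add (.mul P (hgP 0 r lam P)) (.mul C (g2P 1 rs lam P C))

theorem GRP_real (s : ℝ) (v : ℕ → ℝ) (r : CL) (rs : List CL) (lam P C : PE) :
    (GRP r rs lam P C).real s v = GR r rs (lam.real s v) (P.real s v) (C.real s v) := by
  simp only [GRP, GR, PE.real_add, PE.real_mul, hgP_real, g2P_real]

theorem GR_eq (r : CL) (rs : List CL) (lam P C : ℝ) :
    lam ^ 2 * h2R (lst r rs) P C - h2R (lst r rs) (lam ^ 2 * P) (lam ^ 3 * C)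
      = (1 - lam) * (lam ^ 2 * GR r rs lam P C) := by
  have h1 := hg_eq lam P r 0
  have h2 := g2_eq lam P C rs 1
  simp only [lst, h2R, hr, GR, cv]
  norm_num at h1 ⊢
  linear_combination lam ^ 2 * P * h1 + lam ^ 2 * C * h2

/-! ### the expressions -/

def A0E (D : NP) (hh : List CL) : PE :=
  psub (.add (.add (wP D Px (pofP Px Cx)) (wP D Pz (pofP Pz Cz))) (.mul Pz (h2P hh Px Cx)))
    (avgP D Px Cx Pz Cz)

def A1E (D : NP) : PE :=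
  psub (.add (wP D Px (pofP Px Cx)) (wP D Pz (pofP Pz Cz))) (avgP D Px Cx Pz Cz)

def G1E (k : ℕ) (D1 : NP) (D : ℕ → NP) (rho hh : List CL) (ep kk cc : ℤ × ℕ) (tau : PE) : PE :=
  psub (.add (wP (D k) Px (pofP Px Cx)) (.add (wP D1 Pz (pofP Pz Cz))
      (.mul (.q ep.1 ep.2) (h2P rho Pz Cz))))
    (.add (.add (.mul (.q kk.1 kk.2) (.mul tau (h2P hh Px Cx))) (.mul (.q cc.1 cc.2) Pz))
      (.add (avgP (D k) Px Cx Pz Cz) (.mul tau (dP k fun i => wP (D i) Px (pofP Px Cx)))))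

/-- `lam` -/
def lE (ep : ℤ × ℕ) : PE := psub one' (.mul (.q ep.1 ep.2) (.x 0))

def S0E (ep : ℤ × ℕ) (r : CL) (rs : List CL) : PE :=
  .mul (.mul (lE ep) (lE ep)) (GRP r rs (lE ep) (Pq (.x 1) (.x 2)) (Cq (.x 1) (.x 2)))

def sP2 (ep : ℤ × ℕ) : PE := .mul (.mul (lE ep) (lE ep)) (Pq (.x 1) (.x 2))
def sC2 (ep : ℤ × ℕ) : PE := .mul (.mul (lE ep) (.mul (lE ep) (lE ep))) (Cq (.x 1) (.x 2))

def S1E (ep iep : ℤ × ℕ) (D1 D3 : NP) (r : CL) (rs : List CL) (p0 p1 p2 p3 : List CL) : PE :=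
  .add (.mul (.mul (lE ep) (lE ep)) (GRP r rs (lE ep) (Pq (.x 1) (.x 2)) (Cq (.x 1) (.x 2))))
    (psub (.mul (.q iep.1 iep.2) (.mul (.mul (lE ep) (lE ep))
      (psub (wP D3 (Pq (.x 1) (.x 2)) (pofP (Pq (.x 1) (.x 2)) (Cq (.x 1) (.x 2))))
        (wP D1 (Pq (.x 1) (.x 2)) (pofP (Pq (.x 1) (.x 2)) (Cq (.x 1) (.x 2)))))))
    (.mul (.q 1 3) (.add (.add (.add (h2P p0 (sP2 ep) (sC2 ep)) (h2P p1 (sP2 ep) (sC2 ep)))
      (h2P p2 (sP2 ep) (sC2 ep))) (h2P p3 (sP2 ep) (sC2 ep)))))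

section
variable (v : ℕ → ℝ)

theorem A0E_real (D : NP) (hh : List CL) :
    (A0E D hh).real 0 v
      = gR D (v 0 * v 0 * (1 + -3 / 4 * v 2)) (v 0 * (v 0 * v 0) * (1 + -9 / 8 * v 2))
        + gR D (v 1 * v 1 * (1 + -3 / 4 * v 3)) (v 1 * (v 1 * v 1) * (1 + -9 / 8 * v 3))
        + v 1 * v 1 * (1 + -3 / 4 * v 3)
          * h2R hh (v 0 * v 0 * (1 + -3 / 4 * v 2)) (v 0 * (v 0 * v 0) * (1 + -9 / 8 * v 2))
      - avg D (v 0 * v 0 * (1 + -3 / 4 * v 2)) (v 0 * (v 0 * v 0) * (1 + -9 / 8 * v 2))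
          (v 1 * v 1 * (1 + -3 / 4 * v 3)) (v 1 * (v 1 * v 1) * (1 + -9 / 8 * v 3)) := by
  simp only [A0E, Px, Cx, Pz, Cz, gR, psub, PE.real_add, PE.real_mul, PE.real_neg,
    wP_real, pofP_real, Pq_real, Cq_real, PE.real_x, h2P_real, avgP_real]
  ring

theorem A1E_real (D : NP) :
    (A1E D).real 0 v
      = gR D (v 0 * v 0 * (1 + -3 / 4 * v 2)) (v 0 * (v 0 * v 0) * (1 + -9 / 8 * v 2))
        + gR D (v 1 * v 1 * (1 + -3 / 4 * v 3)) (v 1 * (v 1 * v 1) * (1 + -9 / 8 * v 3))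
      - avg D (v 0 * v 0 * (1 + -3 / 4 * v 2)) (v 0 * (v 0 * v 0) * (1 + -9 / 8 * v 2))
          (v 1 * v 1 * (1 + -3 / 4 * v 3)) (v 1 * (v 1 * v 1) * (1 + -9 / 8 * v 3)) := by
  simp only [A1E, Px, Cx, Pz, Cz, gR, psub, PE.real_add, PE.real_mul, PE.real_neg,
    wP_real, pofP_real, Pq_real, Cq_real, PE.real_x, avgP_real]
  ring

theorem G1E_real (k : ℕ) (D1 : NP) (D : ℕ → NP) (rho hh : List CL) (ep kk cc : ℤ × ℕ)
    (tau : PE) :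
    (G1E k D1 D rho hh ep kk cc tau).real 0 v
      = gR (D k) (v 0 * v 0 * (1 + -3 / 4 * v 2)) (v 0 * (v 0 * v 0) * (1 + -9 / 8 * v 2))
        + (gR D1 (v 1 * v 1 * (1 + -3 / 4 * v 3)) (v 1 * (v 1 * v 1) * (1 + -9 / 8 * v 3))
          + cv ep * h2R rho (v 1 * v 1 * (1 + -3 / 4 * v 3))
            (v 1 * (v 1 * v 1) * (1 + -9 / 8 * v 3)))
      - (cv kk * (tau.real 0 v * h2R hh (v 0 * v 0 * (1 + -3 / 4 * v 2))
            (v 0 * (v 0 * v 0) * (1 + -9 / 8 * v 2)))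
          + cv cc * (v 1 * v 1 * (1 + -3 / 4 * v 3))
        + (avg (D k) (v 0 * v 0 * (1 + -3 / 4 * v 2)) (v 0 * (v 0 * v 0) * (1 + -9 / 8 * v 2))
          (v 1 * v 1 * (1 + -3 / 4 * v 3)) (v 1 * (v 1 * v 1) * (1 + -9 / 8 * v 3))
        + tau.real 0 v * dW k (fun i => gR (D i) (v 0 * v 0 * (1 + -3 / 4 * v 2))
          (v 0 * (v 0 * v 0) * (1 + -9 / 8 * v 2))))) := by
  simp only [G1E, Px, Cx, Pz, Cz, gR, psub, PE.real_add, PE.real_mul, PE.real_neg, PE.real_q,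
    wP_real, pofP_real, Pq_real, Cq_real, PE.real_x, h2P_real, avgP_real, dP_real, cv]
  ring

theorem lE_real (ep : ℤ × ℕ) : (lE ep).real 0 v = 1 - cv ep * v 0 := by
  simp only [lE, psub, one', PE.real_add, PE.real_mul, PE.real_neg, PE.real_q, PE.real_x, cv]
  norm_num
  ring

theorem S0E_real (ep : ℤ × ℕ) (r : CL) (rs : List CL) :
    (S0E ep r rs).real 0 v = (1 - cv ep * v 0) ^ 2 * GR r rs (1 - cv ep * v 0)
      (v 1 * v 1 * (1 + -3 / 4 * v 2)) (v 1 * (v 1 * v 1) * (1 + -9 / 8 * v 2)) := by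
  simp only [S0E, PE.real_mul, GRP_real, lE_real, Pq_real, Cq_real, PE.real_x]
  ring

theorem S1E_real (ep iep : ℤ × ℕ) (D1 D3 : NP) (r : CL) (rs : List CL)
    (p0 p1 p2 p3 : List CL) (lam P C : ℝ) (hl : 1 - cv ep * v 0 = lam)
    (hP : v 1 * v 1 * (1 + -3 / 4 * v 2) = P)
    (hC : v 1 * (v 1 * v 1) * (1 + -9 / 8 * v 2) = C) :
    (S1E ep iep D1 D3 r rs p0 p1 p2 p3).real 0 v = lam ^ 2 * GR r rs lam P C
      + (cv iep * (lam ^ 2 * (gR D3 P C - gR D1 P C))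
        - 1 / 4 * (h2R p0 (lam ^ 2 * P) (lam ^ 3 * C) + h2R p1 (lam ^ 2 * P) (lam ^ 3 * C)
          + h2R p2 (lam ^ 2 * P) (lam ^ 3 * C) + h2R p3 (lam ^ 2 * P) (lam ^ 3 * C))) := by
  have e2 : lam ^ 2 = lam * lam := by ring
  have e3 : lam ^ 3 = lam * (lam * lam) := by ring
  rw [e2, e3]
  subst hP; subst hC; subst hl
  simp only [S1E, sP2, sC2, gR, psub, PE.real_add, PE.real_neg, PE.real_mul, GRP_real, lE_real,
    Pq_real, Cq_real, PE.real_x, h2P_real, wP_real, pofP_real, PE.real_q, cv]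
  norm_num
  ring

end

/-! ### the certificate -/

/-- data of a family of potentials for the Poisson tree, uniform near `lam = 1` -/
structure NearCert (D0 D1 : NP) (D : ℕ → NP) (r0 r1 : CL) (rs0 rs1 : List CL)
    (rho : ℕ → List CL) (hh : List CL) (ep iep kk cc tlo : ℤ × ℕ) : Prop where
  he0 : 0 < cv ep
  he1 : cv ep < 1
  hie : cv iep * cv ep = 1
  hkk : 0 < cv kk
  hcc : 0 < cv cc
  htl : cv tlo = (1 - cv ep) ^ 2
  hU0 : Box0 0 (UE0 (1, 0) D0) ∧ Box0 0 (UE0 (1, 0) D1) ∧ ∀ k, k < 4 → Box0 0 (UE0 (1, 0) (D k))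
  hU1 : Box0 0 (UE1 (2, 0) D0) ∧ Box0 0 (UE1 (2, 0) D1) ∧ ∀ k, k < 4 → Box0 0 (UE1 (2, 0) (D k))
  hF0 : ∀ P C, gR D0 P C = h2R (lst r0 rs0) P C
  hF1 : ∀ P C, gR D1 P C = h2R (lst r1 rs1) P C
  hr0 : ∀ k, k < 4 → h2R (rho k) 0 0 = 0
  hD0 : gR (D 0) 0 0 = 0
  hA0 : Box0 0 (A0E D0 hh)
  hA1 : Box0 0 (A1E D1)
  hG0 : ∀ k, k < 4 → Box0 0 (G1E k D1 D (rho k) hh ep kk cc (.q tlo.1 tlo.2))
  hG1 : ∀ k, k < 4 → Box0 0 (G1E k D1 D (rho k) hh ep kk cc one')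
  hS0 : Box0 0 (S0E ep r0 rs0)
  hS1 : Box0 0 (S1E ep iep D1 (D 3) r1 rs1 (rho 0) (rho 1) (rho 2) (rho 3))
  hP0 : Box0 0 (RE D0 (0, 0))
  hP1 : Box0 0 (RE D1 (0, 0))
  hP3 : Box0 0 (RE (D 3) (0, 0))

theorem balH_hom (κ a b ω : ℝ) (j : ℕ) (x mb ma h0 h1 : ℝ) :
    balH κ a b ω j (mb * x) mb (ma * h0) (ma * h1) = ma * mb * balH κ a b ω j x 1 h0 h1 := by
  rcases j with _ | _ | j <;> simp only [balH] <;> ring

theorem dW_const (k : ℕ) (c : ℝ) : dW k (fun _ => c) = 0 := by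
  rcases k with _ | _ | _ | k <;> simp only [dW] <;> ring

theorem dW_lin_k (k : ℕ) (hk : k < 4) (c : ℝ) : dW k (fun i => c * i / 3) = c := by
  interval_cases k <;> simp only [dW] <;> push_cast <;> ring

theorem six_ns_ms (lam a0 a1 a2 b0 b1 b2 : ℝ) :
    six (fun x y z => ms (a0 * ns lam (ms b0 b1 b2) x) (a1 * ns lam (ms b0 b1 b2) y)
      (a2 * ns lam (ms b0 b1 b2) z)) b0 b1 b2 = 6 * (ms a0 a1 a2 * ms b0 b1 b2) := by
  unfold six ns ms; ring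

section
variable {D0 D1 : NP} {D : ℕ → NP} {r0 r1 : CL} {rs0 rs1 : List CL}
    {rho : ℕ → List CL} {hh : List CL} {ep iep kk cc tlo : ℤ × ℕ}

/-- the potentials -/
noncomputable def nW' (D0 D1 : NP) (D : ℕ → NP) (u c : ℝ) (j k : ℕ) (P C : ℝ) : ℝ :=
  match j with
  | 0 => gR D0 P C
  | 1 => (1 - u) * gR D1 P C + u * gR (D k) P C
  | _ => c * k / 3

noncomputable def nψ' (D0 D1 : NP) (rho : ℕ → List CL) (ε lam : ℝ) (j k : ℕ) (P C : ℝ) : ℝ :=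
  match j with
  | 0 => gR D0 (lam ^ 2 * P) (lam ^ 3 * C)
  | 1 => gR D1 (lam ^ 2 * P) (lam ^ 3 * C) + ε * h2R (rho k) (lam ^ 2 * P) (lam ^ 3 * C)
  | _ => 0

noncomputable def nh' (hh : List CL) (e : ℝ) (i _k : ℕ) (P C : ℝ) : ℝ :=
  match i with
  | 0 => h2R hh P C
  | _ => -e

theorem NearCert.lam_pos (T : NearCert D0 D1 D r0 r1 rs0 rs1 rho hh ep iep kk cc tlo)
    {u lam : ℝ} (u0 : 0 ≤ u) (u1 : u ≤ 1) (hl : lam = 1 - cv ep * u) : 0 < lam ∧ lam ≤ 1 := by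
  rw [hl]
  have h1 := T.he1
  have h0 := T.he0
  have := mul_nonneg h0.le u0
  have := mul_le_mul_of_nonneg_left u1 h0.le
  constructor <;> linarith

theorem ub03 (E : NP) (h0 : Box0 0 (UE0 (1, 0) E)) (h1 : Box0 0 (UE1 (2, 0) E)) : UB E 0 3 := by
  have c1 : cv (1, 0) = 1 := by norm_num [cv]
  have c2 : cv (2, 0) = 2 := by norm_num [cv]
  have := UB_of_box (1, 0) (2, 0) E (by rw [c1]; norm_num) (by rw [c2]; norm_num) h0 h1
  rw [c1, c2] at this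
  norm_num at this
  exact this

theorem merge03 (E : NP) (hE : UB E 0 3) (lam : ℝ) (l0 : 0 < lam) (l1 : lam ≤ 1)
    (a0 a1 a2 b0 b1 b2 : ℝ) (ha0 : 0 ≤ a0) (ha1 : 0 ≤ a1) (ha2 : 0 ≤ a2)
    (hb0 : 0 ≤ b0) (hb1 : 0 ≤ b1) (hb2 : 0 ≤ b2) :
    six (fun x y z => hom (gR E) (a0 * ns lam (ms b0 b1 b2) x)
      (a1 * ns lam (ms b0 b1 b2) y) (a2 * ns lam (ms b0 b1 b2) z)) b0 b1 b2
      ≤ 6 * (ms a0 a1 a2 * ms b0 b1 b2 * avg E (Pn a0 a1 a2) (Cn a0 a1 a2)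
        (lam ^ 2 * Pn b0 b1 b2) (lam ^ 3 * Cn b0 b1 b2)) :=
  hom_merge E lam 0 3 hE l1 (by linarith) (by linarith) (by linarith) (by linarith)
    (by linarith) a0 a1 a2 b0 b1 b2 ha0 ha1 ha2 hb0 hb1 hb2

theorem NearCert.pt0 (T : NearCert D0 D1 D r0 r1 rs0 rs1 rho hh ep iep kk cc tlo)
    (lam : ℝ) (l0 : 0 < lam) (l1 : lam ≤ 1) (a0 a1 a2 b0 b1 b2 : ℝ) (ha0 : 0 ≤ a0)
    (ha1 : 0 ≤ a1) (ha2 : 0 ≤ a2) (hb0 : 0 ≤ b0) (hb1 : 0 ≤ b1) (hb2 : 0 ≤ b2)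
    (hma : 0 < ms a0 a1 a2) (hmb : 0 < ms b0 b1 b2) :
    avg D0 (Pn a0 a1 a2) (Cn a0 a1 a2) (lam ^ 2 * Pn b0 b1 b2) (lam ^ 3 * Cn b0 b1 b2)
      ≤ gR D0 (Pn a0 a1 a2) (Cn a0 a1 a2)
        + gR D0 (lam ^ 2 * Pn b0 b1 b2) (lam ^ 3 * Cn b0 b1 b2)
        + lam ^ 2 * Pn b0 b1 b2 * h2R hh (Pn a0 a1 a2) (Cn a0 a1 a2) := by
  obtain ⟨ρx, sx, p1, p2, p3, p4, e4, e5⟩ := Pn_range ha0 ha1 ha2 hma
  obtain ⟨ρz, sz, q1, q2, q3, q4, e6, e7⟩ := Pn_range hb0 hb1 hb2 hmb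
  have v1 : 0 ≤ lam * ρz := by positivity
  have v2 : lam * ρz ≤ 1 := by nlinarith
  have f1 : lam * ρz * (lam * ρz) * (1 + -3 / 4 * sz) = lam ^ 2 * Pn b0 b1 b2 := by rw [e6]; ring
  have f2 : lam * ρz * (lam * ρz * (lam * ρz)) * (1 + -9 / 8 * sz) = lam ^ 3 * Cn b0 b1 b2 := by
    rw [e7]; ring
  have k0 := T.hA0 ρx (lam * ρz) sx sz p1 p2 v1 v2 p3 p4 q3 q4
  rw [A0E_real] at k0
  simp only [env] at k0
  rw [f1, f2, ← e4, ← e5] at k0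
  linarith

theorem NearCert.pt1 (T : NearCert D0 D1 D r0 r1 rs0 rs1 rho hh ep iep kk cc tlo)
    (u lam : ℝ) (u0 : 0 ≤ u) (u1 : u ≤ 1) (hl : lam = 1 - cv ep * u) (k : ℕ)
    (hk : k < 4) (a0 a1 a2 b0 b1 b2 : ℝ) (ha0 : 0 ≤ a0) (ha1 : 0 ≤ a1) (ha2 : 0 ≤ a2)
    (hb0 : 0 ≤ b0) (hb1 : 0 ≤ b1) (hb2 : 0 ≤ b2)
    (hma : 0 < ms a0 a1 a2) (hmb : 0 < ms b0 b1 b2) :
    (1 - u) * avg D1 (Pn a0 a1 a2) (Cn a0 a1 a2) (lam ^ 2 * Pn b0 b1 b2) (lam ^ 3 * Cn b0 b1 b2)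
      + u * avg (D k) (Pn a0 a1 a2) (Cn a0 a1 a2) (lam ^ 2 * Pn b0 b1 b2)
        (lam ^ 3 * Cn b0 b1 b2)
      ≤ (1 - u) * gR D1 (Pn a0 a1 a2) (Cn a0 a1 a2) + u * gR (D k) (Pn a0 a1 a2) (Cn a0 a1 a2)
        + gR D1 (lam ^ 2 * Pn b0 b1 b2) (lam ^ 3 * Cn b0 b1 b2)
        + cv ep * u * h2R (rho k) (lam ^ 2 * Pn b0 b1 b2) (lam ^ 3 * Cn b0 b1 b2)
        - cv cc * u * (lam ^ 2 * Pn b0 b1 b2)
        - lam ^ 2 * (cv kk * u) * h2R hh (Pn a0 a1 a2) (Cn a0 a1 a2)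
        - lam ^ 2 * (u * dW k (fun i => gR (D i) (Pn a0 a1 a2) (Cn a0 a1 a2))) := by
  obtain ⟨l0, l1⟩ := T.lam_pos u0 u1 hl
  obtain ⟨ρx, sx, p1, p2, p3, p4, e4, e5⟩ := Pn_range ha0 ha1 ha2 hma
  obtain ⟨ρz, sz, q1, q2, q3, q4, e6, e7⟩ := Pn_range hb0 hb1 hb2 hmb
  have v1 : 0 ≤ lam * ρz := by positivity
  have v2 : lam * ρz ≤ 1 := by nlinarith
  have f1 : lam * ρz * (lam * ρz) * (1 + -3 / 4 * sz) = lam ^ 2 * Pn b0 b1 b2 := by rw [e6]; ring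
  have f2 : lam * ρz * (lam * ρz * (lam * ρz)) * (1 + -9 / 8 * sz) = lam ^ 3 * Cn b0 b1 b2 := by
    rw [e7]; ring
  have k1 := T.hA1 ρx (lam * ρz) sx sz p1 p2 v1 v2 p3 p4 q3 q4
  have g0 := T.hG0 k hk ρx (lam * ρz) sx sz p1 p2 v1 v2 p3 p4 q3 q4
  have g1 := T.hG1 k hk ρx (lam * ρz) sx sz p1 p2 v1 v2 p3 p4 q3 q4
  rw [A1E_real] at k1
  rw [G1E_real] at g0 g1
  simp only [env] at k1 g0 g1
  rw [f1, f2, ← e4, ← e5] at k1 g0 g1
  have t0 : (PE.q tlo.1 tlo.2).real 0 (env ρx (lam * ρz) sx sz) = (1 - cv ep) ^ 2 := by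
    rw [← T.htl]; simp [cv]
  have t1 : (one').real 0 (env ρx (lam * ρz) sx sz) = 1 := by simp [one']
  rw [t0] at g0
  rw [t1] at g1
  set A1 := avg D1 (Pn a0 a1 a2) (Cn a0 a1 a2) (lam ^ 2 * Pn b0 b1 b2) (lam ^ 3 * Cn b0 b1 b2)
  set A2 := avg (D k) (Pn a0 a1 a2) (Cn a0 a1 a2) (lam ^ 2 * Pn b0 b1 b2)
    (lam ^ 3 * Cn b0 b1 b2)
  set G1 := gR D1 (Pn a0 a1 a2) (Cn a0 a1 a2)
  set G2 := gR (D k) (Pn a0 a1 a2) (Cn a0 a1 a2)
  set Z1 := gR D1 (lam ^ 2 * Pn b0 b1 b2) (lam ^ 3 * Cn b0 b1 b2)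
  set R1 := h2R (rho k) (lam ^ 2 * Pn b0 b1 b2) (lam ^ 3 * Cn b0 b1 b2)
  set H0 := h2R hh (Pn a0 a1 a2) (Cn a0 a1 a2)
  set DD := dW k (fun i => gR (D i) (Pn a0 a1 a2) (Cn a0 a1 a2))
  have tl : (1 - cv ep) ^ 2 ≤ lam ^ 2 := by
    have h1 : 1 - cv ep ≤ lam := by
      rw [hl]
      have := mul_le_mul_of_nonneg_left u1 T.he0.le
      linarith
    have h2 : 0 ≤ 1 - cv ep := by linarith [T.he1]
    nlinarith
  have tu : lam ^ 2 ≤ 1 := by nlinarith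
  have key := aff (G2 + (Z1 + cv ep * R1) - cv cc * (lam ^ 2 * Pn b0 b1 b2) - A2)
    (-(cv kk * H0 + DD)) (lam ^ 2) ((1 - cv ep) ^ 2) 1 tl tu (by linarith) (by linarith)
  have c1' := mul_nonneg (sub_nonneg.2 u1) k1
  have c2' := mul_nonneg u0 key
  have e : (1 - u) * (G1 + Z1 - A1) + u * (G2 + (Z1 + cv ep * R1)
      - cv cc * (lam ^ 2 * Pn b0 b1 b2) - A2 + -(cv kk * H0 + DD) * lam ^ 2)
      = (1 - u) * G1 + u * G2 + Z1 + cv ep * u * R1 - cv cc * u * (lam ^ 2 * Pn b0 b1 b2)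
        - lam ^ 2 * (cv kk * u) * H0 - lam ^ 2 * (u * DD) - ((1 - u) * A1 + u * A2) := by ring
  linarith [add_nonneg c1' c2']

theorem NearCert.step0 (T : NearCert D0 D1 D r0 r1 rs0 rs1 rho hh ep iep kk cc tlo)
    (u lam c e : ℝ) (l0 : 0 < lam) (l1 : lam ≤ 1) (k : ℕ)
    (a0 a1 a2 b0 b1 b2 : ℝ) (ha0 : 0 ≤ a0) (ha1 : 0 ≤ a1) (ha2 : 0 ≤ a2)
    (hb0 : 0 ≤ b0) (hb1 : 0 ≤ b1) (hb2 : 0 ≤ b2) (hma : 0 < ms a0 a1 a2)
    (hmb : 0 < ms b0 b1 b2) :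
    six (fun x y z => hom (nW' D0 D1 D u c 0 k)
        (a0 * ns lam (ms b0 b1 b2) x)
        (a1 * ns lam (ms b0 b1 b2) y) (a2 * ns lam (ms b0 b1 b2) z)) b0 b1 b2
      ≤ 6 * (ms b0 b1 b2 * hom (nW' D0 D1 D u c 0 k) a0 a1 a2
        + ms a0 a1 a2 * hom (nψ' D0 D1 rho (cv ep * u) lam 0 k) b0 b1 b2
        + balH (lam ^ 2) (lam ^ 2 * 0) (lam ^ 2 * (2 * cv kk * u)) 0 0
          (hom (fun P _ => P) b0 b1 b2) (ms b0 b1 b2)
          (hom (nh' hh e 0 k) a0 a1 a2) (hom (nh' hh e 1 k) a0 a1 a2)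
        - lam ^ 2 * ms b0 b1 b2 * dW k (fun i => hom (nW' D0 D1 D u c 0 i) a0 a1 a2)) := by
  have M := merge03 D0 (ub03 D0 T.hU0.1 T.hU1.1) lam l0 l1 a0 a1 a2 b0 b1 b2 ha0 ha1 ha2 hb0 hb1
    hb2
  have k0 := T.pt0 lam l0 l1 a0 a1 a2 b0 b1 b2 ha0 ha1 ha2 hb0 hb1 hb2 hma hmb
  have mm : 0 ≤ ms a0 a1 a2 * ms b0 b1 b2 := by positivity
  have fin := mul_le_mul_of_nonneg_left k0 mm
  have hd : dW k (fun i => hom (nW' D0 D1 D u c 0 i) a0 a1 a2) = 0 :=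
    dW_const k (hom (gR D0) a0 a1 a2)
  rw [hd]
  refine le_trans M ?_
  simp only [hom_eq, nψ', nh', balH, nW']
  rw [mul_le_mul_iff_of_pos_left (by norm_num : (0 : ℝ) < 6)]
  refine le_trans fin (le_of_eq ?_)
  ring

theorem NearCert.step1 (T : NearCert D0 D1 D r0 r1 rs0 rs1 rho hh ep iep kk cc tlo)
    (u lam c : ℝ) (u0 : 0 ≤ u) (u1 : u ≤ 1) (hl : lam = 1 - cv ep * u) (k : ℕ) (hk : k < 4)
    (a0 a1 a2 b0 b1 b2 : ℝ) (ha0 : 0 ≤ a0) (ha1 : 0 ≤ a1) (ha2 : 0 ≤ a2)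
    (hb0 : 0 ≤ b0) (hb1 : 0 ≤ b1) (hb2 : 0 ≤ b2) (hma : 0 < ms a0 a1 a2)
    (hmb : 0 < ms b0 b1 b2) :
    six (fun x y z => hom (nW' D0 D1 D u c 1 k)
        (a0 * ns lam (ms b0 b1 b2) x)
        (a1 * ns lam (ms b0 b1 b2) y) (a2 * ns lam (ms b0 b1 b2) z)) b0 b1 b2
      ≤ 6 * (ms b0 b1 b2 * hom (nW' D0 D1 D u c 1 k) a0 a1 a2
        + ms a0 a1 a2 * hom (nψ' D0 D1 rho (cv ep * u) lam 1 k) b0 b1 b2
        + balH (lam ^ 2) (lam ^ 2 * 0) (lam ^ 2 * (2 * cv kk * u)) 0 1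
          (hom (fun P _ => P) b0 b1 b2) (ms b0 b1 b2)
          (hom (nh' hh (2 * cv cc * u) 0 k) a0 a1 a2) (hom (nh' hh (2 * cv cc * u) 1 k) a0 a1 a2)
        - lam ^ 2 * ms b0 b1 b2 * dW k (fun i => hom (nW' D0 D1 D u c 1 i) a0 a1 a2)) := by
  obtain ⟨l0, l1⟩ := T.lam_pos u0 u1 hl
  have M1 := merge03 D1 (ub03 D1 T.hU0.2.1 T.hU1.2.1) lam l0 l1 a0 a1 a2 b0 b1 b2 ha0 ha1 ha2
    hb0 hb1 hb2
  have M2 := merge03 (D k) (ub03 (D k) (T.hU0.2.2 k hk) (T.hU1.2.2 k hk)) lam l0 l1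
    a0 a1 a2 b0 b1 b2 ha0 ha1 ha2 hb0 hb1 hb2
  have k1 := T.pt1 u lam u0 u1 hl k hk a0 a1 a2 b0 b1 b2 ha0 ha1 ha2 hb0 hb1 hb2 hma hmb
  have mm : 0 ≤ ms a0 a1 a2 * ms b0 b1 b2 := by positivity
  have fin := mul_le_mul_of_nonneg_left k1 mm
  have hs : six (fun x y z => hom (nW' D0 D1 D u c 1 k)
      (a0 * ns lam (ms b0 b1 b2) x)
      (a1 * ns lam (ms b0 b1 b2) y) (a2 * ns lam (ms b0 b1 b2) z)) b0 b1 b2
      = (1 - u) * six (fun x y z => hom (gR D1) (a0 * ns lam (ms b0 b1 b2) x)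
        (a1 * ns lam (ms b0 b1 b2) y) (a2 * ns lam (ms b0 b1 b2) z)) b0 b1 b2
      + u * six (fun x y z => hom (gR (D k)) (a0 * ns lam (ms b0 b1 b2) x)
        (a1 * ns lam (ms b0 b1 b2) y) (a2 * ns lam (ms b0 b1 b2) z)) b0 b1 b2 := by
    unfold six
    simp only [hom_eq, nW']
    ring
  rw [hs]
  have m1 := mul_le_mul_of_nonneg_left M1 (sub_nonneg.2 u1)
  have m2 := mul_le_mul_of_nonneg_left M2 u0
  have hd : dW k (fun i => hom (nW' D0 D1 D u c 1 i)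
      a0 a1 a2) = ms a0 a1 a2 * (u * dW k (fun i => gR (D i) (Pn a0 a1 a2) (Cn a0 a1 a2))) := by
    obtain ⟨x0, x1, x2, x3, hx⟩ := dW_lin k
    have hz := dW_const k ((1 - u) * gR D1 (Pn a0 a1 a2) (Cn a0 a1 a2))
    rw [hx] at hz
    rw [hx, hx]
    simp only [hom_eq, nW']
    linear_combination ms a0 a1 a2 * hz
  rw [hd]
  refine le_trans (add_le_add m1 m2) ?_
  simp only [hom_eq, nψ', nh', balH, nW']
  set A1 := avg D1 (Pn a0 a1 a2) (Cn a0 a1 a2) (lam ^ 2 * Pn b0 b1 b2) (lam ^ 3 * Cn b0 b1 b2)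
  set A2 := avg (D k) (Pn a0 a1 a2) (Cn a0 a1 a2) (lam ^ 2 * Pn b0 b1 b2)
    (lam ^ 3 * Cn b0 b1 b2)
  have e1 : (1 - u) * (6 * (ms a0 a1 a2 * ms b0 b1 b2 * A1))
      + u * (6 * (ms a0 a1 a2 * ms b0 b1 b2 * A2))
      = 6 * (ms a0 a1 a2 * ms b0 b1 b2 * ((1 - u) * A1 + u * A2)) := by ring
  rw [e1, mul_le_mul_iff_of_pos_left (by norm_num : (0 : ℝ) < 6)]
  refine le_trans fin (le_of_eq ?_)
  ring

theorem near_step2 (D0 D1 : NP) (D : ℕ → NP) (rho : ℕ → List CL) (hh : List CL)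
    (u lam x e ee : ℝ) (k : ℕ) (hk : k < 4) (a0 a1 a2 b0 b1 b2 : ℝ) :
    six (fun x' y z => hom (nW' D0 D1 D u (x * e) 2 k)
        (a0 * ns lam (ms b0 b1 b2) x')
        (a1 * ns lam (ms b0 b1 b2) y) (a2 * ns lam (ms b0 b1 b2) z)) b0 b1 b2
      ≤ 6 * (ms b0 b1 b2 * hom (nW' D0 D1 D u (x * e) 2 k) a0 a1 a2
        + ms a0 a1 a2 * hom (nψ' D0 D1 rho ee lam 2 k) b0 b1 b2
        + balH (lam ^ 2) (lam ^ 2 * 0) (lam ^ 2 * x) 0 2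
          (hom (fun P _ => P) b0 b1 b2) (ms b0 b1 b2)
          (hom (nh' hh e 0 k) a0 a1 a2) (hom (nh' hh e 1 k) a0 a1 a2)
        - lam ^ 2 * ms b0 b1 b2 * dW k (fun i => hom (nW' D0 D1 D u (x * e) 2 i) a0 a1 a2)) := by
  have hs : six (fun x' y z => hom (nW' D0 D1 D u (x * e) 2 k)
      (a0 * ns lam (ms b0 b1 b2) x')
      (a1 * ns lam (ms b0 b1 b2) y) (a2 * ns lam (ms b0 b1 b2) z)) b0 b1 b2
      = (x * e * k / 3) * six (fun x y z => ms (a0 * ns lam (ms b0 b1 b2) x)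
        (a1 * ns lam (ms b0 b1 b2) y) (a2 * ns lam (ms b0 b1 b2) z)) b0 b1 b2 := by
    unfold six
    simp only [hom_eq, nW']
    ring
  rw [hs, six_ns_ms]
  have hd : dW k (fun i => hom (nW' D0 D1 D u (x * e) 2 i) a0 a1 a2)
      = ms a0 a1 a2 * (x * e) := by
    have h1 := dW_lin_k k hk (x * e)
    obtain ⟨x0, x1, x2, x3, hx⟩ := dW_lin k
    rw [hx] at h1 ⊢
    simp only [hom_eq, nW']
    linear_combination ms a0 a1 a2 * h1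
  rw [hd]
  simp only [hom_eq, nψ', nh', balH, nW']
  refine le_of_eq ?_
  ring

theorem NearCert.step (T : NearCert D0 D1 D r0 r1 rs0 rs1 rho hh ep iep kk cc tlo)
    (u lam : ℝ) (u0 : 0 ≤ u) (u1 : u ≤ 1) (hl : lam = 1 - cv ep * u) (j k : ℕ) (hj : j < 3)
    (hk : k < 4) (a0 a1 a2 b0 b1 b2 : ℝ) (ha0 : 0 ≤ a0) (ha1 : 0 ≤ a1) (ha2 : 0 ≤ a2)
    (hb0 : 0 ≤ b0) (hb1 : 0 ≤ b1) (hb2 : 0 ≤ b2) :
    six (fun x y z => hom (nW' D0 D1 D u ((2 * cv kk * u) * (2 * cv cc * u)) j k)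
        (a0 * ns lam (ms b0 b1 b2) x)
        (a1 * ns lam (ms b0 b1 b2) y) (a2 * ns lam (ms b0 b1 b2) z)) b0 b1 b2
      ≤ 6 * (ms b0 b1 b2 * hom (nW' D0 D1 D u ((2 * cv kk * u) * (2 * cv cc * u)) j k) a0 a1 a2
        + ms a0 a1 a2 * hom (nψ' D0 D1 rho (cv ep * u) lam j k) b0 b1 b2
        + balH (lam ^ 2) (lam ^ 2 * 0) (lam ^ 2 * (2 * cv kk * u)) 0 j
          (hom (fun P _ => P) b0 b1 b2) (ms b0 b1 b2)
          (hom (nh' hh (2 * cv cc * u) 0 k) a0 a1 a2) (hom (nh' hh (2 * cv cc * u) 1 k) a0 a1 a2)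
        - lam ^ 2 * ms b0 b1 b2 * dW k (fun i => hom (nW' D0 D1 D u
          ((2 * cv kk * u) * (2 * cv cc * u)) j i) a0 a1 a2)) := by
  obtain ⟨l0, l1⟩ := T.lam_pos u0 u1 hl
  rcases (ms_nonneg ha0 ha1 ha2).eq_or_lt with hma | hma
  · obtain ⟨z0, z1, z2⟩ := ms_zero ha0 ha1 ha2 hma.symm
    subst z0; subst z1; subst z2
    simp only [zero_mul, hom_zero, dW_const]
    have : ms 0 0 0 = 0 := by unfold ms; norm_num
    rw [this]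
    have hb : balH (lam ^ 2) (lam ^ 2 * 0) (lam ^ 2 * (2 * cv kk * u)) 0 j
          (hom (fun P _ => P) b0 b1 b2) (ms b0 b1 b2) 0 0 = 0 := by
      rcases j with _ | _ | j <;> simp only [balH] <;> ring
    rw [hb]
    unfold six
    simp
  rcases (ms_nonneg hb0 hb1 hb2).eq_or_lt with hmb | hmb
  · obtain ⟨z0, z1, z2⟩ := ms_zero hb0 hb1 hb2 hmb.symm
    subst z0; subst z1; subst z2
    have m0 : ms 0 0 0 = 0 := by unfold ms; norm_num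
    have n0 : ns lam 0 0 = 0 := by unfold ns; ring
    rw [m0]
    have hb : ∀ p q : ℝ, balH (lam ^ 2) (lam ^ 2 * 0) (lam ^ 2 * (2 * cv kk * u)) 0 j
          0 0 p q = 0 := by
      intro p q
      rcases j with _ | _ | j <;> simp only [balH] <;> ring
    unfold six
    simp only [n0, mul_zero, hom_zero]
    simp only [mul_zero] at hb
    rw [hb]
    simp
  interval_cases j
  · exact T.step0 u lam _ _ l0 l1 k a0 a1 a2 b0 b1 b2 ha0 ha1 ha2 hb0 hb1 hb2 hma hmb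
  · exact T.step1 u lam _ u0 u1 hl k hk a0 a1 a2 b0 b1 b2 ha0 ha1 ha2 hb0 hb1 hb2 hma hmb
  · exact near_step2 D0 D1 D rho hh u lam _ _ _ k hk a0 a1 a2 b0 b1 b2

end

end Vale.Agent.P154
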