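import Vale.Agent.P154.Near

/-! Nonreconstruction on the Poisson tree when `lam` is close to one. -/

open scoped BigOperators

namespace Vale.Agent.P154

/-! ### bounds -/

theorem Bd_hom_comb {g g' : ℝ → ℝ → ℝ} {B B' : ℝ} (a b : ℝ) (h : Bd (hom g) B)
    (h' : Bd (hom g') B') : Bd (hom (fun P C => a * g P C + b * g' P C)) (|a| * B + |b| * B') := by
  have e : hom (fun P C => a * g P C + b * g' P C)
      = fun x y z => a * hom g x y z + b * hom g' x y z := by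
    funext x y z; exact hom_comb a b g g' x y z
  rw [e]
  exact (h.smul a).add (h'.smul b)

theorem Bd_gR (D : NP) : Bd (hom (gR D)) (nW D) := fun a0 a1 a2 h0 h1 h2 =>
  hom_gR_abs D a0 a1 a2 h0 h1 h2

theorem Bd_h2R (l : List CL) : Bd (hom (h2R l)) (n2 l) := fun a0 a1 a2 h0 h1 h2 =>
  hom_h2R_abs l a0 a1 a2 h0 h1 h2

theorem Bd_h2R_scale (l : List CL) (s : ℝ) (s0 : 0 ≤ s) (s1 : s ≤ 1) :
    Bd (hom (fun P C => h2R l (s ^ 2 * P) (s ^ 3 * C))) (n2 l) := fun a0 a1 a2 h0 h1 h2 => by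
  have := h2R_scale_abs l 1 s s0 s1 a0 a1 a2 h0 h1 h2 zero_le_one
  simpa using this

theorem Bd_const (c : ℝ) : Bd (hom (fun _ _ => c)) |c| := fun a0 a1 a2 h0 h1 h2 => by
  rw [hom_eq, abs_mul, abs_of_nonneg (ms_nonneg h0 h1 h2), mul_comm]

theorem Bd_P : Bd (hom (fun P _ => P)) 1 := fun a0 a1 a2 h0 h1 h2 => by
  rw [hom_chi a0 a1 a2 h0 h1 h2]
  exact Bd_chi a0 a1 a2 h0 h1 h2

theorem nW_nonneg (D : NP) : 0 ≤ nW D := by
  unfold nW
  have := nrm_nonneg D.A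
  have := nrm_nonneg D.B
  have := nrm_nonneg D.E
  linarith

theorem FS_chi_eq {d lam : ℝ} (hd : 0 ≤ d) (h1 : lam ≤ 1) (h0 : -(1 / 2) ≤ lam) (n : ℕ) :
    FS (LvG d lam n) (hom (fun P _ => P)) = FS (LvG d lam n) chi := by
  have hf := famG hd h1 h0 n
  unfold FS
  refine tsum_congr fun c => ?_
  exact hom_chi _ _ _ (hf.nn c 0) (hf.nn c 1) (hf.nn c 2)

/-- monotone convergence of the statistic `P` -/
theorem chi_conv {d lam : ℝ} (hd : 0 ≤ d) (h1 : lam ≤ 1) (h0 : -(1 / 2) ≤ lam) :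
    ∃ L, 0 ≤ L ∧ L ≤ 1 ∧ (∀ n, L ≤ FS (LvG d lam n) chi) ∧
      Filter.Tendsto (fun n => FS (LvG d lam n) chi) Filter.atTop (nhds L) := by
  have ha : Antitone (fun n => FS (LvG d lam n) chi) :=
    antitone_nat_of_succ_le fun n => mono_level hd h1 h0 n chi Sub_chi
  have hn : ∀ n, 0 ≤ FS (LvG d lam n) chi := fun n =>
    tsum_nonneg fun c => chi_nn _ _ _ ((famG hd h1 h0 n).nn c 0) ((famG hd h1 h0 n).nn c 1)
      ((famG hd h1 h0 n).nn c 2)
  have hb : BddBelow (Set.range fun n => FS (LvG d lam n) chi) :=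
    ⟨0, by rintro x ⟨n, rfl⟩; exact hn n⟩
  have ht := tendsto_atTop_ciInf ha hb
  refine ⟨_, ?_, ?_, fun n => ciInf_le hb n, ht⟩
  · exact le_ciInf hn
  · refine le_trans (ciInf_le hb 0) ?_
    have := (famG hd h1 h0 0).le Bd_chi Bd_ms chi_le_ms
    rwa [(famG hd h1 h0 0).fs_ms] at this

theorem aSeqG_of_chi {d lam : ℝ} (hd : 0 ≤ d) (h1 : lam ≤ 1) (h0 : -(1 / 2) ≤ lam)
    (ht : Filter.Tendsto (fun n => FS (LvG d lam n) chi) Filter.atTop (nhds 0)) :
    Filter.Tendsto (fun n => aSeqG 3 d lam n) Filter.atTop (nhds 0) := by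
  rw [Metric.tendsto_atTop] at ht ⊢
  intro ε hε
  obtain ⟨N, hN⟩ := ht (ε ^ 2) (by positivity)
  refine ⟨N, fun n hn => ?_⟩
  have h := hN n hn
  rw [Real.dist_eq, sub_zero] at h
  have h2 : FS (LvG d lam n) chi < ε ^ 2 := (abs_lt.1 h).2
  obtain ⟨a0, a1⟩ := aSeqG_le hd h1 h0 n ε hε
  rw [Real.dist_eq, sub_zero, abs_of_nonneg a0]
  have h4 : 1 / (2 * ε) * FS (LvG d lam n) chi < 1 / (2 * ε) * ε ^ 2 :=
    mul_lt_mul_of_pos_left h2 (by positivity)
  have h5 : 1 / (2 * ε) * ε ^ 2 = ε / 2 := by field_simp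
  linarith

theorem lst_zero (r : CL) (rs : List CL) : h2R (lst r rs) 0 0 = 0 := by
  simp only [lst, h2R, hr, cv]
  norm_num

section
variable {D0 D1 : NP} {D : ℕ → NP} {r0 r1 : CL} {rs0 rs1 : List CL}
    {rho : ℕ → List CL} {hh : List CL} {ep iep kk cc tlo : ℤ × ℕ}

theorem NearCert.final0 (T : NearCert D0 D1 D r0 r1 rs0 rs1 rho hh ep iep kk cc tlo)
    (u lam : ℝ) (u0 : 0 ≤ u) (u1 : u ≤ 1) (hl : lam = 1 - cv ep * u) (d : ℝ) (hd : 0 < d)
    (hdl : d * lam ^ 2 ≤ 1) (b0 b1 b2 : ℝ) (hb0 : 0 ≤ b0) (hb1 : 0 ≤ b1) (hb2 : 0 ≤ b2)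
    (hm : 0 < ms b0 b1 b2) :
    d * gR D0 (lam ^ 2 * Pn b0 b1 b2) (lam ^ 3 * Cn b0 b1 b2)
      ≤ gR D0 (Pn b0 b1 b2) (Cn b0 b1 b2) := by
  obtain ⟨l0, l1⟩ := T.lam_pos u0 u1 hl
  obtain ⟨ρ, t, p1, p2, p3, p4, e1, e2⟩ := Pn_range hb0 hb1 hb2 hm
  have k0 := T.hS0 u ρ t 0 u0 u1 p1 p2 p3 p4 le_rfl zero_le_one
  have k1 := T.hP0 ρ 0 t 0 p1 p2 le_rfl zero_le_one p3 p4 le_rfl zero_le_one
  rw [S0E_real] at k0
  rw [RE_real] at k1
  simp only [env] at k0 k1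
  rw [← hl, ← e1, ← e2] at k0
  have z : cv (0, 0) = 0 := by norm_num [cv]
  rw [← e1, ← e2, z, sub_zero] at k1
  have g := GR_eq r0 rs0 lam (Pn b0 b1 b2) (Cn b0 b1 b2)
  rw [← T.hF0, ← T.hF0] at g
  have g1 := mul_nonneg (sub_nonneg.2 l1) k0
  calc d * gR D0 (lam ^ 2 * Pn b0 b1 b2) (lam ^ 3 * Cn b0 b1 b2)
      ≤ d * (lam ^ 2 * gR D0 (Pn b0 b1 b2) (Cn b0 b1 b2)) :=
        mul_le_mul_of_nonneg_left (by linarith) hd.le
    _ = (d * lam ^ 2) * gR D0 (Pn b0 b1 b2) (Cn b0 b1 b2) := by ring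
    _ ≤ 1 * gR D0 (Pn b0 b1 b2) (Cn b0 b1 b2) := mul_le_mul_of_nonneg_right hdl k1
    _ = _ := one_mul _

theorem NearCert.final1 (T : NearCert D0 D1 D r0 r1 rs0 rs1 rho hh ep iep kk cc tlo)
    (u lam : ℝ) (u0 : 0 ≤ u) (u1 : u ≤ 1) (hl : lam = 1 - cv ep * u) (d : ℝ) (hd : 0 < d)
    (hdl : d * lam ^ 2 ≤ 1) (b0 b1 b2 : ℝ) (hb0 : 0 ≤ b0) (hb1 : 0 ≤ b1) (hb2 : 0 ≤ b2)
    (hm : 0 < ms b0 b1 b2) :
    d * (gR D1 (lam ^ 2 * Pn b0 b1 b2) (lam ^ 3 * Cn b0 b1 b2)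
        + cv ep * u * (1 / 4 * (h2R (rho 0) (lam ^ 2 * Pn b0 b1 b2) (lam ^ 3 * Cn b0 b1 b2)
          + h2R (rho 1) (lam ^ 2 * Pn b0 b1 b2) (lam ^ 3 * Cn b0 b1 b2)
          + h2R (rho 2) (lam ^ 2 * Pn b0 b1 b2) (lam ^ 3 * Cn b0 b1 b2)
          + h2R (rho 3) (lam ^ 2 * Pn b0 b1 b2) (lam ^ 3 * Cn b0 b1 b2))))
      ≤ (1 - u) * gR D1 (Pn b0 b1 b2) (Cn b0 b1 b2)
        + u * gR (D 3) (Pn b0 b1 b2) (Cn b0 b1 b2) := by
  obtain ⟨l0, l1⟩ := T.lam_pos u0 u1 hl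
  obtain ⟨ρ, t, p1, p2, p3, p4, e1, e2⟩ := Pn_range hb0 hb1 hb2 hm
  have k0 := T.hS1 u ρ t 0 u0 u1 p1 p2 p3 p4 le_rfl zero_le_one
  have k1 := T.hP1 ρ 0 t 0 p1 p2 le_rfl zero_le_one p3 p4 le_rfl zero_le_one
  have k3 := T.hP3 ρ 0 t 0 p1 p2 le_rfl zero_le_one p3 p4 le_rfl zero_le_one
  rw [S1E_real (env u ρ t 0) ep iep D1 (D 3) r1 rs1 (rho 0) (rho 1) (rho 2) (rho 3) lam
    (Pn b0 b1 b2) (Cn b0 b1 b2) (by simp only [env]; exact hl.symm)
    (by simp only [env]; exact e1.symm) (by simp only [env]; exact e2.symm)] at k0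
  rw [RE_real] at k1 k3
  simp only [env] at k1 k3
  have z : cv (0, 0) = 0 := by norm_num [cv]
  rw [← e1, ← e2, z, sub_zero] at k1 k3
  have g := GR_eq r1 rs1 lam (Pn b0 b1 b2) (Cn b0 b1 b2)
  rw [← T.hF1, ← T.hF1] at g
  set F := gR D1 (Pn b0 b1 b2) (Cn b0 b1 b2)
  set F3 := gR (D 3) (Pn b0 b1 b2) (Cn b0 b1 b2)
  set Fl := gR D1 (lam ^ 2 * Pn b0 b1 b2) (lam ^ 3 * Cn b0 b1 b2)
  set R := (h2R (rho 0) (lam ^ 2 * Pn b0 b1 b2) (lam ^ 3 * Cn b0 b1 b2)
          + h2R (rho 1) (lam ^ 2 * Pn b0 b1 b2) (lam ^ 3 * Cn b0 b1 b2)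
          + h2R (rho 2) (lam ^ 2 * Pn b0 b1 b2) (lam ^ 3 * Cn b0 b1 b2)
          + h2R (rho 3) (lam ^ 2 * Pn b0 b1 b2) (lam ^ 3 * Cn b0 b1 b2))
  have he : 1 - lam = cv ep * u := by rw [hl]; ring
  have hie := T.hie
  have g1 := mul_nonneg (sub_nonneg.2 l1) k0
  have key : Fl + cv ep * u * (1 / 4 * R) ≤ lam ^ 2 * ((1 - u) * F + u * F3) := by
    have e : (1 - lam) * (lam ^ 2 * GR r1 rs1 lam (Pn b0 b1 b2) (Cn b0 b1 b2)
        + (cv iep * (lam ^ 2 * (F3 - F)) - 1 / 4 * R))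
        = (lam ^ 2 * F - Fl) + u * (lam ^ 2 * (F3 - F)) - cv ep * u * (1 / 4 * R) := by
      rw [mul_add, ← g, he]
      linear_combination u * (lam ^ 2 * (F3 - F)) * hie
    rw [e] at g1
    linarith
  have q : 0 ≤ (1 - u) * F + u * F3 :=
    add_nonneg (mul_nonneg (sub_nonneg.2 u1) k1) (mul_nonneg u0 k3)
  calc d * (Fl + cv ep * u * (1 / 4 * R))
      ≤ d * (lam ^ 2 * ((1 - u) * F + u * F3)) := mul_le_mul_of_nonneg_left key hd.le
    _ = (d * lam ^ 2) * ((1 - u) * F + u * F3) := by ring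
    _ ≤ 1 * ((1 - u) * F + u * F3) := mul_le_mul_of_nonneg_right hdl q
    _ = _ := one_mul _

theorem NearCert.sys (T : NearCert D0 D1 D r0 r1 rs0 rs1 rho hh ep iep kk cc tlo)
    (u lam : ℝ) (u0 : 0 < u) (u1 : u ≤ 1) (hl : lam = 1 - cv ep * u) (d : ℝ) (hd : 0 < d)
    (hdl : d * lam ^ 2 ≤ 1) :
    ∃ B, SysH d lam (lam ^ 2) 0 (2 * cv kk * u) 0 B
      (fun j => if j = 2 then (2 * cv kk * u) * (2 * cv cc * u) else 0) (fun P _ => P)
      (nW' D0 D1 D u ((2 * cv kk * u) * (2 * cv cc * u))) (nψ' D0 D1 rho (cv ep * u) lam)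
      (nh' hh (2 * cv cc * u)) := by
  obtain ⟨l0, l1⟩ := T.lam_pos u0.le u1 hl
  have he0 := T.he0
  have heu : 0 ≤ cv ep * u := by positivity
  set c := (2 * cv kk * u) * (2 * cv cc * u) with hc
  have hkk := T.hkk
  have hcc := T.hcc
  have c0 : 0 < c := by positivity
  set e := 2 * cv cc * u with he
  have e0 : 0 < e := by positivity
  set SD := ∑ k ∈ Finset.range 4, nW (D k) with hSD
  set SR := ∑ k ∈ Finset.range 4, n2 (rho k) with hSR
  have sd0 : 0 ≤ SD := Finset.sum_nonneg fun k _ => nW_nonneg _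
  have sr0 : 0 ≤ SR := Finset.sum_nonneg fun k _ => n2_nonneg _
  have leD : ∀ k, k < 4 → nW (D k) ≤ SD := fun k hk =>
    Finset.single_le_sum (f := fun k => nW (D k)) (fun k _ => nW_nonneg _) (Finset.mem_range.2 hk)
  have leR : ∀ k, k < 4 → n2 (rho k) ≤ SR := fun k hk =>
    Finset.single_le_sum (f := fun k => n2 (rho k)) (fun k _ => n2_nonneg _)
      (Finset.mem_range.2 hk)
  have w0 := nW_nonneg D0
  have w1 := nW_nonneg D1
  have v0 := n2_nonneg (lst r0 rs0)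
  have v1 := n2_nonneg (lst r1 rs1)
  have vh := n2_nonneg hh
  have us : |1 - u| ≤ 1 := by rw [abs_le]; constructor <;> linarith
  have uu : |u| ≤ 1 := by rw [abs_le]; constructor <;> linarith
  have ue : |cv ep * u| ≤ 1 := by
    rw [abs_of_nonneg heu]
    have := T.he1
    nlinarith
  refine ⟨1 + nW D0 + nW D1 + SD + c + n2 (lst r0 rs0) + n2 (lst r1 rs1) + SR + n2 hh + e,
    hd, l1, by linarith, by positivity, hdl, by linarith, ?_, ?_, rfl, ?_, ?_, ?_, ?_, ?_⟩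
  · intro j k hj hk a0 a1 a2 b0 b1 b2 ha0 ha1 ha2 hb0 hb1 hb2
    exact T.step u lam u0.le u1 hl j k hj hk a0 a1 a2 b0 b1 b2 ha0 ha1 ha2 hb0 hb1 hb2
  · intro j k hj hk
    interval_cases j
    · simp only [nψ', mul_zero]
      rw [T.hF0]; exact lst_zero _ _
    · simp only [nψ', mul_zero]
      rw [T.hF1, lst_zero, T.hr0 k hk]; ring
    · rfl
  · intro j hj b0 b1 b2 hb0 hb1 hb2
    rcases (ms_nonneg hb0 hb1 hb2).eq_or_lt with h | h
    · obtain ⟨z0, z1, z2⟩ := ms_zero hb0 hb1 hb2 h.symm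
      subst z0; subst z1; subst z2
      simp only [hom_zero, ← h]; simp
    · interval_cases j
      · have k0 := T.final0 u lam u0.le u1 hl d hd hdl b0 b1 b2 hb0 hb1 hb2 h
        have z : gR D0 0 0 = 0 := by rw [T.hF0]; exact lst_zero _ _
        have := mul_le_mul_of_nonneg_left k0 h.le
        simp only [hom_eq, nψ', nW', z]
        norm_num
        linarith
      · have k0 := T.final1 u lam u0.le u1 hl d hd hdl b0 b1 b2 hb0 hb1 hb2 h
        have z : gR D1 0 0 = 0 := by rw [T.hF1]; exact lst_zero _ _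
        have z' := T.hD0
        have := mul_le_mul_of_nonneg_left k0 h.le
        simp only [hom_eq, nψ', nW', z, z']
        norm_num
        linarith
      · simp only [hom_eq, nψ', nW']
        norm_num
        rw [mul_comm]
  · refine Bd_P.mono ?_
    linarith
  · intro j k hj hk
    interval_cases j
    · exact (Bd_gR D0).mono (by linarith)
    · have h1 := Bd_hom_comb (1 - u) u (Bd_gR D1) (Bd_gR (D k))
      refine h1.mono ?_
      have := mul_le_mul_of_nonneg_right us w1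
      have := mul_le_mul_of_nonneg_right uu (nW_nonneg (D k))
      have := leD k hk
      linarith
    · have h1 := Bd_const (c * k / 3)
      refine h1.mono ?_
      have hk' : (k : ℝ) ≤ 3 := by exact_mod_cast (by omega : k ≤ 3)
      have hk0 : (0 : ℝ) ≤ k := by positivity
      rw [abs_of_nonneg (by positivity)]
      have : c * k / 3 ≤ c := by
        rw [div_le_iff₀ (by norm_num)]
        nlinarith
      linarith
  · intro j k hj hk
    interval_cases j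
    · have h1 := Bd_h2R_scale (lst r0 rs0) lam l0.le l1
      have e1 : hom (nψ' D0 D1 rho (cv ep * u) lam 0 k)
          = hom (fun P C => h2R (lst r0 rs0) (lam ^ 2 * P) (lam ^ 3 * C)) := by
        congr 1
        funext P C
        exact T.hF0 _ _
      rw [e1]
      exact h1.mono (by linarith)
    · have h1 := Bd_h2R_scale (lst r1 rs1) lam l0.le l1
      have h2 := Bd_h2R_scale (rho k) lam l0.le l1
      have e1 : hom (nψ' D0 D1 rho (cv ep * u) lam 1 k)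
          = hom (fun P C => 1 * h2R (lst r1 rs1) (lam ^ 2 * P) (lam ^ 3 * C)
            + cv ep * u * h2R (rho k) (lam ^ 2 * P) (lam ^ 3 * C)) := by
        congr 1
        funext P C
        simp only [nψ']
        rw [T.hF1, one_mul]
      rw [e1]
      refine (Bd_hom_comb 1 (cv ep * u) h1 h2).mono ?_
      have := mul_le_mul_of_nonneg_right ue (n2_nonneg (rho k))
      have := leR k hk
      rw [abs_one]
      linarith
    · have h1 := Bd_const 0
      refine Bd.mono (F := hom (nψ' D0 D1 rho (cv ep * u) lam 2 k)) h1 ?_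
      rw [abs_zero]
      linarith
  · intro i k hi hk
    interval_cases i
    · exact Bd.mono (F := hom (nh' hh e 0 k)) (Bd_h2R hh) (by linarith)
    · refine Bd.mono (F := hom (nh' hh e 1 k)) (Bd_const (-e)) ?_
      rw [abs_neg, abs_of_pos e0]
      linarith

/-- nonreconstruction on the Poisson tree near `lam = 1` -/
theorem NearCert.result (T : NearCert D0 D1 D r0 r1 rs0 rs1 rho hh ep iep kk cc tlo)
    (d lam : ℝ) (hd : 0 < d) (h0 : 1 - cv ep ≤ lam) (h1 : lam < 1) (hdl : d * lam ^ 2 ≤ 1) :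
    Filter.Tendsto (fun n => aSeqG 3 d lam n) Filter.atTop (nhds 0) := by
  have he0 := T.he0
  have hkk := T.hkk
  have hcc := T.hcc
  set u := (1 - lam) / cv ep with hu
  have u0 : 0 < u := div_pos (by linarith) he0
  have u1 : u ≤ 1 := by rw [hu, div_le_one he0]; linarith
  have hl : lam = 1 - cv ep * u := by rw [hu]; field_simp; ring
  obtain ⟨l0, l1⟩ := T.lam_pos u0.le u1 hl
  obtain ⟨B, S⟩ := T.sys u lam u0 u1 hl d hd hdl
  obtain ⟨L, L0, L1, _, hL⟩ := chi_conv (d := d) (lam := lam) hd.le l1 (by linarith)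
  rcases L0.eq_or_lt with hz | hz
  · rw [← hz] at hL
    exact aSeqG_of_chi hd.le l1 (by linarith) hL
  exfalso
  have hL' : Filter.Tendsto (fun n => FS (LvG d lam n) (hom (fun P _ => P))) Filter.atTop
      (nhds L) := by
    have e : (fun n => FS (LvG d lam n) (hom (fun P _ => P))) = fun n => FS (LvG d lam n) chi := by
      funext n
      exact FS_chi_eq hd.le l1 (by linarith) n
    rw [e]; exact hL
  have hb : 0 < 1 / d * (2 * cv kk * u) := by positivity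
  have hx : 0 < lam ^ 2 * L := by positivity
  set b := 1 / d * (2 * cv kk * u) with hbd
  set x := lam ^ 2 * L with hxd
  have hs : 0 < x + b := by positivity
  refine S.no_limit L (x / (x + b)) hL' (by positivity) ?_ ?_ ?_
  · rw [div_le_one hs]; linarith
  · rw [← hbd]
    field_simp
    ring
  · have t0 : 0 < x / (x + b) := by positivity
    norm_num
    positivity

end

end Vale.Agent.P154
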