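import Vale.Agent.P154.Merge

/-! Parametrization of the simplex and the noise map. -/

namespace Vale.Agent.P154

theorem param_sorted (q0 q1 q2 : ℝ) (h2 : 0 ≤ q2) (h12 : q2 ≤ q1) (h01 : q1 ≤ q0)
    (hq : q0 + q1 + q2 = 3) : ∃ ρ s : ℝ, 0 ≤ ρ ∧ ρ ≤ 1 ∧ 0 ≤ s ∧ s ≤ 1 ∧
      Pf q0 q1 q2 = ρ * ρ * (1 + -3 / 4 * s) ∧ Cf q0 q1 q2 = ρ * (ρ * ρ) * (1 + -9 / 8 * s) := by
  have hq2 : q2 ≤ 1 := by linarith
  rcases (show (0 : ℝ) ≤ 1 - q2 by linarith).eq_or_lt with h | h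
  · have e2 : q2 = 1 := by linarith
    have e1 : q1 = 1 := by linarith
    have e0 : q0 = 1 := by linarith
    refine ⟨0, 0, le_rfl, zero_le_one, le_rfl, zero_le_one, ?_, ?_⟩
    · rw [e0, e1, e2]; unfold Pf; norm_num
    · rw [e0, e1, e2]; unfold Cf Pf; norm_num
  · set ρ := 1 - q2 with hρ
    set a := (q1 - q2) / (3 / 2 * ρ) with ha
    have ha0 : 0 ≤ a := div_nonneg (by linarith) (by positivity)
    have ha1 : a ≤ 1 := by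
      rw [ha, div_le_one (by positivity)]; linarith
    have e1 : q1 = 1 + ρ * (3 / 2 * a - 1) := by
      have : a * (3 / 2 * ρ) = q1 - q2 := by rw [ha]; field_simp
      linarith
    have e2 : q2 = 1 - ρ := by linarith
    have e0 : q0 = 1 + ρ * (2 - 3 / 2 * a) := by linarith
    refine ⟨ρ, a * (2 - a), h.le, by linarith, by nlinarith, by nlinarith [sq_nonneg (1 - a)],
      ?_, ?_⟩
    · rw [e0, e1, e2]; unfold Pf; ring
    · rw [e0, e1, e2]; unfold Cf Pf; ring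

theorem param (q0 q1 q2 : ℝ) (h0 : 0 ≤ q0) (h1 : 0 ≤ q1) (h2 : 0 ≤ q2)
    (hq : q0 + q1 + q2 = 3) : ∃ ρ s : ℝ, 0 ≤ ρ ∧ ρ ≤ 1 ∧ 0 ≤ s ∧ s ≤ 1 ∧
      Pf q0 q1 q2 = ρ * ρ * (1 + -3 / 4 * s) ∧ Cf q0 q1 q2 = ρ * (ρ * ρ) * (1 + -9 / 8 * s) := by
  have sP1 : Pf q0 q1 q2 = Pf q1 q0 q2 := by unfold Pf; ring
  have sP2 : Pf q0 q1 q2 = Pf q0 q2 q1 := by unfold Pf; ring
  have sP3 : Pf q0 q1 q2 = Pf q1 q2 q0 := by unfold Pf; ring
  have sP4 : Pf q0 q1 q2 = Pf q2 q0 q1 := by unfold Pf; ring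
  have sP5 : Pf q0 q1 q2 = Pf q2 q1 q0 := by unfold Pf; ring
  have sC1 : Cf q0 q1 q2 = Cf q1 q0 q2 := by unfold Cf Pf; ring
  have sC2 : Cf q0 q1 q2 = Cf q0 q2 q1 := by unfold Cf Pf; ring
  have sC3 : Cf q0 q1 q2 = Cf q1 q2 q0 := by unfold Cf Pf; ring
  have sC4 : Cf q0 q1 q2 = Cf q2 q0 q1 := by unfold Cf Pf; ring
  have sC5 : Cf q0 q1 q2 = Cf q2 q1 q0 := by unfold Cf Pf; ring
  rcases le_total q0 q1 with a | a <;> rcases le_total q1 q2 with b | b <;>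
    rcases le_total q0 q2 with c | c
  · rw [sP5, sC5]; exact param_sorted q2 q1 q0 h0 a b (by linarith)
  · rw [sP5, sC5]; exact param_sorted q2 q1 q0 h0 a b (by linarith)
  · rw [sP3, sC3]; exact param_sorted q1 q2 q0 h0 c b (by linarith)
  · rw [sP1, sC1]; exact param_sorted q1 q0 q2 h2 c a (by linarith)
  · rw [sP4, sC4]; exact param_sorted q2 q0 q1 h1 a c (by linarith)
  · rw [sP2, sC2]; exact param_sorted q0 q2 q1 h1 b c (by linarith)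
  · exact param_sorted q0 q1 q2 h2 b a (by linarith)
  · exact param_sorted q0 q1 q2 h2 b a (by linarith)

theorem noise_P (lam r0 r1 r2 : ℝ) (hr : r0 + r1 + r2 = 3) :
    Pf (1 + lam * (r0 - 1)) (1 + lam * (r1 - 1)) (1 + lam * (r2 - 1)) = lam ^ 2 * Pf r0 r1 r2 := by
  have : r2 = 3 - r0 - r1 := by linarith
  subst this; unfold Pf; ring

theorem noise_C (lam r0 r1 r2 : ℝ) (hr : r0 + r1 + r2 = 3) :
    Cf (1 + lam * (r0 - 1)) (1 + lam * (r1 - 1)) (1 + lam * (r2 - 1)) = lam ^ 3 * Cf r0 r1 r2 := by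
  have : r2 = 3 - r0 - r1 := by linarith
  subst this; unfold Cf Pf; ring

/-- range of the weight for a free and a noisy message -/
theorem W_range1 (lam q0 q1 q2 b0 b1 b2 : ℝ) (hlam : 0 ≤ lam)
    (hq0 : 0 ≤ q0) (hq1 : 0 ≤ q1) (hq2 : 0 ≤ q2) (hq : q0 + q1 + q2 = 3)
    (hb0 : 0 ≤ b0) (hb1 : 0 ≤ b1) (hb2 : 0 ≤ b2) (hb : b0 + b1 + b2 = 3) :
    1 - lam ≤ Wf q0 q1 q2 (1 + lam * (b0 - 1)) (1 + lam * (b1 - 1)) (1 + lam * (b2 - 1)) ∧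
    Wf q0 q1 q2 (1 + lam * (b0 - 1)) (1 + lam * (b1 - 1)) (1 + lam * (b2 - 1))
      ≤ 1 + 2 * lam := by
  have e : Wf q0 q1 q2 (1 + lam * (b0 - 1)) (1 + lam * (b1 - 1)) (1 + lam * (b2 - 1))
      = 1 + lam * ((q0 * b0 + q1 * b1 + q2 * b2) / 3 - 1) := by
    have : q2 = 3 - q0 - q1 := by linarith
    subst this; unfold Wf; ring
  rw [e]
  have l : 0 ≤ q0 * b0 + q1 * b1 + q2 * b2 := by positivity
  have u : q0 * b0 + q1 * b1 + q2 * b2 ≤ 9 := by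
    have : (q0 + q1 + q2) * (b0 + b1 + b2) = 9 := by rw [hq, hb]; norm_num
    have : 0 ≤ q0 * b1 + q0 * b2 + q1 * b0 + q1 * b2 + q2 * b0 + q2 * b1 := by positivity
    nlinarith
  constructor <;> nlinarith

/-- range of the weight for two noisy messages -/
theorem W_range2 (lam a0 a1 a2 b0 b1 b2 : ℝ) 
    (hq0 : 0 ≤ a0) (hq1 : 0 ≤ a1) (hq2 : 0 ≤ a2) (hq : a0 + a1 + a2 = 3)
    (hb0 : 0 ≤ b0) (hb1 : 0 ≤ b1) (hb2 : 0 ≤ b2) (hb : b0 + b1 + b2 = 3) :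
    1 - lam ^ 2 ≤ Wf (1 + lam * (a0 - 1)) (1 + lam * (a1 - 1)) (1 + lam * (a2 - 1))
        (1 + lam * (b0 - 1)) (1 + lam * (b1 - 1)) (1 + lam * (b2 - 1)) ∧
    Wf (1 + lam * (a0 - 1)) (1 + lam * (a1 - 1)) (1 + lam * (a2 - 1))
      (1 + lam * (b0 - 1)) (1 + lam * (b1 - 1)) (1 + lam * (b2 - 1)) ≤ 1 + 2 * lam ^ 2 := by
  have e : Wf (1 + lam * (a0 - 1)) (1 + lam * (a1 - 1)) (1 + lam * (a2 - 1))
        (1 + lam * (b0 - 1)) (1 + lam * (b1 - 1)) (1 + lam * (b2 - 1))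
      = 1 + lam ^ 2 * ((a0 * b0 + a1 * b1 + a2 * b2) / 3 - 1) := by
    have h1 : a2 = 3 - a0 - a1 := by linarith
    have h2 : b2 = 3 - b0 - b1 := by linarith
    subst h1; subst h2; unfold Wf; ring
  rw [e]
  have l : 0 ≤ a0 * b0 + a1 * b1 + a2 * b2 := by positivity
  have u : a0 * b0 + a1 * b1 + a2 * b2 ≤ 9 := by
    have : (a0 + a1 + a2) * (b0 + b1 + b2) = 9 := by rw [hq, hb]; norm_num
    have : 0 ≤ a0 * b1 + a0 * b2 + a1 * b0 + a1 * b2 + a2 * b0 + a2 * b1 := by positivity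
    nlinarith
  have hl : 0 ≤ lam ^ 2 := sq_nonneg _
  constructor <;> nlinarith

end Vale.Agent.P154
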