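import Vale.Agent.P154.Near2

/-! A second statistic for the Poisson tree with a negative eigenvalue. -/

open scoped BigOperators

namespace Vale.Agent.P154

/-! ### convergence of the statistic -/

theorem th_id (α β q0 q1 r0 r1 : ℝ) (h : α + β ≠ 0) :
    α * (6 * Pf q0 q1 (3 - q0 - q1) + 2 * Cf q0 q1 (3 - q0 - q1))
      + β * (6 * Pf r0 r1 (3 - r0 - r1) + 2 * Cf r0 r1 (3 - r0 - r1))
      - (α + β) * (6 * Pf ((α * q0 + β * r0) / (α + β)) ((α * q1 + β * r1) / (α + β))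
          ((α * (3 - q0 - q1) + β * (3 - r0 - r1)) / (α + β))
        + 2 * Cf ((α * q0 + β * r0) / (α + β)) ((α * q1 + β * r1) / (α + β))
          ((α * (3 - q0 - q1) + β * (3 - r0 - r1)) / (α + β)))
      = α * β / (α + β) ^ 2 * (((2 * α + β) * q0 + (α + 2 * β) * r0) / 3 * (q0 - r0) ^ 2
        + ((2 * α + β) * q1 + (α + 2 * β) * r1) / 3 * (q1 - r1) ^ 2
        + ((2 * α + β) * (3 - q0 - q1) + (α + 2 * β) * (3 - r0 - r1)) / 3
          * ((3 - q0 - q1) - (3 - r0 - r1)) ^ 2) := by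
  unfold Cf Pf
  field_simp
  ring

theorem th_add (u0 u1 u2 v0 v1 v2 : ℝ) (hu0 : 0 ≤ u0) (hu1 : 0 ≤ u1) (hu2 : 0 ≤ u2)
    (hv0 : 0 ≤ v0) (hv1 : 0 ≤ v1) (hv2 : 0 ≤ v2) :
    hom (fun P C => 6 * P + 2 * C) (u0 + v0) (u1 + v1) (u2 + v2)
      ≤ hom (fun P C => 6 * P + 2 * C) u0 u1 u2 + hom (fun P C => 6 * P + 2 * C) v0 v1 v2 := by
  rcases (ms_nonneg hu0 hu1 hu2).eq_or_lt with h | h
  · obtain ⟨z0, z1, z2⟩ := ms_zero hu0 hu1 hu2 h.symm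
    subst z0; subst z1; subst z2
    rw [hom_zero]; simp
  rcases (ms_nonneg hv0 hv1 hv2).eq_or_lt with h' | h'
  · obtain ⟨z0, z1, z2⟩ := ms_zero hv0 hv1 hv2 h'.symm
    subst z0; subst z1; subst z2
    rw [hom_zero]; simp
  have e : ms (u0 + v0) (u1 + v1) (u2 + v2) = ms u0 u1 u2 + ms v0 v1 v2 := by unfold ms; ring
  unfold hom
  rw [e]
  have nq := normalize (a0 := u0) (a1 := u1) (a2 := u2) h
  have nr := normalize (a0 := v0) (a1 := v1) (a2 := v2) h'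
  set α := ms u0 u1 u2
  set β := ms v0 v1 v2
  have hs : α + β ≠ 0 := by positivity
  have a0 : u0 = α * (u0 / α) := by field_simp
  have a1 : u1 = α * (u1 / α) := by field_simp
  have a2 : u2 = α * (u2 / α) := by field_simp
  have b0 : v0 = β * (v0 / β) := by field_simp
  have b1 : v1 = β * (v1 / β) := by field_simp
  have b2 : v2 = β * (v2 / β) := by field_simp
  have p0 := div_nonneg hu0 h.le
  have p1 := div_nonneg hu1 h.le
  have p2 := div_nonneg hu2 h.le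
  have p3 := div_nonneg hv0 h'.le
  have p4 := div_nonneg hv1 h'.le
  have p5 := div_nonneg hv2 h'.le
  have s2 : u2 / α = 3 - u0 / α - u1 / α := by linarith
  have t2 : v2 / β = 3 - v0 / β - v1 / β := by linarith
  have key := th_id α β (u0 / α) (u1 / α) (v0 / β) (v1 / β) hs
  rw [← s2, ← t2, ← a0, ← a1, ← a2, ← b0, ← b1, ← b2] at key
  have nn : 0 ≤ α * β / (α + β) ^ 2 * (((2 * α + β) * (u0 / α) + (α + 2 * β) * (v0 / β)) / 3
        * (u0 / α - v0 / β) ^ 2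
        + ((2 * α + β) * (u1 / α) + (α + 2 * β) * (v1 / β)) / 3 * (u1 / α - v1 / β) ^ 2
        + ((2 * α + β) * (u2 / α) + (α + 2 * β) * (v2 / β)) / 3
          * (u2 / α - v2 / β) ^ 2) := by positivity
  linarith

theorem Bd_C : Bd (hom (fun _ C => C)) 1 := fun a0 a1 a2 h0 h1 h2 => by
  rcases (ms_nonneg h0 h1 h2).eq_or_lt with h | h
  · obtain ⟨z0, z1, z2⟩ := ms_zero h0 h1 h2 h.symm
    subst z0; subst z1; subst z2
    rw [hom_zero, ← h]; simp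
  · rw [hom_eq, abs_mul, abs_of_pos h, mul_comm]
    obtain ⟨ρ, s, r1, r2, r3, r4, e1, e2⟩ := Pn_range h0 h1 h2 h
    obtain ⟨b1, b2, b3⟩ := PC_bd ρ s r1 r2 r3 r4
    rw [← e2] at b3
    exact mul_le_mul_of_nonneg_right b3 h.le

theorem Sub_th : Sub (hom (fun P C => 6 * P + 2 * C)) :=
  ⟨th_add, fun t a b c => hom_smul _ t a b c, |6| * 1 + |2| * 1, by positivity,
    Bd_hom_comb 6 2 Bd_P Bd_C⟩

theorem PC_nn (a0 a1 a2 : ℝ) (h0 : 0 ≤ a0) (h1 : 0 ≤ a1) (h2 : 0 ≤ a2)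
    (h : 0 < ms a0 a1 a2) : 0 ≤ Pn a0 a1 a2 ∧ 0 ≤ Pn a0 a1 a2 + 2 * Cn a0 a1 a2 := by
  obtain ⟨ρ, s, r1, r2, r3, r4, e1, e2⟩ := Pn_range h0 h1 h2 h
  obtain ⟨b1, b2, b3⟩ := PC_bd ρ s r1 r2 r3 r4
  refine ⟨by rw [e1]; exact b1, ?_⟩
  rw [e1, e2]
  have q : ρ * ρ * (1 + -3 / 4 * s) + 2 * (ρ * (ρ * ρ) * (1 + -9 / 8 * s))
      = ρ * ρ * ((1 + -3 / 4 * s) + 2 * (ρ * (1 + -9 / 8 * s))) := by ring
  rw [q]
  refine mul_nonneg (mul_nonneg r1 r1) ?_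
  rcases le_or_gt 0 (1 + -9 / 8 * s) with hh | hh
  · have := mul_nonneg r1 hh
    linarith
  · nlinarith

section
variable {d lam : ℝ}

theorem FS_nn (hd : 0 ≤ d) (h1 : lam ≤ 1) (h0 : -(1 / 2) ≤ lam) (n : ℕ) (g : ℝ → ℝ → ℝ)
    (hg : ∀ a0 a1 a2 : ℝ, 0 ≤ a0 → 0 ≤ a1 → 0 ≤ a2 → 0 < ms a0 a1 a2 →
      0 ≤ g (Pn a0 a1 a2) (Cn a0 a1 a2)) : 0 ≤ FS (LvG d lam n) (hom g) := by
  have hf := famG hd h1 h0 n
  refine tsum_nonneg fun c => ?_
  unfold at3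
  rcases (ms_nonneg (hf.nn c 0) (hf.nn c 1) (hf.nn c 2)).eq_or_lt with h | h
  · rw [hom_eq, ← h, zero_mul]
  · rw [hom_eq]
    exact mul_nonneg h.le (hg _ _ _ (hf.nn c 0) (hf.nn c 1) (hf.nn c 2) h)

theorem FS_comb (hd : 0 ≤ d) (h1 : lam ≤ 1) (h0 : -(1 / 2) ≤ lam) (n : ℕ) (a b : ℝ) :
    FS (LvG d lam n) (hom (fun P C => a * P + b * C))
      = a * FS (LvG d lam n) (hom (fun P _ => P)) + b * FS (LvG d lam n) (hom (fun _ C => C)) := by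
  have e : hom (fun P C => a * P + b * C)
      = fun x y z => a * hom (fun P _ => P) x y z + b * hom (fun _ C => C) x y z := by
    funext x y z
    exact hom_comb a b (fun P _ => P) (fun _ C => C) x y z
  rw [e]
  exact (famG hd h1 h0 n).lin2 Bd_P Bd_C a b

theorem PC_conv (hd : 0 ≤ d) (h1 : lam ≤ 1) (h0 : -(1 / 2) ≤ lam) :
    ∃ p c : ℝ, Filter.Tendsto (fun n => FS (LvG d lam n) (hom (fun P _ => P))) Filter.atTop
        (nhds p) ∧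
      Filter.Tendsto (fun n => FS (LvG d lam n) (hom (fun _ C => C))) Filter.atTop (nhds c) := by
  obtain ⟨p, _, _, _, hp⟩ := chi_conv hd h1 h0
  have hp' : Filter.Tendsto (fun n => FS (LvG d lam n) (hom (fun P _ => P))) Filter.atTop
      (nhds p) := by
    have e : (fun n => FS (LvG d lam n) (hom (fun P _ => P))) = fun n => FS (LvG d lam n) chi := by
      funext n
      exact FS_chi_eq hd h1 h0 n
    rw [e]; exact hp
  have ha : Antitone (fun n => FS (LvG d lam n) (hom (fun P C => 6 * P + 2 * C))) :=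
    antitone_nat_of_succ_le fun n => mono_level hd h1 h0 n _ Sub_th
  have hn : ∀ n, 0 ≤ FS (LvG d lam n) (hom (fun P C => 6 * P + 2 * C)) := fun n =>
    FS_nn hd h1 h0 n _ fun a0 a1 a2 k0 k1 k2 h => by
      have := PC_nn a0 a1 a2 k0 k1 k2 h
      linarith [this.1, this.2]
  have hb : BddBelow (Set.range fun n => FS (LvG d lam n) (hom (fun P C => 6 * P + 2 * C))) :=
    ⟨0, by rintro x ⟨n, rfl⟩; exact hn n⟩
  have ht := tendsto_atTop_ciInf ha hb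
  have t2 := (ht.sub (hp'.const_mul 6)).mul_const (1 / 2)
  refine ⟨p, _, hp', t2.congr fun n => ?_⟩
  rw [FS_comb hd h1 h0 n 6 2]
  ring

/-- the conclusion, once no positive value of the limit is possible -/
theorem phi_result (hd : 0 < d) (h1 : lam ≤ 1) (h0 : -(1 / 2) ≤ lam) (hl : lam ≠ 0)
    (hdl : d * lam ^ 2 ≤ 1) (s : ℝ) (s0 : 0 ≤ s) (s1 : s ≤ 1)
    (excl : ∀ L, Filter.Tendsto (fun n => FS (LvG d lam n)
        (hom (fun P C => 1 / 2 * P + s / 2 * C))) Filter.atTop (nhds L) →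
      0 < d * lam ^ 2 * L → d * lam ^ 2 * L ≤ 1 → False) :
    Filter.Tendsto (fun n => aSeqG 3 d lam n) Filter.atTop (nhds 0) := by
  obtain ⟨p, c, hp, hc⟩ := PC_conv hd.le h1 h0
  have hΦ : Filter.Tendsto (fun n => FS (LvG d lam n)
      (hom (fun P C => 1 / 2 * P + s / 2 * C))) Filter.atTop (nhds (1 / 2 * p + s / 2 * c)) := by
    have := (hp.const_mul (1 / 2)).add (hc.const_mul (s / 2))
    refine this.congr fun n => ?_
    rw [FS_comb hd.le h1 h0 n]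
  set L := 1 / 2 * p + s / 2 * c with hL
  have key : ∀ n, 1 / 4 * FS (LvG d lam n) chi
      ≤ FS (LvG d lam n) (hom (fun P C => 1 / 2 * P + s / 2 * C)) := by
    intro n
    have t := FS_nn hd.le h1 h0 n (fun P C => 1 / 4 * P + s / 2 * C)
      (fun a0 a1 a2 k0 k1 k2 h => by
        have := PC_nn a0 a1 a2 k0 k1 k2 h
        nlinarith [this.1, this.2])
    rw [FS_comb hd.le h1 h0 n] at t ⊢
    rw [← FS_chi_eq hd.le h1 h0 n]
    linarith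
  have chi0 : ∀ n, 0 ≤ FS (LvG d lam n) chi := fun n =>
    tsum_nonneg fun c => chi_nn _ _ _ ((famG hd.le h1 h0 n).nn c 0) ((famG hd.le h1 h0 n).nn c 1)
      ((famG hd.le h1 h0 n).nn c 2)
  have hL0 : 0 ≤ L := by
    refine ge_of_tendsto' hΦ fun n => ?_
    have := key n
    have := chi0 n
    linarith
  have hL1 : L ≤ 1 := by
    refine le_of_tendsto' hΦ fun n => ?_
    have hf := famG hd.le h1 h0 n
    have b := hf.abs (Bd_hom_comb (1 / 2) (s / 2) Bd_P Bd_C)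
    have b2 := (abs_le.1 b).2
    rw [abs_of_nonneg (by positivity : (0 : ℝ) ≤ 1 / 2),
      abs_of_nonneg (by positivity : (0 : ℝ) ≤ s / 2)] at b2
    linarith
  have hdl0 : 0 < d * lam ^ 2 := by positivity
  have hz : L = 0 := by
    rcases hL0.eq_or_lt with h | h
    · exact h.symm
    · exfalso
      refine excl L hΦ (by positivity) ?_
      nlinarith
  rw [hz] at hΦ
  refine aSeqG_of_chi hd.le h1 h0 ?_
  refine squeeze_zero chi0 (fun n => ?_) (g := fun n => 4 * FS (LvG d lam n)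
    (hom (fun P C => 1 / 2 * P + s / 2 * C))) ?_
  · have := key n
    linarith
  · have := hΦ.const_mul 4
    simpa using this

end

/-! ### certificates -/

noncomputable def bmR (j : ℕ) (ma mb st mu h0 h1 : ℝ) : ℝ :=
  match j with
  | 0 => (st - mu * ma) * h0
  | 1 => ((st - mu * ma) * h1 + (st - mu * mb) * h0) / 2
  | _ => (st - mu * mb) * h1

def bmP (j : ℕ) (ma mb : ℤ × ℕ) (st mu h0 h1 : PE) : PE :=
  match j with
  | 0 => .mul (psub st (.mul mu (.q ma.1 ma.2))) h0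
  | 1 => .mul (.q 1 1) (.add (.mul (psub st (.mul mu (.q ma.1 ma.2))) h1)
      (.mul (psub st (.mul mu (.q mb.1 mb.2))) h0))
  | _ => .mul (psub st (.mul mu (.q mb.1 mb.2))) h1

theorem bmP_real (s : ℝ) (v : ℕ → ℝ) (j : ℕ) (ma mb : ℤ × ℕ) (st mu h0 h1 : PE) :
    (bmP j ma mb st mu h0 h1).real s v = bmR j (cv ma) (cv mb) (st.real s v) (mu.real s v)
      (h0.real s v) (h1.real s v) := by
  have m1 : (((-1 : ℤ) : ℝ) / (((0 : ℕ) : ℝ) + 1)) = -1 := by norm_num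
  have half : ((1 : ℤ) : ℝ) / (((1 : ℕ) : ℝ) + 1) = 1 / 2 := by norm_num
  rcases j with _ | _ | j <;> simp only [bmP, bmR, psub, PE.real_add, PE.real_mul,
    PE.real_neg, PE.real_q, cv, half] <;> ring

theorem bmR_aff (j : ℕ) (ma mb st mu h0 h1 : ℝ) :
    bmR j ma mb st mu h0 h1 = bmR j ma mb st 0 h0 h1 + mu * (bmR j ma mb 0 1 h0 h1) := by
  rcases j with _ | _ | j <;> simp only [bmR] <;> ring

theorem balH_bmR (κ ma mb : ℝ) (j : ℕ) (x mb' ma' h0 h1 : ℝ) :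
    balH κ (κ * ma) (κ * mb) 1 j (mb' * x) mb' (ma' * h0) (ma' * h1)
      = ma' * mb' * bmR j ma mb (κ * x) κ h0 h1 := by
  rcases j with _ | _ | j <;> simp only [balH, bmR] <;> ring

/-- step -/
def GM (j k : ℕ) (D : ℕ → NP) (L2 L3 ma mb : ℤ × ℕ) (tau : PE) (psi h0 h1 : List CL) : PE :=
  psub (.add (wP (D k) Px (pofP Px Cx)) (.add (.mul (.q L2.1 L2.2) (h2P psi Pz Cz))
    (bmP j ma mb (.mul (.q L2.1 L2.2) (.mul (.q 1 1) (.add Pz Cz))) tau (h2P h0 Px Cx)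
      (h2P h1 Px Cx))))
    (.add (avgP (D k) Px Cx (.mul (.q L2.1 L2.2) Pz) (.mul (.q L3.1 L3.2) Cz))
      (.mul tau (dP k fun i => wP (D i) Px (pofP Px Cx))))

theorem GM_real (v : ℕ → ℝ) (j k : ℕ) (D : ℕ → NP) (L2 L3 ma mb : ℤ × ℕ) (tau : PE)
    (psi h0 h1 : List CL) :
    (GM j k D L2 L3 ma mb tau psi h0 h1).real 0 v
      = (gR (D k) (v 0 * v 0 * (1 + -3 / 4 * v 2)) (v 0 * (v 0 * v 0) * (1 + -9 / 8 * v 2))
        + (cv L2 * h2R psi (v 1 * v 1 * (1 + -3 / 4 * v 3)) (v 1 * (v 1 * v 1) * (1 + -9 / 8 * v 3))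
        + bmR j (cv ma) (cv mb) (cv L2 * (1 / 2 * (v 1 * v 1 * (1 + -3 / 4 * v 3)
            + v 1 * (v 1 * v 1) * (1 + -9 / 8 * v 3)))) (tau.real 0 v)
          (h2R h0 (v 0 * v 0 * (1 + -3 / 4 * v 2)) (v 0 * (v 0 * v 0) * (1 + -9 / 8 * v 2)))
          (h2R h1 (v 0 * v 0 * (1 + -3 / 4 * v 2)) (v 0 * (v 0 * v 0) * (1 + -9 / 8 * v 2)))))
      - (avg (D k) (v 0 * v 0 * (1 + -3 / 4 * v 2))
          (v 0 * (v 0 * v 0) * (1 + -9 / 8 * v 2))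
          (cv L2 * (v 1 * v 1 * (1 + -3 / 4 * v 3)))
          (cv L3 * (v 1 * (v 1 * v 1) * (1 + -9 / 8 * v 3)))
        + tau.real 0 v * dW k (fun i => gR (D i) (v 0 * v 0 * (1 + -3 / 4 * v 2))
          (v 0 * (v 0 * v 0) * (1 + -9 / 8 * v 2)))) := by
  have half : ((1 : ℤ) : ℝ) / (((1 : ℕ) : ℝ) + 1) = 1 / 2 := by norm_num
  simp only [GM, Px, Cx, Pz, Cz, gR, psub, PE.real_add, PE.real_mul, PE.real_neg, PE.real_q,
    wP_real, pofP_real, Pq_real, Cq_real, PE.real_x, h2P_real, bmP_real, avgP_real, dP_real, cv,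
    half]
  ring

/-- the data of a family of potentials for the Poisson tree and its certificates -/
structure PhiCert (lam0 : ℝ) (D : ℕ → ℕ → NP) (psi hh : ℕ → ℕ → List CL)
    (L2 L3 c c' ma mb ta tb : ℤ × ℕ) (tau0 : PE) (w2 δ : ℕ → ℤ × ℕ) : Prop where
  hl0 : -(1 / 2) ≤ lam0
  hl1 : lam0 ≤ 1
  hne : lam0 ≠ 0
  e2 : cv L2 = lam0 ^ 2
  e3 : cv L3 = lam0 ^ 3
  hmab : cv ma < cv mb
  hδ0 : ∀ j, j < 3 → 0 ≤ cv (δ j)
  hδ2 : 0 < cv (δ 2)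
  hta : 0 ≤ cv ta
  htb : cv tb = 1 - cv ta
  htb0 : 0 < cv tb
  r1 : 1 - cv c ≤ 1 - lam0
  r2 : 1 - cv c ≤ 1 + 2 * lam0
  r3 : 1 - lam0 ≤ 1 + cv c'
  r4 : 1 + 2 * lam0 ≤ 1 + cv c'
  hc : 0 < cv c
  hc' : 0 < cv c'
  htau : ∀ s ρ a b e : ℝ, cv ta ≤ s → s ≤ 1 → 0 ≤ s → 0 ≤ ρ → ρ ≤ 1 →
    tau0.real 0 (env a (s * ρ) b e) ≤ (lam0 * s) ^ 2
  hU0 : ∀ j k, j < 3 → k < 4 → Box0 0 (UE0 c (D j k))
  hU1 : ∀ j k, j < 3 → k < 4 → Box0 0 (UE1 c' (D j k))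
  hH0 : ∀ j k, j < 3 → k < 4 →
    Box0 0 (GM j k (D j) L2 L3 ma mb tau0 (psi j k) (hh 0 k) (hh 1 k))
  hH1 : ∀ j k, j < 3 → k < 4 →
    Box0 0 (GM j k (D j) L2 L3 ma mb (tau1 L2) (psi j k) (hh 0 k) (hh 1 k))
  hS : ∀ j, j < 3 → Box0 0 (SEG (D j 3) (w2 j) (sP ta tb) (psi j 0) (psi j 1) (psi j 2) (psi j 3))
  hR : ∀ j, j < 3 → Box0 0 (RE (D j 3) (w2 j))
  hw2 : ∀ j, j < 3 → gR (D j 0) 0 0 + cv (δ j) = cv (w2 j)
  hψ0 : ∀ j k, j < 3 → k < 4 → h2R (psi j k) 0 0 = 0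

section
variable {lam0 : ℝ} {D : ℕ → ℕ → NP} {psi hh : ℕ → ℕ → List CL}
    {L2 L3 c c' ma mb ta tb : ℤ × ℕ} {tau0 : PE} {w2 δ : ℕ → ℤ × ℕ}

theorem PhiCert.ub (T : PhiCert lam0 D psi hh L2 L3 c c' ma mb ta tb tau0 w2 δ) (j k : ℕ)
    (hj : j < 3) (hk : k < 4) : UB (D j k) (1 - cv c) (1 + cv c') :=
  UB_of_box c c' _ T.hc T.hc' (T.hU0 j k hj hk) (T.hU1 j k hj hk)

theorem PhiCert.step (T : PhiCert lam0 D psi hh L2 L3 c c' ma mb ta tb tau0 w2 δ) (j k : ℕ)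
    (hj : j < 3) (hk : k < 4) (s : ℝ) (sa : cv ta ≤ s) (s0 : 0 ≤ s) (s1 : s ≤ 1)
    (a0 a1 a2 b0 b1 b2 : ℝ) (ha0 : 0 ≤ a0) (ha1 : 0 ≤ a1) (ha2 : 0 ≤ a2)
    (hb0 : 0 ≤ b0) (hb1 : 0 ≤ b1) (hb2 : 0 ≤ b2) :
    six (fun x y z => hom (gR (D j k)) (a0 * ns (lam0 * s) (ms b0 b1 b2) x)
        (a1 * ns (lam0 * s) (ms b0 b1 b2) y) (a2 * ns (lam0 * s) (ms b0 b1 b2) z)) b0 b1 b2
      ≤ 6 * (ms b0 b1 b2 * hom (gR (D j k)) a0 a1 a2
        + ms a0 a1 a2 * hom (fun P C => lam0 ^ 2 * h2R (psi j k) (s ^ 2 * P) (s ^ 3 * C)) b0 b1 b2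
        + balH ((lam0 * s) ^ 2) ((lam0 * s) ^ 2 * cv ma) ((lam0 * s) ^ 2 * cv mb) 1 j
          (hom (fun P C => 1 / 2 * P + s / 2 * C) b0 b1 b2) (ms b0 b1 b2)
          (hom (h2R (hh 0 k)) a0 a1 a2) (hom (h2R (hh 1 k)) a0 a1 a2)
        - (lam0 * s) ^ 2 * ms b0 b1 b2 * dW k (fun i => hom (gR (D j i)) a0 a1 a2)) := by
  obtain ⟨r1, r2, r3, r4⟩ := range_scale lam0 s (1 - cv c) (1 + cv c') s0 s1 T.r1 T.r2 T.r3 T.r4
    (by linarith [T.hc]) (by linarith [T.hc'])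
  have M0 := hom_merge (D j k) (lam0 * s) _ _ (T.ub j k hj hk)
    (lam_le _ _ T.hl1 s0 s1) (lam_ge _ _ T.hl0 s0 s1) r1 r2 r3 r4 a0 a1 a2 b0 b1 b2
    ha0 ha1 ha2 hb0 hb1 hb2
  refine le_trans M0 ?_
  rw [dW_hom k (fun i => gR (D j i))]
  simp only [hom_eq]
  rw [balH_bmR]
  rcases (ms_nonneg ha0 ha1 ha2).eq_or_lt with hma | hma
  · rw [← hma]; simp
  rcases (ms_nonneg hb0 hb1 hb2).eq_or_lt with hmb | hmb
  · rw [← hmb]; simp
  obtain ⟨ρx, sx, p1, p2, p3, p4, e4, e5⟩ := Pn_range ha0 ha1 ha2 hma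
  obtain ⟨ρz, sz, q1, q2, q3, q4, e6, e7⟩ := Pn_range hb0 hb1 hb2 hmb
  have u1 : 0 ≤ s * ρz := by positivity
  have u2 : s * ρz ≤ 1 := by nlinarith
  have hta := T.htau s ρz ρx sx sz sa s1 s0 q1 q2
  have htb : (lam0 * s) ^ 2 ≤ lam0 ^ 2 := by
    rw [mul_pow]
    have : s ^ 2 ≤ 1 := by nlinarith
    nlinarith [sq_nonneg lam0]
  have k0 := T.hH0 j k hj hk ρx (s * ρz) sx sz p1 p2 u1 u2 p3 p4 q3 q4
  have k1 := T.hH1 j k hj hk ρx (s * ρz) sx sz p1 p2 u1 u2 p3 p4 q3 q4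
  rw [GM_real] at k0 k1
  set τa := tau0.real 0 (env ρx (s * ρz) sx sz) with hτa
  simp only [env, tau1, PE.real_q] at k0 k1
  have f1 : s * ρz * (s * ρz) * (1 + -3 / 4 * sz) = s ^ 2 * Pn b0 b1 b2 := by rw [e6]; ring
  have f2 : s * ρz * (s * ρz * (s * ρz)) * (1 + -9 / 8 * sz) = s ^ 3 * Cn b0 b1 b2 := by
    rw [e7]; ring
  have f3 : (L2.1 : ℝ) / ((L2.2 : ℝ) + 1) = lam0 ^ 2 := T.e2
  rw [f1, f2, ← e4, ← e5, T.e2, T.e3] at k0 k1
  rw [f3] at k1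
  have g1 : lam0 ^ 2 * (s ^ 2 * Pn b0 b1 b2) = (lam0 * s) ^ 2 * Pn b0 b1 b2 := by ring
  have g2 : lam0 ^ 3 * (s ^ 3 * Cn b0 b1 b2) = (lam0 * s) ^ 3 * Cn b0 b1 b2 := by ring
  have g3 : lam0 ^ 2 * (1 / 2 * (s ^ 2 * Pn b0 b1 b2 + s ^ 3 * Cn b0 b1 b2))
      = (lam0 * s) ^ 2 * (1 / 2 * Pn b0 b1 b2 + s / 2 * Cn b0 b1 b2) := by ring
  rw [g1, g2, g3] at k0 k1
  rw [bmR_aff j _ _ ((lam0 * s) ^ 2 * (1 / 2 * Pn b0 b1 b2 + s / 2 * Cn b0 b1 b2)) _ _ _]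
    at k0 k1
  rw [bmR_aff j _ _ ((lam0 * s) ^ 2 * (1 / 2 * Pn b0 b1 b2 + s / 2 * Cn b0 b1 b2))
    ((lam0 * s) ^ 2) _ _]
  set A0 := avg (D j k) (Pn a0 a1 a2) (Cn a0 a1 a2) ((lam0 * s) ^ 2 * Pn b0 b1 b2)
    ((lam0 * s) ^ 3 * Cn b0 b1 b2)
  set G0 := gR (D j k) (Pn a0 a1 a2) (Cn a0 a1 a2)
  set Q0 := h2R (psi j k) (s ^ 2 * Pn b0 b1 b2) (s ^ 3 * Cn b0 b1 b2)
  set H0 := h2R (hh 0 k) (Pn a0 a1 a2) (Cn a0 a1 a2)
  set H1 := h2R (hh 1 k) (Pn a0 a1 a2) (Cn a0 a1 a2)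
  set c0 := bmR j (cv ma) (cv mb) ((lam0 * s) ^ 2 * (1 / 2 * Pn b0 b1 b2 + s / 2 * Cn b0 b1 b2))
    0 H0 H1
  set c1 := bmR j (cv ma) (cv mb) 0 1 H0 H1
  set DD := dW k (fun i => gR (D j i) (Pn a0 a1 a2) (Cn a0 a1 a2))
  have key := aff (G0 + lam0 ^ 2 * Q0 + c0 - A0) (c1 - DD) ((lam0 * s) ^ 2) τa (lam0 ^ 2) hta htb
    (by linarith) (by linarith)
  have m1 : 0 ≤ ms a0 a1 a2 * ms b0 b1 b2 := by positivity
  have fin := mul_nonneg m1 key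
  have e8 : 6 * (ms b0 b1 b2 * (ms a0 a1 a2 * G0) + ms a0 a1 a2 * (ms b0 b1 b2 * (lam0 ^ 2 * Q0))
      + ms a0 a1 a2 * ms b0 b1 b2 * (c0 + (lam0 * s) ^ 2 * c1)
      - (lam0 * s) ^ 2 * ms b0 b1 b2 * (ms a0 a1 a2 * DD))
      - 6 * (ms a0 a1 a2 * ms b0 b1 b2 * A0)
      = 6 * (ms a0 a1 a2 * ms b0 b1 b2 * ((G0 + lam0 ^ 2 * Q0 + c0 - A0)
        + (c1 - DD) * (lam0 * s) ^ 2)) := by ring
  linarith

theorem PhiCert.sys (T : PhiCert lam0 D psi hh L2 L3 c c' ma mb ta tb tau0 w2 δ)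
    (s : ℝ) (s0 : 0 < s) (sa : cv ta ≤ s) (s1 : s ≤ 1) (d : ℝ) (hd : 0 < d)
    (hdl : d * (lam0 * s) ^ 2 ≤ 1) :
    ∃ B, SysH d (lam0 * s) ((lam0 * s) ^ 2) (cv ma) (cv mb) 1 B (fun j => cv (δ j))
      (fun P C => 1 / 2 * P + s / 2 * C) (fun j k => gR (D j k))
      (fun j k P C => lam0 ^ 2 * h2R (psi j k) (s ^ 2 * P) (s ^ 3 * C))
      (fun i k => h2R (hh i k)) := by
  have hl2 : 0 < lam0 ^ 2 := by have := T.hne; positivity
  set B1 := ∑ j ∈ Finset.range 3, ∑ k ∈ Finset.range 4, nW (D j k) with hB1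
  set B2 := ∑ j ∈ Finset.range 3, ∑ k ∈ Finset.range 4, lam0 ^ 2 * n2 (psi j k) with hB2
  set B3 := ∑ j ∈ Finset.range 2, ∑ k ∈ Finset.range 4, n2 (hh j k) with hB3
  have q2 : ∀ j k, 0 ≤ lam0 ^ 2 * n2 (psi j k) := fun j k => mul_nonneg hl2.le (n2_nonneg _)
  have p1 : 0 ≤ B1 := Finset.sum_nonneg fun j _ => Finset.sum_nonneg fun k _ => nW_nonneg _
  have p2 : 0 ≤ B2 := Finset.sum_nonneg fun j _ => Finset.sum_nonneg fun k _ => q2 j k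
  have p3 : 0 ≤ B3 := Finset.sum_nonneg fun j _ => Finset.sum_nonneg fun k _ => n2_nonneg _
  have le1 : ∀ j k, j < 3 → k < 4 → nW (D j k) ≤ B1 := fun j k hj hk => by
    refine le_trans ?_ (Finset.single_le_sum (f := fun j => ∑ k ∈ Finset.range 4, nW (D j k))
      (fun j _ => Finset.sum_nonneg fun k _ => nW_nonneg _) (Finset.mem_range.2 hj))
    exact Finset.single_le_sum (f := fun k => nW (D j k)) (fun k _ => nW_nonneg _)
      (Finset.mem_range.2 hk)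
  have le2 : ∀ j k, j < 3 → k < 4 → lam0 ^ 2 * n2 (psi j k) ≤ B2 := fun j k hj hk => by
    refine le_trans ?_ (Finset.single_le_sum
      (f := fun j => ∑ k ∈ Finset.range 4, lam0 ^ 2 * n2 (psi j k))
      (fun j _ => Finset.sum_nonneg fun k _ => q2 j k) (Finset.mem_range.2 hj))
    exact Finset.single_le_sum (f := fun k => lam0 ^ 2 * n2 (psi j k)) (fun k _ => q2 j k)
      (Finset.mem_range.2 hk)
  have le3 : ∀ j k, j < 2 → k < 4 → n2 (hh j k) ≤ B3 := fun j k hj hk => by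
    refine le_trans ?_ (Finset.single_le_sum
      (f := fun j => ∑ k ∈ Finset.range 4, n2 (hh j k))
      (fun j _ => Finset.sum_nonneg fun k _ => n2_nonneg _) (Finset.mem_range.2 hj))
    exact Finset.single_le_sum (f := fun k => n2 (hh j k)) (fun k _ => n2_nonneg _)
      (Finset.mem_range.2 hk)
  refine ⟨1 + B1 + B2 + B3, hd, lam_le _ _ T.hl1 s0.le s1, lam_ge _ _ T.hl0 s0.le s1, ?_, hdl,
    by linarith, ?_, ?_, ?_, ?_, ?_, ?_, ?_, ?_⟩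
  · have := T.hne; positivity
  · intro j k hj hk a0 a1 a2 b0 b1 b2 ha0 ha1 ha2 hb0 hb1 hb2
    exact T.step j k hj hk s sa s0.le s1 a0 a1 a2 b0 b1 b2 ha0 ha1 ha2 hb0 hb1 hb2
  · intro j k hj hk
    simp only [mul_zero]
    rw [T.hψ0 j k hj hk, mul_zero]
  · simp
  · intro j hj b0 b1 b2 hb0 hb1 hb2
    have hw := T.hw2 j hj
    rcases (ms_nonneg hb0 hb1 hb2).eq_or_lt with h | h
    · obtain ⟨z0, z1, z2⟩ := ms_zero hb0 hb1 hb2 h.symm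
      subst z0; subst z1; subst z2
      simp only [hom_zero, ← h]; simp
    · obtain ⟨ρ, t, a1, a2, a3, a4, e1, e2⟩ := Pn_range hb0 hb1 hb2 h
      have hx0 : 0 ≤ (s - cv ta) / cv tb := div_nonneg (by linarith) T.htb0.le
      have hx1 : (s - cv ta) / cv tb ≤ 1 := by
        rw [div_le_one T.htb0, T.htb]; linarith
      have k0 := T.hS j hj ((s - cv ta) / cv tb) ρ t 0 hx0 hx1 a1 a2 a3 a4 le_rfl zero_le_one
      have k2 := T.hR j hj ρ 0 t 0 a1 a2 le_rfl zero_le_one a3 a4 le_rfl zero_le_one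
      have hs : (sP ta tb).real 0 (env ((s - cv ta) / cv tb) ρ t 0) = s := by
        have := T.htb0.ne'
        simp only [sP, PE.real_add, PE.real_mul, PE.real_q, PE.real_x, env]
        change cv ta + cv tb * ((s - cv ta) / cv tb) = s
        field_simp
        ring
      rw [SEG_real, hs] at k0
      rw [RE_real] at k2
      simp only [env] at k0 k2
      rw [← e1, ← e2, show s * s = s ^ 2 by ring, show s * (s ^ 2) = s ^ 3 by ring] at k0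
      rw [← e1, ← e2] at k2
      simp only [hom_eq]
      set R := gR (D j 3) (Pn b0 b1 b2) (Cn b0 b1 b2) with hR
      set Q0 := h2R (psi j 0) (s ^ 2 * Pn b0 b1 b2) (s ^ 3 * Cn b0 b1 b2)
      set Q1 := h2R (psi j 1) (s ^ 2 * Pn b0 b1 b2) (s ^ 3 * Cn b0 b1 b2)
      set Q2 := h2R (psi j 2) (s ^ 2 * Pn b0 b1 b2) (s ^ 3 * Cn b0 b1 b2)
      set Q3 := h2R (psi j 3) (s ^ 2 * Pn b0 b1 b2) (s ^ 3 * Cn b0 b1 b2)
      have mid : d * lam0 ^ 2 * (1 / 4 * (Q0 + Q1 + Q2 + Q3)) ≤ R - cv (w2 j) := by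
        have hc : 0 ≤ d * lam0 ^ 2 := by positivity
        calc _ ≤ d * lam0 ^ 2 * (s ^ 2 * (R - cv (w2 j))) :=
              mul_le_mul_of_nonneg_left (by linarith) hc
          _ = (d * (lam0 * s) ^ 2) * (R - cv (w2 j)) := by ring
          _ ≤ 1 * (R - cv (w2 j)) := mul_le_mul_of_nonneg_right hdl k2
          _ = _ := one_mul _
      have := mul_le_mul_of_nonneg_left mid h.le
      rw [← hw] at this
      linarith
  · refine (Bd_hom_comb (1 / 2) (s / 2) Bd_P Bd_C).mono ?_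
    rw [abs_of_nonneg (by positivity : (0 : ℝ) ≤ 1 / 2),
      abs_of_nonneg (by positivity : (0 : ℝ) ≤ s / 2)]
    linarith
  · intro j k hj hk a0 a1 a2 h0 h1 h2
    refine le_trans (hom_gR_abs _ _ _ _ h0 h1 h2)
      (mul_le_mul_of_nonneg_right ?_ (ms_nonneg h0 h1 h2))
    linarith [le1 j k hj hk]
  · intro j k hj hk a0 a1 a2 h0 h1 h2
    refine le_trans (h2R_scale_abs _ _ s s0.le s1 _ _ _ h0 h1 h2 hl2.le)
      (mul_le_mul_of_nonneg_right ?_ (ms_nonneg h0 h1 h2))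
    linarith [le2 j k hj hk]
  · intro i k hi hk a0 a1 a2 h0 h1 h2
    refine le_trans (hom_h2R_abs _ _ _ _ h0 h1 h2)
      (mul_le_mul_of_nonneg_right ?_ (ms_nonneg h0 h1 h2))
    linarith [le3 i k hi hk]

/-- the limit of the statistic is not in the range of the certificate -/
theorem PhiCert.excl (T : PhiCert lam0 D psi hh L2 L3 c c' ma mb ta tb tau0 w2 δ)
    (d lam : ℝ) (hd : 0 < d) (h0 : 0 < lam / lam0) (ha : cv ta ≤ lam / lam0) (h1 : lam / lam0 ≤ 1)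
    (hdl : d * lam ^ 2 ≤ 1) (L : ℝ)
    (hL : Filter.Tendsto (fun n => FS (LvG d lam n)
      (hom (fun P C => 1 / 2 * P + lam / lam0 / 2 * C))) Filter.atTop (nhds L))
    (hm0 : cv ma < d * lam ^ 2 * L) (hm1 : d * lam ^ 2 * L ≤ cv mb) : False := by
  have e : lam0 * (lam / lam0) = lam := mul_div_cancel₀ lam T.hne
  obtain ⟨B, S⟩ := T.sys (lam / lam0) h0 ha h1 d hd (by rw [e]; exact hdl)
  rw [e] at S
  have hw : 0 < cv mb - cv ma := by linarith [T.hmab]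
  set θ := (d * lam ^ 2 * L - cv ma) / (cv mb - cv ma) with hθ
  have t0 : 0 < θ := div_pos (by linarith) hw
  have t1 : θ ≤ 1 := by rw [hθ, div_le_one hw]; linarith
  refine S.no_limit L θ hL t0.le t1 ?_ ?_
  · have h2 : θ * (cv mb - cv ma) = d * lam ^ 2 * L - cv ma := by
      rw [hθ]; field_simp
    have h3 : (1 - θ) * (lam ^ 2 * L - 1 / d * cv ma) + θ * (1 * lam ^ 2 * L - 1 / d * cv mb)
        = 1 / d * (d * lam ^ 2 * L - cv ma - θ * (cv mb - cv ma)) := by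
      field_simp
      ring
    rw [h3, h2]
    ring
  · have d0 := T.hδ0 0 (by norm_num)
    have d1 := T.hδ0 1 (by norm_num)
    have d2 := T.hδ2
    have q1 : 0 ≤ 1 - θ := by linarith
    have q3 : 0 < θ ^ 2 * cv (δ 2) := by positivity
    have q4 : 0 ≤ 2 * θ * (1 - θ) * cv (δ 1) := by positivity
    have q5 : 0 ≤ (1 - θ) ^ 2 * cv (δ 0) := by positivity
    linarith

end

end Vale.Agent.P154
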