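import Vale.Agent.P154.Near2

/-! The case `lam = 1` on the Galton-Watson tree. -/

open scoped BigOperators

namespace Vale.Agent.P154

/-- vectors that are constant or supported on one coordinate -/
def Sp (a : Fin 3 → ℝ) : Prop :=
  (a 1 = a 0 ∧ a 2 = a 0) ∨ (a 1 = 0 ∧ a 2 = 0) ∨ (a 0 = 0 ∧ a 2 = 0) ∨ (a 0 = 0 ∧ a 1 = 0)

/-- the mass not seen by the statistic -/
noncomputable def cm (a0 a1 a2 : ℝ) : ℝ := ms a0 a1 a2 - chi a0 a1 a2

theorem cm_hg : Hg cm := fun t a0 a1 a2 => by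
  unfold cm
  rw [chi_smul', ms_smul]
  ring

theorem Bd_cm : Bd cm 1 := fun a0 a1 a2 h0 h1 h2 => by
  have a := chi_nn a0 a1 a2 h0 h1 h2
  have b := chi_le_ms a0 a1 a2 h0 h1 h2
  unfold cm
  rw [abs_le]
  constructor <;> linarith

theorem cm_const (t : ℝ) : cm t t t = t := by
  unfold cm chi ms
  rcases eq_or_ne t 0 with h | h
  · subst h; norm_num
  · field_simp
    ring

theorem cm_single0 (t : ℝ) : cm t 0 0 = 0 := by unfold cm chi ms; norm_num
theorem cm_single1 (t : ℝ) : cm 0 t 0 = 0 := by unfold cm chi ms; norm_num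
theorem cm_single2 (t : ℝ) : cm 0 0 t = 0 := by unfold cm chi ms; norm_num

theorem Sp.mul {a b : Fin 3 → ℝ} (ha : Sp a) (hb : Sp b) : Sp fun i => a i * b i := by
  rcases ha with ⟨h1, h2⟩ | ⟨h1, h2⟩ | ⟨h1, h2⟩ | ⟨h1, h2⟩
  · rcases hb with ⟨g1, g2⟩ | ⟨g1, g2⟩ | ⟨g1, g2⟩ | ⟨g1, g2⟩
    · exact Or.inl ⟨by simp only [h1, g1], by simp only [h2, g2]⟩
    · exact Or.inr (Or.inl ⟨by simp only [g1, mul_zero], by simp only [g2, mul_zero]⟩)
    · exact Or.inr (Or.inr (Or.inl ⟨by simp only [g1, mul_zero], by simp only [g2, mul_zero]⟩))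
    · exact Or.inr (Or.inr (Or.inr ⟨by simp only [g1, mul_zero], by simp only [g2, mul_zero]⟩))
  · exact Or.inr (Or.inl ⟨by simp only [h1, zero_mul], by simp only [h2, zero_mul]⟩)
  · exact Or.inr (Or.inr (Or.inl ⟨by simp only [h1, zero_mul], by simp only [h2, zero_mul]⟩))
  · exact Or.inr (Or.inr (Or.inr ⟨by simp only [h1, zero_mul], by simp only [h2, zero_mul]⟩))

theorem cm_mul {a : Fin 3 → ℝ} (ha : Sp a) (b : Fin 3 → ℝ) :
    at3 cm (fun i => a i * b i) = at3 cm a * at3 cm b := by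
  unfold at3
  rcases ha with ⟨h1, h2⟩ | ⟨h1, h2⟩ | ⟨h1, h2⟩ | ⟨h1, h2⟩
  · simp only [h1, h2]
    rw [cm_hg, cm_const]
  · simp only [h1, h2, zero_mul, cm_single0]
  · simp only [h1, h2, zero_mul, cm_single1]
  · simp only [h1, h2, zero_mul, cm_single2]

theorem nz_one (a : Fin 3 → ℝ) : nz 1 a = a := by
  funext i
  unfold nz ns
  ring

section
variable {ι : Type} {v : ι → Fin 3 → ℝ}

theorem Sp_pw (h : ∀ b, Sp (v b)) : ∀ k (c : Fin k → ι), Sp (pw v k c)
  | 0, c => by
      left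
      simp [pw]
  | k + 1, c => by
      have e : pw v (k + 1) c = fun i => v (c 0) i * pw v k (fun j => c j.succ) i := by
        funext i
        unfold pw
        rw [Fin.prod_univ_succ]
      rw [e]
      exact (h _).mul (Sp_pw h k _)

theorem cm_SG (hv : Fam v) (h : ∀ b, Sp (v b)) : ∀ k, SG 1 v k cm = FS v cm ^ k
  | 0 => by
      rw [SG_zero, cm_const, pow_zero]
  | k + 1 => by
      have ih := cm_SG hv h k
      have hn : (fun c => nz 1 (v c)) = v := by funext c; exact nz_one _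
      rw [hv.SG_succ le_rfl (by norm_num) Bd_cm, pow_succ, ← ih]
      unfold SG
      rw [hn]
      simp only [nz_one]
      unfold FS
      rw [← tsum_mul_right]
      refine tsum_congr fun c => ?_
      rw [← tsum_mul_left]
      refine tsum_congr fun b => ?_
      exact cm_mul (Sp_pw h k c) (v b)

end

theorem Sp_LvG (d : ℝ) : ∀ n (c : Obs 3 n), Sp (LvG d 1 n c)
  | 0, (c : Fin 3) => by
      have e : ∀ i : Fin 3, LvG d 1 0 (c : Obs 3 0) i = if i = c then 1 else 0 := fun i => rfl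
      unfold Sp
      rw [e 0, e 1, e 2]
      fin_cases c <;> simp
  | n + 1, ⟨k, c⟩ => by
      have e : LvG d 1 (n + 1) ⟨k, c⟩ = fun i => (fun _ => pois d k) i
          * pw (LvG d 1 n) k c i := by
        funext i
        rw [LvG_succ]
        have : (fun c => nz 1 (LvG d 1 n c)) = LvG d 1 n := by funext c; exact nz_one _
        rw [this]
      rw [e]
      exact Sp.mul (Or.inl ⟨rfl, rfl⟩) (Sp_pw (Sp_LvG d n) k c)

theorem chi_rec (d : ℝ) (hd : 0 ≤ d) (n : ℕ) :
    FS (LvG d 1 (n + 1)) chi = 1 - Real.exp (-(d * FS (LvG d 1 n) chi)) := by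
  have hf : ∀ n, Fam (LvG d 1 n) := fun n => famG hd le_rfl (by norm_num) n
  have hc : ∀ n, FS (LvG d 1 n) cm = 1 - FS (LvG d 1 n) chi := fun n => by
    have e : cm = fun a b c => ms a b c + -1 * chi a b c := by
      funext a b c; unfold cm; ring
    rw [e, (hf n).add Bd_ms (Bd_chi.smul (-1)), FS_smul, (hf n).fs_ms]
    ring
  have hs := LG_succ hd le_rfl (by norm_num) n Bd_cm cm_hg
  have h2 := (NormedSpace.expSeries_div_hasSum_exp (d * FS (LvG d 1 n) cm)).mul_left
    (Real.exp (-d))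
  rw [← Real.exp_eq_exp_ℝ, ← Real.exp_add] at h2
  have e : (fun k => pois d k * SG 1 (LvG d 1 n) k cm)
      = fun k => Real.exp (-d) * ((d * FS (LvG d 1 n) cm) ^ k / (k.factorial : ℝ)) := by
    funext k
    rw [cm_SG (hf n) (Sp_LvG d n), mul_pow]
    unfold pois
    ring
  rw [e] at hs
  have := hs.unique h2
  rw [hc, hc] at this
  have e2 : -d + d * (1 - FS (LvG d 1 n) chi) = -(d * FS (LvG d 1 n) chi) := by ring
  rw [e2] at this
  linarith

theorem aSeqG_one_tendsto {d : ℝ} (hd : 0 ≤ d) (h1 : d ≤ 1) :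
    Filter.Tendsto (fun n => aSeqG 3 d 1 n) Filter.atTop (nhds 0) := by
  obtain ⟨L, L0, _, _, hL⟩ := chi_conv (d := d) (lam := 1) hd le_rfl (by norm_num)
  refine aSeqG_of_chi hd le_rfl (by norm_num) ?_
  have t1 := (Filter.tendsto_add_atTop_iff_nat 1).2 hL
  have t2 : Filter.Tendsto (fun n => 1 - Real.exp (-(d * FS (LvG d 1 n) chi))) Filter.atTop
      (nhds (1 - Real.exp (-(d * L)))) :=
    ((Real.continuous_exp.tendsto _).comp ((hL.const_mul d).neg)).const_sub 1
  have e : (fun n => FS (LvG d 1 (n + 1)) chi)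
      = fun n => 1 - Real.exp (-(d * FS (LvG d 1 n) chi)) := funext fun n => chi_rec d hd n
  rw [e] at t1
  have hu := tendsto_nhds_unique t1 t2
  rcases L0.eq_or_lt with h | h
  · rw [← h] at hL; exact hL
  · exfalso
    rcases hd.eq_or_lt with hz | hz
    · rw [← hz] at hu
      simp at hu
      linarith
    · have hx : -(d * L) ≠ 0 := by
        have : 0 < d * L := by positivity
        linarith
      have := Real.add_one_lt_exp hx
      nlinarith

end Vale.Agent.P154
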