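import Vale.Agent.P154.PoisZero
import Vale.Agent.P154.PoisOne
import Vale.Agent.P154.Data.Q7
import Vale.Agent.P154.Data.Q9
import Vale.Agent.P154.Data.Q95
import Vale.Agent.P154.Data.Q97
import Vale.Agent.P154.Data.Q98
import Vale.Agent.P154.Data.QN
import Vale.Agent.P154.Data.N1
import Vale.Agent.P154.Data.M1
import Vale.Agent.P154.Data.M2
import Vale.Agent.P154.Data.M3
import Vale.Agent.P154.Data.M4
import Vale.Agent.P154.Data.M5

/-! Nonreconstruction for the three-state Potts channel on the Galton-Watson tree with Poisson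
offspring whenever `d λ² ≤ 1`. -/

namespace Vale.Agent.P154

theorem pois_pos (d : ℝ) (hd : 0 < d) (lam : ℝ) (h0 : 0 < lam) (hl : lam ≤ 1)
    (h1 : d * lam ^ 2 ≤ 1) :
    Filter.Tendsto (fun n => aSeqG 3 d lam n) Filter.atTop (nhds 0) := by
  rcases le_or_gt lam (7 / 10) with h | h
  · exact Q7.cert.result d lam hd (by positivity)
      (by rw [show cv (0, 0) = 0 by norm_num [cv]]; positivity) (by linarith) h1
  rcases le_or_gt lam (9 / 10) with h' | h'
  · exact Q9.cert.result d lam hd (by positivity)
      (by norm_num [cv]; linarith) (by linarith) h1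
  rcases le_or_gt lam (95 / 100) with h'' | h''
  · exact Q95.cert.result d lam hd (by positivity)
      (by norm_num [cv]; linarith) (by linarith) h1
  rcases le_or_gt lam (97 / 100) with h3 | h3
  · exact Q97.cert.result d lam hd (by positivity)
      (by norm_num [cv]; linarith) (by linarith) h1
  rcases le_or_gt lam (98 / 100) with h4 | h4
  · exact Q98.cert.result d lam hd (by positivity)
      (by norm_num [cv]; linarith) (by linarith) h1
  rcases hl.eq_or_lt with h5 | h5
  · subst h5
    exact aSeqG_one_tendsto hd.le (by linarith)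
  · exact N1.cert.result d lam hd (by norm_num [cv]; linarith) h5 h1

theorem pois_neg1 (d : ℝ) (hd : 0 < d) (lam : ℝ) (h0 : -(48 / 100) ≤ lam)
    (hl : lam ≤ -(44 / 100)) (h1 : d * lam ^ 2 ≤ 1) :
    Filter.Tendsto (fun n => aSeqG 3 d lam n) Filter.atTop (nhds 0) := by
  have s0 : 0 < lam / (-12 / 25) := div_pos_of_neg_of_neg (by linarith) (by norm_num)
  have s1 : lam / (-12 / 25) ≤ 1 := by
    rw [div_le_one_of_neg (by norm_num)]; linarith
  have sa : 11 / 12 ≤ lam / (-12 / 25) := by
    rw [le_div_iff_of_neg (by norm_num)]; linarith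
  refine phi_result hd (by linarith) (by linarith) (by linarith) h1 (lam / (-12 / 25)) s0.le s1
    fun L hL hp hq => ?_
  rcases le_or_gt (d * lam ^ 2 * L) (4 / 10) with h | h
  · exact M4.cert.excl d lam hd s0 (by norm_num [cv]; linarith) s1 h1 L hL
      (by norm_num [cv]; linarith) (by norm_num [cv]; linarith)
  · exact M5.cert.excl d lam hd s0 (by norm_num [cv]; linarith) s1 h1 L hL
      (by norm_num [cv]; linarith) (by norm_num [cv]; linarith)

theorem pois_neg2 (d : ℝ) (hd : 0 < d) (lam : ℝ) (h0 : -(1 / 2) ≤ lam)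
    (hl : lam ≤ -(48 / 100)) (h1 : d * lam ^ 2 ≤ 1) :
    Filter.Tendsto (fun n => aSeqG 3 d lam n) Filter.atTop (nhds 0) := by
  have s0 : 0 < lam / (-1 / 2) := div_pos_of_neg_of_neg (by linarith) (by norm_num)
  have s1 : lam / (-1 / 2) ≤ 1 := by
    rw [div_le_one_of_neg (by norm_num)]; linarith
  have sa : 24 / 25 ≤ lam / (-1 / 2) := by
    rw [le_div_iff_of_neg (by norm_num)]; linarith
  refine phi_result hd (by linarith) (by linarith) (by linarith) h1 (lam / (-1 / 2)) s0.le s1
    fun L hL hp hq => ?_
  rcases le_or_gt (d * lam ^ 2 * L) (2 / 10) with h | h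
  · exact M1.cert.excl d lam hd s0 (by norm_num [cv]; linarith) s1 h1 L hL
      (by norm_num [cv]; linarith) (by norm_num [cv]; linarith)
  rcases le_or_gt (d * lam ^ 2 * L) (4 / 10) with h' | h'
  · exact M2.cert.excl d lam hd s0 (by norm_num [cv]; linarith) s1 h1 L hL
      (by norm_num [cv]; linarith) (by norm_num [cv]; linarith)
  · exact M3.cert.excl d lam hd s0 (by norm_num [cv]; linarith) s1 h1 L hL
      (by norm_num [cv]; linarith) (by norm_num [cv]; linarith)

/-- nonreconstruction on the Galton-Watson tree with Poisson offspring -/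
theorem pois_all (d : ℝ) (hd : 0 < d) (lam : ℝ) (h0 : -(1 / 2) ≤ lam) (hl : lam ≤ 1)
    (h1 : d * lam ^ 2 ≤ 1) :
    Filter.Tendsto (fun n => aSeqG 3 d lam n) Filter.atTop (nhds 0) := by
  rcases lt_trichotomy lam 0 with h | h | h
  · rcases le_or_gt (-(44 / 100)) lam with g | g
    · have hh : 0 < lam / (-44 / 100) := div_pos_of_neg_of_neg h (by norm_num)
      exact QN.cert.result d lam hd hh
        (by rw [show cv (0, 0) = 0 by norm_num [cv]]; exact hh.le) (by linarith) h1
    rcases le_or_gt (-(48 / 100)) lam with g' | g'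
    · exact pois_neg1 d hd lam g' g.le h1
    · exact pois_neg2 d hd lam h0 g'.le h1
  · subst h
    exact aSeqG_zero_tendsto hd.le
  · exact pois_pos d hd lam h hl h1

end Vale.Agent.P154
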