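import Vale.Agent.P154.Pois

/-! The case `lam = 0` on the Galton-Watson tree. -/

open scoped BigOperators

namespace Vale.Agent.P154

theorem chi_LvG_zero (d : ℝ) (n : ℕ) (c : Obs 3 (n + 1)) : at3 chi (LvG d 0 (n + 1) c) = 0 := by
  obtain ⟨k, c⟩ := c
  have e : ∀ i, LvG d 0 (n + 1) ⟨k, c⟩ i = LvG d 0 (n + 1) ⟨k, c⟩ 0 := by
    intro i
    rw [LvG_succ, LvG_succ]
    congr 1
    unfold pw
    refine Finset.prod_congr rfl fun j _ => ?_
    unfold nz ns
    ring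
  unfold at3
  rw [e 1, e 2]
  rcases eq_or_ne (LvG d 0 (n + 1) ⟨k, c⟩ 0) 0 with h | h
  · rw [h]; unfold chi ms; norm_num
  · unfold chi ms
    field_simp
    ring

theorem aSeqG_zero {d : ℝ} (hd : 0 ≤ d) (n : ℕ) : aSeqG 3 d 0 (n + 1) = 0 := by
  have hF : FS (LvG d 0 (n + 1)) chi = 0 := by
    unfold FS
    simp only [chi_LvG_zero]
    exact tsum_zero
  have h : ∀ δ : ℝ, 0 < δ → 0 ≤ aSeqG 3 d 0 (n + 1) ∧ aSeqG 3 d 0 (n + 1) ≤ δ / 4 := by
    intro δ hδ
    have := aSeqG_le (lam := 0) hd zero_le_one (by norm_num) (n + 1) δ hδ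
    rw [hF, mul_zero, add_zero] at this
    exact this
  refine le_antisymm ?_ (h 1 one_pos).1
  refine le_of_forall_pos_le_add fun ε hε => ?_
  have := (h (4 * ε) (by linarith)).2
  linarith

theorem aSeqG_zero_tendsto {d : ℝ} (hd : 0 ≤ d) :
    Filter.Tendsto (fun n => aSeqG 3 d 0 n) Filter.atTop (nhds 0) := by
  rw [← Filter.tendsto_add_atTop_iff_nat 1]
  simp only [aSeqG_zero hd]
  exact tendsto_const_nhds

end Vale.Agent.P154
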