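import Vale.Agent.P154.RegPhi

/-! Nonreconstruction on the regular tree from a certificate for the second statistic and a
bound for the chi-square statistic at some level. -/

open scoped BigOperators

namespace Vale.Agent.P154

theorem PC_le (a0 a1 a2 : ℝ) (h0 : 0 ≤ a0) (h1 : 0 ≤ a1) (h2 : 0 ≤ a2)
    (h : 0 < ms a0 a1 a2) : Cn a0 a1 a2 ≤ Pn a0 a1 a2 := by
  obtain ⟨ρ, s, r1, r2, r3, r4, e1, e2⟩ := Pn_range h0 h1 h2 h
  rw [e1, e2]
  have q : ρ * ρ * (1 + -3 / 4 * s) - ρ * (ρ * ρ) * (1 + -9 / 8 * s)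
      = ρ * ρ * ((1 + -3 / 4 * s) - ρ * (1 + -9 / 8 * s)) := by ring
  have k : 0 ≤ ρ * ρ * ((1 + -3 / 4 * s) - ρ * (1 + -9 / 8 * s)) := by
    refine mul_nonneg (mul_nonneg r1 r1) ?_
    rcases le_or_gt 0 (1 + -9 / 8 * s) with hh | hh
    · have := mul_le_mul_of_nonneg_right r2 hh
      linarith
    · have : ρ * (1 + -9 / 8 * s) ≤ 0 := mul_nonpos_of_nonneg_of_nonpos r1 hh.le
      linarith
  linarith

section
variable {d : ℕ} {lam : ℝ}

/-- the second statistic is below the chi-square statistic -/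
theorem reg_phi_le (h1 : lam ≤ 1) (h0 : -(1 / 2) ≤ lam) (s : ℝ) (s0 : 0 ≤ s) (s1 : s ≤ 1)
    (n : ℕ) : Lf d lam n (hom (fun P C => 1 / 2 * P + s / 2 * C)) ≤ Lf d lam n chi := by
  have t := Lf_nn (d := d) h1 h0 n (fun P C => 1 / 2 * P + (-(s / 2)) * C)
    (fun a0 a1 a2 k0 k1 k2 h => by
      have p := (PC_nn a0 a1 a2 k0 k1 k2 h).1
      have q := PC_le a0 a1 a2 k0 k1 k2 h
      have e1 := mul_le_mul_of_nonneg_left q s0
      have e2 := mul_le_mul_of_nonneg_right s1 p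
      change 0 ≤ 1 / 2 * Pn a0 a1 a2 + (-(s / 2)) * Cn a0 a1 a2
      linarith)
  rw [Lf_comb h1 h0 n] at t ⊢
  rw [← Lf_chi_eq h1 h0 n]
  linarith

variable {lam0 : ℝ} {D : ℕ → ℕ → NP} {psi hh : ℕ → ℕ → List CL}
    {L2 L3 c c' f w0 w2 mb : ℤ × ℕ} {psil : ℕ → List (List CL)}

/-- nonreconstruction from a certificate and a bound at some level -/
theorem ChainR.result (T : ChainR d lam0 D psi hh L2 L3 c c' f w0 w2 mb psil) (hneg : lam0 < 0)
    (lam : ℝ) (h0 : lam0 ≤ lam) (h1 : lam < 0) (hdl : lam ^ 2 ≤ cv f) (N : ℕ)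
    (hN : Lf d lam N chi ≤ cv mb) :
    Filter.Tendsto (fun n => aSeq 3 d lam n) Filter.atTop (nhds 0) := by
  have s0 : 0 < lam / lam0 := div_pos_of_neg_of_neg h1 hneg
  have s1 : lam / lam0 ≤ 1 := by
    rw [div_le_one_of_neg hneg]; exact h0
  have l1 : lam ≤ 1 := by linarith
  have l0 : -(1 / 2) ≤ lam := le_trans T.hl0 h0
  have ha : Antitone (fun n => Lf d lam n chi) :=
    antitone_nat_of_succ_le fun n => reg_mono l1 l0 n _ Sub_chi
  refine reg_phi_result l1 l0 (lam / lam0) s0.le s1 fun L hL hL0 => ?_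
  have hLm : L ≤ cv mb := by
    refine le_of_tendsto hL ?_
    filter_upwards [Filter.eventually_ge_atTop N] with n hn
    exact le_trans (reg_phi_le l1 l0 (lam / lam0) s0.le s1 n) (le_trans (ha hn) hN)
  refine T.excl hneg lam h0 h1 hdl L hL hL0 ?_
  have : (lam / lam0) ^ 2 ≤ 1 := pow_le_one₀ s0.le s1
  calc (lam / lam0) ^ 2 * L ≤ 1 * L := mul_le_mul_of_nonneg_right this hL0.le
    _ ≤ cv mb := by rw [one_mul]; exact hLm

end

end Vale.Agent.P154
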