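import Vale.Agent.P154.GridFin
import Vale.Agent.P154.RegGap
import Vale.Agent.P154.Data.G1

/-! The `4`-ary tree with a negative eigenvalue. -/

open scoped BigOperators

namespace Vale.Agent.P154

/-- nonreconstruction on the `4`-ary tree for every negative eigenvalue -/
theorem quaternary (lam : ℝ) (h0 : -(1 / 2) ≤ lam) (h1 : lam < 0) :
    Filter.Tendsto (fun n => aSeq 3 4 lam n) Filter.atTop (nhds 0) := by
  obtain ⟨N, hN⟩ := Grid.grid_bound lam h0 h1.le
  refine G1.cert.result (by norm_num) lam (by linarith) h1 ?_ N ?_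
  · norm_num [cv]; nlinarith
  · refine le_trans hN ?_
    norm_num [cv]

end Vale.Agent.P154
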