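import Vale.Agent.P154.Chain2
import Vale.Agent.P154.Phi

/-! A second statistic for the regular tree with a negative eigenvalue. -/

open scoped BigOperators

namespace Vale.Agent.P154

/-! ### convergence of the statistic -/

section
variable {d : ℕ} {lam : ℝ}

theorem Lv_fam (h1 : lam ≤ 1) (h0 : -(1 / 2) ≤ lam) (n : ℕ) : Fam (Lv d lam n) :=
  ⟨fun c i => Lv_nonneg h1 h0 n c i, fun i => by
    have := hasSum_fintype (fun c => Lv d lam n c i)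
    rwa [Lv_sum] at this⟩

theorem FS_Lf (n : ℕ) (F : ℝ → ℝ → ℝ → ℝ) : FS (Lv d lam n) F = Lf d lam n F := by
  unfold FS Lf
  exact tsum_fintype _

theorem SG_Sk (n k : ℕ) (F : ℝ → ℝ → ℝ → ℝ) : SG lam (Lv d lam n) k F = Sk d lam n k F := by
  unfold SG FS Sk
  rw [tsum_fintype]
  rfl

theorem Lf_zero (F : ℝ → ℝ → ℝ → ℝ) : Lf d lam 0 F = F 1 0 0 + F 0 1 0 + F 0 0 1 := by
  unfold Lf
  change ∑ c : Fin 3, at3 F (Lv d lam 0 (c : Conf 3 d 0)) = _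
  rw [Fin.sum_univ_three]
  have e : ∀ c i : Fin 3, Lv d lam 0 (c : Conf 3 d 0) i = if i = c then 1 else 0 := fun c i => rfl
  simp [at3, e]

/-- sublinear functionals decrease along the levels -/
theorem reg_mono (h1 : lam ≤ 1) (h0 : -(1 / 2) ≤ lam) : ∀ n F, Sub F →
    Lf d lam (n + 1) F ≤ Lf d lam n F
  | 0, F, hF => by
      rw [Lf_zero, ← FS_Lf]
      exact hF.base (Lv_fam h1 h0 1)
  | n + 1, F, hF => by
      rw [Lf_succ (n + 1), Lf_succ n, ← SG_Sk, ← SG_Sk]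
      refine Sub.pw (Lv_fam h1 h0 (n + 1)) (Lv_fam h1 h0 n) h1 h0 ?_ d F hF
      intro G hG
      rw [FS_Lf, FS_Lf]
      exact reg_mono h1 h0 n G hG

theorem Lf_nn (h1 : lam ≤ 1) (h0 : -(1 / 2) ≤ lam) (n : ℕ) (g : ℝ → ℝ → ℝ)
    (hg : ∀ a0 a1 a2 : ℝ, 0 ≤ a0 → 0 ≤ a1 → 0 ≤ a2 → 0 < ms a0 a1 a2 →
      0 ≤ g (Pn a0 a1 a2) (Cn a0 a1 a2)) : 0 ≤ Lf d lam n (hom g) := by
  refine Finset.sum_nonneg fun c _ => ?_
  have k0 := Lv_nonneg h1 h0 n c 0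
  have k1 := Lv_nonneg h1 h0 n c 1
  have k2 := Lv_nonneg h1 h0 n c 2
  unfold at3
  rcases (ms_nonneg k0 k1 k2).eq_or_lt with h | h
  · rw [hom_eq, ← h, zero_mul]
  · rw [hom_eq]
    exact mul_nonneg h.le (hg _ _ _ k0 k1 k2 h)

theorem Lf_comb (h1 : lam ≤ 1) (h0 : -(1 / 2) ≤ lam) (n : ℕ) (a b : ℝ) :
    Lf d lam n (hom (fun P C => a * P + b * C))
      = a * Lf d lam n (hom (fun P _ => P)) + b * Lf d lam n (hom (fun _ C => C)) := by
  have e : hom (fun P C => a * P + b * C)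
      = fun x y z => a * hom (fun P _ => P) x y z + b * hom (fun _ C => C) x y z := by
    funext x y z
    exact hom_comb a b (fun P _ => P) (fun _ C => C) x y z
  rw [e, ← FS_Lf, ← FS_Lf, ← FS_Lf]
  exact (Lv_fam h1 h0 n).lin2 Bd_P Bd_C a b

theorem Lf_chi_eq (h1 : lam ≤ 1) (h0 : -(1 / 2) ≤ lam) (n : ℕ) :
    Lf d lam n (hom (fun P _ => P)) = Lf d lam n chi := by
  unfold Lf
  refine Finset.sum_congr rfl fun c _ => ?_
  exact hom_chi _ _ _ (Lv_nonneg h1 h0 n c 0) (Lv_nonneg h1 h0 n c 1) (Lv_nonneg h1 h0 n c 2)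

theorem Lf_chi_nn (h1 : lam ≤ 1) (h0 : -(1 / 2) ≤ lam) (n : ℕ) : 0 ≤ Lf d lam n chi :=
  Finset.sum_nonneg fun c _ => chi_nn _ _ _ (Lv_nonneg h1 h0 n c 0)
    (Lv_nonneg h1 h0 n c 1) (Lv_nonneg h1 h0 n c 2)

theorem reg_PC_conv (h1 : lam ≤ 1) (h0 : -(1 / 2) ≤ lam) :
    ∃ p c : ℝ, Filter.Tendsto (fun n => Lf d lam n (hom (fun P _ => P))) Filter.atTop
        (nhds p) ∧
      Filter.Tendsto (fun n => Lf d lam n (hom (fun _ C => C))) Filter.atTop (nhds c) := by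
  have ha0 : Antitone (fun n => Lf d lam n chi) :=
    antitone_nat_of_succ_le fun n => reg_mono h1 h0 n _ Sub_chi
  have hb0 : BddBelow (Set.range fun n => Lf d lam n chi) :=
    ⟨0, by rintro x ⟨n, rfl⟩; exact Lf_chi_nn h1 h0 n⟩
  have hp := tendsto_atTop_ciInf ha0 hb0
  set p := ⨅ n, Lf d lam n chi with hpdef
  have hp' : Filter.Tendsto (fun n => Lf d lam n (hom (fun P _ => P))) Filter.atTop
      (nhds p) := by
    have e : (fun n => Lf d lam n (hom (fun P _ => P))) = fun n => Lf d lam n chi := by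
      funext n
      exact Lf_chi_eq h1 h0 n
    rw [e]; exact hp
  have ha : Antitone (fun n => Lf d lam n (hom (fun P C => 6 * P + 2 * C))) :=
    antitone_nat_of_succ_le fun n => reg_mono h1 h0 n _ Sub_th
  have hn : ∀ n, 0 ≤ Lf d lam n (hom (fun P C => 6 * P + 2 * C)) := fun n =>
    Lf_nn h1 h0 n _ fun a0 a1 a2 k0 k1 k2 h => by
      have := PC_nn a0 a1 a2 k0 k1 k2 h
      linarith [this.1, this.2]
  have hb : BddBelow (Set.range fun n => Lf d lam n (hom (fun P C => 6 * P + 2 * C))) :=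
    ⟨0, by rintro x ⟨n, rfl⟩; exact hn n⟩
  have ht := tendsto_atTop_ciInf ha hb
  have t2 := (ht.sub (hp'.const_mul 6)).mul_const (1 / 2)
  refine ⟨p, _, hp', t2.congr fun n => ?_⟩
  rw [Lf_comb h1 h0 n 6 2]
  ring

theorem aSeq_of_chi (h1 : lam ≤ 1) (h0 : -(1 / 2) ≤ lam)
    (ht : Filter.Tendsto (fun n => Lf d lam n chi) Filter.atTop (nhds 0)) :
    Filter.Tendsto (fun n => aSeq 3 d lam n) Filter.atTop (nhds 0) := by
  rw [Metric.tendsto_atTop] at ht ⊢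
  intro ε hε
  obtain ⟨N, hN⟩ := ht (ε ^ 2) (by positivity)
  refine ⟨N, fun n hn => ?_⟩
  have h := hN n hn
  rw [Real.dist_eq, sub_zero] at h
  have h2 : Lf d lam n chi < ε ^ 2 := (abs_lt.1 h).2
  rw [Real.dist_eq, sub_zero, abs_of_nonneg (aSeq_nonneg h1 h0 n)]
  have h3 := aSeq_le (d := d) h1 h0 n ε hε
  have h4 : 1 / (2 * ε) * Lf d lam n chi < 1 / (2 * ε) * ε ^ 2 :=
    mul_lt_mul_of_pos_left h2 (by positivity)
  have h5 : 1 / (2 * ε) * ε ^ 2 = ε / 2 := by field_simp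
  linarith

/-- one quarter of the chi-square statistic is below the second statistic -/
theorem reg_key (h1 : lam ≤ 1) (h0 : -(1 / 2) ≤ lam) (s : ℝ) (s0 : 0 ≤ s) (s1 : s ≤ 1) (n : ℕ) :
    1 / 4 * Lf d lam n chi ≤ Lf d lam n (hom (fun P C => 1 / 2 * P + s / 2 * C)) := by
  have t := Lf_nn (d := d) h1 h0 n (fun P C => 1 / 4 * P + s / 2 * C)
    (fun a0 a1 a2 k0 k1 k2 h => by
      have := PC_nn a0 a1 a2 k0 k1 k2 h
      nlinarith [this.1, this.2])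
  rw [Lf_comb h1 h0 n] at t ⊢
  rw [← Lf_chi_eq h1 h0 n]
  linarith

/-- the statistic is at most one -/
theorem reg_le_one (h1 : lam ≤ 1) (h0 : -(1 / 2) ≤ lam) (s : ℝ) (s0 : 0 ≤ s) (s1 : s ≤ 1)
    (n : ℕ) : Lf d lam n (hom (fun P C => 1 / 2 * P + s / 2 * C)) ≤ 1 := by
  have b := Lf_abs (d := d) h1 h0 n _ _ (Bd_hom_comb (1 / 2) (s / 2) Bd_P Bd_C)
  have b2 := (abs_le.1 b).2
  rw [abs_of_nonneg (by positivity : (0 : ℝ) ≤ 1 / 2),
    abs_of_nonneg (by positivity : (0 : ℝ) ≤ s / 2)] at b2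
  linarith

/-- the conclusion, once no positive value of the limit is possible -/
theorem reg_phi_result (h1 : lam ≤ 1) (h0 : -(1 / 2) ≤ lam) (s : ℝ) (s0 : 0 ≤ s) (s1 : s ≤ 1)
    (excl : ∀ L, Filter.Tendsto (fun n => Lf d lam n
        (hom (fun P C => 1 / 2 * P + s / 2 * C))) Filter.atTop (nhds L) → 0 < L → False) :
    Filter.Tendsto (fun n => aSeq 3 d lam n) Filter.atTop (nhds 0) := by
  obtain ⟨p, c, hp, hc⟩ := reg_PC_conv (d := d) h1 h0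
  have hΦ : Filter.Tendsto (fun n => Lf d lam n
      (hom (fun P C => 1 / 2 * P + s / 2 * C))) Filter.atTop (nhds (1 / 2 * p + s / 2 * c)) := by
    have := (hp.const_mul (1 / 2)).add (hc.const_mul (s / 2))
    refine this.congr fun n => ?_
    rw [Lf_comb h1 h0 n]
  set L := 1 / 2 * p + s / 2 * c with hL
  have key := fun n => reg_key (d := d) h1 h0 s s0 s1 n
  have chi0 := fun n => Lf_chi_nn (d := d) h1 h0 n
  have hL0 : 0 ≤ L := by
    refine ge_of_tendsto' hΦ fun n => ?_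
    have := key n
    have := chi0 n
    linarith
  have hz : L = 0 := by
    rcases hL0.eq_or_lt with h | h
    · exact h.symm
    · exact (excl L hΦ h).elim
  rw [hz] at hΦ
  refine aSeq_of_chi h1 h0 ?_
  refine squeeze_zero chi0 (fun n => ?_) (g := fun n => 4 * Lf d lam n
    (hom (fun P C => 1 / 2 * P + s / 2 * C))) ?_
  · have := key n
    linarith
  · have := hΦ.const_mul 4
    simpa using this

end

/-! ### systems of potentials -/

/-- a system of potentials for the regular tree with statistic `Φ` -/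
structure SysR (d : ℕ) (lam κ μ δ B : ℝ) (Φ : ℝ → ℝ → ℝ) (W ψ h : ℕ → ℕ → ℝ → ℝ → ℝ) : Prop where
  hd : 1 ≤ d
  lam1 : lam ≤ 1
  lam0 : -(1 / 2) ≤ lam
  κpos : 0 < κ
  δpos : 0 < δ
  Bnn : 0 ≤ B
  step : ∀ j k, j < 3 → k < d → ∀ a0 a1 a2 b0 b1 b2 : ℝ, (k = 0 → a0 = 1 ∧ a1 = 1 ∧ a2 = 1) →
    0 ≤ a0 → 0 ≤ a1 → 0 ≤ a2 → 0 ≤ b0 → 0 ≤ b1 → 0 ≤ b2 →
    six (fun x y z => hom (W j (k + 1)) (a0 * ns lam (ms b0 b1 b2) x)
        (a1 * ns lam (ms b0 b1 b2) y) (a2 * ns lam (ms b0 b1 b2) z)) b0 b1 b2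
      ≤ 6 * (ms b0 b1 b2 * hom (W j k) a0 a1 a2 + ms a0 a1 a2 * hom (ψ j k) b0 b1 b2
        + bal κ μ j (hom Φ b0 b1 b2) (ms b0 b1 b2) (hom (h 0 k) a0 a1 a2)
          (hom (h 1 k) a0 a1 a2))
  final : ∀ j, j < 3 → ∀ b0 b1 b2 : ℝ, 0 ≤ b0 → 0 ≤ b1 → 0 ≤ b2 →
    ∑ k ∈ Finset.range d, hom (ψ j k) b0 b1 b2 + ms b0 b1 b2 * (W j 0 0 0)
      + (if j = 2 then δ else 0) * ms b0 b1 b2 ≤ hom (W j d) b0 b1 b2
  bddW : ∀ j, j < 3 → ∀ a0 a1 a2 : ℝ, 0 ≤ a0 → 0 ≤ a1 → 0 ≤ a2 →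
    |hom (W j d) a0 a1 a2| ≤ B * ms a0 a1 a2
  bddh : ∀ i k, i < 2 → k < d → ∀ a0 a1 a2 : ℝ, 0 ≤ a0 → 0 ≤ a1 → 0 ≤ a2 →
    |hom (h i k) a0 a1 a2| ≤ B * ms a0 a1 a2

section
variable {d : ℕ} {lam κ μ δ B : ℝ} {Φ : ℝ → ℝ → ℝ} {W ψ h : ℕ → ℕ → ℝ → ℝ → ℝ}

theorem SysR.stage (S : SysR d lam κ μ δ B Φ W ψ h) (n j k : ℕ) (hj : j < 3) (hk : k < d) :
    Sk d lam n (k + 1) (hom (W j (k + 1))) ≤ Sk d lam n k (hom (W j k)) + Lf d lam n (hom (ψ j k))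
      + bal κ μ j (Lf d lam n (hom Φ)) 1 (Sk d lam n k (hom (h 0 k)))
        (Sk d lam n k (hom (h 1 k))) := by
  rw [Sk_succ]
  have hms : Lf d lam n ms = 1 := by unfold Lf at3; exact ms_sum n
  have hk1 : Sk d lam n k ms = 1 := Sk_ms n k
  have hone : ∀ c : Fin k → Conf 3 d n,
      ∑ b, at3 (hom (W j (k + 1))) (fun i =>
        (∏ j, nz lam (Lv d lam n (c j)) i) * nz lam (Lv d lam n b) i)
      ≤ ∑ b, (at3 (hom (W j k)) (fun i => ∏ j, nz lam (Lv d lam n (c j)) i) * at3 ms (Lv d lam n b)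
        + at3 ms (fun i => ∏ j, nz lam (Lv d lam n (c j)) i) * at3 (hom (ψ j k)) (Lv d lam n b)
        + bal κ μ j (at3 (hom Φ) (Lv d lam n b)) (at3 ms (Lv d lam n b))
          (at3 (hom (h 0 k)) (fun i => ∏ j, nz lam (Lv d lam n (c j)) i))
          (at3 (hom (h 1 k)) (fun i => ∏ j, nz lam (Lv d lam n (c j)) i))) := by
    intro c
    set a : Fin 3 → ℝ := fun i => ∏ j, nz lam (Lv d lam n (c j)) i with ha
    have han : ∀ i, 0 ≤ a i := fun i => prod_nz_nonneg S.lam1 S.lam0 n k c i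
    have hone := sum_one_step (Lv_sym (d := d) (lam := lam) n) lam (hom (W j (k + 1))) a
    rw [hone, Finset.mul_sum]
    refine Finset.sum_le_sum fun b _ => ?_
    have h1 := S.step j k hj hk (a 0) (a 1) (a 2) (Lv d lam n b 0) (Lv d lam n b 1)
      (Lv d lam n b 2) (by
        intro hk0
        subst hk0
        simp [ha]) (han 0) (han 1) (han 2) (Lv_nonneg S.lam1 S.lam0 n b 0)
      (Lv_nonneg S.lam1 S.lam0 n b 1) (Lv_nonneg S.lam1 S.lam0 n b 2)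
    unfold at3
    linarith
  refine le_trans (Finset.sum_le_sum fun c _ => hone c) (le_of_eq ?_)
  simp only [Finset.sum_add_distrib]
  rw [sum_prod n k (hom (W j k)) ms, hms, mul_one, sum_prod n k ms (hom (ψ j k)), hk1, one_mul]
  congr 1
  interval_cases j
  · simp only [bal]
    have : ∀ (c : Fin k → Conf 3 d n) (b : Conf 3 d n), κ * at3 (hom Φ) (Lv d lam n b)
        * at3 (hom (h 0 k)) (fun i => ∏ j, nz lam (Lv d lam n (c j)) i)
        = κ * (at3 (hom (h 0 k)) (fun i => ∏ j, nz lam (Lv d lam n (c j)) i)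
          * at3 (hom Φ) (Lv d lam n b)) := by intro c b; ring
    simp only [this, ← Finset.mul_sum]
    have h2 := sum_prod (d := d) (lam := lam) n k (hom (h 0 k)) (hom Φ)
    simp only [← Finset.mul_sum] at h2
    rw [h2]; ring
  · simp only [bal]
    have : ∀ (c : Fin k → Conf 3 d n) (b : Conf 3 d n), (κ * at3 (hom Φ) (Lv d lam n b)
        * at3 (hom (h 1 k)) (fun i => ∏ j, nz lam (Lv d lam n (c j)) i)
        + (κ * at3 (hom Φ) (Lv d lam n b) - μ * at3 ms (Lv d lam n b))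
        * at3 (hom (h 0 k)) (fun i => ∏ j, nz lam (Lv d lam n (c j)) i)) / 2
        = κ / 2 * (at3 (hom (h 1 k)) (fun i => ∏ j, nz lam (Lv d lam n (c j)) i)
          * at3 (hom Φ) (Lv d lam n b))
        + κ / 2 * (at3 (hom (h 0 k)) (fun i => ∏ j, nz lam (Lv d lam n (c j)) i)
          * at3 (hom Φ) (Lv d lam n b))
        - μ / 2 * (at3 (hom (h 0 k)) (fun i => ∏ j, nz lam (Lv d lam n (c j)) i)
          * at3 ms (Lv d lam n b)) := by intro c b; ring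
    simp only [this, Finset.sum_add_distrib, Finset.sum_sub_distrib]
    have h2 := sum_prod (d := d) (lam := lam) n k (hom (h 1 k)) (hom Φ)
    have h3 := sum_prod (d := d) (lam := lam) n k (hom (h 0 k)) (hom Φ)
    have h4 := sum_prod (d := d) (lam := lam) n k (hom (h 0 k)) ms
    rw [hms] at h4
    simp only [← Finset.mul_sum] at h2 h3 h4 ⊢
    rw [h2, h3, h4]; ring
  · simp only [bal]
    have : ∀ (c : Fin k → Conf 3 d n) (b : Conf 3 d n),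
        (κ * at3 (hom Φ) (Lv d lam n b) - μ * at3 ms (Lv d lam n b))
        * at3 (hom (h 1 k)) (fun i => ∏ j, nz lam (Lv d lam n (c j)) i)
        = κ * (at3 (hom (h 1 k)) (fun i => ∏ j, nz lam (Lv d lam n (c j)) i)
          * at3 (hom Φ) (Lv d lam n b))
        - μ * (at3 (hom (h 1 k)) (fun i => ∏ j, nz lam (Lv d lam n (c j)) i)
          * at3 ms (Lv d lam n b)) := by intro c b; ring
    simp only [this, Finset.sum_sub_distrib]
    have h3 := sum_prod (d := d) (lam := lam) n k (hom (h 1 k)) (hom Φ)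
    have h4 := sum_prod (d := d) (lam := lam) n k (hom (h 1 k)) ms
    rw [hms] at h4
    simp only [← Finset.mul_sum] at h3 h4 ⊢
    rw [h3, h4]; ring

theorem SysR.chain (S : SysR d lam κ μ δ B Φ W ψ h) (n j : ℕ) (hj : j < 3) :
    ∀ k, k ≤ d → Sk d lam n k (hom (W j k)) ≤ W j 0 0 0
      + ∑ l ∈ Finset.range k, Lf d lam n (hom (ψ j l))
      + bal κ μ j (Lf d lam n (hom Φ)) 1 (HH d lam h n 0 k) (HH d lam h n 1 k)
  | 0, _ => by
      rw [Sk_zero']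
      have : bal κ μ j (Lf d lam n (hom Φ)) 1 (HH d lam h n 0 0) (HH d lam h n 1 0) = 0 := by
        unfold HH bal; split <;> simp
      rw [this]; simp
  | k + 1, hk => by
      have ih := S.chain n j hj k (by omega)
      have st := S.stage n j k hj (by omega)
      unfold HH at ih ⊢
      rw [Finset.sum_range_succ, Finset.sum_range_succ, Finset.sum_range_succ, bal_add]
      linarith

theorem SysR.level (S : SysR d lam κ μ δ B Φ W ψ h) (n j : ℕ) (hj : j < 3) :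
    Lf d lam (n + 1) (hom (W j d)) ≤ Lf d lam n (hom (W j d)) - (if j = 2 then δ else 0)
      + bal κ μ j (Lf d lam n (hom Φ)) 1 (HH d lam h n 0 d) (HH d lam h n 1 d) := by
  rw [Lf_succ]
  have c := S.chain n j hj d le_rfl
  rw [Lf_sum] at c
  have hms : Lf d lam n ms = 1 := by unfold Lf at3; exact ms_sum n
  have hf : Lf d lam n (fun a b c => ∑ l ∈ Finset.range d, hom (ψ j l) a b c)
      + (W j 0 0 0 + (if j = 2 then δ else 0)) * Lf d lam n ms ≤ Lf d lam n (hom (W j d)) := by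
    unfold Lf
    rw [Finset.mul_sum, ← Finset.sum_add_distrib]
    refine Finset.sum_le_sum fun b _ => ?_
    have := S.final j hj _ _ _ (Lv_nonneg S.lam1 S.lam0 n b 0) (Lv_nonneg S.lam1 S.lam0 n b 1)
      (Lv_nonneg S.lam1 S.lam0 n b 2)
    unfold at3
    linarith
  rw [hms] at hf
  linarith

theorem SysR.HH_abs (S : SysR d lam κ μ δ B Φ W ψ h) (n i : ℕ) (hi : i < 2) :
    |HH d lam h n i d| ≤ d * B := by
  unfold HH
  calc |∑ l ∈ Finset.range d, Sk d lam n l (hom (h i l))|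
      ≤ ∑ l ∈ Finset.range d, |Sk d lam n l (hom (h i l))| := Finset.abs_sum_le_sum_abs _ _
    _ ≤ ∑ l ∈ Finset.range d, B := Finset.sum_le_sum fun l hl =>
        Sk_abs S.lam1 S.lam0 n l _ B (S.bddh i l hi (Finset.mem_range.1 hl))
    _ = d * B := by simp

/-- the limit of the statistic is not in the range of the system -/
theorem SysR.no_limit (S : SysR d lam κ μ δ B Φ W ψ h) (L : ℝ)
    (hL : Filter.Tendsto (fun n => Lf d lam n (hom Φ)) Filter.atTop (nhds L))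
    (h0 : 0 < κ * L) (h1 : κ * L ≤ μ) : False := by
  have hμ : 0 < μ := lt_of_lt_of_le h0 h1
  set θ := κ * L / μ with hθ
  have hθ0 : 0 < θ := div_pos h0 hμ
  have hθ1 : θ ≤ 1 := by
    rw [hθ, div_le_one hμ]
    exact h1
  have hθm : μ * θ = κ * L := by rw [hθ]; field_simp
  have hB : 0 ≤ B := S.Bnn
  set C := (1 + d) * B with hC
  have hB' : B ≤ C := by
    have := mul_nonneg (Nat.cast_nonneg (α := ℝ) d) S.Bnn
    rw [hC]; linarith
  have hB'' : d * B ≤ C := by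
    rw [hC]; linarith
  have hCn : 0 ≤ C := le_trans hB hB'
  set X := fun n => Lf d lam n (hom Φ) with hX
  set V := fun (j n : ℕ) => Lf d lam n (hom (W j d)) with hV
  have hV' : ∀ j, j < 3 → ∀ n, |V j n| ≤ C := fun j hj n =>
    le_trans (Lf_abs S.lam1 S.lam0 n _ B (S.bddW j hj)) hB'
  have hH : ∀ i, i < 2 → ∀ n, |HH d lam h n i d| ≤ C := fun i hi n =>
    le_trans (S.HH_abs n i hi) hB''
  have lv := fun (j : ℕ) (hj : j < 3) (n : ℕ) => S.level n j hj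
  have p0 : 0 ≤ (1 - θ) ^ 2 := by positivity
  have p1 : 0 ≤ 2 * θ * (1 - θ) := mul_nonneg (by positivity) (by linarith)
  have p2 : 0 ≤ θ ^ 2 := by positivity
  have hs : (1 - θ) ^ 2 + 2 * θ * (1 - θ) + θ ^ 2 = 1 := by ring
  have hδ : 0 < θ ^ 2 * δ := by
    have := S.δpos
    positivity
  refine no_drop (fun n => (1 - θ) ^ 2 * V 0 n + 2 * θ * (1 - θ) * V 1 n + θ ^ 2 * V 2 n)
    (fun n => κ * (X n - L) * ((1 - θ) * HH d lam h n 0 d + θ * HH d lam h n 1 d)) _ C hδ ?_ ?_ ?_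
  · intro n
    have a0 := abs_le.1 (hV' 0 (by norm_num) n)
    have a1 := abs_le.1 (hV' 1 (by norm_num) n)
    have a2 := abs_le.1 (hV' 2 (by norm_num) n)
    rw [abs_le]
    constructor
    · have e : -C = (1 - θ) ^ 2 * -C + 2 * θ * (1 - θ) * -C + θ ^ 2 * -C := by
        linear_combination C * hs
      rw [e]
      have m0 := mul_le_mul_of_nonneg_left a0.1 p0
      have m1 := mul_le_mul_of_nonneg_left a1.1 p1
      have m2 := mul_le_mul_of_nonneg_left a2.1 p2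
      linarith
    · have e : C = (1 - θ) ^ 2 * C + 2 * θ * (1 - θ) * C + θ ^ 2 * C := by
        linear_combination -C * hs
      have m0 := mul_le_mul_of_nonneg_left a0.2 p0
      have m1 := mul_le_mul_of_nonneg_left a1.2 p1
      have m2 := mul_le_mul_of_nonneg_left a2.2 p2
      linarith
  · have t1 : Filter.Tendsto (fun n => κ * (X n - L)) Filter.atTop (nhds 0) := by
      have := (hL.sub_const L).const_mul κ
      simpa using this
    refine squeeze_zero_norm (a := fun n => |κ * (X n - L)| * (2 * C)) ?_ ?_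
    · intro n
      rw [Real.norm_eq_abs, abs_mul]
      refine mul_le_mul_of_nonneg_left ?_ (abs_nonneg _)
      have b0 := abs_le.1 (hH 0 (by norm_num) n)
      have b1 := abs_le.1 (hH 1 (by norm_num) n)
      have q0 : 0 ≤ 1 - θ := by linarith
      rw [abs_le]
      constructor
      · have := mul_le_mul_of_nonneg_left b0.1 q0
        have := mul_le_mul_of_nonneg_left b1.1 hθ0.le
        nlinarith
      · have := mul_le_mul_of_nonneg_left b0.2 q0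
        have := mul_le_mul_of_nonneg_left b1.2 hθ0.le
        nlinarith
    · have := t1.abs.mul_const (2 * C)
      simpa using this
  · intro n
    have l0 := mul_le_mul_of_nonneg_left (lv 0 (by norm_num) n) p0
    have l1 := mul_le_mul_of_nonneg_left (lv 1 (by norm_num) n) p1
    have l2 := mul_le_mul_of_nonneg_left (lv 2 (by norm_num) n) p2
    simp only [bal, OfNat.zero_ne_ofNat, OfNat.one_ne_ofNat, if_false, if_true, sub_zero]
      at l0 l1 l2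
    change (1 - θ) ^ 2 * V 0 (n + 1) + 2 * θ * (1 - θ) * V 1 (n + 1) + θ ^ 2 * V 2 (n + 1) ≤ _
    have e : (1 - θ) ^ 2 * (κ * X n * HH d lam h n 0 d)
        + 2 * θ * (1 - θ) * ((κ * X n * HH d lam h n 1 d
          + (κ * X n - μ * 1) * HH d lam h n 0 d) / 2)
        + θ ^ 2 * ((κ * X n - μ * 1) * HH d lam h n 1 d)
        = κ * (X n - L) * ((1 - θ) * HH d lam h n 0 d + θ * HH d lam h n 1 d) := by
      linear_combination (-((1 - θ) * HH d lam h n 0 d + θ * HH d lam h n 1 d)) * hθm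
    simp only [hV, hX] at e ⊢
    linarith [l0, l1, l2, e]

end

/-! ### certificates -/

theorem ex_msR {a0 a1 a2 b0 b1 b2 : ℝ} {g ψ h0 h1 Φ : ℝ → ℝ → ℝ} {κ μ : ℝ} (j : ℕ) :
    ms b0 b1 b2 * hom g a0 a1 a2 + ms a0 a1 a2 * hom ψ b0 b1 b2
        + bal κ μ j (hom Φ b0 b1 b2) (ms b0 b1 b2) (hom h0 a0 a1 a2) (hom h1 a0 a1 a2)
      = ms a0 a1 a2 * ms b0 b1 b2 * (g (Pn a0 a1 a2) (Cn a0 a1 a2)
        + (ψ (Pn b0 b1 b2) (Cn b0 b1 b2)
        + balR j (κ * Φ (Pn b0 b1 b2) (Cn b0 b1 b2)) μ (h0 (Pn a0 a1 a2) (Cn a0 a1 a2))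
          (h1 (Pn a0 a1 a2) (Cn a0 a1 a2)))) := by
  rw [hom_eq, hom_eq, hom_eq, hom_eq, hom_eq, bal_balR]
  ring

/-- step of the chain -/
def HEr (j : ℕ) (D' D : NP) (L2 L3 mb : ℤ × ℕ) (psi h0 h1 : List CL) : PE :=
  psub (.add (wP D' Px (pofP Px Cx)) (.add (.mul (.q L2.1 L2.2) (h2P psi Pz Cz))
    (balP j (.mul (.q L2.1 L2.2) (.mul (.q 1 1) (.add Pz Cz)))
      (.mul (.q L2.1 L2.2) (.q mb.1 mb.2)) (h2P h0 Px Cx) (h2P h1 Px Cx))))
    (avgP D Px Cx (.mul (.q L2.1 L2.2) Pz) (.mul (.q L3.1 L3.2) Cz))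

/-- first step of the chain -/
def BEr (j : ℕ) (D : NP) (L2 L3 mb w0 : ℤ × ℕ) (psi h0 h1 : List CL) : PE :=
  psub (.add (.q w0.1 w0.2) (.add (.mul (.q L2.1 L2.2) (h2P psi Px Cx))
    (balP j (.mul (.q L2.1 L2.2) (.mul (.q 1 1) (.add Px Cx)))
      (.mul (.q L2.1 L2.2) (.q mb.1 mb.2)) (h2P h0 (.q 0 0) (.q 0 0))
      (h2P h1 (.q 0 0) (.q 0 0)))))
    (wP D (.mul (.q L2.1 L2.2) Px) (pofP (.mul (.q L2.1 L2.2) Px) (.mul (.q L3.1 L3.2) Cx)))

theorem HEr_real (v : ℕ → ℝ) (j : ℕ) (D' D : NP) (L2 L3 mb : ℤ × ℕ) (psi h0 h1 : List CL) :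
    (HEr j D' D L2 L3 mb psi h0 h1).real 0 v
      = (gR D' (v 0 * v 0 * (1 + -3 / 4 * v 2)) (v 0 * (v 0 * v 0) * (1 + -9 / 8 * v 2))
        + (cv L2 * h2R psi (v 1 * v 1 * (1 + -3 / 4 * v 3)) (v 1 * (v 1 * v 1) * (1 + -9 / 8 * v 3))
        + balR j (cv L2 * (1 / 2 * (v 1 * v 1 * (1 + -3 / 4 * v 3)
            + v 1 * (v 1 * v 1) * (1 + -9 / 8 * v 3)))) (cv L2 * cv mb)
          (h2R h0 (v 0 * v 0 * (1 + -3 / 4 * v 2)) (v 0 * (v 0 * v 0) * (1 + -9 / 8 * v 2)))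
          (h2R h1 (v 0 * v 0 * (1 + -3 / 4 * v 2)) (v 0 * (v 0 * v 0) * (1 + -9 / 8 * v 2)))))
      - avg D (v 0 * v 0 * (1 + -3 / 4 * v 2)) (v 0 * (v 0 * v 0) * (1 + -9 / 8 * v 2))
          (cv L2 * (v 1 * v 1 * (1 + -3 / 4 * v 3)))
          (cv L3 * (v 1 * (v 1 * v 1) * (1 + -9 / 8 * v 3))) := by
  have half : ((1 : ℤ) : ℝ) / (((1 : ℕ) : ℝ) + 1) = 1 / 2 := by norm_num
  simp only [HEr, Px, Cx, Pz, Cz, gR, psub, PE.real_add, PE.real_mul, PE.real_neg, PE.real_q,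
    wP_real, pofP_real, Pq_real, Cq_real, PE.real_x, h2P_real, balP_real, avgP_real, cv, half]
  ring

theorem BEr_real (v : ℕ → ℝ) (j : ℕ) (D : NP) (L2 L3 mb w0 : ℤ × ℕ) (psi h0 h1 : List CL) :
    (BEr j D L2 L3 mb w0 psi h0 h1).real 0 v
      = (cv w0 + (cv L2 * h2R psi (v 0 * v 0 * (1 + -3 / 4 * v 2))
          (v 0 * (v 0 * v 0) * (1 + -9 / 8 * v 2))
        + balR j (cv L2 * (1 / 2 * (v 0 * v 0 * (1 + -3 / 4 * v 2)
            + v 0 * (v 0 * v 0) * (1 + -9 / 8 * v 2)))) (cv L2 * cv mb)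
          (h2R h0 0 0) (h2R h1 0 0)))
      - gR D (cv L2 * (v 0 * v 0 * (1 + -3 / 4 * v 2)))
          (cv L3 * (v 0 * (v 0 * v 0) * (1 + -9 / 8 * v 2))) := by
  have z : ((0 : ℤ) : ℝ) / (((0 : ℕ) : ℝ) + 1) = 0 := by norm_num
  have half : ((1 : ℤ) : ℝ) / (((1 : ℕ) : ℝ) + 1) = 1 / 2 := by norm_num
  simp only [BEr, Px, Cx, gR, psub, PE.real_add, PE.real_mul, PE.real_neg, PE.real_q,
    wP_real, pofP_real, Pq_real, Cq_real, PE.real_x, h2P_real, balP_real, cv, z, half]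
  ring

/-- one step of the chain -/
theorem step_ineqR (j : ℕ) (D' D : NP) (L2 L3 mb : ℤ × ℕ) (psi h0 h1 : List CL)
    (lam0 s lo hi : ℝ)
    (e2 : cv L2 = lam0 ^ 2) (e3 : cv L3 = lam0 ^ 3) (hU : UB D lo hi)
    (hH : Box0 0 (HEr j D' D L2 L3 mb psi h0 h1)) (hl0 : -(1 / 2) ≤ lam0) (hl1 : lam0 ≤ 1)
    (s0 : 0 ≤ s) (s1 : s ≤ 1)
    (r1 : lo ≤ 1 - lam0 * s) (r2 : lo ≤ 1 + 2 * (lam0 * s)) (r3 : 1 - lam0 * s ≤ hi)
    (r4 : 1 + 2 * (lam0 * s) ≤ hi)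
    (a0 a1 a2 b0 b1 b2 : ℝ) (ha0 : 0 ≤ a0) (ha1 : 0 ≤ a1) (ha2 : 0 ≤ a2)
    (hb0 : 0 ≤ b0) (hb1 : 0 ≤ b1) (hb2 : 0 ≤ b2) :
    six (fun x y z => hom (gR D) (a0 * ns (lam0 * s) (ms b0 b1 b2) x)
        (a1 * ns (lam0 * s) (ms b0 b1 b2) y) (a2 * ns (lam0 * s) (ms b0 b1 b2) z)) b0 b1 b2
      ≤ 6 * (ms b0 b1 b2 * hom (gR D') a0 a1 a2
        + ms a0 a1 a2 * hom (fun P C => lam0 ^ 2 * h2R psi (s ^ 2 * P) (s ^ 3 * C)) b0 b1 b2
        + bal ((lam0 * s) ^ 2) (lam0 ^ 2 * cv mb) j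
          (hom (fun P C => 1 / 2 * P + s / 2 * C) b0 b1 b2) (ms b0 b1 b2)
          (hom (h2R h0) a0 a1 a2) (hom (h2R h1) a0 a1 a2)) := by
  refine le_trans (hom_merge D (lam0 * s) lo hi hU (lam_le _ _ hl1 s0 s1)
    (lam_ge _ _ hl0 s0 s1) r1 r2 r3 r4 a0 a1 a2 b0 b1 b2 ha0 ha1 ha2 hb0 hb1 hb2) ?_
  rw [ex_msR j]
  refine mul_le_mul_of_nonneg_left ?_ (by norm_num)
  rcases (ms_nonneg ha0 ha1 ha2).eq_or_lt with hma | hma
  · rw [← hma]; simp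
  rcases (ms_nonneg hb0 hb1 hb2).eq_or_lt with hmb | hmb
  · rw [← hmb]; simp
  refine mul_le_mul_of_nonneg_left ?_ (by positivity)
  obtain ⟨ρx, sx, p1, p2, p3, p4, e4, e5⟩ := Pn_range ha0 ha1 ha2 hma
  obtain ⟨ρz, sz, q1, q2, q3, q4, e6, e7⟩ := Pn_range hb0 hb1 hb2 hmb
  have k := hH ρx (s * ρz) sx sz p1 p2 (by positivity) (by nlinarith) p3 p4 q3 q4
  rw [HEr_real] at k
  simp only [env] at k
  have f1 : s * ρz * (s * ρz) * (1 + -3 / 4 * sz) = s ^ 2 * Pn b0 b1 b2 := by rw [e6]; ring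
  have f2 : s * ρz * (s * ρz * (s * ρz)) * (1 + -9 / 8 * sz) = s ^ 3 * Cn b0 b1 b2 := by
    rw [e7]; ring
  rw [f1, f2, ← e4, ← e5, e2, e3] at k
  have g1 : lam0 ^ 2 * (s ^ 2 * Pn b0 b1 b2) = (lam0 * s) ^ 2 * Pn b0 b1 b2 := by ring
  have g2 : lam0 ^ 3 * (s ^ 3 * Cn b0 b1 b2) = (lam0 * s) ^ 3 * Cn b0 b1 b2 := by ring
  have g3 : lam0 ^ 2 * (1 / 2 * (s ^ 2 * Pn b0 b1 b2 + s ^ 3 * Cn b0 b1 b2))
      = (lam0 * s) ^ 2 * (1 / 2 * Pn b0 b1 b2 + s / 2 * Cn b0 b1 b2) := by ring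
  rw [g1, g2, g3] at k
  linarith

/-- first step of the chain -/
theorem base_ineqR (j : ℕ) (D : NP) (L2 L3 mb w0 : ℤ × ℕ) (psi h0 h1 : List CL) (lam0 s : ℝ)
    (e2 : cv L2 = lam0 ^ 2) (e3 : cv L3 = lam0 ^ 3)
    (hB : Box0 0 (BEr j D L2 L3 mb w0 psi h0 h1))
    (s0 : 0 ≤ s) (s1 : s ≤ 1)
    (b0 b1 b2 : ℝ) (hb0 : 0 ≤ b0) (hb1 : 0 ≤ b1) (hb2 : 0 ≤ b2) :
    six (fun x y z => hom (gR D) (1 * ns (lam0 * s) (ms b0 b1 b2) x)
        (1 * ns (lam0 * s) (ms b0 b1 b2) y) (1 * ns (lam0 * s) (ms b0 b1 b2) z)) b0 b1 b2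
      ≤ 6 * (ms b0 b1 b2 * hom (fun _ _ => cv w0) 1 1 1
        + ms 1 1 1 * hom (fun P C => lam0 ^ 2 * h2R psi (s ^ 2 * P) (s ^ 3 * C)) b0 b1 b2
        + bal ((lam0 * s) ^ 2) (lam0 ^ 2 * cv mb) j
          (hom (fun P C => 1 / 2 * P + s / 2 * C) b0 b1 b2) (ms b0 b1 b2)
          (hom (h2R h0) 1 1 1) (hom (h2R h1) 1 1 1)) := by
  rw [six_hom, ex_msR j]
  refine mul_le_mul_of_nonneg_left ?_ (by norm_num)
  have em : ms 1 1 1 = 1 := by unfold ms; norm_num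
  have eP : Pn 1 1 1 = 0 := by unfold Pn; rw [em]; simp [Pf_zero3]
  have eC : Cn 1 1 1 = 0 := by unfold Cn; rw [em]; simp [Cf_zero3]
  rw [em, eP, eC, one_mul]
  rcases (ms_nonneg hb0 hb1 hb2).eq_or_lt with hmb | hmb
  · obtain ⟨z0, z1, z2⟩ := ms_zero hb0 hb1 hb2 hmb.symm
    subst z0; subst z1; subst z2
    rw [← hmb, ns_zero, hom_zero]; simp
  obtain ⟨ρz, sz, q1, q2, q3, q4, e6, e7⟩ := Pn_range hb0 hb1 hb2 hmb
  have k := hB (s * ρz) 0 sz 0 (by positivity) (by nlinarith) le_rfl zero_le_one q3 q4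
    le_rfl zero_le_one
  rw [BEr_real] at k
  simp only [env] at k
  have f1 : s * ρz * (s * ρz) * (1 + -3 / 4 * sz) = s ^ 2 * Pn b0 b1 b2 := by rw [e6]; ring
  have f2 : s * ρz * (s * ρz * (s * ρz)) * (1 + -9 / 8 * sz) = s ^ 3 * Cn b0 b1 b2 := by
    rw [e7]; ring
  rw [f1, f2, e2, e3] at k
  have g1 : lam0 ^ 2 * (s ^ 2 * Pn b0 b1 b2) = (lam0 * s) ^ 2 * Pn b0 b1 b2 := by ring
  have g2 : lam0 ^ 3 * (s ^ 3 * Cn b0 b1 b2) = (lam0 * s) ^ 3 * Cn b0 b1 b2 := by ring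
  have g3 : lam0 ^ 2 * (1 / 2 * (s ^ 2 * Pn b0 b1 b2 + s ^ 3 * Cn b0 b1 b2))
      = (lam0 * s) ^ 2 * (1 / 2 * Pn b0 b1 b2 + s / 2 * Cn b0 b1 b2) := by ring
  rw [g1, g2, g3] at k
  have nr := normalize (a0 := b0) (a1 := b1) (a2 := b2) hmb
  have hn : hom (gR D) (ns (lam0 * s) (ms b0 b1 b2) b0) (ns (lam0 * s) (ms b0 b1 b2) b1)
      (ns (lam0 * s) (ms b0 b1 b2) b2)
      = ms b0 b1 b2 * gR D ((lam0 * s) ^ 2 * Pn b0 b1 b2) ((lam0 * s) ^ 3 * Cn b0 b1 b2) := by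
    rw [ns_norm _ _ b0 hmb.ne', ns_norm _ _ b1 hmb.ne', ns_norm _ _ b2 hmb.ne', hom_smul]
    rw [hom_unit, noise_P _ _ _ _ nr, noise_C _ _ _ _ nr]
    · rfl
    · have : b2 / ms b0 b1 b2 = 3 - b0 / ms b0 b1 b2 - b1 / ms b0 b1 b2 := by linarith
      rw [this]; ring
  rw [hn]
  refine mul_le_mul_of_nonneg_left ?_ hmb.le
  linarith

/-- the data of a chain for the second statistic, and its certificates -/
structure ChainR (d : ℕ) (lam0 : ℝ) (D : ℕ → ℕ → NP) (psi hh : ℕ → ℕ → List CL)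
    (L2 L3 c c' f w0 w2 mb : ℤ × ℕ) (psil : ℕ → List (List CL)) : Prop where
  hd : 1 ≤ d
  hl0 : -(1 / 2) ≤ lam0
  hl1 : lam0 ≤ 1
  hne : lam0 ≠ 0
  e2 : cv L2 = lam0 ^ 2
  e3 : cv L3 = lam0 ^ 3
  hf : 0 < cv f
  hmb : 0 < cv mb
  hw : cv w0 < cv w2
  r1 : 1 - cv c ≤ 1 - lam0
  r2 : 1 - cv c ≤ 1 + 2 * lam0
  r3 : 1 - lam0 ≤ 1 + cv c'
  r4 : 1 + 2 * lam0 ≤ 1 + cv c'
  hc : 0 < cv c
  hc' : 0 < cv c'
  hU0 : ∀ j k, j < 3 → 2 ≤ k → k ≤ d → Box0 0 (UE0 c (D j k))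
  hU1 : ∀ j k, j < 3 → 2 ≤ k → k ≤ d → Box0 0 (UE1 c' (D j k))
  hB : ∀ j, j < 3 → Box0 0 (BEr j (D j 1) L2 L3 mb (if j = 2 then w0 else (0, 0)) (psi j 1)
    (hh 0 1) (hh 1 1))
  hH : ∀ j k, j < 3 → 2 ≤ k → k ≤ d →
    Box0 0 (HEr j (D j (k - 1)) (D j k) L2 L3 mb (psi j k) (hh 0 k) (hh 1 k))
  hS : ∀ j, j < 3 → Box0 0 (SE (D j d) (if j = 2 then w2 else (0, 0)) f (psil j))
  hR : ∀ j, j < 3 → Box0 0 (RE (D j d) (if j = 2 then w2 else (0, 0)))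
  hpsi : ∀ j, j < 3 → ∀ P C, ∑ k ∈ Finset.range d, h2R (psi j (k + 1)) P C = h2sR (psil j) P C

section
variable {d : ℕ} {lam0 : ℝ} {D : ℕ → ℕ → NP} {psi hh : ℕ → ℕ → List CL}
    {L2 L3 c c' f w0 w2 mb : ℤ × ℕ} {psil : ℕ → List (List CL)}

theorem ChainR.sys (T : ChainR d lam0 D psi hh L2 L3 c c' f w0 w2 mb psil)
    (s : ℝ) (s0 : 0 < s) (s1 : s ≤ 1) (hdl : (lam0 * s) ^ 2 ≤ cv f) :
    ∃ B, SysR d (lam0 * s) ((lam0 * s) ^ 2) (lam0 ^ 2 * cv mb) (cv w2 - cv w0) B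
      (fun P C => 1 / 2 * P + s / 2 * C)
      (fun j k => if k = 0 then (fun _ _ => cv (if j = 2 then w0 else (0, 0))) else gR (D j k))
      (fun j k P C => lam0 ^ 2 * h2R (psi j (k + 1)) (s ^ 2 * P) (s ^ 3 * C))
      (fun i k => h2R (hh i (k + 1))) := by
  have hl2 : 0 < lam0 ^ 2 := by have := T.hne; positivity
  obtain ⟨r1, r2, r3, r4⟩ := range_scale lam0 s (1 - cv c) (1 + cv c') s0.le s1 T.r1 T.r2 T.r3 T.r4
    (by linarith [T.hc]) (by linarith [T.hc'])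
  refine ⟨∑ j ∈ Finset.range 3, nW (D j d)
    + ∑ i ∈ Finset.range 2, ∑ k ∈ Finset.range d, n2 (hh i (k + 1)), ?_⟩
  have hn1 : ∀ j, 0 ≤ nW (D j d) := fun j => nW_nonneg _
  have hs1 : 0 ≤ ∑ j ∈ Finset.range 3, nW (D j d) := Finset.sum_nonneg fun j _ => hn1 j
  have hs2 : 0 ≤ ∑ i ∈ Finset.range 2, ∑ k ∈ Finset.range d, n2 (hh i (k + 1)) :=
    Finset.sum_nonneg fun i _ => Finset.sum_nonneg fun k _ => n2_nonneg _
  refine ⟨T.hd, lam_le _ _ T.hl1 s0.le s1, lam_ge _ _ T.hl0 s0.le s1, ?_, ?_, ?_, ?_, ?_, ?_, ?_⟩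
  · have := T.hne; positivity
  · linarith [T.hw]
  · linarith
  · intro j k hj hk a0 a1 a2 b0 b1 b2 hz ha0 ha1 ha2 hb0 hb1 hb2
    have hk1 : k + 1 ≠ 0 := by omega
    simp only [hk1, if_false]
    rcases Nat.eq_zero_or_pos k with h | h
    · obtain ⟨z0, z1, z2⟩ := hz h
      subst z0; subst z1; subst z2; subst h
      simp only [if_true]
      exact base_ineqR j (D j 1) L2 L3 mb _ (psi j 1) (hh 0 1) (hh 1 1) lam0 s T.e2 T.e3
        (T.hB j hj) s0.le s1 b0 b1 b2 hb0 hb1 hb2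
    · have hk0 : k ≠ 0 := by omega
      simp only [hk0, if_false]
      have hH := T.hH j (k + 1) hj (by omega) (by omega)
      simp only [Nat.add_sub_cancel] at hH
      exact step_ineqR j (D j k) (D j (k + 1)) L2 L3 mb (psi j (k + 1)) (hh 0 (k + 1))
        (hh 1 (k + 1)) lam0 s (1 - cv c) (1 + cv c') T.e2 T.e3
        (UB_of_box c c' _ T.hc T.hc' (T.hU0 j (k + 1) hj (by omega) (by omega))
          (T.hU1 j (k + 1) hj (by omega) (by omega))) hH T.hl0 T.hl1 s0.le s1 r1 r2 r3 r4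
        a0 a1 a2 b0 b1 b2 ha0 ha1 ha2 hb0 hb1 hb2
  · intro j hj b0 b1 b2 hb0 hb1 hb2
    have hd0 : d ≠ 0 := by have := T.hd; omega
    simp only [hd0, if_false, if_true]
    have k := close_ineq (D j d) (if j = 2 then w2 else (0, 0)) f (psil j) (T.hS j hj) (T.hR j hj)
      lam0 s (lam0 ^ 2) T.hf s0.le s1 hl2.le (by rw [← mul_pow]; exact hdl) b0 b1 b2 hb0 hb1 hb2
    have e : ∑ k ∈ Finset.range d,
        hom (fun P C => lam0 ^ 2 * h2R (psi j (k + 1)) (s ^ 2 * P) (s ^ 3 * C)) b0 b1 b2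
        = hom (fun P C => lam0 ^ 2 * h2sR (psil j) (s ^ 2 * P) (s ^ 3 * C)) b0 b1 b2 := by
      simp only [hom_eq]
      rw [← Finset.mul_sum, ← Finset.mul_sum, T.hpsi j hj]
    rw [e]
    rcases eq_or_ne j 2 with h | h
    · simp only [h, if_true] at k ⊢
      linarith
    · simp only [h, if_false] at k ⊢
      rw [cv_zero] at k ⊢
      linarith
  · intro j hj a0 a1 a2 h0 h1 h2
    have hd0 : d ≠ 0 := by have := T.hd; omega
    simp only [hd0, if_false]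
    refine le_trans (hom_gR_abs _ _ _ _ h0 h1 h2)
      (mul_le_mul_of_nonneg_right ?_ (ms_nonneg h0 h1 h2))
    have := Finset.single_le_sum (f := fun j => nW (D j d)) (fun j _ => hn1 j)
      (Finset.mem_range.2 hj)
    linarith
  · intro i k hi hk a0 a1 a2 h0 h1 h2
    refine le_trans (hom_h2R_abs _ _ _ _ h0 h1 h2)
      (mul_le_mul_of_nonneg_right ?_ (ms_nonneg h0 h1 h2))
    have e1 := Finset.single_le_sum (f := fun k => n2 (hh i (k + 1)))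
      (fun k _ => n2_nonneg (hh i (k + 1))) (Finset.mem_range.2 hk)
    have e2 := Finset.single_le_sum (f := fun i => ∑ k ∈ Finset.range d, n2 (hh i (k + 1)))
      (fun i _ => Finset.sum_nonneg fun k _ => n2_nonneg (hh i (k + 1))) (Finset.mem_range.2 hi)
    linarith

/-- the limit of the statistic is not in the range of the certificate -/
theorem ChainR.excl (T : ChainR d lam0 D psi hh L2 L3 c c' f w0 w2 mb psil) (hneg : lam0 < 0)
    (lam : ℝ) (h0 : lam0 ≤ lam) (h1 : lam < 0) (hdl : lam ^ 2 ≤ cv f) (L : ℝ)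
    (hL : Filter.Tendsto (fun n => Lf d lam n
      (hom (fun P C => 1 / 2 * P + lam / lam0 / 2 * C))) Filter.atTop (nhds L))
    (hL0 : 0 < L) (hLm : (lam / lam0) ^ 2 * L ≤ cv mb) : False := by
  have s0 : 0 < lam / lam0 := div_pos_of_neg_of_neg h1 hneg
  have s1 : lam / lam0 ≤ 1 := by
    rw [div_le_one_of_neg hneg]; exact h0
  have e : lam0 * (lam / lam0) = lam := mul_div_cancel₀ lam hneg.ne
  obtain ⟨B, S⟩ := T.sys (lam / lam0) s0 s1 (by rw [e]; exact hdl)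
  rw [e] at S
  refine S.no_limit L hL (mul_pos (by have := h1.ne; positivity) hL0) ?_
  have hl2 : 0 ≤ lam0 ^ 2 := sq_nonneg _
  calc lam ^ 2 * L = lam0 ^ 2 * ((lam / lam0) ^ 2 * L) := by
        rw [← mul_assoc, ← mul_pow, e]
    _ ≤ lam0 ^ 2 * cv mb := mul_le_mul_of_nonneg_left hLm hl2

end

end Vale.Agent.P154
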