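import Vale.Agent.P154.Engine

/-! Soundness of the packed check. -/

namespace Vale.Agent.P154

/-- real semantics -/
noncomputable def PE.real (s : ℝ) (v : ℕ → ℝ) (e : PE) : ℝ :=
  PE.rec (motive := fun _ => ℝ)
    (fun n m => (n : ℝ) / ((m : ℝ) + 1)) s (fun i => v i) (fun _ u => -u)
    (fun _ _ u w => u + w) (fun _ _ u w => u * w) e

@[simp] theorem PE.real_q (s : ℝ) (v : ℕ → ℝ) (n : ℤ) (m : ℕ) :
    (PE.q n m).real s v = (n : ℝ) / ((m : ℝ) + 1) := rfl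
@[simp] theorem PE.real_rt (s : ℝ) (v : ℕ → ℝ) : PE.rt.real s v = s := rfl
@[simp] theorem PE.real_x (s : ℝ) (v : ℕ → ℝ) (i : ℕ) : (PE.x i).real s v = v i := rfl
@[simp] theorem PE.real_neg (s : ℝ) (v : ℕ → ℝ) (u : PE) :
    (PE.neg u).real s v = -(u.real s v) := rfl
@[simp] theorem PE.real_add (s : ℝ) (v : ℕ → ℝ) (u w : PE) :
    (PE.add u w).real s v = u.real s v + w.real s v := rfl
@[simp] theorem PE.real_mul (s : ℝ) (v : ℕ → ℝ) (u w : PE) :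
    (PE.mul u w).real s v = u.real s v * w.real s v := rfl

/-- relation between a real value and a packed value -/
structure Good (c : Cfg) (s x0 x1 x2 x3 val : ℝ) (h : HP) : Prop where
  ex : ∃ A B : SP,
    val * ((h.den : ℝ) * ((1 + x0) ^ h.n0 * ((1 + x1) ^ h.n1 * ((1 + x2) ^ h.n2
      * (1 + x3) ^ h.n3)))) = ev x0 x1 x2 x3 A + ev x0 x1 x2 x3 B * s ∧
    ev (c.k0 : ℤ) (c.k1 : ℤ) (c.k2 : ℤ) (c.k3 : ℤ) A = h.a ∧
    ev (c.k0 : ℤ) (c.k1 : ℤ) (c.k2 : ℤ) (c.k3 : ℤ) B = h.b ∧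
    l1 A ≤ h.ma ∧ l1 B ≤ h.mb ∧ degB A h.n0 h.n1 h.n2 h.n3 ∧ degB B h.n0 h.n1 h.n2 h.n3
  den_pos : 0 < h.den

section
variable {c : Cfg} {s x0 x1 x2 x3 : ℝ}

theorem Good.const (n : ℤ) (m : ℕ) :
    Good c s x0 x1 x2 x3 ((n : ℝ) / ((m : ℝ) + 1)) (HP.const n m) := by
  refine ⟨⟨[(n, 0, 0, 0, 0)], [], ?_, ?_, ?_, ?_, ?_, ?_, ?_⟩, Nat.succ_pos m⟩
  · have : (m : ℝ) + 1 ≠ 0 := by positivity
    simp only [HP.const, ev_cons, ev_nil, mon]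
    push_cast
    field_simp
    ring
  · simp [HP.const, mon]
  · simp [HP.const]
  · simp [HP.const]
  · simp [HP.const]
  · intro t ht; simp at ht; subst ht; simp
  · exact degB_nil _ _ _ _

theorem Good.root : Good c s x0 x1 x2 x3 s HP.root := by
  refine ⟨⟨[], [(1, 0, 0, 0, 0)], ?_, ?_, ?_, ?_, ?_, ?_, ?_⟩, Nat.one_pos⟩
  · simp [HP.root, mon]
  · simp [HP.root]
  · simp [HP.root, mon]
  · simp [HP.root]
  · simp [HP.root]
  · exact degB_nil _ _ _ _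
  · intro t ht; simp at ht; subst ht; simp

theorem Good.neg {v : ℝ} {h : HP} (H : Good c s x0 x1 x2 x3 v h) :
    Good c s x0 x1 x2 x3 (-v) (HP.neg h) := by
  obtain ⟨⟨A, B, h1, h2, h3, h4, h5, h6, h7⟩, hd⟩ := H
  refine ⟨⟨scS (-1) A, scS (-1) B, ?_, ?_, ?_, ?_, ?_, ?_, ?_⟩, hd⟩
  · simp only [HP.neg, ev_scS]
    rw [neg_mul, h1]; push_cast; ring
  · simp [HP.neg, ev_scS, h2]
  · simp [HP.neg, ev_scS, h3]
  · simpa [HP.neg, l1_scS] using h4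
  · simpa [HP.neg, l1_scS] using h5
  · exact degB_scS _ h6
  · exact degB_scS _ h7

theorem Good.mul {v w : ℝ} {g h : HP} (hs : s ^ 2 = (c.dd : ℝ)) (G : Good c s x0 x1 x2 x3 v g)
    (H : Good c s x0 x1 x2 x3 w h) : Good c s x0 x1 x2 x3 (v * w) (HP.mul c g h) := by
  obtain ⟨⟨A, B, h1, h2, h3, h4, h5, h6, h7⟩, hd⟩ := G
  obtain ⟨⟨A', B', h1', h2', h3', h4', h5', h6', h7'⟩, hd'⟩ := H
  refine ⟨⟨mulS A A' ++ scS (c.dd : ℤ) (mulS B B'), mulS A B' ++ mulS B A',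
    ?_, ?_, ?_, ?_, ?_, ?_, ?_⟩, Nat.mul_pos hd hd'⟩
  · simp only [HP.mul, ev_scS, ev_append, ev_mulS, pow_add]
    push_cast
    have hs' : (c.dd : ℝ) = s ^ 2 := hs.symm
    rw [hs']
    calc _ = (v * ((g.den : ℝ) * ((1 + x0) ^ g.n0 * ((1 + x1) ^ g.n1 * ((1 + x2) ^ g.n2
      * (1 + x3) ^ g.n3))))) * (w * ((h.den : ℝ) * ((1 + x0) ^ h.n0 * ((1 + x1) ^ h.n1 *
      ((1 + x2) ^ h.n2 * (1 + x3) ^ h.n3))))) := by ring
      _ = _ := by rw [h1, h1']; ring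
  · simp only [HP.mul, ev_scS, ev_append, ev_mulS, h2, h3, h2', h3']; simp
  · simp only [HP.mul, ev_append, ev_mulS, h2, h3, h2', h3']
  · simp only [HP.mul, l1_append, l1_scS, l1_mulS]
    have e1 := Nat.mul_le_mul h4 h4'
    have e2 := Nat.mul_le_mul_left c.dd (Nat.mul_le_mul h5 h5')
    simp only [Int.natAbs_natCast]
    omega
  · simp only [HP.mul, l1_append, l1_mulS]
    have e1 := Nat.mul_le_mul h4 h5'
    have e2 := Nat.mul_le_mul h5 h4'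
    omega
  · exact degB_append (degB_mulS h6 h6') (degB_scS _ (degB_mulS h7 h7'))
  · exact degB_append (degB_mulS h6 h7') (degB_mono (degB_mulS h7 h6') le_rfl le_rfl le_rfl le_rfl)

theorem Good.addAux {v w : ℝ} {g h : HP} (den n0 n1 n2 n3 : ℕ) (hden : 0 < den)
    (hg : g.den ∣ den) (hh : h.den ∣ den) (g0 : g.n0 ≤ n0) (g1 : g.n1 ≤ n1) (g2 : g.n2 ≤ n2)
    (g3 : g.n3 ≤ n3) (k0 : h.n0 ≤ n0) (k1 : h.n1 ≤ n1) (k2 : h.n2 ≤ n2) (k3 : h.n3 ≤ n3)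
    (G : Good c s x0 x1 x2 x3 v g) (H : Good c s x0 x1 x2 x3 w h) :
    Good c s x0 x1 x2 x3 (v + w) (HP.addAux c g h den n0 n1 n2 n3) := by
  obtain ⟨⟨A, B, h1, h2, h3, h4, h5, h6, h7⟩, hd⟩ := G
  obtain ⟨⟨A', B', h1', h2', h3', h4', h5', h6', h7'⟩, hd'⟩ := H
  set F := facS (den / g.den) (n0 - g.n0) (n1 - g.n1) (n2 - g.n2) (n3 - g.n3) with hF
  set F' := facS (den / h.den) (n0 - h.n0) (n1 - h.n1) (n2 - h.n2) (n3 - h.n3) with hF'
  have hfz : ∀ (e d0 d1 d2 d3 : ℕ), ev (c.k0 : ℤ) (c.k1 : ℤ) (c.k2 : ℤ) (c.k3 : ℤ)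
      (facS e d0 d1 d2 d3) = ((HP.fac c e d0 d1 d2 d3 : ℕ) : ℤ) := by
    intro e d0 d1 d2 d3
    rw [ev_facS, HP.fac]; push_cast; ring
  refine ⟨⟨mulS A F ++ mulS A' F', mulS B F ++ mulS B' F', ?_, ?_, ?_, ?_, ?_, ?_, ?_⟩, hden⟩
  · simp only [HP.addAux, ev_append, ev_mulS, hF, hF', ev_facS]
    have e1 : (den : ℝ) = ((den / g.den : ℕ) : ℝ) * g.den := by
      rw [← Nat.cast_mul, Nat.div_mul_cancel hg]
    have e2 : (den : ℝ) = ((den / h.den : ℕ) : ℝ) * h.den := by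
      rw [← Nat.cast_mul, Nat.div_mul_cancel hh]
    have p : ∀ (y : ℝ) (m n : ℕ), m ≤ n → (1 + y) ^ n = (1 + y) ^ (n - m) * (1 + y) ^ m := by
      intro y m n hmn
      rw [← pow_add, Nat.sub_add_cancel hmn]
    have a1 : (den : ℝ) * ((1 + x0) ^ n0 * ((1 + x1) ^ n1 * ((1 + x2) ^ n2 * (1 + x3) ^ n3)))
        = (((den / g.den : ℕ) : ℝ) * ((1 + x0) ^ (n0 - g.n0) * ((1 + x1) ^ (n1 - g.n1) *
          ((1 + x2) ^ (n2 - g.n2) * (1 + x3) ^ (n3 - g.n3))))) *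
          ((g.den : ℝ) * ((1 + x0) ^ g.n0 * ((1 + x1) ^ g.n1 * ((1 + x2) ^ g.n2
          * (1 + x3) ^ g.n3)))) := by
      rw [p x0 _ _ g0, p x1 _ _ g1, p x2 _ _ g2, p x3 _ _ g3, e1]; ring
    have a2 : (den : ℝ) * ((1 + x0) ^ n0 * ((1 + x1) ^ n1 * ((1 + x2) ^ n2 * (1 + x3) ^ n3)))
        = (((den / h.den : ℕ) : ℝ) * ((1 + x0) ^ (n0 - h.n0) * ((1 + x1) ^ (n1 - h.n1) *
          ((1 + x2) ^ (n2 - h.n2) * (1 + x3) ^ (n3 - h.n3))))) *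
          ((h.den : ℝ) * ((1 + x0) ^ h.n0 * ((1 + x1) ^ h.n1 * ((1 + x2) ^ h.n2
          * (1 + x3) ^ h.n3)))) := by
      rw [p x0 _ _ k0, p x1 _ _ k1, p x2 _ _ k2, p x3 _ _ k3, e2]; ring
    rw [add_mul]
    nth_rewrite 1 [a1]
    rw [a2]
    have b1 : ∀ f : ℝ, v * (f * ((g.den : ℝ) * ((1 + x0) ^ g.n0 * ((1 + x1) ^ g.n1 *
        ((1 + x2) ^ g.n2 * (1 + x3) ^ g.n3))))) = (ev x0 x1 x2 x3 A + ev x0 x1 x2 x3 B * s) * f := by
      intro f; rw [← h1]; ring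
    have b2 : ∀ f : ℝ, w * (f * ((h.den : ℝ) * ((1 + x0) ^ h.n0 * ((1 + x1) ^ h.n1 *
        ((1 + x2) ^ h.n2 * (1 + x3) ^ h.n3))))) = (ev x0 x1 x2 x3 A' + ev x0 x1 x2 x3 B' * s) * f := by
      intro f; rw [← h1']; ring
    rw [b1, b2]; ring
  · simp only [HP.addAux, ev_append, ev_mulS, hF, hF', hfz, h2, h2']
  · simp only [HP.addAux, ev_append, ev_mulS, hF, hF', hfz, h3, h3']
  · simp only [HP.addAux, l1_append, l1_mulS, hF, hF', l1_facS]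
    apply Nat.add_le_add
    · rw [mul_assoc]; exact Nat.mul_le_mul_right _ h4
    · rw [mul_assoc]; exact Nat.mul_le_mul_right _ h4'
  · simp only [HP.addAux, l1_append, l1_mulS, hF, hF', l1_facS]
    apply Nat.add_le_add
    · rw [mul_assoc]; exact Nat.mul_le_mul_right _ h5
    · rw [mul_assoc]; exact Nat.mul_le_mul_right _ h5'
  · apply degB_append
    · exact degB_mono (degB_mulS h6 (degB_facS _ _ _ _ _)) (by simp only [HP.addAux]; omega)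
        (by simp only [HP.addAux]; omega) (by simp only [HP.addAux]; omega)
        (by simp only [HP.addAux]; omega)
    · exact degB_mono (degB_mulS h6' (degB_facS _ _ _ _ _)) (by simp only [HP.addAux]; omega)
        (by simp only [HP.addAux]; omega) (by simp only [HP.addAux]; omega)
        (by simp only [HP.addAux]; omega)
  · apply degB_append
    · exact degB_mono (degB_mulS h7 (degB_facS _ _ _ _ _)) (by simp only [HP.addAux]; omega)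
        (by simp only [HP.addAux]; omega) (by simp only [HP.addAux]; omega)
        (by simp only [HP.addAux]; omega)
    · exact degB_mono (degB_mulS h7' (degB_facS _ _ _ _ _)) (by simp only [HP.addAux]; omega)
        (by simp only [HP.addAux]; omega) (by simp only [HP.addAux]; omega)
        (by simp only [HP.addAux]; omega)

theorem Good.add {v w : ℝ} {g h : HP}
    (G : Good c s x0 x1 x2 x3 v g) (H : Good c s x0 x1 x2 x3 w h) :
    Good c s x0 x1 x2 x3 (v + w) (HP.add c g h) :=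
  Good.addAux _ _ _ _ _ (Nat.lcm_pos G.den_pos H.den_pos) (Nat.dvd_lcm_left _ _)
    (Nat.dvd_lcm_right _ _) (le_max_left _ _) (le_max_left _ _) (le_max_left _ _)
    (le_max_left _ _) (le_max_right _ _) (le_max_right _ _) (le_max_right _ _)
    (le_max_right _ _) G H

end

/-- the point of the box with Möbius coordinates `x0..x3` -/
noncomputable def boxPt (c : Cfg) (x0 x1 x2 x3 : ℝ) : ℕ → ℝ
  | 0 => (c.l0 + c.h0 * x0) / (c.m0 * (1 + x0))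
  | 1 => (c.l1 + c.h1 * x1) / (c.m1 * (1 + x1))
  | 2 => (c.l2 + c.h2 * x2) / (c.m2 * (1 + x2))
  | _ => (c.l3 + c.h3 * x3) / (c.m3 * (1 + x3))

theorem Good.var (c : Cfg) (s x0 x1 x2 x3 : ℝ) (i : ℕ) (hx0 : 0 ≤ x0) (hx1 : 0 ≤ x1)
    (hx2 : 0 ≤ x2) (hx3 : 0 ≤ x3) (hm0 : 0 < c.m0) (hm1 : 0 < c.m1) (hm2 : 0 < c.m2)
    (hm3 : 0 < c.m3) : Good c s x0 x1 x2 x3 (boxPt c x0 x1 x2 x3 i) (HP.var c i) := by
  have p0 : (0 : ℝ) < c.m0 := by exact_mod_cast hm0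
  have p1 : (0 : ℝ) < c.m1 := by exact_mod_cast hm1
  have p2 : (0 : ℝ) < c.m2 := by exact_mod_cast hm2
  have p3 : (0 : ℝ) < c.m3 := by exact_mod_cast hm3
  match i with
  | 0 =>
    change Good c s x0 x1 x2 x3 _ (HP.v0 c)
    refine ⟨⟨[((c.l0 : ℤ), 0, 0, 0, 0), ((c.h0 : ℤ), 1, 0, 0, 0)], [], ?_, ?_, ?_, ?_, ?_, ?_,
      degB_nil _ _ _ _⟩, hm0⟩
    · simp only [HP.v0, boxPt, ev_cons, ev_nil, mon]
      push_cast
      field_simp
      ring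
    · simp [HP.v0, mon]
    · simp [HP.v0]
    · simp [HP.v0]
    · simp [HP.v0]
    · intro t ht; simp at ht; rcases ht with rfl | rfl <;> simp [HP.v0]
  | 1 =>
    change Good c s x0 x1 x2 x3 _ (HP.v1 c)
    refine ⟨⟨[((c.l1 : ℤ), 0, 0, 0, 0), ((c.h1 : ℤ), 0, 1, 0, 0)], [], ?_, ?_, ?_, ?_, ?_, ?_,
      degB_nil _ _ _ _⟩, hm1⟩
    · simp only [HP.v1, boxPt, ev_cons, ev_nil, mon]
      push_cast
      field_simp
      ring
    · simp [HP.v1, mon]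
    · simp [HP.v1]
    · simp [HP.v1]
    · simp [HP.v1]
    · intro t ht; simp at ht; rcases ht with rfl | rfl <;> simp [HP.v1]
  | 2 =>
    change Good c s x0 x1 x2 x3 _ (HP.v2 c)
    refine ⟨⟨[((c.l2 : ℤ), 0, 0, 0, 0), ((c.h2 : ℤ), 0, 0, 1, 0)], [], ?_, ?_, ?_, ?_, ?_, ?_,
      degB_nil _ _ _ _⟩, hm2⟩
    · simp only [HP.v2, boxPt, ev_cons, ev_nil, mon]
      push_cast
      field_simp
      ring
    · simp [HP.v2, mon]
    · simp [HP.v2]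
    · simp [HP.v2]
    · simp [HP.v2]
    · intro t ht; simp at ht; rcases ht with rfl | rfl <;> simp [HP.v2]
  | (n + 3) =>
    change Good c s x0 x1 x2 x3 _ (HP.v3 c)
    refine ⟨⟨[((c.l3 : ℤ), 0, 0, 0, 0), ((c.h3 : ℤ), 0, 0, 0, 1)], [], ?_, ?_, ?_, ?_, ?_, ?_,
      degB_nil _ _ _ _⟩, hm3⟩
    · simp only [HP.v3, boxPt, ev_cons, ev_nil, mon]
      push_cast
      field_simp
      ring
    · simp [HP.v3, mon]
    · simp [HP.v3]
    · simp [HP.v3]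
    · simp [HP.v3]
    · intro t ht; simp at ht; rcases ht with rfl | rfl <;> simp [HP.v3]

theorem Good.pack (c : Cfg) (s x0 x1 x2 x3 : ℝ) (hx0 : 0 ≤ x0) (hx1 : 0 ≤ x1)
    (hx2 : 0 ≤ x2) (hx3 : 0 ≤ x3) (hm0 : 0 < c.m0) (hm1 : 0 < c.m1) (hm2 : 0 < c.m2)
    (hm3 : 0 < c.m3) (hs : s ^ 2 = (c.dd : ℝ)) (e : PE) :
    Good c s x0 x1 x2 x3 (e.real s (boxPt c x0 x1 x2 x3)) (e.pack c) := by
  induction e with
  | q n m => exact Good.const n m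
  | rt => exact Good.root
  | x i => exact Good.var c s x0 x1 x2 x3 i hx0 hx1 hx2 hx3 hm0 hm1 hm2 hm3
  | neg u ih => exact Good.neg ih
  | add u w ih1 ih2 => exact Good.add ih1 ih2
  | mul u w ih1 ih2 => exact Good.mul hs ih1 ih2

end Vale.Agent.P154

namespace Vale.Agent.P154

/-- environment from four values -/
def env (a0 a1 a2 a3 : ℝ) : ℕ → ℝ
  | 0 => a0
  | 1 => a1
  | 2 => a2
  | _ => a3

theorem topOK_spec {v : ℤ} {mk : ℕ} (h : topOK v mk = true) :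
    ∃ n : ℕ, v = n ∧ Nat.land n mk = 0 := by
  match v with
  | Int.ofNat n => exact ⟨n, rfl, Nat.eq_of_beq_eq_true h⟩
  | Int.negSucc _ => exact absurd h (by simp [topOK])

theorem real_continuous (s : ℝ) (f : ℝ → ℕ → ℝ) (hf : ∀ i, Continuous fun t => f t i) (e : PE) :
    Continuous fun t => e.real s (f t) := by
  induction e with
  | q n m => exact continuous_const
  | rt => exact continuous_const
  | x i => exact hf i
  | neg u ih => exact ih.neg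
  | add u w ih1 ih2 => exact ih1.add ih2
  | mul u w ih1 ih2 => exact ih1.mul ih2

theorem sound_open (dd b N0 N1 N2 N3 sm s1 s2 l0 h0 m0 l1' h1 m1 l2 h2 m2 l3 h3 m3 : ℕ)
    (e : PE) (hb : 0 < b) (hm0 : 0 < m0) (hm1 : 0 < m1) (hm2 : 0 < m2) (hm3 : 0 < m3)
    (hsm : 0 < sm)
    (h : finalOK b N0 N1 N2 N3 sm s1 s2
      (e.pack (mkCfg dd b N0 N1 N2 l0 h0 m0 l1' h1 m1 l2 h2 m2 l3 h3 m3)) = true)
    (s : ℝ) (hs : s ^ 2 = (dd : ℝ)) (hs1 : (s1 : ℝ) ≤ sm * s) (hs2 : sm * s ≤ (s2 : ℝ))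
    (x0 x1 x2 x3 : ℝ) (hx0 : 0 ≤ x0) (hx1 : 0 ≤ x1) (hx2 : 0 ≤ x2) (hx3 : 0 ≤ x3) :
    0 ≤ e.real s (boxPt (mkCfg dd b N0 N1 N2 l0 h0 m0 l1' h1 m1 l2 h2 m2 l3 h3 m3)
      x0 x1 x2 x3) := by
  set c := mkCfg dd b N0 N1 N2 l0 h0 m0 l1' h1 m1 l2 h2 m2 l3 h3 m3 with hc
  have G := Good.pack c s x0 x1 x2 x3 hx0 hx1 hx2 hx3 hm0 hm1 hm2 hm3 hs e
  set u := e.pack c with hu
  simp only [finalOK, Bool.and_eq_true] at h
  obtain ⟨g0, g1, g2, g3, b1, b2, t1, t2⟩ := h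
  rw [Nat.blt_eq] at g0
  rw [Nat.blt_eq] at g1
  rw [Nat.blt_eq] at g2
  rw [Nat.blt_eq] at g3
  rw [Nat.blt_eq] at b1
  rw [Nat.blt_eq] at b2
  obtain ⟨n1, e1, m1'⟩ := topOK_spec t1
  obtain ⟨n2, e2, m2'⟩ := topOK_spec t2
  obtain ⟨⟨A, B, q1, q2, q3, q4, q5, q6, q7⟩, hd⟩ := G
  have key : ∀ (σ n : ℕ), 2 * (sm * u.ma + σ * u.mb) < 2 ^ b →
      (sm : ℤ) * u.a + σ * u.b = n → Nat.land n (mask b (N0 * (N1 * (N2 * N3)))) = 0 →
      0 ≤ (sm : ℝ) * ev x0 x1 x2 x3 A + σ * ev x0 x1 x2 x3 B := by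
    intro σ n hlt hn hland
    have := ev_nonneg_of_bits b N0 N1 N2 N3 hb (scS (sm : ℤ) A ++ scS (σ : ℤ) B) n
      u.n0 u.n1 u.n2 u.n3 (degB_append (degB_scS _ q6) (degB_scS _ q7)) g0 g1 g2 g3
      (by
        rw [l1_append, l1_scS, l1_scS]
        simp only [Int.natAbs_natCast]
        have := Nat.mul_le_mul_left sm q4
        have := Nat.mul_le_mul_left σ q5
        omega)
      (by
        rw [ev_append, ev_scS, ev_scS, ← hn]
        simp only [Int.cast_id]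
        congr 1
        · congr 1
          exact q2.symm
        · congr 1
          exact q3.symm)
      hland x0 x1 x2 x3 hx0 hx1 hx2 hx3
    rw [ev_append, ev_scS, ev_scS] at this
    push_cast at this
    exact this
  have k1 := key s1 n1 b1 e1 m1'
  have k2 := key s2 n2 b2 e2 m2'
  have hsm' : (0 : ℝ) < sm := by exact_mod_cast hsm
  have k3 : 0 ≤ ev x0 x1 x2 x3 A + ev x0 x1 x2 x3 B * s := by
    rcases le_total 0 (ev x0 x1 x2 x3 B) with hB | hB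
    · have : (s1 : ℝ) * ev x0 x1 x2 x3 B ≤ sm * s * ev x0 x1 x2 x3 B :=
        mul_le_mul_of_nonneg_right hs1 hB
      have h3 : 0 ≤ (sm : ℝ) * (ev x0 x1 x2 x3 A + ev x0 x1 x2 x3 B * s) := by linarith
      exact nonneg_of_mul_nonneg_right h3 hsm'
    · have : (s2 : ℝ) * ev x0 x1 x2 x3 B ≤ sm * s * ev x0 x1 x2 x3 B :=
        mul_le_mul_of_nonpos_right hs2 hB
      have h3 : 0 ≤ (sm : ℝ) * (ev x0 x1 x2 x3 A + ev x0 x1 x2 x3 B * s) := by linarith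
      exact nonneg_of_mul_nonneg_right h3 hsm'
  rw [← q1] at k3
  have hpos : 0 < (u.den : ℝ) * ((1 + x0) ^ u.n0 * ((1 + x1) ^ u.n1 * ((1 + x2) ^ u.n2
      * (1 + x3) ^ u.n3))) := by
    have : (0 : ℝ) < u.den := by exact_mod_cast hd
    positivity
  exact nonneg_of_mul_nonneg_left k3 hpos

/-- **Soundness of the packed check.** -/
theorem check_sound (dd b N0 N1 N2 N3 sm s1 s2 l0 h0 m0 l1' h1 m1 l2 h2 m2 l3 h3 m3 : ℕ)
    (e : PE) (hb : 0 < b) (hm0 : 0 < m0) (hm1 : 0 < m1) (hm2 : 0 < m2) (hm3 : 0 < m3)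
    (hsm : 0 < sm)
    (h : finalOK b N0 N1 N2 N3 sm s1 s2
      (e.pack (mkCfg dd b N0 N1 N2 l0 h0 m0 l1' h1 m1 l2 h2 m2 l3 h3 m3)) = true)
    (lt0 : l0 < h0) (lt1 : l1' < h1) (lt2 : l2 < h2) (lt3 : l3 < h3)
    (s : ℝ) (hs : s ^ 2 = (dd : ℝ)) (hs1 : (s1 : ℝ) ≤ sm * s) (hs2 : sm * s ≤ (s2 : ℝ))
    (a0 a1 a2 a3 : ℝ)
    (c0 : (l0 : ℝ) ≤ m0 * a0) (d0 : m0 * a0 ≤ (h0 : ℝ))
    (c1 : (l1' : ℝ) ≤ m1 * a1) (d1 : m1 * a1 ≤ (h1 : ℝ))
    (c2 : (l2 : ℝ) ≤ m2 * a2) (d2 : m2 * a2 ≤ (h2 : ℝ))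
    (c3 : (l3 : ℝ) ≤ m3 * a3) (d3 : m3 * a3 ≤ (h3 : ℝ)) :
    0 ≤ e.real s (env a0 a1 a2 a3) := by
  -- strict case
  have strict : ∀ a0 a1 a2 a3 : ℝ, (l0 : ℝ) ≤ m0 * a0 → m0 * a0 < (h0 : ℝ) →
      (l1' : ℝ) ≤ m1 * a1 → m1 * a1 < (h1 : ℝ) → (l2 : ℝ) ≤ m2 * a2 → m2 * a2 < (h2 : ℝ) →
      (l3 : ℝ) ≤ m3 * a3 → m3 * a3 < (h3 : ℝ) → 0 ≤ e.real s (env a0 a1 a2 a3) := by
    intro a0 a1 a2 a3 c0 d0 c1 d1 c2 d2 c3 d3
    have aux : ∀ (l h m : ℕ) (a : ℝ), 0 < m → (l : ℝ) ≤ m * a → m * a < (h : ℝ) →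
        0 ≤ (m * a - l) / (h - m * a) ∧
        ((l : ℝ) + h * ((m * a - l) / (h - m * a))) / (m * (1 + (m * a - l) / (h - m * a))) = a := by
      intro l h m a hm hl hh
      have hm' : (0 : ℝ) < m := by exact_mod_cast hm
      have p : (0 : ℝ) < h - m * a := by linarith
      refine ⟨div_nonneg (by linarith) p.le, ?_⟩
      have p2 : (0 : ℝ) < h - l := by linarith
      have e1 : 1 + (m * a - l) / ((h : ℝ) - m * a) = (h - l) / (h - m * a) := by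
        field_simp; ring
      have e2 : (l : ℝ) + h * ((m * a - l) / (h - m * a)) = m * a * (h - l) / (h - m * a) := by
        field_simp; ring
      rw [e1, e2]
      field_simp
    obtain ⟨y0, z0⟩ := aux l0 h0 m0 a0 hm0 c0 d0
    obtain ⟨y1, z1⟩ := aux l1' h1 m1 a1 hm1 c1 d1
    obtain ⟨y2, z2⟩ := aux l2 h2 m2 a2 hm2 c2 d2
    obtain ⟨y3, z3⟩ := aux l3 h3 m3 a3 hm3 c3 d3
    have := sound_open dd b N0 N1 N2 N3 sm s1 s2 l0 h0 m0 l1' h1 m1 l2 h2 m2 l3 h3 m3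
      e hb hm0 hm1 hm2 hm3 hsm h s hs hs1 hs2 _ _ _ _ y0 y1 y2 y3
    have he : boxPt (mkCfg dd b N0 N1 N2 l0 h0 m0 l1' h1 m1 l2 h2 m2 l3 h3 m3)
      ((m0 * a0 - l0) / (h0 - m0 * a0)) ((m1 * a1 - l1') / (h1 - m1 * a1))
      ((m2 * a2 - l2) / (h2 - m2 * a2)) ((m3 * a3 - l3) / (h3 - m3 * a3)) = env a0 a1 a2 a3 := by
      funext i
      match i with
      | 0 => exact z0
      | 1 => exact z1
      | 2 => exact z2
      | (n + 3) => exact z3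
    rwa [he] at this
  -- closure
  have lin : ∀ (l h m : ℕ) (a : ℝ), 0 < m → l < h → (l : ℝ) ≤ m * a → m * a ≤ (h : ℝ) →
      ∀ t : ℝ, 0 < t → t ≤ 1 → (l : ℝ) ≤ m * ((1 - t) * a + t * (l / m)) ∧
        m * ((1 - t) * a + t * (l / m)) < (h : ℝ) := by
    intro l h m a hm hlh hl hh t ht0 ht1
    have hm' : (0 : ℝ) < m := by exact_mod_cast hm
    have hlh' : (l : ℝ) < h := by exact_mod_cast hlh
    have e1 : m * ((1 - t) * a + t * (l / m)) = (1 - t) * (m * a) + t * l := by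
      field_simp
    rw [e1]
    constructor
    · nlinarith
    · nlinarith
  have hcont : Continuous fun t : ℝ => e.real s (env ((1 - t) * a0 + t * (l0 / m0))
      ((1 - t) * a1 + t * (l1' / m1)) ((1 - t) * a2 + t * (l2 / m2))
      ((1 - t) * a3 + t * (l3 / m3))) := by
    apply real_continuous
    intro i
    match i with
    | 0 => simp only [env]; fun_prop
    | 1 => simp only [env]; fun_prop
    | 2 => simp only [env]; fun_prop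
    | (n + 3) => simp only [env]; fun_prop
  have hlim := (hcont.tendsto 0).comp tendsto_one_div_add_atTop_nhds_zero_nat
  simp only [sub_zero, one_mul, zero_mul, add_zero] at hlim
  refine ge_of_tendsto' hlim ?_
  intro n
  have t0 : (0 : ℝ) < 1 / ((n : ℝ) + 1) := by positivity
  have t1 : 1 / ((n : ℝ) + 1) ≤ 1 := by
    rw [div_le_one (by positivity)]
    have : (0 : ℝ) ≤ n := Nat.cast_nonneg n
    linarith
  obtain ⟨u0, w0⟩ := lin l0 h0 m0 a0 hm0 lt0 c0 d0 _ t0 t1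
  obtain ⟨u1, w1⟩ := lin l1' h1 m1 a1 hm1 lt1 c1 d1 _ t0 t1
  obtain ⟨u2, w2⟩ := lin l2 h2 m2 a2 hm2 lt2 c2 d2 _ t0 t1
  obtain ⟨u3, w3⟩ := lin l3 h3 m3 a3 hm3 lt3 c3 d3 _ t0 t1
  exact strict _ _ _ _ u0 w0 u1 w1 u2 w2 u3 w3

end Vale.Agent.P154
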