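import Vale.Agent.P154.GW

/-! One more message, and monotonicity along the levels. -/

open scoped BigOperators

namespace Vale.Agent.P154

section
variable {ι κ : Type} {v : ι → Fin 3 → ℝ} {u : κ → Fin 3 → ℝ} {F G A E : ℝ → ℝ → ℝ → ℝ}
  {BF BA BG BE : ℝ} {lam : ℝ}

theorem ms_le_of (a b : Fin 3 → ℝ) (ha : ∀ i, 0 ≤ a i) (hb : ∀ i, 0 ≤ b i) :
    at3 ms (fun i => a i * b i) ≤ 3 * (at3 ms a * at3 ms b) := by
  unfold at3 ms
  have h0 := ha 0
  have h1 := ha 1
  have h2 := ha 2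
  have k0 := hb 0
  have k1 := hb 1
  have k2 := hb 2
  have : 0 ≤ a 0 * b 1 + a 0 * b 2 + (a 1 * b 0 + a 1 * b 2) + (a 2 * b 0 + a 2 * b 1) := by
    positivity
  nlinarith

theorem Fam.mul_summ (hv : Fam v) (hF : Bd F BF) (hB : 0 ≤ BF) (a : Fin 3 → ℝ)
    (ha : ∀ i, 0 ≤ a i) : Summable fun b => at3 F (fun i => a i * v b i) := by
  refine Summable.of_norm_bounded (g := fun c => BF * (3 * (at3 P154.ms a * at3 P154.ms (v c))))
    (((hv.ms.summable.mul_left _).mul_left _).mul_left _) ?_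
  intro c
  rw [Real.norm_eq_abs]
  refine le_trans (hF _ _ _ (mul_nonneg (ha 0) (hv.nn c 0)) (mul_nonneg (ha 1) (hv.nn c 1))
    (mul_nonneg (ha 2) (hv.nn c 2))) ?_
  exact mul_le_mul_of_nonneg_left (ms_le_of a (v c) ha (hv.nn c)) hB

theorem Fam.prodSumm (hu : Fam u) (hv : Fam v) (hF : Bd F BF) :
    Summable fun p : κ × ι => at3 F (fun i => u p.1 i * v p.2 i) := (hu.prod hv).summ hF

theorem at3_nz (a : Fin 3 → ℝ) (b : Fin 3 → ℝ) :
    at3 F (fun i => a i * nz lam b i) = (fun x y z => F (a 0 * ns lam (ms x y z) x)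
      (a 1 * ns lam (ms x y z) y) (a 2 * ns lam (ms x y z) z)) (b 0) (b 1) (b 2) := rfl

theorem stageG (hv : Fam v) (sv : SymG v) (h1 : lam ≤ 1) (h0 : -(1 / 2) ≤ lam)
    (hF : Bd F BF) (hB : 0 ≤ BF) (hA : Bd A BA) (hG : Bd G BG) (hE : Bd E BE)
    (h : ∀ a0 a1 a2 b0 b1 b2 : ℝ, 0 ≤ a0 → 0 ≤ a1 → 0 ≤ a2 → 0 ≤ b0 → 0 ≤ b1 → 0 ≤ b2 →
      six (fun x y z => F (a0 * ns lam (ms b0 b1 b2) x) (a1 * ns lam (ms b0 b1 b2) y)
        (a2 * ns lam (ms b0 b1 b2) z)) b0 b1 b2
        ≤ 6 * (ms b0 b1 b2 * A a0 a1 a2 + ms a0 a1 a2 * G b0 b1 b2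
          + chi b0 b1 b2 * E a0 a1 a2)) (k : ℕ) :
    SG lam v (k + 1) F ≤ SG lam v k A + FS v G + FS v chi * SG lam v k E := by
  have hn := hv.nz h1 h0
  have hp := hn.pw k
  rw [hv.SG_succ h1 h0 hF]
  have key : ∀ c : Fin k → ι, ∑' b, at3 F (fun i => pw (fun c => nz lam (v c)) k c i
      * nz lam (v b) i) ≤ at3 A (pw (fun c => nz lam (v c)) k c)
        + at3 ms (pw (fun c => nz lam (v c)) k c) * FS v G
        + FS v chi * at3 E (pw (fun c => nz lam (v c)) k c) := by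
    intro c
    set a := pw (fun c => nz lam (v c)) k c with ha
    have han : ∀ i, 0 ≤ a i := hp.nn c
    have hs := (hn.mul_summ hF hB a han).hasSum
    have h6 := sv.six (fun x y z => F (a 0 * ns lam (ms x y z) x)
      (a 1 * ns lam (ms x y z) y) (a 2 * ns lam (ms x y z) z)) _ hs
    have e : ∀ b, six (fun x y z => F (a 0 * ns lam (ms x y z) x) (a 1 * ns lam (ms x y z) y)
      (a 2 * ns lam (ms x y z) z)) (v b 0) (v b 1) (v b 2) =
      six (fun x y z => F (a 0 * ns lam (ms (v b 0) (v b 1) (v b 2)) x)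
          (a 1 * ns lam (ms (v b 0) (v b 1) (v b 2)) y)
          (a 2 * ns lam (ms (v b 0) (v b 1) (v b 2)) z)) (v b 0) (v b 1) (v b 2) := by
      intro b
      exact six_ms lam (fun x y z => F (a 0 * x) (a 1 * y) (a 2 * z)) _ _ _
    simp only [e] at h6
    have hR := (((hv.ms.mul_right (at3 A a)).add ((hv.hasSum hG).mul_left (at3 ms a))).add
      ((hv.hasSum Bd_chi).mul_right (at3 E a))).mul_left 6
    have := hasSum_le (fun b => h (a 0) (a 1) (a 2) (v b 0) (v b 1) (v b 2) (han 0) (han 1) (han 2)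
      (hv.nn b 0) (hv.nn b 1) (hv.nn b 2)) h6 hR
    linarith
  have hs1 : Summable fun c : Fin k → ι => ∑' b, at3 F (fun i => pw (fun c => nz lam (v c)) k c i
      * nz lam (v b) i) := (hp.prodSumm hn hF).prod
  have hs2 : HasSum (fun c : Fin k → ι => at3 A (pw (fun c => nz lam (v c)) k c)
        + at3 ms (pw (fun c => nz lam (v c)) k c) * FS v G
        + FS v chi * at3 E (pw (fun c => nz lam (v c)) k c))
      (SG lam v k A + 1 * FS v G + FS v chi * SG lam v k E) :=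
    ((hp.hasSum hA).add (hp.ms.mul_right _)).add ((hp.hasSum hE).mul_left _)
  have := hasSum_le key hs1.hasSum hs2
  linarith

/-- sublinear functionals -/
structure Sub (F : ℝ → ℝ → ℝ → ℝ) : Prop where
  add : ∀ u0 u1 u2 v0 v1 v2 : ℝ, 0 ≤ u0 → 0 ≤ u1 → 0 ≤ u2 → 0 ≤ v0 → 0 ≤ v1 → 0 ≤ v2 →
    F (u0 + v0) (u1 + v1) (u2 + v2) ≤ F u0 u1 u2 + F v0 v1 v2
  hg : Hg F
  bd : ∃ B, 0 ≤ B ∧ Bd F B

theorem Sub_chi : Sub chi :=
  ⟨chi_add_le, chi_smul', 1, zero_le_one, Bd_chi⟩

/-- any family is below the family of the three unit vectors -/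
theorem Sub.base (hF : Sub F) (hv : Fam v) :
    FS v F ≤ F 1 0 0 + F 0 1 0 + F 0 0 1 := by
  obtain ⟨B, hB, hb⟩ := hF.bd
  have hs := (((hv.hs 0).mul_right (F 1 0 0)).add ((hv.hs 1).mul_right (F 0 1 0))).add
    ((hv.hs 2).mul_right (F 0 0 1))
  have key : ∀ c, at3 F (v c) ≤ v c 0 * F 1 0 0 + v c 1 * F 0 1 0 + v c 2 * F 0 0 1 := by
    intro c
    have p0 := hv.nn c 0
    have p1 := hv.nn c 1
    have p2 := hv.nn c 2
    have e0 := hF.hg (v c 0) 1 0 0
    have e1 := hF.hg (v c 1) 0 1 0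
    have e2 := hF.hg (v c 2) 0 0 1
    simp only [mul_one, mul_zero] at e0 e1 e2
    have k1 := hF.add (v c 0) (v c 1) 0 0 0 (v c 2) p0 p1 le_rfl le_rfl le_rfl p2
    have k2 := hF.add (v c 0) 0 0 0 (v c 1) 0 p0 le_rfl le_rfl le_rfl p1 le_rfl
    simp only [add_zero, zero_add] at k1 k2
    unfold at3
    rw [← e0, ← e1, ← e2]
    linarith
  have := hasSum_le key (hv.hasSum hb) hs
  linarith

/-- multiplication by a fixed vector and noise preserve sublinearity -/
theorem Sub.noise (hF : Sub F) (a : Fin 3 → ℝ) (ha : ∀ i, 0 ≤ a i) (h1 : lam ≤ 1)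
    (h0 : -(1 / 2) ≤ lam) :
    Sub fun x y z => F (a 0 * ns lam (ms x y z) x) (a 1 * ns lam (ms x y z) y)
      (a 2 * ns lam (ms x y z) z) := by
  have key : ∀ u0 u1 u2 v0 v1 v2 x y : ℝ, ns lam (ms (u0 + v0) (u1 + v1) (u2 + v2)) (x + y)
      = ns lam (ms u0 u1 u2) x + ns lam (ms v0 v1 v2) y := by
    intro u0 u1 u2 v0 v1 v2 x y; unfold ns ms; ring
  have nn : ∀ x y z : ℝ, 0 ≤ x → 0 ≤ y → 0 ≤ z → 0 ≤ ns lam (ms x y z) x ∧
      0 ≤ ns lam (ms x y z) y ∧ 0 ≤ ns lam (ms x y z) z := by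
    intro x y z hx hy hz
    have hb : ∀ i : Fin 3, 0 ≤ (![x, y, z] : Fin 3 → ℝ) i := by
      intro i; fin_cases i <;> simpa
    exact ⟨nz_nonneg lam h1 h0 _ hb 0, nz_nonneg lam h1 h0 _ hb 1, nz_nonneg lam h1 h0 _ hb 2⟩
  refine ⟨?_, ?_, ?_⟩
  · intro u0 u1 u2 v0 v1 v2 hu0 hu1 hu2 hv0 hv1 hv2
    obtain ⟨n0, n1, n2⟩ := nn u0 u1 u2 hu0 hu1 hu2
    obtain ⟨m0, m1, m2⟩ := nn v0 v1 v2 hv0 hv1 hv2
    rw [key, key, key, mul_add, mul_add, mul_add]
    exact hF.add _ _ _ _ _ _ (mul_nonneg (ha 0) n0) (mul_nonneg (ha 1) n1) (mul_nonneg (ha 2) n2)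
      (mul_nonneg (ha 0) m0) (mul_nonneg (ha 1) m1) (mul_nonneg (ha 2) m2)
  · intro t x y z
    have e : ∀ w, ns lam (ms (t * x) (t * y) (t * z)) (t * w) = t * ns lam (ms x y z) w := by
      intro w; unfold ns ms; ring
    simp only [e]
    rw [← hF.hg]
    congr 1 <;> ring
  · obtain ⟨B, hB, hb⟩ := hF.bd
    refine ⟨B * (3 * at3 ms a), ?_, ?_⟩
    · have := ms_nonneg (ha 0) (ha 1) (ha 2)
      unfold at3
      positivity
    · intro x y z hx hy hz
      obtain ⟨n0, n1, n2⟩ := nn x y z hx hy hz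
      refine le_trans (hb _ _ _ (mul_nonneg (ha 0) n0) (mul_nonneg (ha 1) n1)
        (mul_nonneg (ha 2) n2)) ?_
      have hb' : ∀ i : Fin 3, 0 ≤ (![ns lam (ms x y z) x, ns lam (ms x y z) y,
          ns lam (ms x y z) z] : Fin 3 → ℝ) i := by
        intro i; fin_cases i <;> simpa
      have := ms_le_of a ![ns lam (ms x y z) x, ns lam (ms x y z) y, ns lam (ms x y z) z] ha hb'
      have e : at3 ms ![ns lam (ms x y z) x, ns lam (ms x y z) y, ns lam (ms x y z) z]
          = ms x y z := by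
        simp only [at3, Matrix.cons_val_zero, Matrix.cons_val_one, Matrix.cons_val]
        unfold ns ms; ring
      rw [e] at this
      have h3 := mul_le_mul_of_nonneg_left this hB
      simp only [at3, Matrix.cons_val_zero, Matrix.cons_val_one, Matrix.cons_val] at h3 ⊢
      linarith

/-- comparison of families passes to products -/
theorem Sub.pw (hu : Fam u) (hv : Fam v) (h1 : lam ≤ 1) (h0 : -(1 / 2) ≤ lam)
    (hle : ∀ F, Sub F → FS u F ≤ FS v F) : ∀ k F, Sub F → SG lam u k F ≤ SG lam v k F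
  | 0, F, _ => by rw [SG_zero, SG_zero]
  | k + 1, F, hF => by
      obtain ⟨B, hB, hb⟩ := hF.bd
      have hnu := hu.nz h1 h0
      have hnv := hv.nz h1 h0
      have hpu := hnu.pw k
      have hpv := hnv.pw k
      rw [hu.SG_succ h1 h0 hb, hv.SG_succ h1 h0 hb]
      have s1 := hpu.prodSumm hnu hb
      have s2 := hpu.prodSumm hnv hb
      have s3 := hpv.prodSumm hnv hb
      have k1 : ∑' c : Fin k → κ, ∑' b, at3 F (fun i => P154.pw (fun c => nz lam (u c)) k c i
            * nz lam (u b) i)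
          ≤ ∑' c : Fin k → κ, ∑' b : ι, at3 F (fun i => P154.pw (fun c => nz lam (u c)) k c i
            * nz lam (v b) i) := by
        refine Summable.tsum_le_tsum (fun c => ?_) s1.prod s2.prod
        exact hle _ (hF.noise (P154.pw (fun c => nz lam (u c)) k c) (hpu.nn c) h1 h0)
      have k2 : ∑' c : Fin k → κ, ∑' b : ι, at3 F (fun i => P154.pw (fun c => nz lam (u c)) k c i
            * nz lam (v b) i)
          = ∑' b : ι, ∑' c : Fin k → κ, at3 F (fun i => P154.pw (fun c => nz lam (u c)) k c i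
            * nz lam (v b) i) := by
        exact (Summable.tsum_comm (f := fun (b : ι) (c : Fin k → κ) => at3 F (fun i =>
          P154.pw (fun c => nz lam (u c)) k c i * nz lam (v b) i)) s2.prod_symm)
      have k3 : ∑' b : ι, ∑' c : Fin k → κ, at3 F (fun i => P154.pw (fun c => nz lam (u c)) k c i
            * nz lam (v b) i)
          ≤ ∑' b : ι, ∑' c : Fin k → ι, at3 F (fun i => P154.pw (fun c => nz lam (v c)) k c i
            * nz lam (v b) i) := by
        refine Summable.tsum_le_tsum (fun b => ?_) s2.prod_symm.prod s3.prod_symm.prod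
        have hFb : Sub fun x y z => F (x * nz lam (v b) 0) (y * nz lam (v b) 1)
            (z * nz lam (v b) 2) := by
          refine ⟨?_, ?_, ?_⟩
          · intro u0 u1 u2 v0 v1 v2 hu0 hu1 hu2 hv0 hv1 hv2
            rw [add_mul, add_mul, add_mul]
            exact hF.add _ _ _ _ _ _ (mul_nonneg hu0 (hnv.nn b 0)) (mul_nonneg hu1 (hnv.nn b 1))
              (mul_nonneg hu2 (hnv.nn b 2)) (mul_nonneg hv0 (hnv.nn b 0))
              (mul_nonneg hv1 (hnv.nn b 1)) (mul_nonneg hv2 (hnv.nn b 2))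
          · intro t x y z
            change F (t * x * nz lam (v b) 0) (t * y * nz lam (v b) 1) (t * z * nz lam (v b) 2)
              = t * F (x * nz lam (v b) 0) (y * nz lam (v b) 1) (z * nz lam (v b) 2)
            rw [mul_assoc, mul_assoc, mul_assoc]
            exact hF.hg _ _ _ _
          · refine ⟨B * (3 * at3 ms (nz lam (v b))), ?_, ?_⟩
            · have := ms_nonneg (hnv.nn b 0) (hnv.nn b 1) (hnv.nn b 2)
              unfold at3
              positivity
            · intro x y z hx hy hz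
              refine le_trans (hb _ _ _ (mul_nonneg hx (hnv.nn b 0)) (mul_nonneg hy (hnv.nn b 1))
                (mul_nonneg hz (hnv.nn b 2))) ?_
              have hb' : ∀ i : Fin 3, 0 ≤ (![x, y, z] : Fin 3 → ℝ) i := by
                intro i; fin_cases i <;> simpa
              have := ms_le_of ![x, y, z] (nz lam (v b)) hb' (hnv.nn b)
              have h3 := mul_le_mul_of_nonneg_left this hB
              simp only [at3, Matrix.cons_val_zero, Matrix.cons_val_one, Matrix.cons_val] at h3 ⊢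
              linarith
        exact Sub.pw hu hv h1 h0 hle k _ hFb
      have k4 : ∑' b : ι, ∑' c : Fin k → ι, at3 F (fun i => P154.pw (fun c => nz lam (v c)) k c i
            * nz lam (v b) i)
          = ∑' c : Fin k → ι, ∑' b : ι, at3 F (fun i => P154.pw (fun c => nz lam (v c)) k c i
            * nz lam (v b) i) := by
        exact (Summable.tsum_comm (f := fun (b : ι) (c : Fin k → ι) => at3 F (fun i =>
          P154.pw (fun c => nz lam (v c)) k c i * nz lam (v b) i)) s3.prod_symm).symm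
      linarith

end

section
variable {d lam : ℝ}

theorem FS_zero (F : ℝ → ℝ → ℝ → ℝ) :
    FS (LvG d lam 0) F = F 1 0 0 + F 0 1 0 + F 0 0 1 := by
  have h := (hasSum_fintype (fun c : Fin 3 => at3 F (LvG d lam 0 (c : Obs 3 0)))).tsum_eq
  change ∑' c : Fin 3, at3 F (LvG d lam 0 (c : Obs 3 0)) = _
  rw [h, Fin.sum_univ_three]
  have e : ∀ c i : Fin 3, LvG d lam 0 (c : Obs 3 0) i = if i = c then 1 else 0 := fun c i => rfl
  simp [at3, e]

/-- sublinear functionals decrease along the levels -/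
theorem mono_level (hd : 0 ≤ d) (h1 : lam ≤ 1) (h0 : -(1 / 2) ≤ lam) : ∀ n F, Sub F →
    FS (LvG d lam (n + 1)) F ≤ FS (LvG d lam n) F
  | 0, F, hF => by
      rw [FS_zero]
      exact hF.base (famG hd h1 h0 1)
  | n + 1, F, hF => by
      obtain ⟨B, hB, hb⟩ := hF.bd
      have s1 := LG_succ hd h1 h0 (n + 1) hb hF.hg
      have s2 := LG_succ hd h1 h0 n hb hF.hg
      refine hasSum_le (fun k => ?_) s1 s2
      exact mul_le_mul_of_nonneg_left (Sub.pw (famG hd h1 h0 (n + 1)) (famG hd h1 h0 n) h1 h0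
        (mono_level hd h1 h0 n) k F hF) (pois_nonneg hd k)

end

end Vale.Agent.P154
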