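import Vale.Agent.P154.Param

/-! From box certificates to inequalities on the simplex. -/

namespace Vale.Agent.P154

def Pq (r s : PE) : PE := .mul (.mul r r) (.add one' (.mul (.q (-3) 3) s))
def Cq (r s : PE) : PE := .mul (.mul r (.mul r r)) (.add one' (.mul (.q (-9) 7) s))

theorem Pq_real (t : ℝ) (v : ℕ → ℝ) (r s : PE) :
    (Pq r s).real t v = r.real t v * r.real t v * (1 + -3 / 4 * s.real t v) := by
  simp only [Pq, one', PE.real_mul, PE.real_add, PE.real_q]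
  norm_num

theorem Cq_real (t : ℝ) (v : ℕ → ℝ) (r s : PE) :
    (Cq r s).real t v = r.real t v * (r.real t v * r.real t v) * (1 + -9 / 8 * s.real t v) := by
  simp only [Cq, one', PE.real_mul, PE.real_add, PE.real_q]
  norm_num

/-- expression for one free and one noisy message -/
def stepE (φk φ1 φd e2 e3 : CL) (wd : ℤ × ℕ) (L2 L3 : PE) (Px Cx Pz Cz : PE) : PE :=
  HP' φk e2 e3 Px Cx (.mul L2 Pz) (.mul L3 Cz)
    (.add (hp φ1 (pofP Px Cx)) (.mul (.q wd.1 wd.2) (hp φd (pofP Pz Cz))))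

def stepE1 (φk φ1 φd e2 e3 : CL) (wd : ℤ × ℕ) (L2 L3 : PE) : PE :=
  stepE φk φ1 φd e2 e3 wd L2 L3 (Pq (.x 0) (.x 2)) (Cq (.x 0) (.x 2))
    (Pq (.mul (.x 0) (.x 1)) (.x 3)) (Cq (.mul (.x 0) (.x 1)) (.x 3))

def stepE2 (φk φ1 φd e2 e3 : CL) (wd : ℤ × ℕ) (L2 L3 : PE) : PE :=
  stepE φk φ1 φd e2 e3 wd L2 L3 (Pq (.mul (.x 0) (.x 1)) (.x 2)) (Cq (.mul (.x 0) (.x 1)) (.x 2))
    (Pq (.x 0) (.x 3)) (Cq (.x 0) (.x 3))

/-- expression for two noisy messages -/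
def baseE (φ2 φd e2 e3 : CL) (wd cm : ℤ × ℕ) (L2 L3 : PE) (Pu Cu Pv Cv : PE) : PE :=
  HP' φ2 e2 e3 (.mul L2 Pu) (.mul L3 Cu) (.mul L2 Pv) (.mul L3 Cv)
    (psub (.mul (.q wd.1 wd.2) (.add (hp φd (pofP Pu Cu)) (hp φd (pofP Pv Cv))))
      (.mul (.q cm.1 cm.2) (.mul Pu Pv)))

def baseE1 (φ2 φd e2 e3 : CL) (wd cm : ℤ × ℕ) (L2 L3 : PE) : PE :=
  baseE φ2 φd e2 e3 wd cm L2 L3 (Pq (.x 0) (.x 2)) (Cq (.x 0) (.x 2))
    (Pq (.mul (.x 0) (.x 1)) (.x 3)) (Cq (.mul (.x 0) (.x 1)) (.x 3))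

theorem stepE_real (t : ℝ) (v : ℕ → ℝ) (φk φ1 φd e2 e3 : CL) (wd : ℤ × ℕ) (L2 L3 : PE)
    (Px Cx Pz Cz : PE) :
    (stepE φk φ1 φd e2 e3 wd L2 L3 Px Cx Pz Cz).real t v
      = HR φk e2 e3 (Px.real t v) (Cx.real t v) (L2.real t v * Pz.real t v)
          (L3.real t v * Cz.real t v)
          (hr φ1 (1 - 3 * Px.real t v + 2 * Cx.real t v)
            + cv wd * hr φd (1 - 3 * Pz.real t v + 2 * Cz.real t v)) := by
  simp only [stepE, HP'_real, PE.real_mul, PE.real_add, PE.real_q, hp_real, pofP_real, cv]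

theorem baseE_real (t : ℝ) (v : ℕ → ℝ) (φ2 φd e2 e3 : CL) (wd cm : ℤ × ℕ) (L2 L3 : PE)
    (Pu Cu Pv Cv : PE) :
    (baseE φ2 φd e2 e3 wd cm L2 L3 Pu Cu Pv Cv).real t v
      = HR φ2 e2 e3 (L2.real t v * Pu.real t v) (L3.real t v * Cu.real t v)
          (L2.real t v * Pv.real t v) (L3.real t v * Cv.real t v)
          (cv wd * (hr φd (1 - 3 * Pu.real t v + 2 * Cu.real t v)
            + hr φd (1 - 3 * Pv.real t v + 2 * Cv.real t v))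
            - cv cm * (Pu.real t v * Pv.real t v)) := by
  simp only [baseE, psub, HP'_real, PE.real_mul, PE.real_add, PE.real_neg, PE.real_q, hp_real,
    pofP_real, cv]
  congr 1

/-- nonnegativity of an expression on the unit box -/
def Box0 (t : ℝ) (e : PE) : Prop :=
  ∀ a0 a1 a2 a3 : ℝ, 0 ≤ a0 → a0 ≤ 1 → 0 ≤ a1 → a1 ≤ 1 → 0 ≤ a2 → a2 ≤ 1 → 0 ≤ a3 → a3 ≤ 1 →
    0 ≤ e.real t (env a0 a1 a2 a3)

theorem exists_ratio (a b : ℝ) (ha : 0 ≤ a) (hb : 0 ≤ b) (h : a ≤ b) :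
    ∃ τ : ℝ, 0 ≤ τ ∧ τ ≤ 1 ∧ b * τ = a := by
  rcases hb.eq_or_lt with h0 | h0
  · exact ⟨0, le_rfl, zero_le_one, by rw [mul_zero]; linarith⟩
  · exact ⟨a / b, div_nonneg ha hb, (div_le_one h0).2 h, by field_simp⟩

theorem HR_step (t lam : ℝ) (φk φ1 φd e2 e3 : CL) (wd : ℤ × ℕ) (L2 L3 : PE)
    (hL2 : ∀ v, L2.real t v = lam ^ 2) (hL3 : ∀ v, L3.real t v = lam ^ 3)
    (h1 : Box0 t (stepE1 φk φ1 φd e2 e3 wd L2 L3)) (h2 : Box0 t (stepE2 φk φ1 φd e2 e3 wd L2 L3))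
    (q0 q1 q2 r0 r1 r2 : ℝ) (hq0 : 0 ≤ q0) (hq1 : 0 ≤ q1) (hq2 : 0 ≤ q2) (hq : q0 + q1 + q2 = 3)
    (hr0 : 0 ≤ r0) (hr1 : 0 ≤ r1) (hr2 : 0 ≤ r2) (hr' : r0 + r1 + r2 = 3) :
    0 ≤ HR φk e2 e3 (Pf q0 q1 q2) (Cf q0 q1 q2) (lam ^ 2 * Pf r0 r1 r2) (lam ^ 3 * Cf r0 r1 r2)
      (hr φ1 (q0 * q1 * q2) + cv wd * hr φd (r0 * r1 * r2)) := by
  obtain ⟨ρx, sx, a1, a2, a3, a4, e1, e2'⟩ := param q0 q1 q2 hq0 hq1 hq2 hq
  obtain ⟨ρz, sz, b1, b2, b3, b4, e3', e4⟩ := param r0 r1 r2 hr0 hr1 hr2 hr'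
  rw [← pC q0 q1 q2, ← pC r0 r1 r2]
  rcases le_total ρz ρx with h | h
  · obtain ⟨τ, c1, c2, c3⟩ := exists_ratio ρz ρx b1 a1 h
    have := h1 ρx τ sx sz a1 a2 c1 c2 a3 a4 b3 b4
    rw [stepE1, stepE_real, hL2, hL3] at this
    simp only [Pq_real, Cq_real, PE.real_mul, PE.real_x, env, c3] at this
    rw [← e1, ← e2', ← e3', ← e4] at this
    exact this
  · obtain ⟨τ, c1, c2, c3⟩ := exists_ratio ρx ρz a1 b1 h
    have := h2 ρz τ sx sz b1 b2 c1 c2 a3 a4 b3 b4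
    rw [stepE2, stepE_real, hL2, hL3] at this
    simp only [Pq_real, Cq_real, PE.real_mul, PE.real_x, env, c3] at this
    rw [← e1, ← e2', ← e3', ← e4] at this
    exact this

theorem HR_symm (φ e2 e3 : CL) (P C Q K A : ℝ) :
    HR φ e2 e3 P C Q K A = HR φ e2 e3 Q K P C A := by
  unfold HR
  rw [mul_comm (1 - 3 * P + 2 * C) (1 - 3 * Q + 2 * K)]
  ring

theorem HR_base (t lam : ℝ) (φ2 φd e2 e3 : CL) (wd cm : ℤ × ℕ) (L2 L3 : PE)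
    (hL2 : ∀ v, L2.real t v = lam ^ 2) (hL3 : ∀ v, L3.real t v = lam ^ 3)
    (h1 : Box0 t (baseE1 φ2 φd e2 e3 wd cm L2 L3))
    (q0 q1 q2 r0 r1 r2 : ℝ) (hq0 : 0 ≤ q0) (hq1 : 0 ≤ q1) (hq2 : 0 ≤ q2) (hq : q0 + q1 + q2 = 3)
    (hr0 : 0 ≤ r0) (hr1 : 0 ≤ r1) (hr2 : 0 ≤ r2) (hr' : r0 + r1 + r2 = 3) :
    0 ≤ HR φ2 e2 e3 (lam ^ 2 * Pf q0 q1 q2) (lam ^ 3 * Cf q0 q1 q2) (lam ^ 2 * Pf r0 r1 r2)
      (lam ^ 3 * Cf r0 r1 r2)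
      (cv wd * (hr φd (q0 * q1 * q2) + hr φd (r0 * r1 * r2))
        - cv cm * (Pf q0 q1 q2 * Pf r0 r1 r2)) := by
  obtain ⟨ρx, sx, a1, a2, a3, a4, e1, e2'⟩ := param q0 q1 q2 hq0 hq1 hq2 hq
  obtain ⟨ρz, sz, b1, b2, b3, b4, e3', e4⟩ := param r0 r1 r2 hr0 hr1 hr2 hr'
  rw [← pC q0 q1 q2, ← pC r0 r1 r2]
  rcases le_total ρz ρx with h | h
  · obtain ⟨τ, c1, c2, c3⟩ := exists_ratio ρz ρx b1 a1 h
    have := h1 ρx τ sx sz a1 a2 c1 c2 a3 a4 b3 b4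
    rw [baseE1, baseE_real, hL2, hL3] at this
    simp only [Pq_real, Cq_real, PE.real_mul, PE.real_x, env, c3] at this
    rw [← e1, ← e2', ← e3', ← e4] at this
    exact this
  · obtain ⟨τ, c1, c2, c3⟩ := exists_ratio ρx ρz a1 b1 h
    have := h1 ρz τ sz sx b1 b2 c1 c2 b3 b4 a3 a4
    rw [baseE1, baseE_real, hL2, hL3] at this
    simp only [Pq_real, Cq_real, PE.real_mul, PE.real_x, env, c3] at this
    rw [← e1, ← e2', ← e3', ← e4] at this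
    rw [HR_symm]
    convert this using 1
    congr 1
    ring

end Vale.Agent.P154
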