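import Vale.Agent.P154.StageG
import Vale.Agent.P154.Interp

/-! From step inequalities to nonreconstruction on the Poisson tree. -/

open scoped BigOperators

namespace Vale.Agent.P154

/-! ### summation by parts -/

theorem hs_congr {ι : Type} {f g : ι → ℝ} {s : ℝ} (h : HasSum f s) (e : ∀ l, f l = g l) :
    HasSum g s := by
  have : f = g := funext e
  rwa [this] at h

theorem hasSum_up {d B : ℝ} (hd : 0 ≤ d) (i : ℕ) (hi : i < 4) (w : ℕ → ℝ) (hw : ∀ l, |w l| ≤ B) :
    HasSum (fun l => up d i l * w l) (∑' l, up d i l * w l) := by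
  refine (Summable.of_norm_bounded (g := fun l => up d i l * B)
    ((up_sum hd i hi).summable.mul_right B) fun l => ?_).hasSum
  rw [Real.norm_eq_abs, abs_mul, abs_of_nonneg (up_nonneg hd i l)]
  exact mul_le_mul_of_nonneg_left (hw l) (up_nonneg hd i l)

theorem abs_up {d B : ℝ} (hd : 0 ≤ d) (hB : 0 ≤ B) (i : ℕ) (hi : i < 4) (w : ℕ → ℝ)
    (hw : ∀ l, |w l| ≤ B) : |∑' l, up d i l * w l| ≤ B := by
  have h := hasSum_up hd i hi w hw
  have k := (up_sum hd i hi).mul_right B
  have e1 := hasSum_le (fun l => by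
    have := mul_le_mul_of_nonneg_left (abs_le.1 (hw l)).2 (up_nonneg hd i l)
    exact this) h k
  have e2 := hasSum_le (fun l => by
    have := mul_le_mul_of_nonneg_left (abs_le.1 (hw l)).1 (up_nonneg hd i l)
    have e : -(up d i l * B) = up d i l * -B := by ring
    rw [e]
    exact this) k.neg h
  rw [abs_le]
  constructor <;> linarith

theorem hasSum_ups {d B : ℝ} (hd : 0 ≤ d) (k : ℕ) (hk : k < 4) (w : ℕ → ℝ)
    (hw : ∀ l, |w l| ≤ B) :
    HasSum (fun l => ups d k l * w l) (∑' l, up d k l * w (l + 1)) := by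
  have h := hasSum_up hd k hk (fun l => w (l + 1)) (fun l => hw (l + 1))
  rw [hasSum_nat_add_iff' 1 |>.symm]
  simp only [Finset.range_one, Finset.sum_singleton, ups, zero_mul, sub_zero]
  exact h

/-- summation by parts for one family -/
theorem parts_sum {d B : ℝ} (hd : 0 ≤ d) (k : ℕ) (hk : k < 4) (w : ℕ → ℝ) (hw : ∀ l, |w l| ≤ B) :
    (bd' k fun i => ∑' l, up d i l * w l)
      + d * (∑' l, up d k l * w (l + 1) - ∑' l, up d k l * w l)
      = bp k 1 * (∑' l, pois d l * w l) - bp k 0 * w 0 := by
  have h0 := hasSum_up hd 0 (by norm_num) w hw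
  have h1 := hasSum_up hd 1 (by norm_num) w hw
  have h2 := hasSum_up hd 2 (by norm_num) w hw
  have h3 := hasSum_up hd 3 (by norm_num) w hw
  have hk' := hasSum_up hd k hk w hw
  have hs := hasSum_ups hd k hk w hw
  have hp : HasSum (fun l => pois d l * w l) (∑' l, pois d l * w l) := by
    refine (Summable.of_norm_bounded (g := fun l => pois d l * B)
      ((pois_sum d).summable.mul_right B) fun l => ?_).hasSum
    rw [Real.norm_eq_abs, abs_mul, abs_of_nonneg (pois_nonneg hd l)]
    exact mul_le_mul_of_nonneg_left (hw l) (pois_nonneg hd l)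
  have hz : HasSum (fun l => pois 0 l * w l) (w 0) := by
    have : HasSum (fun l => if l = 0 then w 0 else 0) (w 0) := hasSum_ite_eq 0 (w 0)
    have e : (fun l => pois 0 l * w l) = fun l => if l = 0 then w 0 else 0 := by
      funext l
      rcases l with _ | l
      · simp [pois]
      · simp [pois]
    rw [e]; exact this
  have hR := (hp.mul_left (bp k 1)).sub (hz.mul_left (bp k 0))
  have hL : HasSum (fun l => (bd' k fun i => up d i l) * w l + d * (ups d k l * w l - up d k l * w l))
      ((bd' k fun i => ∑' l, up d i l * w l)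
      + d * (∑' l, up d k l * w (l + 1) - ∑' l, up d k l * w l)) := by
    refine HasSum.add ?_ ((hs.sub hk').mul_left d)
    interval_cases k
    · have := (h0.mul_left (-3)).sub h1
      exact hs_congr this (fun l => by simp only [bd']; ring)
    · have := ((h0.mul_left 3).sub h1).sub (h2.mul_left 2)
      exact hs_congr this (fun l => by simp only [bd']; ring)
    · have := ((h1.mul_left 2).add h2).sub (h3.mul_left 3)
      exact hs_congr this (fun l => by simp only [bd']; ring)
    · have := h2.add (h3.mul_left 3)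
      exact hs_congr this (fun l => by simp only [bd']; ring)
  have e : (fun l => (bd' k fun i => up d i l) * w l + d * (ups d k l * w l - up d k l * w l))
      = fun l => bp k 1 * (pois d l * w l) - bp k 0 * (pois 0 l * w l) := by
    funext l
    have := up_parts d k l
    have e2 : (bd' k fun i => up d i l) * w l + d * (ups d k l * w l - up d k l * w l)
        = ((bd' k fun i => up d i l) + d * (ups d k l - up d k l)) * w l := by ring
    rw [e2, this]; ring
  rw [e] at hL
  exact hL.unique hR

/-- increments of the interpolation -/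
def dW (k : ℕ) (w : ℕ → ℝ) : ℝ :=
  match k with
  | 0 => 3 * w 1 - 3 * w 0
  | 1 => 2 * w 2 - w 1 - w 0
  | 2 => w 3 + w 2 - 2 * w 1
  | _ => 3 * w 3 - 3 * w 2

/-- telescoping between zero messages and a Poisson number of messages -/
theorem telescope {d B : ℝ} (hd : 0 ≤ d) (w : ℕ → ℕ → ℝ) (hw : ∀ k l, k < 4 → |w k l| ≤ B) :
    ∑' l, pois d l * w 3 l - w 0 0
      = (∑' l, up d 0 l * dW 0 (fun k => w k l) + ∑' l, up d 1 l * dW 1 (fun k => w k l)
        + (∑' l, up d 2 l * dW 2 (fun k => w k l) + ∑' l, up d 3 l * dW 3 (fun k => w k l)))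
      + d * ((∑' l, up d 0 l * w 0 (l + 1) - ∑' l, up d 0 l * w 0 l)
        + (∑' l, up d 1 l * w 1 (l + 1) - ∑' l, up d 1 l * w 1 l)
        + ((∑' l, up d 2 l * w 2 (l + 1) - ∑' l, up d 2 l * w 2 l)
        + (∑' l, up d 3 l * w 3 (l + 1) - ∑' l, up d 3 l * w 3 l))) := by
  have P0 := parts_sum hd 0 (by norm_num) (w 0) (fun l => hw 0 l (by norm_num))
  have P1 := parts_sum hd 1 (by norm_num) (w 1) (fun l => hw 1 l (by norm_num))
  have P2 := parts_sum hd 2 (by norm_num) (w 2) (fun l => hw 2 l (by norm_num))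
  have P3 := parts_sum hd 3 (by norm_num) (w 3) (fun l => hw 3 l (by norm_num))
  have hs : ∀ i k, i < 4 → k < 4 → HasSum (fun l => up d i l * w k l) (∑' l, up d i l * w k l) :=
    fun i k hi hk => hasSum_up hd i hi (w k) (fun l => hw k l hk)
  have s0 : ∑' l, up d 0 l * dW 0 (fun k => w k l)
      = 3 * ∑' l, up d 0 l * w 1 l - 3 * ∑' l, up d 0 l * w 0 l := by
    have := ((hs 0 1 (by norm_num) (by norm_num)).mul_left 3).sub
      ((hs 0 0 (by norm_num) (by norm_num)).mul_left 3)
    rw [← this.tsum_eq]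
    refine tsum_congr fun l => ?_
    simp only [dW]; ring
  have s1 : ∑' l, up d 1 l * dW 1 (fun k => w k l)
      = 2 * ∑' l, up d 1 l * w 2 l - ∑' l, up d 1 l * w 1 l - ∑' l, up d 1 l * w 0 l := by
    have := (((hs 1 2 (by norm_num) (by norm_num)).mul_left 2).sub
      (hs 1 1 (by norm_num) (by norm_num))).sub (hs 1 0 (by norm_num) (by norm_num))
    rw [← this.tsum_eq]
    refine tsum_congr fun l => ?_
    simp only [dW]; ring
  have s2 : ∑' l, up d 2 l * dW 2 (fun k => w k l)
      = ∑' l, up d 2 l * w 3 l + ∑' l, up d 2 l * w 2 l - 2 * ∑' l, up d 2 l * w 1 l := by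
    have := ((hs 2 3 (by norm_num) (by norm_num)).add
      (hs 2 2 (by norm_num) (by norm_num))).sub ((hs 2 1 (by norm_num) (by norm_num)).mul_left 2)
    rw [← this.tsum_eq]
    refine tsum_congr fun l => ?_
    simp only [dW]; ring
  have s3 : ∑' l, up d 3 l * dW 3 (fun k => w k l)
      = 3 * ∑' l, up d 3 l * w 3 l - 3 * ∑' l, up d 3 l * w 2 l := by
    have := ((hs 3 3 (by norm_num) (by norm_num)).mul_left 3).sub
      ((hs 3 2 (by norm_num) (by norm_num)).mul_left 3)
    rw [← this.tsum_eq]
    refine tsum_congr fun l => ?_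
    simp only [dW]; ring
  rw [s0, s1, s2, s3]
  simp only [bd', bp] at P0 P1 P2 P3
  norm_num at P0 P1 P2 P3
  linarith

end Vale.Agent.P154
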