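import Vale.Agent.P154.SysG

/-! Nonreconstruction on the Poisson tree from a system of potentials. -/

open scoped BigOperators

namespace Vale.Agent.P154

/-- part of the balancing term proportional to the statistic -/
noncomputable def bxx (κ : ℝ) (j : ℕ) (h0 h1 : ℝ) : ℝ :=
  match j with
  | 0 => κ * h0
  | 1 => κ / 2 * h0 + κ / 2 * h1
  | _ => κ * h1

/-- part of the balancing term proportional to the mass -/
noncomputable def bmm (μ : ℝ) (j : ℕ) (h0 h1 : ℝ) : ℝ :=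
  match j with
  | 0 => 0
  | 1 => μ / 2 * h0
  | _ => μ * h1

theorem bal_split (κ μ : ℝ) (j : ℕ) (x m h0 h1 : ℝ) :
    bal κ μ j x m h0 h1 = x * bxx κ j h0 h1 - m * bmm μ j h0 h1 := by
  rcases j with _ | _ | j <;> simp only [bal, bxx, bmm] <;> ring

theorem bxx_lin (κ : ℝ) (j : ℕ) : ∃ e0 e1 : ℝ, ∀ h0 h1, bxx κ j h0 h1 = e0 * h0 + e1 * h1 := by
  rcases j with _ | _ | j
  · exact ⟨κ, 0, fun h0 h1 => by simp only [bxx]; ring⟩
  · exact ⟨κ / 2, κ / 2, fun h0 h1 => by simp only [bxx]⟩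
  · exact ⟨0, κ, fun h0 h1 => by simp only [bxx]; ring⟩

theorem bmm_lin (μ : ℝ) (j : ℕ) : ∃ e0 e1 : ℝ, ∀ h0 h1, bmm μ j h0 h1 = e0 * h0 + e1 * h1 := by
  rcases j with _ | _ | j
  · exact ⟨0, 0, fun h0 h1 => by simp only [bmm]; ring⟩
  · exact ⟨μ / 2, 0, fun h0 h1 => by simp only [bmm]; ring⟩
  · exact ⟨0, μ, fun h0 h1 => by simp only [bmm]; ring⟩

theorem bmm_smul (t μ : ℝ) (j : ℕ) (h0 h1 : ℝ) : bmm (t * μ) j h0 h1 = t * bmm μ j h0 h1 := by
  rcases j with _ | _ | j <;> simp only [bmm] <;> ring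

theorem dW_lin (k : ℕ) : ∃ c0 c1 c2 c3 : ℝ, ∀ w : ℕ → ℝ,
    dW k w = c0 * w 0 + c1 * w 1 + c2 * w 2 + c3 * w 3 := by
  rcases k with _ | _ | _ | k
  · exact ⟨-3, 3, 0, 0, fun w => by simp only [dW]; ring⟩
  · exact ⟨-1, -1, 2, 0, fun w => by simp only [dW]; ring⟩
  · exact ⟨0, -2, 1, 1, fun w => by simp only [dW]; ring⟩
  · exact ⟨0, 0, -3, 3, fun w => by simp only [dW]; ring⟩

/-- a system of potentials for the Poisson tree -/
structure SysG (d lam κ δ B : ℝ) (W ψ h : ℕ → ℕ → ℝ → ℝ → ℝ) : Prop where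
  hd : 0 < d
  lam1 : lam ≤ 1
  lam0 : -(1 / 2) ≤ lam
  κpos : 0 < κ
  hdκ : d * κ ≤ 1
  δpos : 0 < δ
  Bnn : 0 ≤ B
  step : ∀ j k, j < 3 → k < 4 → ∀ a0 a1 a2 b0 b1 b2 : ℝ,
    0 ≤ a0 → 0 ≤ a1 → 0 ≤ a2 → 0 ≤ b0 → 0 ≤ b1 → 0 ≤ b2 →
    six (fun x y z => hom (W j k) (a0 * ns lam (ms b0 b1 b2) x)
        (a1 * ns lam (ms b0 b1 b2) y) (a2 * ns lam (ms b0 b1 b2) z)) b0 b1 b2
      ≤ 6 * (ms b0 b1 b2 * hom (W j k) a0 a1 a2 + ms a0 a1 a2 * hom (ψ j k) b0 b1 b2
        + bal κ κ j (chi b0 b1 b2) (ms b0 b1 b2) (hom (h 0 k) a0 a1 a2) (hom (h 1 k) a0 a1 a2)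
        - κ * ms b0 b1 b2 * dW k (fun i => hom (W j i) a0 a1 a2))
  ψ0 : ∀ j k, j < 3 → k < 4 → ψ j k 0 0 = 0
  final : ∀ j, j < 3 → ∀ b0 b1 b2 : ℝ, 0 ≤ b0 → 0 ≤ b1 → 0 ≤ b2 →
    d / 4 * (hom (ψ j 0) b0 b1 b2 + hom (ψ j 1) b0 b1 b2 + hom (ψ j 2) b0 b1 b2
        + hom (ψ j 3) b0 b1 b2) + ms b0 b1 b2 * (W j 0 0 0)
      + (if j = 2 then δ else 0) * ms b0 b1 b2 ≤ hom (W j 3) b0 b1 b2
  bddW : ∀ j k, j < 3 → k < 4 → Bd (hom (W j k)) B
  bddψ : ∀ j k, j < 3 → k < 4 → Bd (hom (ψ j k)) B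
  bddh : ∀ i k, i < 2 → k < 4 → Bd (hom (h i k)) B

section
variable {ι : Type} {v : ι → Fin 3 → ℝ}

theorem Fam.add3 (h : Fam v) {F G K : ℝ → ℝ → ℝ → ℝ} {B1 B2 B3 : ℝ} (hF : Bd F B1) (hG : Bd G B2)
    (hK : Bd K B3) (s t : ℝ) :
    FS v (fun a b c => F a b c + (s * G a b c + t * K a b c)) = FS v F + (s * FS v G + t * FS v K) := by
  rw [h.add hF ((hG.smul s).add (hK.smul t)), h.add (hG.smul s) (hK.smul t), FS_smul, FS_smul]

theorem Fam.lin2 (h : Fam v) {G K : ℝ → ℝ → ℝ → ℝ} {B2 B3 : ℝ} (hG : Bd G B2)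
    (hK : Bd K B3) (s t : ℝ) :
    FS v (fun a b c => s * G a b c + t * K a b c) = s * FS v G + t * FS v K := by
  rw [h.add (hG.smul s) (hK.smul t), FS_smul, FS_smul]

theorem Fam.lin4 (h : Fam v) {F : ℕ → ℝ → ℝ → ℝ → ℝ} {B : ℝ} (hF : ∀ k, k < 4 → Bd (F k) B)
    (c0 c1 c2 c3 : ℝ) :
    FS v (fun x y z => c0 * F 0 x y z + c1 * F 1 x y z + c2 * F 2 x y z + c3 * F 3 x y z)
      = c0 * FS v (F 0) + c1 * FS v (F 1) + c2 * FS v (F 2) + c3 * FS v (F 3) := by
  have b0 := (hF 0 (by norm_num)).smul c0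
  have b1 := (hF 1 (by norm_num)).smul c1
  have b2 := (hF 2 (by norm_num)).smul c2
  have b3 := (hF 3 (by norm_num)).smul c3
  rw [h.add ((b0.add b1).add b2) b3, h.add (b0.add b1) b2, h.add b0 b1, FS_smul, FS_smul, FS_smul,
    FS_smul]

end

section
variable {d lam κ δ B : ℝ} {W ψ h : ℕ → ℕ → ℝ → ℝ → ℝ}

/-- functional of the potentials after `l` messages -/
noncomputable def wS (d lam : ℝ) (n : ℕ) (W : ℕ → ℝ → ℝ → ℝ) (k l : ℕ) : ℝ :=
  SG lam (LvG d lam n) l (hom (W k))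

theorem SysG.fam (S : SysG d lam κ δ B W ψ h) (n : ℕ) : Fam (LvG d lam n) :=
  famG S.hd.le S.lam1 S.lam0 n

theorem SysG.stage (S : SysG d lam κ δ B W ψ h) (n j k l : ℕ) (hj : j < 3) (hk : k < 4) :
    wS d lam n (W j) k (l + 1) ≤ wS d lam n (W j) k l - κ * dW k (fun i => wS d lam n (W j) i l)
      + FS (LvG d lam n) (hom (ψ j k))
      + bal κ κ j (FS (LvG d lam n) chi) 1 (wS d lam n (h 0) k l) (wS d lam n (h 1) k l) := by
  obtain ⟨c0, c1, c2, c3, hc⟩ := dW_lin k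
  obtain ⟨e0, e1, he⟩ := bxx_lin κ j
  obtain ⟨f0, f1, hf⟩ := bmm_lin κ j
  have hp := ((S.fam n).nz S.lam1 S.lam0).pw l
  have bW := fun i (hi : i < 4) => S.bddW j i hj hi
  have b0 := S.bddh 0 k (by norm_num) hk
  have b1 := S.bddh 1 k (by norm_num) hk
  have d0 := (bW 0 (by norm_num)).smul c0
  have d1 := (bW 1 (by norm_num)).smul c1
  have d2 := (bW 2 (by norm_num)).smul c2
  have d3 := (bW 3 (by norm_num)).smul c3
  have bD := ((d0.add d1).add d2).add d3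
  have bM := (b0.smul f0).add (b1.smul f1)
  have bA := (bW k hk).add ((bD.smul (-κ)).add (bM.smul (-1)))
  have bE := (b0.smul e0).add (b1.smul e1)
  have st := stageG (S.fam n) (symG n) S.lam1 S.lam0 (bW k hk) S.Bnn bA (S.bddψ j k hj hk) bE
    (fun a0 a1 a2 x0 x1 x2 ha0 ha1 ha2 hx0 hx1 hx2 => by
      refine le_trans (S.step j k hj hk a0 a1 a2 x0 x1 x2 ha0 ha1 ha2 hx0 hx1 hx2) (le_of_eq ?_)
      rw [bal_split, hc, he, hf]
      ring) l
  refine le_trans st (le_of_eq ?_)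
  have q1 : SG lam (LvG d lam n) l (fun a b c => hom (W j k) a b c
      + (-κ * (c0 * hom (W j 0) a b c + c1 * hom (W j 1) a b c + c2 * hom (W j 2) a b c
        + c3 * hom (W j 3) a b c) + -1 * (f0 * hom (h 0 k) a b c + f1 * hom (h 1 k) a b c)))
      = wS d lam n (W j) k l + (-κ * (c0 * wS d lam n (W j) 0 l + c1 * wS d lam n (W j) 1 l
        + c2 * wS d lam n (W j) 2 l + c3 * wS d lam n (W j) 3 l)
        + -1 * (f0 * wS d lam n (h 0) k l + f1 * wS d lam n (h 1) k l)) := by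
    unfold wS SG
    rw [hp.add3 (bW k hk) bD bM, hp.lin4 (F := fun i => hom (W j i)) bW, hp.lin2 b0 b1]
  have q2 : SG lam (LvG d lam n) l (fun a b c => e0 * hom (h 0 k) a b c + e1 * hom (h 1 k) a b c)
      = e0 * wS d lam n (h 0) k l + e1 * wS d lam n (h 1) k l := by
    unfold wS SG
    rw [hp.lin2 b0 b1]
  rw [q1, q2, bal_split, hc, he, hf]
  ring

theorem SysG.triv (S : SysG d lam κ δ B W ψ h) (n j k l : ℕ) (hj : j < 3) (hk : k < 4) :
    κ * dW k (fun i => wS d lam n (W j) i l)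
      ≤ -bmm κ j (wS d lam n (h 0) k l) (wS d lam n (h 1) k l) := by
  obtain ⟨c0, c1, c2, c3, hc⟩ := dW_lin k
  obtain ⟨f0, f1, hf⟩ := bmm_lin κ j
  have hp := ((S.fam n).nz S.lam1 S.lam0).pw l
  have bW := fun i (hi : i < 4) => S.bddW j i hj hi
  have b0 := S.bddh 0 k (by norm_num) hk
  have b1 := S.bddh 1 k (by norm_num) hk
  have d0 := (bW 0 (by norm_num)).smul c0
  have d1 := (bW 1 (by norm_num)).smul c1
  have d2 := (bW 2 (by norm_num)).smul c2
  have d3 := (bW 3 (by norm_num)).smul c3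
  have bD := ((d0.add d1).add d2).add d3
  have bM := (b0.smul (-f0)).add (b1.smul (-f1))
  have pt : ∀ a0 a1 a2 : ℝ, 0 ≤ a0 → 0 ≤ a1 → 0 ≤ a2 →
      κ * (c0 * hom (W j 0) a0 a1 a2 + c1 * hom (W j 1) a0 a1 a2 + c2 * hom (W j 2) a0 a1 a2
        + c3 * hom (W j 3) a0 a1 a2)
        ≤ -f0 * hom (h 0 k) a0 a1 a2 + -f1 * hom (h 1 k) a0 a1 a2 := by
    intro a0 a1 a2 ha0 ha1 ha2
    have st := S.step j k hj hk a0 a1 a2 1 1 1 ha0 ha1 ha2 zero_le_one zero_le_one zero_le_one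
    have m1 : ms 1 1 1 = 1 := by unfold ms; norm_num
    have n1 : ns lam 1 1 = 1 := by unfold ns; ring
    have c1' : chi 1 1 1 = 0 := by unfold chi ms; norm_num
    rw [m1] at st
    have s6 : six (fun x y z => hom (W j k) (a0 * ns lam 1 x) (a1 * ns lam 1 y) (a2 * ns lam 1 z))
        1 1 1 = 6 * hom (W j k) a0 a1 a2 := by
      unfold six
      simp only [n1, mul_one]
      ring
    rw [s6, c1', hom_triv, S.ψ0 j k hj hk, bal_split, hc, hf] at st
    linarith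
  have := hp.le (bD.smul κ) bM pt
  rw [FS_smul, hp.lin4 (F := fun i => hom (W j i)) bW, hp.lin2 b0 b1] at this
  rw [hc, hf]
  unfold wS SG
  linarith

/-- combined inequality -/
theorem SysG.both (S : SysG d lam κ δ B W ψ h) (n j k l : ℕ) (hj : j < 3) (hk : k < 4) :
    d * (wS d lam n (W j) k (l + 1) - wS d lam n (W j) k l)
      + dW k (fun i => wS d lam n (W j) i l)
      ≤ d * FS (LvG d lam n) (hom (ψ j k))
      + d * bal κ (1 / d) j (FS (LvG d lam n) chi) 1 (wS d lam n (h 0) k l)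
        (wS d lam n (h 1) k l) := by
  have st := S.stage n j k l hj hk
  have tr := S.triv n j k l hj hk
  have hd := S.hd
  have hκ := S.κpos
  have hdκ := S.hdκ
  set D := dW k (fun i => wS d lam n (W j) i l)
  set M := bmm κ j (wS d lam n (h 0) k l) (wS d lam n (h 1) k l) with hM
  rw [bal_split, ← hM] at st
  have hm : bmm (1 / d) j (wS d lam n (h 0) k l) (wS d lam n (h 1) k l) = 1 / (d * κ) * M := by
    rw [hM, ← bmm_smul]
    congr 1
    field_simp
  rw [bal_split, hm]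
  set E := bxx κ j (wS d lam n (h 0) k l) (wS d lam n (h 1) k l)
  have q0 : 0 ≤ 1 / κ - d := by
    rw [sub_nonneg, le_div_iff₀ hκ]; exact hdκ
  have t1 := mul_le_mul_of_nonneg_left tr q0
  have t2 := mul_le_mul_of_nonneg_left st hd.le
  have e1 : (1 / κ - d) * (κ * D) = D - d * κ * D := by field_simp
  have e2 : (1 / κ - d) * -M = -(d * (1 / (d * κ) * M)) + d * M := by field_simp; ring
  rw [e1, e2] at t1
  linarith

theorem bal_lin (κ μ : ℝ) (j : ℕ) (x m : ℝ) : ∃ p q : ℝ, ∀ h0 h1, bal κ μ j x m h0 h1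
    = p * h0 + q * h1 := by
  obtain ⟨e0, e1, he⟩ := bxx_lin κ j
  obtain ⟨f0, f1, hf⟩ := bmm_lin μ j
  exact ⟨x * e0 - m * f0, x * e1 - m * f1, fun h0 h1 => by rw [bal_split, he, hf]; ring⟩

theorem SysG.wS_abs (S : SysG d lam κ δ B W ψ h) (n j k l : ℕ) (hj : j < 3) (hk : k < 4) :
    |wS d lam n (W j) k l| ≤ B :=
  (((S.fam n).nz S.lam1 S.lam0).pw l).abs (S.bddW j k hj hk)

theorem SysG.hS_abs (S : SysG d lam κ δ B W ψ h) (n i k l : ℕ) (hi : i < 2) (hk : k < 4) :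
    |wS d lam n (h i) k l| ≤ B :=
  (((S.fam n).nz S.lam1 S.lam0).pw l).abs (S.bddh i k hi hk)

/-- sum of the combined inequality over the number of messages -/
theorem SysG.sum (S : SysG d lam κ δ B W ψ h) (n j k : ℕ) (hj : j < 3) (hk : k < 4) :
    ∑' l, up d k l * dW k (fun i => wS d lam n (W j) i l)
      + d * (∑' l, up d k l * wS d lam n (W j) k (l + 1) - ∑' l, up d k l * wS d lam n (W j) k l)
      ≤ d / 4 * FS (LvG d lam n) (hom (ψ j k))
      + bal κ (1 / d) j (FS (LvG d lam n) chi) 1 (d * ∑' l, up d k l * wS d lam n (h 0) k l)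
        (d * ∑' l, up d k l * wS d lam n (h 1) k l) := by
  have hd := S.hd.le
  obtain ⟨c0, c1, c2, c3, hc⟩ := dW_lin k
  obtain ⟨p, q, hpq⟩ := bal_lin κ (1 / d) j (FS (LvG d lam n) chi) 1
  have hW : ∀ i, i < 4 → HasSum (fun l => up d k l * wS d lam n (W j) i l)
      (∑' l, up d k l * wS d lam n (W j) i l) := fun i hi =>
    hasSum_up hd k hk _ (fun l => S.wS_abs n j i l hj hi)
  have hD : HasSum (fun l => up d k l * dW k (fun i => wS d lam n (W j) i l))
      (∑' l, up d k l * dW k (fun i => wS d lam n (W j) i l)) := by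
    have := ((((hW 0 (by norm_num)).mul_left c0).add ((hW 1 (by norm_num)).mul_left c1)).add
      ((hW 2 (by norm_num)).mul_left c2)).add ((hW 3 (by norm_num)).mul_left c3)
    exact (hs_congr this (fun l => by rw [hc]; ring)).summable.hasSum
  have h1 := hasSum_up hd k hk (fun l => wS d lam n (W j) k (l + 1))
    (fun l => S.wS_abs n j k (l + 1) hj hk)
  have g0 := hasSum_up hd k hk (fun l => wS d lam n (h 0) k l)
    (fun l => S.hS_abs n 0 k l (by norm_num) hk)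
  have g1 := hasSum_up hd k hk (fun l => wS d lam n (h 1) k l)
    (fun l => S.hS_abs n 1 k l (by norm_num) hk)
  have hL := hD.add ((h1.sub (hW k hk)).mul_left d)
  have hR := ((up_sum hd k hk).mul_right (d * FS (LvG d lam n) (hom (ψ j k)))).add
    (((g0.mul_left p).add (g1.mul_left q)).mul_left d)
  have := hasSum_le (fun l => ?_) hL hR
  · rw [hpq]
    linarith
  · have b := mul_le_mul_of_nonneg_left (S.both n j k l hj hk) (up_nonneg hd k l)
    rw [hpq] at b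
    linarith

/-- multipliers -/
noncomputable def HG (d lam : ℝ) (h : ℕ → ℕ → ℝ → ℝ → ℝ) (n i : ℕ) : ℝ :=
  d * ∑' l, up d 0 l * wS d lam n (h i) 0 l + d * ∑' l, up d 1 l * wS d lam n (h i) 1 l
    + (d * ∑' l, up d 2 l * wS d lam n (h i) 2 l + d * ∑' l, up d 3 l * wS d lam n (h i) 3 l)

theorem SysG.HG_abs (S : SysG d lam κ δ B W ψ h) (n i : ℕ) (hi : i < 2) :
    |HG d lam h n i| ≤ 4 * d * B := by
  have hd := S.hd.le
  have key : ∀ k, k < 4 → |d * ∑' l, up d k l * wS d lam n (h i) k l| ≤ d * B := fun k hk => by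
    rw [abs_mul, abs_of_nonneg hd]
    exact mul_le_mul_of_nonneg_left (abs_up hd S.Bnn k hk _ (fun l => S.hS_abs n i k l hi hk)) hd
  have k0 := abs_le.1 (key 0 (by norm_num))
  have k1 := abs_le.1 (key 1 (by norm_num))
  have k2 := abs_le.1 (key 2 (by norm_num))
  have k3 := abs_le.1 (key 3 (by norm_num))
  unfold HG
  rw [abs_le]
  constructor <;> linarith [k0.1, k0.2, k1.1, k1.2, k2.1, k2.2, k3.1, k3.2]

theorem SysG.level (S : SysG d lam κ δ B W ψ h) (n j : ℕ) (hj : j < 3) :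
    FS (LvG d lam (n + 1)) (hom (W j 3)) ≤ FS (LvG d lam n) (hom (W j 3)) - (if j = 2 then δ else 0)
      + bal κ (1 / d) j (FS (LvG d lam n) chi) 1 (HG d lam h n 0) (HG d lam h n 1) := by
  have hd := S.hd.le
  have hg : ∀ g, Hg (hom g) := fun g t a b c => hom_smul g t a b c
  have e1 := (LG_succ hd S.lam1 S.lam0 n (S.bddW j 3 hj (by norm_num)) (hg _)).tsum_eq
  have tel := telescope hd (wS d lam n (W j)) (fun k l hk => S.wS_abs n j k l hj hk)
  have s0 := S.sum n j 0 hj (by norm_num)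
  have s1 := S.sum n j 1 hj (by norm_num)
  have s2 := S.sum n j 2 hj (by norm_num)
  have s3 := S.sum n j 3 hj (by norm_num)
  have hf := S.fam n
  have b0 := S.bddψ j 0 hj (by norm_num)
  have b1 := S.bddψ j 1 hj (by norm_num)
  have b2 := S.bddψ j 2 hj (by norm_num)
  have b3 := S.bddψ j 3 hj (by norm_num)
  have bL := ((((b0.add b1).add b2).add b3).smul (d / 4)).add (Bd_ms.smul (W j 0 0 0
    + (if j = 2 then δ else 0)))
  have fin := hf.le bL (S.bddW j 3 hj (by norm_num)) (fun a0 a1 a2 h0 h1 h2 => by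
    have := S.final j hj a0 a1 a2 h0 h1 h2
    linarith)
  rw [hf.add ((((b0.add b1).add b2).add b3).smul (d / 4)) (Bd_ms.smul _), FS_smul, FS_smul,
    hf.add ((b0.add b1).add b2) b3, hf.add (b0.add b1) b2, hf.add b0 b1, hf.fs_ms] at fin
  have w0 : wS d lam n (W j) 0 0 = W j 0 0 0 := by
    unfold wS
    rw [SG_zero, hom_triv]
  have hb : bal κ (1 / d) j (FS (LvG d lam n) chi) 1 (HG d lam h n 0) (HG d lam h n 1)
      = bal κ (1 / d) j (FS (LvG d lam n) chi) 1 (d * ∑' l, up d 0 l * wS d lam n (h 0) 0 l)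
        (d * ∑' l, up d 0 l * wS d lam n (h 1) 0 l)
      + bal κ (1 / d) j (FS (LvG d lam n) chi) 1 (d * ∑' l, up d 1 l * wS d lam n (h 0) 1 l)
        (d * ∑' l, up d 1 l * wS d lam n (h 1) 1 l)
      + (bal κ (1 / d) j (FS (LvG d lam n) chi) 1 (d * ∑' l, up d 2 l * wS d lam n (h 0) 2 l)
        (d * ∑' l, up d 2 l * wS d lam n (h 1) 2 l)
      + bal κ (1 / d) j (FS (LvG d lam n) chi) 1 (d * ∑' l, up d 3 l * wS d lam n (h 0) 3 l)
        (d * ∑' l, up d 3 l * wS d lam n (h 1) 3 l)) := by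
    obtain ⟨p, q, hpq⟩ := bal_lin κ (1 / d) j (FS (LvG d lam n) chi) 1
    simp only [hpq, HG]
    ring
  rw [hb, ← e1]
  have e2 : (∑' l, pois d l * SG lam (LvG d lam n) l (hom (W j 3)))
      = ∑' l, pois d l * wS d lam n (W j) 3 l := rfl
  rw [e2]
  rw [w0] at tel
  linarith

theorem SysG.chi_tendsto (S : SysG d lam κ δ B W ψ h) :
    Filter.Tendsto (fun n => FS (LvG d lam n) chi) Filter.atTop (nhds 0) := by
  have hd := S.hd
  have hB1 : B ≤ (1 + 4 * d) * B := by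
    have := mul_nonneg hd.le S.Bnn
    linarith
  have hB2 : 4 * d * B ≤ (1 + 4 * d) * B := by
    have := S.Bnn
    linarith
  refine limit_zero (fun n => FS (LvG d lam n) chi) (fun n => FS (LvG d lam n) (hom (W 0 3)))
    (fun n => FS (LvG d lam n) (hom (W 1 3))) (fun n => FS (LvG d lam n) (hom (W 2 3)))
    (fun n => HG d lam h n 0) (fun n => HG d lam h n 1) κ (1 / d) δ ((1 + 4 * d) * B) S.κpos
    ?_ S.δpos ?_ ?_ (fun n => mono_level hd.le S.lam1 S.lam0 n chi Sub_chi) ?_ ?_ ?_ ?_ ?_ ?_ ?_ ?_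
  · rw [le_div_iff₀ hd]
    linarith [S.hdκ]
  · intro n
    exact tsum_nonneg fun c => chi_nn _ _ _ ((S.fam n).nn c 0) ((S.fam n).nn c 1)
      ((S.fam n).nn c 2)
  · have := (S.fam 0).le Bd_chi Bd_ms chi_le_ms
    rwa [(S.fam 0).fs_ms] at this
  · intro n
    exact le_trans ((S.fam n).abs (S.bddW 0 3 (by norm_num) (by norm_num))) hB1
  · intro n
    exact le_trans ((S.fam n).abs (S.bddW 1 3 (by norm_num) (by norm_num))) hB1
  · intro n
    exact le_trans ((S.fam n).abs (S.bddW 2 3 (by norm_num) (by norm_num))) hB1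
  · intro n
    exact le_trans (S.HG_abs n 0 (by norm_num)) hB2
  · intro n
    exact le_trans (S.HG_abs n 1 (by norm_num)) hB2
  · intro n
    have := S.level n 0 (by norm_num)
    simpa using this
  · intro n
    have := S.level n 1 (by norm_num)
    simpa using this
  · intro n
    have := S.level n 2 (by norm_num)
    simpa using this

/-! ### total variation -/

theorem aSeqG_le (hd : 0 ≤ d) (h1 : lam ≤ 1) (h0 : -(1 / 2) ≤ lam) (n : ℕ) (δ : ℝ) (hδ : 0 < δ) :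
    0 ≤ aSeqG 3 d lam n ∧ aSeqG 3 d lam n ≤ δ / 4 + 1 / (2 * δ) * FS (LvG d lam n) chi := by
  have hf := famG hd h1 h0 n
  have key : ∀ c, 0 ≤ margG 3 d lam n c * (1 / 2 * ∑ i : Fin 3, |postG 3 d lam n i c - 1 / 3|) ∧
      margG 3 d lam n c * (1 / 2 * ∑ i : Fin 3, |postG 3 d lam n i c - 1 / 3|)
      ≤ δ / 4 * at3 ms (LvG d lam n c) + 1 / (2 * δ) * at3 chi (LvG d lam n c) := by
    intro c
    have p0 := hf.nn c 0
    have p1 := hf.nn c 1
    have p2 := hf.nn c 2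
    have hm : margG 3 d lam n c = ms (LvG d lam n c 0) (LvG d lam n c 1) (LvG d lam n c 2) := by
      unfold margG jointG ms LvG
      rw [Fin.sum_univ_three]
      push_cast
      ring
    have hj : ∀ i, jointG 3 d lam n i c = 1 / 3 * LvG d lam n c i := by
      intro i; unfold jointG LvG; push_cast; ring
    constructor
    · rw [hm]
      exact mul_nonneg (ms_nonneg p0 p1 p2) (by positivity)
    refine le_trans (le_of_eq ?_) (tv_term δ _ _ _ hδ p0 p1 p2)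
    rcases (ms_nonneg p0 p1 p2).eq_or_lt with hz | hz
    · obtain ⟨z0, z1, z2⟩ := ms_zero p0 p1 p2 hz.symm
      have e0 : ms 0 0 0 = 0 := by unfold ms; norm_num
      rw [hm, z0, z1, z2, e0]
      norm_num
    · rw [hm, Fin.sum_univ_three]
      unfold postG
      rw [hm, hj, hj, hj]
      set m := ms (LvG d lam n c 0) (LvG d lam n c 1) (LvG d lam n c 2) with hmdef
      have e : ∀ x : ℝ, |1 / 3 * x / m - 1 / 3| = 1 / 3 * |x - m| / m := by
        intro x
        have : 1 / 3 * x / m - 1 / 3 = (1 / 3 / m) * (x - m) := by field_simp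
        rw [this, abs_mul, abs_of_pos (by positivity)]
        ring
      rw [e, e, e]
      field_simp
      ring
  have hR := (hf.ms.mul_left (δ / 4)).add ((hf.hasSum Bd_chi).mul_left (1 / (2 * δ)))
  have hL : Summable fun c => margG 3 d lam n c
      * (1 / 2 * ∑ i : Fin 3, |postG 3 d lam n i c - 1 / 3|) :=
    Summable.of_nonneg_of_le (fun c => (key c).1) (fun c => (key c).2) hR.summable
  unfold aSeqG
  have e3 : ((3 : ℕ) : ℝ) = 3 := by norm_num
  rw [e3]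
  refine ⟨tsum_nonneg fun c => (key c).1, ?_⟩
  have := hasSum_le (fun c => (key c).2) hL.hasSum hR
  rwa [mul_one] at this

theorem SysG.result (S : SysG d lam κ δ B W ψ h) :
    Filter.Tendsto (fun n => aSeqG 3 d lam n) Filter.atTop (nhds 0) := by
  have ht := S.chi_tendsto
  rw [Metric.tendsto_atTop] at ht ⊢
  intro ε hε
  obtain ⟨N, hN⟩ := ht (ε ^ 2) (by positivity)
  refine ⟨N, fun n hn => ?_⟩
  have h := hN n hn
  rw [Real.dist_eq, sub_zero] at h
  have h2 : FS (LvG d lam n) chi < ε ^ 2 := (abs_lt.1 h).2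
  obtain ⟨a0, a1⟩ := aSeqG_le S.hd.le S.lam1 S.lam0 n ε hε
  rw [Real.dist_eq, sub_zero, abs_of_nonneg a0]
  have h4 : 1 / (2 * ε) * FS (LvG d lam n) chi < 1 / (2 * ε) * ε ^ 2 :=
    mul_lt_mul_of_pos_left h2 (by positivity)
  have h5 : 1 / (2 * ε) * ε ^ 2 = ε / 2 := by field_simp
  linarith

end

end Vale.Agent.P154
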