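import Vale.Agent.P154.SysG2

/-! A more flexible system of potentials for the Poisson tree: a general statistic, and a
general range for its limit. -/

open scoped BigOperators

namespace Vale.Agent.P154

/-- balancing term: between the nodes the parameter moves from `κ x = a m` to `ω κ x = b m` -/
noncomputable def balH (κ a b ω : ℝ) (j : ℕ) (x m h0 h1 : ℝ) : ℝ :=
  match j with
  | 0 => (κ * x - a * m) * h0
  | 1 => ((κ * x - a * m) * h1 + (ω * κ * x - b * m) * h0) / 2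
  | _ => (ω * κ * x - b * m) * h1

/-- part of the balancing term proportional to the statistic -/
noncomputable def bxxH (κ ω : ℝ) (j : ℕ) (h0 h1 : ℝ) : ℝ :=
  match j with
  | 0 => κ * h0
  | 1 => ω * κ / 2 * h0 + κ / 2 * h1
  | _ => ω * κ * h1

/-- part of the balancing term proportional to the mass -/
noncomputable def bmmH (a b : ℝ) (j : ℕ) (h0 h1 : ℝ) : ℝ :=
  match j with
  | 0 => a * h0
  | 1 => b / 2 * h0 + a / 2 * h1
  | _ => b * h1

theorem balH_split (κ a b ω : ℝ) (j : ℕ) (x m h0 h1 : ℝ) :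
    balH κ a b ω j x m h0 h1 = x * bxxH κ ω j h0 h1 - m * bmmH a b j h0 h1 := by
  rcases j with _ | _ | j <;> simp only [balH, bxxH, bmmH] <;> ring

theorem bxxH_lin (κ ω : ℝ) (j : ℕ) :
    ∃ e0 e1 : ℝ, ∀ h0 h1, bxxH κ ω j h0 h1 = e0 * h0 + e1 * h1 := by
  rcases j with _ | _ | j
  · exact ⟨κ, 0, fun h0 h1 => by simp only [bxxH]; ring⟩
  · exact ⟨ω * κ / 2, κ / 2, fun h0 h1 => by simp only [bxxH]⟩
  · exact ⟨0, ω * κ, fun h0 h1 => by simp only [bxxH]; ring⟩

theorem bmmH_lin (a b : ℝ) (j : ℕ) :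
    ∃ e0 e1 : ℝ, ∀ h0 h1, bmmH a b j h0 h1 = e0 * h0 + e1 * h1 := by
  rcases j with _ | _ | j
  · exact ⟨a, 0, fun h0 h1 => by simp only [bmmH]; ring⟩
  · exact ⟨b / 2, a / 2, fun h0 h1 => by simp only [bmmH]⟩
  · exact ⟨0, b, fun h0 h1 => by simp only [bmmH]; ring⟩

theorem bmmH_smul (t a b : ℝ) (j : ℕ) (h0 h1 : ℝ) :
    bmmH (t * a) (t * b) j h0 h1 = t * bmmH a b j h0 h1 := by
  rcases j with _ | _ | j <;> simp only [bmmH] <;> ring

theorem balH_lin (κ a b ω : ℝ) (j : ℕ) (x m : ℝ) : ∃ p q : ℝ, ∀ h0 h1,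
    balH κ a b ω j x m h0 h1 = p * h0 + q * h1 := by
  obtain ⟨e0, e1, he⟩ := bxxH_lin κ ω j
  obtain ⟨f0, f1, hf⟩ := bmmH_lin a b j
  exact ⟨x * e0 - m * f0, x * e1 - m * f1, fun h0 h1 => by rw [balH_split, he, hf]; ring⟩

/-- one more message, general statistic -/
theorem stageH {ι : Type} {v : ι → Fin 3 → ℝ} {F G A E Φ : ℝ → ℝ → ℝ → ℝ}
    {BF BA BG BE BΦ lam : ℝ} (hv : Fam v) (sv : SymG v) (h1 : lam ≤ 1) (h0 : -(1 / 2) ≤ lam)
    (hF : Bd F BF) (hB : 0 ≤ BF) (hA : Bd A BA) (hG : Bd G BG) (hE : Bd E BE) (hΦ : Bd Φ BΦ)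
    (h : ∀ a0 a1 a2 b0 b1 b2 : ℝ, 0 ≤ a0 → 0 ≤ a1 → 0 ≤ a2 → 0 ≤ b0 → 0 ≤ b1 → 0 ≤ b2 →
      six (fun x y z => F (a0 * ns lam (ms b0 b1 b2) x) (a1 * ns lam (ms b0 b1 b2) y)
        (a2 * ns lam (ms b0 b1 b2) z)) b0 b1 b2
        ≤ 6 * (ms b0 b1 b2 * A a0 a1 a2 + ms a0 a1 a2 * G b0 b1 b2
          + Φ b0 b1 b2 * E a0 a1 a2)) (k : ℕ) :
    SG lam v (k + 1) F ≤ SG lam v k A + FS v G + FS v Φ * SG lam v k E := by
  have hn := hv.nz h1 h0
  have hp := hn.pw k
  rw [hv.SG_succ h1 h0 hF]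
  have key : ∀ c : Fin k → ι, ∑' b, at3 F (fun i => pw (fun c => nz lam (v c)) k c i
      * nz lam (v b) i) ≤ at3 A (pw (fun c => nz lam (v c)) k c)
        + at3 ms (pw (fun c => nz lam (v c)) k c) * FS v G
        + FS v Φ * at3 E (pw (fun c => nz lam (v c)) k c) := by
    intro c
    set a := pw (fun c => nz lam (v c)) k c with ha
    have han : ∀ i, 0 ≤ a i := hp.nn c
    have hs := (hn.mul_summ hF hB a han).hasSum
    have h6 := sv.six (fun x y z => F (a 0 * ns lam (ms x y z) x)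
      (a 1 * ns lam (ms x y z) y) (a 2 * ns lam (ms x y z) z)) _ hs
    have e : ∀ b, six (fun x y z => F (a 0 * ns lam (ms x y z) x) (a 1 * ns lam (ms x y z) y)
      (a 2 * ns lam (ms x y z) z)) (v b 0) (v b 1) (v b 2) =
      six (fun x y z => F (a 0 * ns lam (ms (v b 0) (v b 1) (v b 2)) x)
          (a 1 * ns lam (ms (v b 0) (v b 1) (v b 2)) y)
          (a 2 * ns lam (ms (v b 0) (v b 1) (v b 2)) z)) (v b 0) (v b 1) (v b 2) := by
      intro b
      exact six_ms lam (fun x y z => F (a 0 * x) (a 1 * y) (a 2 * z)) _ _ _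
    simp only [e] at h6
    have hR := (((hv.ms.mul_right (at3 A a)).add ((hv.hasSum hG).mul_left (at3 ms a))).add
      ((hv.hasSum hΦ).mul_right (at3 E a))).mul_left 6
    have := hasSum_le (fun b => h (a 0) (a 1) (a 2) (v b 0) (v b 1) (v b 2) (han 0) (han 1) (han 2)
      (hv.nn b 0) (hv.nn b 1) (hv.nn b 2)) h6 hR
    linarith
  have hs1 : Summable fun c : Fin k → ι => ∑' b, at3 F (fun i => pw (fun c => nz lam (v c)) k c i
      * nz lam (v b) i) := (hp.prodSumm hn hF).prod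
  have hs2 : HasSum (fun c : Fin k → ι => at3 A (pw (fun c => nz lam (v c)) k c)
        + at3 ms (pw (fun c => nz lam (v c)) k c) * FS v G
        + FS v Φ * at3 E (pw (fun c => nz lam (v c)) k c))
      (SG lam v k A + 1 * FS v G + FS v Φ * SG lam v k E) :=
    ((hp.hasSum hA).add (hp.ms.mul_right _)).add ((hp.hasSum hE).mul_left _)
  have := hasSum_le key hs1.hasSum hs2
  linarith

/-- a system of potentials for the Poisson tree with statistic `Φ` -/
structure SysH (d lam κ a b ω B : ℝ) (δ : ℕ → ℝ) (Φ : ℝ → ℝ → ℝ) (W ψ h : ℕ → ℕ → ℝ → ℝ → ℝ) :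
    Prop where
  hd : 0 < d
  lam1 : lam ≤ 1
  lam0 : -(1 / 2) ≤ lam
  κpos : 0 < κ
  hdκ : d * κ ≤ 1
  Bnn : 0 ≤ B
  step : ∀ j k, j < 3 → k < 4 → ∀ a0 a1 a2 b0 b1 b2 : ℝ,
    0 ≤ a0 → 0 ≤ a1 → 0 ≤ a2 → 0 ≤ b0 → 0 ≤ b1 → 0 ≤ b2 →
    six (fun x y z => hom (W j k) (a0 * ns lam (ms b0 b1 b2) x)
        (a1 * ns lam (ms b0 b1 b2) y) (a2 * ns lam (ms b0 b1 b2) z)) b0 b1 b2
      ≤ 6 * (ms b0 b1 b2 * hom (W j k) a0 a1 a2 + ms a0 a1 a2 * hom (ψ j k) b0 b1 b2
        + balH κ (κ * a) (κ * b) ω j (hom Φ b0 b1 b2) (ms b0 b1 b2) (hom (h 0 k) a0 a1 a2)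
          (hom (h 1 k) a0 a1 a2)
        - κ * ms b0 b1 b2 * dW k (fun i => hom (W j i) a0 a1 a2))
  ψ0 : ∀ j k, j < 3 → k < 4 → ψ j k 0 0 = 0
  Φ0 : Φ 0 0 = 0
  final : ∀ j, j < 3 → ∀ b0 b1 b2 : ℝ, 0 ≤ b0 → 0 ≤ b1 → 0 ≤ b2 →
    d / 4 * (hom (ψ j 0) b0 b1 b2 + hom (ψ j 1) b0 b1 b2 + hom (ψ j 2) b0 b1 b2
        + hom (ψ j 3) b0 b1 b2) + ms b0 b1 b2 * (W j 0 0 0)
      + δ j * ms b0 b1 b2 ≤ hom (W j 3) b0 b1 b2
  bddΦ : Bd (hom Φ) B
  bddW : ∀ j k, j < 3 → k < 4 → Bd (hom (W j k)) B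
  bddψ : ∀ j k, j < 3 → k < 4 → Bd (hom (ψ j k)) B
  bddh : ∀ i k, i < 2 → k < 4 → Bd (hom (h i k)) B

section
variable {d lam κ a b ω B : ℝ} {δ : ℕ → ℝ} {Φ : ℝ → ℝ → ℝ} {W ψ h : ℕ → ℕ → ℝ → ℝ → ℝ}

theorem SysH.fam (S : SysH d lam κ a b ω B δ Φ W ψ h) (n : ℕ) : Fam (LvG d lam n) :=
  famG S.hd.le S.lam1 S.lam0 n

theorem SysH.stage (S : SysH d lam κ a b ω B δ Φ W ψ h) (n j k l : ℕ) (hj : j < 3) (hk : k < 4) :
    wS d lam n (W j) k (l + 1) ≤ wS d lam n (W j) k l - κ * dW k (fun i => wS d lam n (W j) i l)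
      + FS (LvG d lam n) (hom (ψ j k))
      + balH κ (κ * a) (κ * b) ω j (FS (LvG d lam n) (hom Φ)) 1 (wS d lam n (h 0) k l)
        (wS d lam n (h 1) k l) := by
  obtain ⟨c0, c1, c2, c3, hc⟩ := dW_lin k
  obtain ⟨e0, e1, he⟩ := bxxH_lin κ ω j
  obtain ⟨f0, f1, hf⟩ := bmmH_lin (κ * a) (κ * b) j
  have hp := ((S.fam n).nz S.lam1 S.lam0).pw l
  have bW := fun i (hi : i < 4) => S.bddW j i hj hi
  have b0 := S.bddh 0 k (by norm_num) hk
  have b1 := S.bddh 1 k (by norm_num) hk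
  have d0 := (bW 0 (by norm_num)).smul c0
  have d1 := (bW 1 (by norm_num)).smul c1
  have d2 := (bW 2 (by norm_num)).smul c2
  have d3 := (bW 3 (by norm_num)).smul c3
  have bD := ((d0.add d1).add d2).add d3
  have bM := (b0.smul f0).add (b1.smul f1)
  have bA := (bW k hk).add ((bD.smul (-κ)).add (bM.smul (-1)))
  have bE := (b0.smul e0).add (b1.smul e1)
  have st := stageH (S.fam n) (symG n) S.lam1 S.lam0 (bW k hk) S.Bnn bA (S.bddψ j k hj hk) bE
    S.bddΦ
    (fun a0 a1 a2 x0 x1 x2 ha0 ha1 ha2 hx0 hx1 hx2 => by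
      refine le_trans (S.step j k hj hk a0 a1 a2 x0 x1 x2 ha0 ha1 ha2 hx0 hx1 hx2) (le_of_eq ?_)
      rw [balH_split, hc, he, hf]
      ring) l
  refine le_trans st (le_of_eq ?_)
  have q1 : SG lam (LvG d lam n) l (fun a b c => hom (W j k) a b c
      + (-κ * (c0 * hom (W j 0) a b c + c1 * hom (W j 1) a b c + c2 * hom (W j 2) a b c
        + c3 * hom (W j 3) a b c) + -1 * (f0 * hom (h 0 k) a b c + f1 * hom (h 1 k) a b c)))
      = wS d lam n (W j) k l + (-κ * (c0 * wS d lam n (W j) 0 l + c1 * wS d lam n (W j) 1 l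
        + c2 * wS d lam n (W j) 2 l + c3 * wS d lam n (W j) 3 l)
        + -1 * (f0 * wS d lam n (h 0) k l + f1 * wS d lam n (h 1) k l)) := by
    unfold wS SG
    rw [hp.add3 (bW k hk) bD bM, hp.lin4 (F := fun i => hom (W j i)) bW, hp.lin2 b0 b1]
  have q2 : SG lam (LvG d lam n) l (fun a b c => e0 * hom (h 0 k) a b c + e1 * hom (h 1 k) a b c)
      = e0 * wS d lam n (h 0) k l + e1 * wS d lam n (h 1) k l := by
    unfold wS SG
    rw [hp.lin2 b0 b1]
  rw [q1, q2, balH_split, hc, he, hf]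
  ring

theorem SysH.triv (S : SysH d lam κ a b ω B δ Φ W ψ h) (n j k l : ℕ) (hj : j < 3) (hk : k < 4) :
    κ * dW k (fun i => wS d lam n (W j) i l)
      ≤ -bmmH (κ * a) (κ * b) j (wS d lam n (h 0) k l) (wS d lam n (h 1) k l) := by
  obtain ⟨c0, c1, c2, c3, hc⟩ := dW_lin k
  obtain ⟨f0, f1, hf⟩ := bmmH_lin (κ * a) (κ * b) j
  have hp := ((S.fam n).nz S.lam1 S.lam0).pw l
  have bW := fun i (hi : i < 4) => S.bddW j i hj hi
  have b0 := S.bddh 0 k (by norm_num) hk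
  have b1 := S.bddh 1 k (by norm_num) hk
  have d0 := (bW 0 (by norm_num)).smul c0
  have d1 := (bW 1 (by norm_num)).smul c1
  have d2 := (bW 2 (by norm_num)).smul c2
  have d3 := (bW 3 (by norm_num)).smul c3
  have bD := ((d0.add d1).add d2).add d3
  have bM := (b0.smul (-f0)).add (b1.smul (-f1))
  have pt : ∀ a0 a1 a2 : ℝ, 0 ≤ a0 → 0 ≤ a1 → 0 ≤ a2 →
      κ * (c0 * hom (W j 0) a0 a1 a2 + c1 * hom (W j 1) a0 a1 a2 + c2 * hom (W j 2) a0 a1 a2
        + c3 * hom (W j 3) a0 a1 a2)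
        ≤ -f0 * hom (h 0 k) a0 a1 a2 + -f1 * hom (h 1 k) a0 a1 a2 := by
    intro a0 a1 a2 ha0 ha1 ha2
    have st := S.step j k hj hk a0 a1 a2 1 1 1 ha0 ha1 ha2 zero_le_one zero_le_one zero_le_one
    have m1 : ms 1 1 1 = 1 := by unfold ms; norm_num
    have n1 : ns lam 1 1 = 1 := by unfold ns; ring
    rw [m1] at st
    have s6 : six (fun x y z => hom (W j k) (a0 * ns lam 1 x) (a1 * ns lam 1 y) (a2 * ns lam 1 z))
        1 1 1 = 6 * hom (W j k) a0 a1 a2 := by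
      unfold six
      simp only [n1, mul_one]
      ring
    rw [s6, hom_triv, hom_triv, S.Φ0, S.ψ0 j k hj hk, balH_split, hc, hf] at st
    linarith
  have := hp.le (bD.smul κ) bM pt
  rw [FS_smul, hp.lin4 (F := fun i => hom (W j i)) bW, hp.lin2 b0 b1] at this
  rw [hc, hf]
  unfold wS SG
  linarith

/-- combined inequality -/
theorem SysH.both (S : SysH d lam κ a b ω B δ Φ W ψ h) (n j k l : ℕ) (hj : j < 3) (hk : k < 4) :
    d * (wS d lam n (W j) k (l + 1) - wS d lam n (W j) k l)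
      + dW k (fun i => wS d lam n (W j) i l)
      ≤ d * FS (LvG d lam n) (hom (ψ j k))
      + d * balH κ (1 / d * a) (1 / d * b) ω j (FS (LvG d lam n) (hom Φ)) 1
        (wS d lam n (h 0) k l) (wS d lam n (h 1) k l) := by
  have st := S.stage n j k l hj hk
  have tr := S.triv n j k l hj hk
  have hd := S.hd
  have hκ := S.κpos
  have hdκ := S.hdκ
  rw [bmmH_smul] at tr
  rw [balH_split, bmmH_smul] at st
  rw [balH_split, bmmH_smul]
  set D := dW k (fun i => wS d lam n (W j) i l)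
  set M := bmmH a b j (wS d lam n (h 0) k l) (wS d lam n (h 1) k l) with hM
  set E := bxxH κ ω j (wS d lam n (h 0) k l) (wS d lam n (h 1) k l)
  have q0 : 0 ≤ 1 / κ - d := by
    rw [sub_nonneg, le_div_iff₀ hκ]; exact hdκ
  have t1 := mul_le_mul_of_nonneg_left tr q0
  have t2 := mul_le_mul_of_nonneg_left st hd.le
  have e1 : (1 / κ - d) * (κ * D) = D - d * κ * D := by field_simp
  have e2 : (1 / κ - d) * -(κ * M) = -M + d * (κ * M) := by field_simp; ring
  have e3 : d * (1 / d * M) = M := by field_simp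
  rw [e1, e2] at t1
  linarith

theorem SysH.wS_abs (S : SysH d lam κ a b ω B δ Φ W ψ h) (n j k l : ℕ) (hj : j < 3)
    (hk : k < 4) : |wS d lam n (W j) k l| ≤ B :=
  (((S.fam n).nz S.lam1 S.lam0).pw l).abs (S.bddW j k hj hk)

theorem SysH.hS_abs (S : SysH d lam κ a b ω B δ Φ W ψ h) (n i k l : ℕ) (hi : i < 2)
    (hk : k < 4) : |wS d lam n (h i) k l| ≤ B :=
  (((S.fam n).nz S.lam1 S.lam0).pw l).abs (S.bddh i k hi hk)

/-- sum of the combined inequality over the number of messages -/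
theorem SysH.sum (S : SysH d lam κ a b ω B δ Φ W ψ h) (n j k : ℕ) (hj : j < 3) (hk : k < 4) :
    ∑' l, up d k l * dW k (fun i => wS d lam n (W j) i l)
      + d * (∑' l, up d k l * wS d lam n (W j) k (l + 1) - ∑' l, up d k l * wS d lam n (W j) k l)
      ≤ d / 4 * FS (LvG d lam n) (hom (ψ j k))
      + balH κ (1 / d * a) (1 / d * b) ω j (FS (LvG d lam n) (hom Φ)) 1
        (d * ∑' l, up d k l * wS d lam n (h 0) k l)
        (d * ∑' l, up d k l * wS d lam n (h 1) k l) := by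
  have hd := S.hd.le
  obtain ⟨c0, c1, c2, c3, hc⟩ := dW_lin k
  obtain ⟨p, q, hpq⟩ := balH_lin κ (1 / d * a) (1 / d * b) ω j (FS (LvG d lam n) (hom Φ)) 1
  have hW : ∀ i, i < 4 → HasSum (fun l => up d k l * wS d lam n (W j) i l)
      (∑' l, up d k l * wS d lam n (W j) i l) := fun i hi =>
    hasSum_up hd k hk _ (fun l => S.wS_abs n j i l hj hi)
  have hD : HasSum (fun l => up d k l * dW k (fun i => wS d lam n (W j) i l))
      (∑' l, up d k l * dW k (fun i => wS d lam n (W j) i l)) := by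
    have := ((((hW 0 (by norm_num)).mul_left c0).add ((hW 1 (by norm_num)).mul_left c1)).add
      ((hW 2 (by norm_num)).mul_left c2)).add ((hW 3 (by norm_num)).mul_left c3)
    exact (hs_congr this (fun l => by rw [hc]; ring)).summable.hasSum
  have h1 := hasSum_up hd k hk (fun l => wS d lam n (W j) k (l + 1))
    (fun l => S.wS_abs n j k (l + 1) hj hk)
  have g0 := hasSum_up hd k hk (fun l => wS d lam n (h 0) k l)
    (fun l => S.hS_abs n 0 k l (by norm_num) hk)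
  have g1 := hasSum_up hd k hk (fun l => wS d lam n (h 1) k l)
    (fun l => S.hS_abs n 1 k l (by norm_num) hk)
  have hL := hD.add ((h1.sub (hW k hk)).mul_left d)
  have hR := ((up_sum hd k hk).mul_right (d * FS (LvG d lam n) (hom (ψ j k)))).add
    (((g0.mul_left p).add (g1.mul_left q)).mul_left d)
  have := hasSum_le (fun l => ?_) hL hR
  · rw [hpq]
    linarith
  · have b := mul_le_mul_of_nonneg_left (S.both n j k l hj hk) (up_nonneg hd k l)
    rw [hpq] at b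
    linarith

theorem SysH.HG_abs (S : SysH d lam κ a b ω B δ Φ W ψ h) (n i : ℕ) (hi : i < 2) :
    |HG d lam h n i| ≤ 4 * d * B := by
  have hd := S.hd.le
  have key : ∀ k, k < 4 → |d * ∑' l, up d k l * wS d lam n (h i) k l| ≤ d * B := fun k hk => by
    rw [abs_mul, abs_of_nonneg hd]
    exact mul_le_mul_of_nonneg_left (abs_up hd S.Bnn k hk _ (fun l => S.hS_abs n i k l hi hk)) hd
  have k0 := abs_le.1 (key 0 (by norm_num))
  have k1 := abs_le.1 (key 1 (by norm_num))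
  have k2 := abs_le.1 (key 2 (by norm_num))
  have k3 := abs_le.1 (key 3 (by norm_num))
  unfold HG
  rw [abs_le]
  constructor <;> linarith [k0.1, k0.2, k1.1, k1.2, k2.1, k2.2, k3.1, k3.2]

theorem SysH.level (S : SysH d lam κ a b ω B δ Φ W ψ h) (n j : ℕ) (hj : j < 3) :
    FS (LvG d lam (n + 1)) (hom (W j 3)) ≤ FS (LvG d lam n) (hom (W j 3)) - δ j
      + balH κ (1 / d * a) (1 / d * b) ω j (FS (LvG d lam n) (hom Φ)) 1 (HG d lam h n 0)
        (HG d lam h n 1) := by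
  have hd := S.hd.le
  have hg : ∀ g, Hg (hom g) := fun g t a b c => hom_smul g t a b c
  have e1 := (LG_succ hd S.lam1 S.lam0 n (S.bddW j 3 hj (by norm_num)) (hg _)).tsum_eq
  have tel := telescope hd (wS d lam n (W j)) (fun k l hk => S.wS_abs n j k l hj hk)
  have s0 := S.sum n j 0 hj (by norm_num)
  have s1 := S.sum n j 1 hj (by norm_num)
  have s2 := S.sum n j 2 hj (by norm_num)
  have s3 := S.sum n j 3 hj (by norm_num)
  have hf := S.fam n
  have b0 := S.bddψ j 0 hj (by norm_num)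
  have b1 := S.bddψ j 1 hj (by norm_num)
  have b2 := S.bddψ j 2 hj (by norm_num)
  have b3 := S.bddψ j 3 hj (by norm_num)
  have bL := ((((b0.add b1).add b2).add b3).smul (d / 4)).add (Bd_ms.smul (W j 0 0 0 + δ j))
  have fin := hf.le bL (S.bddW j 3 hj (by norm_num)) (fun a0 a1 a2 h0 h1 h2 => by
    have := S.final j hj a0 a1 a2 h0 h1 h2
    linarith)
  rw [hf.add ((((b0.add b1).add b2).add b3).smul (d / 4)) (Bd_ms.smul _), FS_smul, FS_smul,
    hf.add ((b0.add b1).add b2) b3, hf.add (b0.add b1) b2, hf.add b0 b1, hf.fs_ms] at fin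
  have w0 : wS d lam n (W j) 0 0 = W j 0 0 0 := by
    unfold wS
    rw [SG_zero, hom_triv]
  have hb : balH κ (1 / d * a) (1 / d * b) ω j (FS (LvG d lam n) (hom Φ)) 1 (HG d lam h n 0)
        (HG d lam h n 1)
      = balH κ (1 / d * a) (1 / d * b) ω j (FS (LvG d lam n) (hom Φ)) 1
        (d * ∑' l, up d 0 l * wS d lam n (h 0) 0 l) (d * ∑' l, up d 0 l * wS d lam n (h 1) 0 l)
      + balH κ (1 / d * a) (1 / d * b) ω j (FS (LvG d lam n) (hom Φ)) 1
        (d * ∑' l, up d 1 l * wS d lam n (h 0) 1 l) (d * ∑' l, up d 1 l * wS d lam n (h 1) 1 l)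
      + (balH κ (1 / d * a) (1 / d * b) ω j (FS (LvG d lam n) (hom Φ)) 1
        (d * ∑' l, up d 2 l * wS d lam n (h 0) 2 l) (d * ∑' l, up d 2 l * wS d lam n (h 1) 2 l)
      + balH κ (1 / d * a) (1 / d * b) ω j (FS (LvG d lam n) (hom Φ)) 1
        (d * ∑' l, up d 3 l * wS d lam n (h 0) 3 l)
        (d * ∑' l, up d 3 l * wS d lam n (h 1) 3 l)) := by
    obtain ⟨p, q, hpq⟩ := balH_lin κ (1 / d * a) (1 / d * b) ω j (FS (LvG d lam n) (hom Φ)) 1
    simp only [hpq, HG]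
    ring
  rw [hb, ← e1]
  have e2 : (∑' l, pois d l * SG lam (LvG d lam n) l (hom (W j 3)))
      = ∑' l, pois d l * wS d lam n (W j) 3 l := rfl
  rw [e2]
  rw [w0] at tel
  linarith

/-- the limit of the statistic is not in the range of the system -/
theorem SysH.no_limit (S : SysH d lam κ a b ω B δ Φ W ψ h) (L θ : ℝ)
    (hL : Filter.Tendsto (fun n => FS (LvG d lam n) (hom Φ)) Filter.atTop (nhds L))
    (h0 : 0 ≤ θ) (h1 : θ ≤ 1)
    (hθ : (1 - θ) * (κ * L - 1 / d * a) + θ * (ω * κ * L - 1 / d * b) = 0)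
    (hδ : 0 < (1 - θ) ^ 2 * δ 0 + 2 * θ * (1 - θ) * δ 1 + θ ^ 2 * δ 2) : False := by
  have hd := S.hd
  set X := fun n => FS (LvG d lam n) (hom Φ) with hX
  set V := fun (j n : ℕ) => FS (LvG d lam n) (hom (W j 3)) with hV
  have hV' : ∀ j, j < 3 → ∀ n, |V j n| ≤ B := fun j hj n =>
    (S.fam n).abs (S.bddW j 3 hj (by norm_num))
  have hH : ∀ i, i < 2 → ∀ n, |HG d lam h n i| ≤ 4 * d * B := fun i hi n => S.HG_abs n i hi
  have lv := fun (j : ℕ) (hj : j < 3) (n : ℕ) => S.level n j hj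
  have p0 : 0 ≤ (1 - θ) ^ 2 := by positivity
  have p1 : 0 ≤ 2 * θ * (1 - θ) := mul_nonneg (by positivity) (by linarith)
  have p2 : 0 ≤ θ ^ 2 := by positivity
  have hs : (1 - θ) ^ 2 + 2 * θ * (1 - θ) + θ ^ 2 = 1 := by ring
  refine no_drop (fun n => (1 - θ) ^ 2 * V 0 n + 2 * θ * (1 - θ) * V 1 n + θ ^ 2 * V 2 n)
    (fun n => ((1 - θ) * κ + θ * (ω * κ)) * (X n - L)
      * ((1 - θ) * HG d lam h n 0 + θ * HG d lam h n 1)) _ B hδ ?_ ?_ ?_
  · intro n
    have a0 := abs_le.1 (hV' 0 (by norm_num) n)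
    have a1 := abs_le.1 (hV' 1 (by norm_num) n)
    have a2 := abs_le.1 (hV' 2 (by norm_num) n)
    rw [abs_le]
    constructor
    · have e : -B = (1 - θ) ^ 2 * -B + 2 * θ * (1 - θ) * -B + θ ^ 2 * -B := by
        linear_combination B * hs
      rw [e]
      have m0 := mul_le_mul_of_nonneg_left a0.1 p0
      have m1 := mul_le_mul_of_nonneg_left a1.1 p1
      have m2 := mul_le_mul_of_nonneg_left a2.1 p2
      linarith
    · have e : B = (1 - θ) ^ 2 * B + 2 * θ * (1 - θ) * B + θ ^ 2 * B := by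
        linear_combination -B * hs
      have m0 := mul_le_mul_of_nonneg_left a0.2 p0
      have m1 := mul_le_mul_of_nonneg_left a1.2 p1
      have m2 := mul_le_mul_of_nonneg_left a2.2 p2
      linarith
  · set c := (1 - θ) * κ + θ * (ω * κ) with hc
    have t1 : Filter.Tendsto (fun n => c * (X n - L)) Filter.atTop (nhds 0) := by
      have := (hL.sub_const L).const_mul c
      simpa using this
    refine squeeze_zero_norm (a := fun n => |c * (X n - L)| * (4 * d * B)) ?_ ?_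
    · intro n
      rw [Real.norm_eq_abs, abs_mul]
      refine mul_le_mul_of_nonneg_left ?_ (abs_nonneg _)
      have b0 := abs_le.1 (hH 0 (by norm_num) n)
      have b1 := abs_le.1 (hH 1 (by norm_num) n)
      have q0 : 0 ≤ 1 - θ := by linarith
      rw [abs_le]
      constructor
      · have := mul_le_mul_of_nonneg_left b0.1 q0
        have := mul_le_mul_of_nonneg_left b1.1 h0
        nlinarith
      · have := mul_le_mul_of_nonneg_left b0.2 q0
        have := mul_le_mul_of_nonneg_left b1.2 h0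
        nlinarith
    · have := t1.abs.mul_const (4 * d * B)
      simpa using this
  · intro n
    have l0 := mul_le_mul_of_nonneg_left (lv 0 (by norm_num) n) p0
    have l1 := mul_le_mul_of_nonneg_left (lv 1 (by norm_num) n) p1
    have l2 := mul_le_mul_of_nonneg_left (lv 2 (by norm_num) n) p2
    simp only [balH] at l0 l1 l2
    have key : ((1 - θ) * κ + θ * (ω * κ)) * (X n - L)
        = (1 - θ) * (κ * X n - 1 / d * a) + θ * (ω * κ * X n - 1 / d * b) := by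
      linear_combination -hθ
    change (1 - θ) ^ 2 * V 0 (n + 1) + 2 * θ * (1 - θ) * V 1 (n + 1) + θ ^ 2 * V 2 (n + 1) ≤ _
    beta_reduce
    rw [key]
    simp only [hV, hX]
    nlinarith [l0, l1, l2]

end

end Vale.Agent.P154
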