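import Vale.Agent.P154.Sound

/-! Subdivision trees for the packed check. -/

namespace Vale.Agent.P154

/-- a box with rational sides `[l/m, h/m]` -/
structure Bx where
  l0 : ℕ
  h0 : ℕ
  m0 : ℕ
  l1 : ℕ
  h1 : ℕ
  m1 : ℕ
  l2 : ℕ
  h2 : ℕ
  m2 : ℕ
  l3 : ℕ
  h3 : ℕ
  m3 : ℕ

def unitBx : Bx := ⟨0, 1, 1, 0, 1, 1, 0, 1, 1, 0, 1, 1⟩

/-- subdivision tree; leaves carry the block size and the degree bounds -/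
inductive Tree : Type
  | leaf : ℕ → ℕ → ℕ → ℕ → ℕ → Tree
  | s0 : Tree → Tree → Tree
  | s1 : Tree → Tree → Tree
  | s2 : Tree → Tree → Tree
  | s3 : Tree → Tree → Tree

noncomputable def leafOK (dd sm s1 s2 : ℕ) (e : PE) (b N0 N1 N2 N3 : ℕ) (B : Bx) : Bool :=
  Nat.blt 0 b && (Nat.blt 0 sm && (Nat.blt 0 B.m0 && (Nat.blt 0 B.m1 && (Nat.blt 0 B.m2 &&
  (Nat.blt 0 B.m3 && (Nat.blt B.l0 B.h0 && (Nat.blt B.l1 B.h1 && (Nat.blt B.l2 B.h2 &&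
  (Nat.blt B.l3 B.h3 &&
  finalOK b N0 N1 N2 N3 sm s1 s2 (e.pack (mkCfg dd b N0 N1 N2 B.l0 B.h0 B.m0 B.l1 B.h1 B.m1
    B.l2 B.h2 B.m2 B.l3 B.h3 B.m3)))))))))))

noncomputable def Tree.ok (dd sm s1 s2 : ℕ) (e : PE) (t : Tree) : Bx → Bool :=
  Tree.rec (motive := fun _ => Bx → Bool)
    (fun b N0 N1 N2 N3 B => leafOK dd sm s1 s2 e b N0 N1 N2 N3 B)
    (fun _ _ f g B => f ⟨2 * B.l0, B.l0 + B.h0, 2 * B.m0, B.l1, B.h1, B.m1, B.l2, B.h2, B.m2,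
        B.l3, B.h3, B.m3⟩ &&
      g ⟨B.l0 + B.h0, 2 * B.h0, 2 * B.m0, B.l1, B.h1, B.m1, B.l2, B.h2, B.m2,
        B.l3, B.h3, B.m3⟩)
    (fun _ _ f g B => f ⟨B.l0, B.h0, B.m0, 2 * B.l1, B.l1 + B.h1, 2 * B.m1, B.l2, B.h2, B.m2,
        B.l3, B.h3, B.m3⟩ &&
      g ⟨B.l0, B.h0, B.m0, B.l1 + B.h1, 2 * B.h1, 2 * B.m1, B.l2, B.h2, B.m2,
        B.l3, B.h3, B.m3⟩)
    (fun _ _ f g B => f ⟨B.l0, B.h0, B.m0, B.l1, B.h1, B.m1, 2 * B.l2, B.l2 + B.h2, 2 * B.m2,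
        B.l3, B.h3, B.m3⟩ &&
      g ⟨B.l0, B.h0, B.m0, B.l1, B.h1, B.m1, B.l2 + B.h2, 2 * B.h2, 2 * B.m2,
        B.l3, B.h3, B.m3⟩)
    (fun _ _ f g B => f ⟨B.l0, B.h0, B.m0, B.l1, B.h1, B.m1, B.l2, B.h2, B.m2,
        2 * B.l3, B.l3 + B.h3, 2 * B.m3⟩ &&
      g ⟨B.l0, B.h0, B.m0, B.l1, B.h1, B.m1, B.l2, B.h2, B.m2,
        B.l3 + B.h3, 2 * B.h3, 2 * B.m3⟩) t

theorem Tree.sound (dd sm s1 s2 : ℕ) (e : PE) (s : ℝ) (hs : s ^ 2 = (dd : ℝ))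
    (hs1 : (s1 : ℝ) ≤ sm * s) (hs2 : sm * s ≤ (s2 : ℝ)) (t : Tree) :
    ∀ B : Bx, t.ok dd sm s1 s2 e B = true → ∀ a0 a1 a2 a3 : ℝ,
      (B.l0 : ℝ) ≤ B.m0 * a0 → B.m0 * a0 ≤ (B.h0 : ℝ) →
      (B.l1 : ℝ) ≤ B.m1 * a1 → B.m1 * a1 ≤ (B.h1 : ℝ) →
      (B.l2 : ℝ) ≤ B.m2 * a2 → B.m2 * a2 ≤ (B.h2 : ℝ) →
      (B.l3 : ℝ) ≤ B.m3 * a3 → B.m3 * a3 ≤ (B.h3 : ℝ) → 0 ≤ e.real s (env a0 a1 a2 a3) := by
  induction t with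
  | leaf b N0 N1 N2 N3 =>
    intro B h a0 a1 a2 a3 c0 d0 c1 d1 c2 d2 c3 d3
    have h : leafOK dd sm s1 s2 e b N0 N1 N2 N3 B = true := h
    simp only [leafOK, Bool.and_eq_true, Nat.blt_eq] at h
    obtain ⟨k1, k2, k3, k4, k5, k6, k7, k8, k9, k10, k11⟩ := h
    exact check_sound dd b N0 N1 N2 N3 sm s1 s2 _ _ _ _ _ _ _ _ _ _ _ _ e k1 k3 k4 k5 k6 k2
      k11 k7 k8 k9 k10 s hs hs1 hs2 a0 a1 a2 a3 c0 d0 c1 d1 c2 d2 c3 d3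
  | s0 t1 t2 ih1 ih2 =>
    intro B h a0 a1 a2 a3 c0 d0 c1 d1 c2 d2 c3 d3
    have h := h
    change (_ && _) = true at h
    rw [Bool.and_eq_true] at h
    rcases le_total (2 * (B.m0 * a0)) ((B.l0 : ℝ) + B.h0) with hle | hle
    · refine ih1 _ h.1 a0 a1 a2 a3 ?_ ?_ c1 d1 c2 d2 c3 d3 <;> push_cast <;> linarith
    · refine ih2 _ h.2 a0 a1 a2 a3 ?_ ?_ c1 d1 c2 d2 c3 d3 <;> push_cast <;> linarith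
  | s1 t1 t2 ih1 ih2 =>
    intro B h a0 a1 a2 a3 c0 d0 c1 d1 c2 d2 c3 d3
    have h := h
    change (_ && _) = true at h
    rw [Bool.and_eq_true] at h
    rcases le_total (2 * (B.m1 * a1)) ((B.l1 : ℝ) + B.h1) with hle | hle
    · refine ih1 _ h.1 a0 a1 a2 a3 c0 d0 ?_ ?_ c2 d2 c3 d3 <;> push_cast <;> linarith
    · refine ih2 _ h.2 a0 a1 a2 a3 c0 d0 ?_ ?_ c2 d2 c3 d3 <;> push_cast <;> linarith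
  | s2 t1 t2 ih1 ih2 =>
    intro B h a0 a1 a2 a3 c0 d0 c1 d1 c2 d2 c3 d3
    have h := h
    change (_ && _) = true at h
    rw [Bool.and_eq_true] at h
    rcases le_total (2 * (B.m2 * a2)) ((B.l2 : ℝ) + B.h2) with hle | hle
    · refine ih1 _ h.1 a0 a1 a2 a3 c0 d0 c1 d1 ?_ ?_ c3 d3 <;> push_cast <;> linarith
    · refine ih2 _ h.2 a0 a1 a2 a3 c0 d0 c1 d1 ?_ ?_ c3 d3 <;> push_cast <;> linarith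
  | s3 t1 t2 ih1 ih2 =>
    intro B h a0 a1 a2 a3 c0 d0 c1 d1 c2 d2 c3 d3
    have h := h
    change (_ && _) = true at h
    rw [Bool.and_eq_true] at h
    rcases le_total (2 * (B.m3 * a3)) ((B.l3 : ℝ) + B.h3) with hle | hle
    · refine ih1 _ h.1 a0 a1 a2 a3 c0 d0 c1 d1 c2 d2 ?_ ?_ <;> push_cast <;> linarith
    · refine ih2 _ h.2 a0 a1 a2 a3 c0 d0 c1 d1 c2 d2 ?_ ?_ <;> push_cast <;> linarith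

theorem Tree.ok_s0 {dd sm s1 s2 : ℕ} {e : PE} {t1 t2 : Tree} {B : Bx}
    (h1 : t1.ok dd sm s1 s2 e ⟨2 * B.l0, B.l0 + B.h0, 2 * B.m0, B.l1, B.h1, B.m1, B.l2, B.h2,
      B.m2, B.l3, B.h3, B.m3⟩ = true)
    (h2 : t2.ok dd sm s1 s2 e ⟨B.l0 + B.h0, 2 * B.h0, 2 * B.m0, B.l1, B.h1, B.m1, B.l2, B.h2,
      B.m2, B.l3, B.h3, B.m3⟩ = true) : (Tree.s0 t1 t2).ok dd sm s1 s2 e B = true := by
  change (_ && _) = true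
  rw [Bool.and_eq_true]
  exact ⟨h1, h2⟩

theorem Tree.ok_s1 {dd sm s1 s2 : ℕ} {e : PE} {t1 t2 : Tree} {B : Bx}
    (h1 : t1.ok dd sm s1 s2 e ⟨B.l0, B.h0, B.m0, 2 * B.l1, B.l1 + B.h1, 2 * B.m1, B.l2, B.h2,
      B.m2, B.l3, B.h3, B.m3⟩ = true)
    (h2 : t2.ok dd sm s1 s2 e ⟨B.l0, B.h0, B.m0, B.l1 + B.h1, 2 * B.h1, 2 * B.m1, B.l2, B.h2,
      B.m2, B.l3, B.h3, B.m3⟩ = true) : (Tree.s1 t1 t2).ok dd sm s1 s2 e B = true := by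
  change (_ && _) = true
  rw [Bool.and_eq_true]
  exact ⟨h1, h2⟩

theorem Tree.ok_s2 {dd sm s1 s2 : ℕ} {e : PE} {t1 t2 : Tree} {B : Bx}
    (h1 : t1.ok dd sm s1 s2 e ⟨B.l0, B.h0, B.m0, B.l1, B.h1, B.m1, 2 * B.l2, B.l2 + B.h2,
      2 * B.m2, B.l3, B.h3, B.m3⟩ = true)
    (h2 : t2.ok dd sm s1 s2 e ⟨B.l0, B.h0, B.m0, B.l1, B.h1, B.m1, B.l2 + B.h2, 2 * B.h2,
      2 * B.m2, B.l3, B.h3, B.m3⟩ = true) : (Tree.s2 t1 t2).ok dd sm s1 s2 e B = true := by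
  change (_ && _) = true
  rw [Bool.and_eq_true]
  exact ⟨h1, h2⟩

theorem Tree.ok_s3 {dd sm s1 s2 : ℕ} {e : PE} {t1 t2 : Tree} {B : Bx}
    (h1 : t1.ok dd sm s1 s2 e ⟨B.l0, B.h0, B.m0, B.l1, B.h1, B.m1, B.l2, B.h2, B.m2,
      2 * B.l3, B.l3 + B.h3, 2 * B.m3⟩ = true)
    (h2 : t2.ok dd sm s1 s2 e ⟨B.l0, B.h0, B.m0, B.l1, B.h1, B.m1, B.l2, B.h2, B.m2,
      B.l3 + B.h3, 2 * B.h3, 2 * B.m3⟩ = true) : (Tree.s3 t1 t2).ok dd sm s1 s2 e B = true := by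
  change (_ && _) = true
  rw [Bool.and_eq_true]
  exact ⟨h1, h2⟩

/-- the check on the unit box -/
theorem unit_sound (dd sm s1 s2 : ℕ) (e : PE) (t : Tree)
    (h : t.ok dd sm s1 s2 e unitBx = true) (s : ℝ) (hs : s ^ 2 = (dd : ℝ))
    (hs1 : (s1 : ℝ) ≤ sm * s) (hs2 : sm * s ≤ (s2 : ℝ)) (a0 a1 a2 a3 : ℝ)
    (c0 : 0 ≤ a0) (d0 : a0 ≤ 1) (c1 : 0 ≤ a1) (d1 : a1 ≤ 1) (c2 : 0 ≤ a2) (d2 : a2 ≤ 1)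
    (c3 : 0 ≤ a3) (d3 : a3 ≤ 1) : 0 ≤ e.real s (env a0 a1 a2 a3) := by
  refine Tree.sound dd sm s1 s2 e s hs hs1 hs2 t unitBx h a0 a1 a2 a3 ?_ ?_ ?_ ?_ ?_ ?_ ?_ ?_ <;>
    simp only [unitBx] <;> push_cast <;> linarith

end Vale.Agent.P154
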