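import Vale.Agent.P154.RegPhi

/-! The quantity `a_n` as a sublinear functional: monotonicity and comparison with chi-square. -/

open scoped BigOperators

namespace Vale.Agent.P154

/-- total variation functional -/
noncomputable def tvF (a0 a1 a2 : ℝ) : ℝ :=
  ms a0 a1 a2 * ((|a0 / ms a0 a1 a2 - 1| + |a1 / ms a0 a1 a2 - 1| + |a2 / ms a0 a1 a2 - 1|) / 6)

theorem tvF_eq (a0 a1 a2 : ℝ) (h0 : 0 ≤ a0) (h1 : 0 ≤ a1) (h2 : 0 ≤ a2) :
    tvF a0 a1 a2
      = (|a0 - ms a0 a1 a2| + |a1 - ms a0 a1 a2| + |a2 - ms a0 a1 a2|) / 6 := by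
  rcases (ms_nonneg h0 h1 h2).eq_or_lt with h | h
  · obtain ⟨z0, z1, z2⟩ := ms_zero h0 h1 h2 h.symm
    subst z0; subst z1; subst z2
    unfold tvF
    rw [← h]; simp
  · unfold tvF
    have e : ∀ x : ℝ, |x - ms a0 a1 a2| = ms a0 a1 a2 * |x / ms a0 a1 a2 - 1| := by
      intro x
      have : x - ms a0 a1 a2 = ms a0 a1 a2 * (x / ms a0 a1 a2 - 1) := by field_simp
      rw [this, abs_mul, abs_of_pos h]
    rw [e a0, e a1, e a2]
    ring

theorem Sub_tv : Sub tvF := by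
  refine ⟨?_, ?_, 1, zero_le_one, ?_⟩
  · intro u0 u1 u2 v0 v1 v2 hu0 hu1 hu2 hv0 hv1 hv2
    rw [tvF_eq _ _ _ (add_nonneg hu0 hv0) (add_nonneg hu1 hv1) (add_nonneg hu2 hv2),
      tvF_eq _ _ _ hu0 hu1 hu2, tvF_eq _ _ _ hv0 hv1 hv2]
    have e : ms (u0 + v0) (u1 + v1) (u2 + v2) = ms u0 u1 u2 + ms v0 v1 v2 := by unfold ms; ring
    rw [e]
    have t : ∀ x y m m' : ℝ, |x + y - (m + m')| ≤ |x - m| + |y - m'| := by
      intro x y m m'
      have : x + y - (m + m') = (x - m) + (y - m') := by ring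
      rw [this]
      exact abs_add_le _ _
    have t0 := t u0 v0 (ms u0 u1 u2) (ms v0 v1 v2)
    have t1 := t u1 v1 (ms u0 u1 u2) (ms v0 v1 v2)
    have t2 := t u2 v2 (ms u0 u1 u2) (ms v0 v1 v2)
    linarith
  · intro t a0 a1 a2
    unfold tvF
    rw [ms_smul]
    rcases eq_or_ne t 0 with h | h
    · rw [h]; ring
    · rw [mul_div_mul_left _ _ h, mul_div_mul_left _ _ h, mul_div_mul_left _ _ h]
      ring
  · intro a0 a1 a2 h0 h1 h2
    rw [tvF_eq _ _ _ h0 h1 h2]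
    have hm := ms_nonneg h0 h1 h2
    have t : ∀ x : ℝ, 0 ≤ x → |x - ms a0 a1 a2| ≤ x + ms a0 a1 a2 := by
      intro x hx
      rw [abs_le]
      constructor <;> linarith
    have t0 := t a0 h0
    have t1 := t a1 h1
    have t2 := t a2 h2
    have e : a0 + a1 + a2 = 3 * ms a0 a1 a2 := by unfold ms; ring
    rw [abs_of_nonneg (by positivity)]
    linarith

/-- chi-square is at most twice the total variation -/
theorem chi_le_tv (a0 a1 a2 : ℝ) (h0 : 0 ≤ a0) (h1 : 0 ≤ a1) (h2 : 0 ≤ a2) :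
    chi a0 a1 a2 ≤ 2 * tvF a0 a1 a2 := by
  rcases (ms_nonneg h0 h1 h2).eq_or_lt with h | h
  · obtain ⟨z0, z1, z2⟩ := ms_zero h0 h1 h2 h.symm
    subst z0; subst z1; subst z2
    rw [chi_zero]
    have : tvF 0 0 0 = 0 := by unfold tvF; rw [← h]; ring
    rw [this]; norm_num
  · rw [tvF_eq _ _ _ h0 h1 h2]
    have e : chi a0 a1 a2 = ((a0 - ms a0 a1 a2) ^ 2 + (a1 - ms a0 a1 a2) ^ 2
        + (a2 - ms a0 a1 a2) ^ 2) / (6 * ms a0 a1 a2) := by
      rw [eq_div_iff (by positivity)]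
      unfold chi
      have : (ms a0 a1 a2 - (a0 * a1 + a0 * a2 + a1 * a2) / 3 / ms a0 a1 a2) * (6 * ms a0 a1 a2)
        = 6 * ms a0 a1 a2 ^ 2 - 2 * (a0 * a1 + a0 * a2 + a1 * a2) := by
        field_simp
        ring
      rw [this]
      unfold ms
      ring
    have s : a0 + a1 + a2 = 3 * ms a0 a1 a2 := by unfold ms; ring
    have t : ∀ x : ℝ, 0 ≤ x → x ≤ 3 * ms a0 a1 a2 → (x - ms a0 a1 a2) ^ 2
        ≤ 2 * ms a0 a1 a2 * |x - ms a0 a1 a2| := by
      intro x hx hx2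
      have ha : |x - ms a0 a1 a2| ≤ 2 * ms a0 a1 a2 := by
        rw [abs_le]; constructor <;> linarith
      rw [← sq_abs, sq]
      exact mul_le_mul_of_nonneg_right ha (abs_nonneg _)
    have t0 := t a0 h0 (by linarith)
    have t1 := t a1 h1 (by linarith)
    have t2 := t a2 h2 (by linarith)
    rw [e, div_le_iff₀ (by positivity)]
    nlinarith

/-- one term of `a_n` -/
theorem tv_cell (a0 a1 a2 : ℝ) :
    ms a0 a1 a2 * (1 / 2 * (|1 / 3 * a0 / ms a0 a1 a2 - 1 / 3| + |1 / 3 * a1 / ms a0 a1 a2 - 1 / 3|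
      + |1 / 3 * a2 / ms a0 a1 a2 - 1 / 3|)) = tvF a0 a1 a2 := by
  unfold tvF
  have e : ∀ x : ℝ, |1 / 3 * x / ms a0 a1 a2 - 1 / 3| = 1 / 3 * |x / ms a0 a1 a2 - 1| := by
    intro x
    have : 1 / 3 * x / ms a0 a1 a2 - 1 / 3 = 1 / 3 * (x / ms a0 a1 a2 - 1) := by ring
    rw [this, abs_mul, abs_of_pos (by norm_num)]
  rw [e, e, e]
  ring

section
variable {d : ℕ} {lam : ℝ}

theorem aSeq_eq (n : ℕ) :
    aSeq 3 d lam n = Lf d lam n tvF := by
  unfold aSeq Lf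
  refine Finset.sum_congr rfl fun c _ => ?_
  have hm : marg 3 d lam n c = ms (Lv d lam n c 0) (Lv d lam n c 1) (Lv d lam n c 2) := by
    unfold marg joint ms Lv
    rw [Fin.sum_univ_three]
    push_cast
    ring
  have hj : ∀ i, joint 3 d lam n i c = 1 / 3 * Lv d lam n c i := by
    intro i; unfold joint Lv; push_cast; ring
  have := tv_cell (Lv d lam n c 0) (Lv d lam n c 1) (Lv d lam n c 2)
  unfold at3 post
  rw [← this, Fin.sum_univ_three, hm, hj, hj, hj]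
  push_cast
  rfl

theorem aSeq_anti (h1 : lam ≤ 1) (h0 : -(1 / 2) ≤ lam) : Antitone (fun n => aSeq 3 d lam n) :=
  antitone_nat_of_succ_le fun n => by
    rw [aSeq_eq, aSeq_eq]
    exact reg_mono h1 h0 n tvF Sub_tv

theorem chi_le_aSeq (h1 : lam ≤ 1) (h0 : -(1 / 2) ≤ lam) (n : ℕ) :
    Lf d lam n chi ≤ 2 * aSeq 3 d lam n := by
  rw [aSeq_eq]
  unfold Lf
  rw [Finset.mul_sum]
  exact Finset.sum_le_sum fun c _ => chi_le_tv _ _ _ (Lv_nonneg h1 h0 n c 0)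
    (Lv_nonneg h1 h0 n c 1) (Lv_nonneg h1 h0 n c 2)

end

section
variable {d lam : ℝ}

theorem aSeqG_eq (n : ℕ) :
    aSeqG 3 d lam n = FS (LvG d lam n) tvF := by
  unfold aSeqG FS
  refine tsum_congr fun c => ?_
  have hm : margG 3 d lam n c = ms (LvG d lam n c 0) (LvG d lam n c 1) (LvG d lam n c 2) := by
    unfold margG jointG ms LvG
    rw [Fin.sum_univ_three]
    push_cast
    ring
  have hj : ∀ i, jointG 3 d lam n i c = 1 / 3 * LvG d lam n c i := by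
    intro i; unfold jointG LvG; push_cast; ring
  have := tv_cell (LvG d lam n c 0) (LvG d lam n c 1) (LvG d lam n c 2)
  unfold at3 postG
  rw [← this, Fin.sum_univ_three, hm, hj, hj, hj]
  push_cast
  rfl

theorem aSeqG_anti (hd : 0 ≤ d) (h1 : lam ≤ 1) (h0 : -(1 / 2) ≤ lam) :
    Antitone (fun n => aSeqG 3 d lam n) :=
  antitone_nat_of_succ_le fun n => by
    rw [aSeqG_eq, aSeqG_eq]
    exact mono_level hd h1 h0 n tvF Sub_tv

theorem chi_le_aSeqG (hd : 0 ≤ d) (h1 : lam ≤ 1) (h0 : -(1 / 2) ≤ lam) (n : ℕ) :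
    FS (LvG d lam n) chi ≤ 2 * aSeqG 3 d lam n := by
  have hf := famG hd h1 h0 n
  obtain ⟨B, _, hb⟩ := Sub_tv.bd
  rw [aSeqG_eq]
  exact hasSum_le (fun c => chi_le_tv _ _ _ (hf.nn c 0) (hf.nn c 1) (hf.nn c 2))
    (hf.hasSum Bd_chi) ((hf.hasSum hb).mul_left 2)

end

/-- a nonincreasing sequence bounded below by a positive constant has a positive limit -/
theorem pos_limit (a : ℕ → ℝ) (ha : Antitone a) (c : ℝ) (hc : 0 < c) (h : ∀ n, c ≤ a n) :
    ∃ L, 0 < L ∧ Filter.Tendsto a Filter.atTop (nhds L) := by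
  have hb : BddBelow (Set.range a) := ⟨c, by rintro x ⟨n, rfl⟩; exact h n⟩
  exact ⟨_, lt_of_lt_of_le hc (le_ciInf h), tendsto_atTop_ciInf ha hb⟩

end Vale.Agent.P154
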